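import Crest.Agent.R237.ADefs

set_option autoImplicit false
open scoped BigOperators Matrix
open Crest.GeometryTopology

noncomputable section
namespace Crest.Agent.R237

/-! # A0: algebra of `Qm`, `Qf`, `p6` (all by `ext`/`fin_cases`/`simp [..., Fin.sum_univ_succ]`/`ring`) -/

section Ring
variable {R : Type} [CommRing R]

theorem Qm_symm (y : Fin 3 → R) (j k : Fin 8) : Qm y j k = Qm y k j := by
  simp only [Qm, Matrix.of_apply, eq_comm (a := j), mul_comm (J y _ j)]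

/-- the four vectors `J y a` are orthogonal of square length `Ny y` -/
theorem J_dot (y : Fin 3 → R) (a b : Fin 4) : J y a ⬝ᵥ J y b = if a = b then Ny y else 0 := by
  fin_cases a <;> fin_cases b <;> simp [J, Ny, dotProduct, Fin.sum_univ_succ] <;> ring

theorem a0_Qm (y : Fin 3 → R) :
    Qm y = Ny y • (1 : Matrix (Fin 8) (Fin 8) R) - ∑ a, Matrix.vecMulVec (J y a) (J y a) := by
  ext j k
  simp [Qm, Matrix.one_apply, Matrix.sum_apply, Matrix.vecMulVec_apply]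

theorem a0_mulVec (y : Fin 3 → R) (c : Fin 8 → R) :
    Qm y *ᵥ c = Ny y • c - ∑ a, (J y a ⬝ᵥ c) • J y a := by
  rw [a0_Qm, Matrix.sub_mulVec, Matrix.smul_mulVec, Matrix.one_mulVec, Matrix.sum_mulVec]
  simp only [Matrix.vecMulVec_mulVec, op_smul_eq_smul]

theorem Qm_mulVec_J (y : Fin 3 → R) (a : Fin 4) : Qm y *ᵥ J y a = 0 := by
  rw [a0_mulVec]
  simp [J_dot]

theorem Qm_mul_Qm (y : Fin 3 → R) : Qm y * Qm y = Ny y • Qm y := by
  conv_lhs => rw [a0_Qm y, ← a0_Qm y]; arg 2; rw [a0_Qm y]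
  rw [Matrix.mul_sub, Matrix.mul_smul, Matrix.mul_one, Matrix.mul_sum]
  simp only [Matrix.mul_vecMulVec, Qm_mulVec_J, Matrix.zero_vecMulVec, Finset.sum_const_zero, sub_zero]

theorem trace_Qm (y : Fin 3 → R) : ∑ j, Qm y j j = 4 * Ny y := by
  have h : ∀ a, ∑ j, J y a j * J y a j = Ny y := fun a => (J_dot y a a).trans (if_pos rfl)
  simp only [Qm, Matrix.of_apply, if_true, Finset.sum_sub_distrib]
  rw [Finset.sum_comm]
  simp only [h]
  simp
  ring

theorem Qf_eq (y : Fin 3 → R) (c : Fin 8 → R) : Qf y c = Ny y * (c ⬝ᵥ c) - ∑ a, (J y a ⬝ᵥ c) ^ 2 := by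
  rw [Qf, a0_mulVec, dotProduct_sub, dotProduct_smul, dotProduct_sum]
  simp only [dotProduct_smul, smul_eq_mul, dotProduct_comm c (J y _), sq]

theorem Qm_dot_Qm (y : Fin 3 → R) (c : Fin 8 → R) :
    (Qm y *ᵥ c) ⬝ᵥ (Qm y *ᵥ c) = Ny y * Qf y c := by
  have h : (Qm y)ᵀ = Qm y := by
    ext j k
    exact Qm_symm y k j
  rw [Matrix.dotProduct_mulVec, ← Matrix.mulVec_transpose, h, Matrix.mulVec_mulVec, Qm_mul_Qm,
    Matrix.smul_mulVec, smul_dotProduct, dotProduct_comm, Qf, smul_eq_mul]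

theorem Qf_smul (y : Fin 3 → R) (s : R) (c : Fin 8 → R) : Qf y (s • c) = s ^ 2 * Qf y c := by
  rw [Qf, Qf, Matrix.mulVec_smul, smul_dotProduct, dotProduct_smul, smul_eq_mul, smul_eq_mul]
  ring

theorem Qf_zero_left (c : Fin 8 → R) : Qf (0 : Fin 3 → R) c = 0 := by
  simp [Qf_eq, Ny, J, dotProduct, Fin.sum_univ_succ]

theorem Qf_neg_left (y : Fin 3 → R) (c : Fin 8 → R) : Qf (-y) c = Qf y c := by
  simp only [Qf_eq, Ny, J, dotProduct, Fin.sum_univ_succ]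
  simp
  ring

/-- `pp` commutes with ring homomorphisms -/
theorem map_pp {S : Type} [CommRing S] (f : R →+* S) (a : ℕ) (x : Fin 23 → R) :
    f (pp a x) = pp a (fun i => f (x i)) := by
  simp [pp, p6, Qf_eq, Ny, J, dotProduct, Fin.sum_univ_succ, uu, vv, yy, map_ofNat]

theorem pp_neg (a : ℕ) (x : Fin 23 → R) : pp a (-x) = pp a x := by
  have h : (-x) 0 • vv (-x) - (-x) 1 • uu (-x) = x 0 • vv x - x 1 • uu x := by
    ext i
    simp [uu, vv]
  have h1 : yy (-x) = -yy x := rfl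
  have h2 : uu (-x) = -uu x := rfl
  have h3 : vv (-x) = -vv x := rfl
  rw [pp, pp, p6, p6, h, h1, h2, h3, Qf_neg_left]
  simp only [Ny, Pi.neg_apply, neg_dotProduct_neg, neg_mul_neg, neg_sq]
  ring

theorem pp_eA (a : ℕ) : pp a (eA : Fin 23 → R) = 1 := by
  have h1 : yy (eA : Fin 23 → R) = 0 := by
    ext i
    exact if_neg (by simp only; omega)
  have h2 : uu (eA : Fin 23 → R) = 0 := by
    ext i
    simp [uu, eA]
  have h3 : vv (eA : Fin 23 → R) = 0 := by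
    ext i
    exact if_neg (by simp only; omega)
  rw [pp, p6, h1, h2, h3, Qf_zero_left]
  simp [eA, Ny]

end Ring

theorem Ny_nonneg (y : Fin 3 → ℝ) : 0 ≤ Ny y := by
  unfold Ny
  positivity

theorem Ny_pos (y : Fin 3 → ℝ) (hy : y ≠ 0) : 0 < Ny y := by
  refine (Ny_nonneg y).lt_of_ne fun h => hy ?_
  unfold Ny at h
  have h0 : y 0 = 0 := by nlinarith [sq_nonneg (y 0), sq_nonneg (y 1), sq_nonneg (y 2)]
  have h1 : y 1 = 0 := by nlinarith [sq_nonneg (y 0), sq_nonneg (y 1), sq_nonneg (y 2)]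
  have h2 : y 2 = 0 := by nlinarith [sq_nonneg (y 0), sq_nonneg (y 1), sq_nonneg (y 2)]
  ext i
  fin_cases i
  exacts [h0, h1, h2]

theorem Qf_nonneg (y : Fin 3 → ℝ) (c : Fin 8 → ℝ) : 0 ≤ Qf y c := by
  by_cases hy : y = 0
  · rw [hy, Qf_zero_left]
  · refine (mul_nonneg_iff_of_pos_left (Ny_pos y hy)).1 ?_
    rw [← Qm_dot_Qm]
    exact Finset.sum_nonneg fun i _ => mul_self_nonneg _

theorem Qf_le (y : Fin 3 → ℝ) (c : Fin 8 → ℝ) : Qf y c ≤ Ny y * (c ⬝ᵥ c) := by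
  rw [Qf_eq]
  exact sub_le_self _ (Finset.sum_nonneg fun a _ => sq_nonneg _)

theorem Qc_sum (y : Fin 3 → ℝ) (j k : Fin 8) : ∑ a, ∑ b, Qc a b j k * (y a * y b) = Qm y j k := by
  have h : ∀ e j, J y e j = ∑ a, J (Pi.single a 1) e j * y a := by
    intro e j
    fin_cases e <;> fin_cases j <;> simp [J, Fin.sum_univ_succ]
  simp only [Qc, Qm, Matrix.of_apply, sub_mul, Finset.sum_sub_distrib]
  congr 1
  · by_cases hjk : j = k
    · simp [hjk, gw, Ny, Fin.sum_univ_succ]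
      ring
    · simp [hjk]
  · simp only [h, Finset.sum_mul_sum]
    simp only [Finset.sum_mul]
    symm
    rw [Finset.sum_comm]
    refine Finset.sum_congr rfl fun a _ => ?_
    rw [Finset.sum_comm]
    refine Finset.sum_congr rfl fun b _ => Finset.sum_congr rfl fun e _ => ?_
    ring

/-- `p6 = ρ² σ² (n n' - Q(y; δ))` -/
theorem p6_eq (x : Fin 23 → ℝ) (h0 : x 0 ≠ 0) (h1 : x 1 ≠ 0) :
    p6 x = (x 0 * x 1) ^ 2 * (nn x * nn' x - Qf (yy x) (del x)) := by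
  have h : x 0 • vv x - x 1 • uu x = (x 0 * x 1) • del x := by
    ext i
    simp only [del, Pi.sub_apply, Pi.smul_apply, smul_eq_mul]
    field_simp
  rw [p6, h, Qf_smul, nn, nn']
  field_simp

theorem eval_PA (a : ℕ) (x : Fin 23 → ℝ) : MvPolynomial.eval x (PA a) = pp a x := by
  rw [PA, map_pp]
  simp

theorem aeval_PA (a : ℕ) (x : Fin 23 → ℂ) : MvPolynomial.aeval x (PA a) = pp a x := by
  refine (map_pp (MvPolynomial.aeval x : MvPolynomial (Fin 23) ℝ →ₐ[ℝ] ℂ).toRingHom a _).trans ?_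
  simp

theorem PA_hom (a : ℕ) : (PA a).IsHomogeneous (6 + 2 * a) := by
  have hX : ∀ i : Fin 23, (MvPolynomial.X i : MvPolynomial (Fin 23) ℝ).IsHomogeneous 1 :=
    MvPolynomial.isHomogeneous_X ℝ
  have hn : ∀ n : ℕ, (n : MvPolynomial (Fin 23) ℝ).IsHomogeneous 0 := fun n => by
    simpa using MvPolynomial.isHomogeneous_C (Fin 23) (n : ℝ)
  have hdot : ∀ {m n : ℕ} {u v : Fin 8 → MvPolynomial (Fin 23) ℝ}, (∀ i, (u i).IsHomogeneous m) →
      (∀ i, (v i).IsHomogeneous n) → (u ⬝ᵥ v).IsHomogeneous (m + n) := fun hu hv =>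
    MvPolynomial.IsHomogeneous.sum _ _ _ fun i _ => (hu i).mul (hv i)
  have hy : ∀ i, (yy (MvPolynomial.X : Fin 23 → MvPolynomial (Fin 23) ℝ) i).IsHomogeneous 1 :=
    fun i => hX _
  have hu : ∀ i, (uu (MvPolynomial.X : Fin 23 → MvPolynomial (Fin 23) ℝ) i).IsHomogeneous 1 :=
    fun i => hX _
  have hv : ∀ i, (vv (MvPolynomial.X : Fin 23 → MvPolynomial (Fin 23) ℝ) i).IsHomogeneous 1 :=
    fun i => hX _
  have hN : (Ny (yy (MvPolynomial.X : Fin 23 → MvPolynomial (Fin 23) ℝ))).IsHomogeneous 2 :=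
    (((hy 0).pow 2).add ((hn 2).mul ((hy 1).pow 2))).add ((hy 2).pow 2)
  have hJ : ∀ a i, (J (yy (MvPolynomial.X : Fin 23 → MvPolynomial (Fin 23) ℝ)) a i).IsHomogeneous 1 := by
    intro a i
    fin_cases a <;> fin_cases i <;>
      first | exact hy _ | exact (hy _).neg | exact MvPolynomial.isHomogeneous_zero _ _ _
  have hc : ∀ i, (((MvPolynomial.X 0 : MvPolynomial (Fin 23) ℝ) • vv MvPolynomial.X -
      (MvPolynomial.X 1 : MvPolynomial (Fin 23) ℝ) • uu MvPolynomial.X :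
        Fin 8 → MvPolynomial (Fin 23) ℝ) i).IsHomogeneous 2 :=
    fun i => ((hX 0).mul (hv i)).sub ((hX 1).mul (hu i))
  rw [PA, pp, p6, Qf_eq]
  refine MvPolynomial.IsHomogeneous.mul (MvPolynomial.IsHomogeneous.sub ?_ ?_) (((hX 0).mul (hX 1)).pow a)
  · exact (((hX 1).mul (((hX 0).mul (hX 2)).sub (hdot hu hu))).sub ((hX 0).mul hN)).mul
      (((hX 0).mul (((hX 1).mul (hX 3)).sub (hdot hv hv))).sub (((hn 4).mul (hX 1)).mul hN))
  · exact (hN.mul (hdot hc hc)).sub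
      (MvPolynomial.IsHomogeneous.sum _ _ _ fun a _ => (hdot (hJ a) hc).pow 2)

/-- a point where `Q` is positive -/
theorem exists_Qf_pos : ∃ (y : Fin 3 → ℝ) (c : Fin 8 → ℝ), 0 < Qf y c := by
  refine ⟨![1, 0, 0], ![0, 0, 0, 0, 1, 0, 0, 0], ?_⟩
  simp [Qf_eq, Ny, J, dotProduct, Fin.sum_univ_succ]

end Crest.Agent.R237
end
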