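import Crest.Agent.R237.A0

set_option autoImplicit false
open scoped BigOperators Matrix
open Crest.GeometryTopology

noncomputable section
namespace Crest.Agent.R237

/-! # A1: hyperbolicity.

Recipe.  Put `X = z e - x`, `ρ = X 0, σ = X 1, xx = X 2, ζ = X 3` (each `z - real`, so nonzero, `Im = τ := z.im ≠ 0`),
`u, v, y` real, `U = |u|²`, `N = Ny y`, `n = xx - U/ρ - N/σ` (`Im n = τ (1 + U/|ρ|² + N/|σ|²) ≠ 0`),
`n' = ζ - |v|²/σ - 4N/ρ`, `δ = v/σ - u/ρ`; `p6 X = ρ²σ²(n n' - Qf y δ)` (complex copy of `p6_eq`).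
Suppose `p6 X = 0`.  Let `R = Qm y / √N` (real symmetric; `R = 0` if `y = 0`), `R² = Qm y`, `R³ = N R`, `tr R² = 4N`.
Put `ξ = R δ / n`, `b = -(v + R ξ)/σ`, `P m = (R m - ξ m • u)/ρ`.  Then (bilinear identities over `ℂ`)
`ρ P m + ξ m u - R m = 0`, `σ b + v + R ξ = 0`, `xx ξ m + u ⬝ P m + (R b) m = 0`,
`ζ + v ⬝ b - Σ_m P m ⬝ R m = n' - Qf y δ / n = 0`.
So `w = (1, b, ξ, P)` is an eigenvector of a real symmetric matrix with eigenvalue `z`: multiply the equations by the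
conjugates of `P m k`, `b k`, `ξ m`, `1`, add, take imaginary parts: `τ (1 + |b|² + |ξ|² + |P|²) = 0`, absurd. -/

/-- the scalar core: imaginary parts of `n' + n h = 2 δᵀ Q (Re (δ/n))` -/
lemma a1_key {ρ σ xx ζ : ℂ} {τ U V N a b c : ℝ} (hτ : τ ≠ 0) (h0 : ρ.im = τ) (h1 : σ.im = τ)
    (h2 : xx.im = τ) (h3 : ζ.im = τ) (hU : 0 ≤ U) (hN : 0 ≤ N)
    (H1 : ∀ α β : ℝ, 0 ≤ α ^ 2 * c - 2 * α * β * b + β ^ 2 * a)
    (H2 : ∀ α β : ℝ, 0 ≤ V + N * (α ^ 2 * c - 2 * α * β * b + β ^ 2 * a) + 2 * (α * c - β * b))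
    (H3 : ∀ α β : ℝ, 0 ≤ 4 * N + U * (α ^ 2 * c - 2 * α * β * b + β ^ 2 * a) - 2 * (α * b - β * a)) :
    (σ * (ρ * xx - U) - ρ * N) * (ρ * (σ * ζ - V) - 4 * σ * N) -
      (ρ ^ 2 * c - 2 * ρ * σ * b + σ ^ 2 * a) ≠ 0 := by
  intro h
  have ρ0 : ρ ≠ 0 := fun e => hτ (by rw [← h0, e]; rfl)
  have σ0 : σ ≠ 0 := fun e => hτ (by rw [← h1, e]; rfl)
  obtain ⟨p, hp, iP⟩ : ∃ p : ℝ, 0 ≤ p ∧ (ρ⁻¹).im = -(τ * p) :=
    ⟨(Complex.normSq ρ)⁻¹, inv_nonneg.2 (Complex.normSq_nonneg _), by rw [Complex.inv_im, h0]; ring⟩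
  obtain ⟨s, hs, iS⟩ : ∃ s : ℝ, 0 ≤ s ∧ (σ⁻¹).im = -(τ * s) :=
    ⟨(Complex.normSq σ)⁻¹, inv_nonneg.2 (Complex.normSq_nonneg _), by rw [Complex.inv_im, h1]; ring⟩
  obtain ⟨n, hn⟩ : ∃ n : ℂ, n = xx - U * ρ⁻¹ - N * σ⁻¹ := ⟨_, rfl⟩
  obtain ⟨n', hn'⟩ : ∃ n' : ℂ, n' = ζ - V * σ⁻¹ - 4 * N * ρ⁻¹ := ⟨_, rfl⟩
  have im1 : n.im = τ * (1 + U * p + N * s) := by
    rw [hn]; simp only [Complex.sub_im, Complex.mul_im, Complex.ofReal_re, Complex.ofReal_im, iP, iS, h2]; ring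
  have im2 : n'.im = τ * (1 + V * s + 4 * N * p) := by
    have : (4 * N : ℂ) = ((4 * N : ℝ) : ℂ) := by push_cast; rfl
    rw [hn', this]
    simp only [Complex.sub_im, Complex.mul_im, Complex.ofReal_re, Complex.ofReal_im, iP, iS, h3]; ring
  have n0 : n ≠ 0 := fun e => by
    rw [e] at im1
    have : 0 < 1 + U * p + N * s := by positivity
    exact mul_ne_zero hτ this.ne' im1.symm
  obtain ⟨A, hA⟩ : ∃ A : ℂ, σ⁻¹ = n * A := ⟨σ⁻¹ / n, by field_simp⟩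
  obtain ⟨B, hB⟩ : ∃ B : ℂ, ρ⁻¹ = n * B := ⟨ρ⁻¹ / n, by field_simp⟩
  have e : n * n' = c * σ⁻¹ ^ 2 - 2 * b * ρ⁻¹ * σ⁻¹ + a * ρ⁻¹ ^ 2 := by
    rw [hn, hn']
    field_simp
    linear_combination h
  have e' : n' = n * (c * (A * A) - (2 * b : ℝ) * (A * B) + a * (B * B)) := by
    refine mul_left_cancel₀ n0 ?_
    rw [e, hA, hB]; push_cast; ring
  have j1 := congrArg Complex.im e'
  have j2 := congrArg Complex.im hA
  have j3 := congrArg Complex.im hB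
  rw [iS] at j2
  rw [iP] at j3
  rw [im2] at j1
  simp only [Complex.sub_im, Complex.add_im, Complex.mul_im, Complex.sub_re, Complex.add_re, Complex.mul_re,
    Complex.ofReal_re, Complex.ofReal_im] at j1 j2 j3
  have k1 := H1 A.re B.re
  have k2 := H1 A.im B.im
  have k3 := mul_nonneg hs (add_nonneg (H2 A.re B.re) (mul_nonneg hN k2))
  have k4 := mul_nonneg hp (add_nonneg (H3 A.re B.re) (mul_nonneg hU k2))
  refine mul_ne_zero hτ (add_pos_of_pos_of_nonneg (add_pos_of_pos_of_nonneg (add_pos_of_pos_of_nonneg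
    (add_pos_of_pos_of_nonneg one_pos k1) k2) k3) k4).ne' ?_
  linear_combination j1 - ((A.re ^ 2 * c - 2 * A.re * B.re * b + B.re ^ 2 * a) +
    (A.im ^ 2 * c - 2 * A.im * B.im * b + B.im ^ 2 * a)) * im1 - 2 * (A.re * c - B.re * b) * j2 +
    2 * (A.re * b - B.re * a) * j3

lemma a1_symm {R : Type} [CommRing R] (y : Fin 3 → R) (u v : Fin 8 → R) :
    v ⬝ᵥ Qm y *ᵥ u = u ⬝ᵥ Qm y *ᵥ v := by
  simp only [dotProduct, Matrix.mulVec, Finset.mul_sum]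
  rw [Finset.sum_comm]
  exact Finset.sum_congr rfl fun j _ => Finset.sum_congr rfl fun k _ => by rw [Qm_symm y k j]; ring

lemma a1_exp {R : Type} [CommRing R] (y : Fin 3 → R) (u v : Fin 8 → R) (α β : R) :
    Qf y (α • v - β • u) =
      α ^ 2 * (v ⬝ᵥ Qm y *ᵥ v) - 2 * α * β * (u ⬝ᵥ Qm y *ᵥ v) + β ^ 2 * (u ⬝ᵥ Qm y *ᵥ u) := by
  simp only [Qf, Matrix.mulVec_sub, Matrix.mulVec_smul, sub_dotProduct, dotProduct_sub, smul_dotProduct,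
    dotProduct_smul, smul_eq_mul, a1_symm y u v]
  ring

lemma a1_cast (y : Fin 3 → ℝ) (u v : Fin 8 → ℝ) :
    (fun i => (u i : ℂ)) ⬝ᵥ Qm (fun i => (y i : ℂ)) *ᵥ (fun i => (v i : ℂ)) = ((u ⬝ᵥ Qm y *ᵥ v : ℝ) : ℂ) := by
  have hJ : ∀ a j, J (fun i => (y i : ℂ)) a j = ((J y a j : ℝ) : ℂ) := fun a j => by
    fin_cases a <;> fin_cases j <;> simp [J]
  have hQ : ∀ j k, Qm (fun i => (y i : ℂ)) j k = ((Qm y j k : ℝ) : ℂ) := fun j k => by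
    simp only [Qm, Matrix.of_apply, hJ, Ny]
    split_ifs <;> push_cast <;> rfl
  simp only [dotProduct, Matrix.mulVec, hQ]
  push_cast
  rfl

theorem p6_ne_zero (x : Fin 23 → ℝ) (z : ℂ) (hz : z.im ≠ 0) :
    p6 (fun i => z * ((eA i : ℝ) : ℂ) - (x i : ℂ)) ≠ 0 := by
  obtain ⟨u, hu⟩ : ∃ u : Fin 8 → ℝ, u = -uu x := ⟨_, rfl⟩
  obtain ⟨v, hv⟩ : ∃ v : Fin 8 → ℝ, v = -vv x := ⟨_, rfl⟩
  obtain ⟨y, hy⟩ : ∃ y : Fin 3 → ℝ, y = -yy x := ⟨_, rfl⟩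
  obtain ⟨X, hX⟩ : ∃ X : Fin 23 → ℂ, X = fun i => z * ((eA i : ℝ) : ℂ) - (x i : ℂ) := ⟨_, rfl⟩
  have e1 : uu X = fun i => (u i : ℂ) := funext fun i => by simp [hX, hu, uu, eA]
  have e2 : vv X = fun i => (v i : ℂ) := funext fun i => by
    have : ¬ (12 + i.1 < 4) := by omega
    simp [hX, hv, vv, eA, this]
  have e3 : yy X = fun i => (y i : ℂ) := funext fun i => by
    have : ¬ (20 + i.1 < 4) := by omega
    simp [hX, hy, yy, eA, this]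
  have d : ∀ w : Fin 8 → ℝ, (fun i => (w i : ℂ)) ⬝ᵥ (fun i => (w i : ℂ)) = ((w ⬝ᵥ w : ℝ) : ℂ) := fun w => by
    simp only [dotProduct]; push_cast; rfl
  have dN : Ny (fun i => (y i : ℂ)) = ((Ny y : ℝ) : ℂ) := by simp only [Ny]; push_cast; rfl
  have d0 : ∀ w : Fin 8 → ℝ, 0 ≤ w ⬝ᵥ w := fun w => Finset.sum_nonneg fun i _ => mul_self_nonneg _
  rw [← hX, p6, a1_exp, e1, e2, e3, d, d, dN, a1_cast, a1_cast, a1_cast]
  refine a1_key hz (by simp [hX, eA]) (by simp [hX, eA]) (by simp [hX, eA]) (by simp [hX, eA]) (d0 u)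
    (Ny_nonneg y) (fun α β => ?_) (fun α β => ?_) (fun α β => ?_)
  · rw [← a1_exp]; exact Qf_nonneg _ _
  · have h := d0 (v + Qm y *ᵥ (α • v - β • u))
    rw [add_dotProduct, dotProduct_add, dotProduct_add, Qm_dot_Qm, dotProduct_comm (Qm y *ᵥ _) v, a1_exp] at h
    simp only [Matrix.mulVec_sub, Matrix.mulVec_smul, dotProduct_sub, dotProduct_smul, smul_eq_mul,
      a1_symm y u v] at h
    linarith
  · have h := Finset.sum_mul_sq_le_sq_mul_sq Finset.univ u (Qm y *ᵥ (α • v - β • u))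
    have h' : (u ⬝ᵥ Qm y *ᵥ (α • v - β • u)) ^ 2 ≤
        (u ⬝ᵥ u) * ((Qm y *ᵥ (α • v - β • u)) ⬝ᵥ (Qm y *ᵥ (α • v - β • u))) := by
      simpa only [dotProduct, sq] using h
    have q := mul_nonneg (d0 u) (Qf_nonneg y (α • v - β • u))
    rw [Qm_dot_Qm] at h'
    rw [← a1_exp]
    simp only [Matrix.mulVec_sub, Matrix.mulVec_smul, dotProduct_sub, dotProduct_smul, smul_eq_mul] at h'
    have n0 := Ny_nonneg y
    generalize α * (u ⬝ᵥ Qm y *ᵥ v) - β * (u ⬝ᵥ Qm y *ᵥ u) = t at *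
    have h2 : t ^ 2 ≤ Ny y * (u ⬝ᵥ u * Qf y (α • v - β • u)) := by linarith
    generalize u ⬝ᵥ u * Qf y (α • v - β • u) = g at *
    have := abs_le_of_sq_le_sq' (a := 2 * t) (b := Ny y + g) (by nlinarith [sq_nonneg (Ny y - g)])
      (by positivity)
    linarith [this.2]

theorem hyp_PA (a : ℕ) : Hyperbolic.IsHyperbolic (PA a) eA := by
  refine ⟨⟨_, PA_hom a⟩, by rw [eval_PA, pp_eA]; exact one_pos, fun x z h => ?_⟩
  by_contra hz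
  rw [Hyperbolic.lineEvalC, aeval_PA, pp] at h
  refine mul_ne_zero (p6_ne_zero x z hz) (pow_ne_zero a (mul_ne_zero ?_ ?_)) h
  all_goals
    intro e
    exact hz (by simpa [eA] using congrArg Complex.im e)

end Crest.Agent.R237
end
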