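import Crest.Agent.R237.A0

set_option autoImplicit false
open scoped BigOperators Matrix
open Crest.GeometryTopology

noncomputable section
namespace Crest.Agent.R237

/-! # A2: the closed cone.

Recipe.  `eval (t e - x) (PA a) = pp a (x + (-t) e)` (`eval_PA`, `pp_neg`), so `x` is in the closed cone iff
`pp a (x + s e) ≠ 0` for all `s > 0`.  On `Ko`, `pp a > 0` (`p6_eq`).  Conversely `S = {s > 0 | x + s e ∈ Ko}` is
open, contains all large `s`, and is closed in `(0, ∞)`: at a limit `s₀ > 0` we get `ρ, σ ≥ 0`, both `≠ 0` since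
`pp a ≠ 0` and `a ≥ 1`; then `nn, nn' ≥ 0`, `Qf ≤ nn nn'` by continuity, `Qf ≠ nn nn'` since `p6 ≠ 0`, and
`0 ≤ Qf < nn nn'` forces `nn, nn' > 0`.  Use `IsPreconnected (Set.Ioi 0)` or an infimum argument.
(`uu, vv, yy` of `x + s e` equal those of `x`.) -/

theorem a2_pos {f : ℝ → ℝ} (hf : ContinuousOn f (Set.Ioi 0)) (h : ∀ s, 0 < s → f s ≠ 0) {s₀ : ℝ} (hs₀ : 0 < s₀)
    (h₀ : 0 < f s₀) (s : ℝ) (hs : 0 < s) : 0 < f s := by
  by_contra hc
  obtain ⟨t, ht, h0⟩ := isPreconnected_Ioi.intermediate_value hs hs₀ hf ⟨not_lt.1 hc, h₀.le⟩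
  exact h t ht h0

theorem a2_ray (x : Fin 23 → ℝ) (s : ℝ) :
    nn (x + s • eA) = x 2 + s - uu x ⬝ᵥ uu x * (x 0 + s)⁻¹ - Ny (yy x) * (x 1 + s)⁻¹ ∧
    nn' (x + s • eA) = x 3 + s - vv x ⬝ᵥ vv x * (x 1 + s)⁻¹ - 4 * Ny (yy x) * (x 0 + s)⁻¹ ∧
    Qf (yy (x + s • eA)) (del (x + s • eA)) = Qf (yy x) ((x 1 + s)⁻¹ • vv x - (x 0 + s)⁻¹ • uu x) := by
  have u : uu (x + s • eA) = uu x := by ext i; simp [uu, eA]
  have v : vv (x + s • eA) = vv x := by ext i; simp [vv, eA]; omega
  have y : yy (x + s • eA) = yy x := by ext i; simp [yy, eA]; omega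
  rw [nn, nn', del, u, v, y]
  simp [eA, div_eq_mul_inv]

theorem closedCone_PA (a : ℕ) (ha : 1 ≤ a) : Hyperbolic.closedCone (PA a) eA = Kc := by
  ext x
  have e0 : ∀ t : ℝ, MvPolynomial.eval (fun i => t * eA i - x i) (PA a) = pp a (x + (-t) • eA) := fun t => by
    rw [eval_PA, ← pp_neg]
    congr 1
    ext i
    simp only [Pi.neg_apply, Pi.add_apply, Pi.smul_apply, smul_eq_mul]
    ring
  constructor
  · intro h
    have hne : ∀ s : ℝ, 0 < s → pp a (x + s • eA) ≠ 0 := fun s hs h0 => by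
      have := h (-s) (by rw [e0, neg_neg, h0])
      linarith
    have c0 : ∀ s : ℝ, (x + s • eA : Fin 23 → ℝ) 0 = x 0 + s := fun s => by simp [eA]
    have c1 : ∀ s : ℝ, (x + s • eA : Fin 23 → ℝ) 1 = x 1 + s := fun s => by simp [eA]
    have p0 : ∀ s : ℝ, 0 < s → 0 < x 0 + s := fun s hs => by
      by_contra hc
      exact hne (-x 0) (by linarith) (by rw [pp, c0, add_neg_cancel, zero_mul, zero_pow (by omega), mul_zero])
    have p1 : ∀ s : ℝ, 0 < s → 0 < x 1 + s := fun s hs => by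
      by_contra hc
      exact hne (-x 1) (by linarith) (by rw [pp, c1, add_neg_cancel, mul_zero, zero_pow (by omega), mul_zero])
    have cQ : Continuous (Qf (yy x)) := continuous_id.dotProduct (continuous_const.matrix_mulVec continuous_id)
    have i0 : ContinuousOn (fun s : ℝ => (x 0 + s)⁻¹) (Set.Ioi 0) :=
      (continuousOn_const.add continuousOn_id).inv₀ fun s hs => (p0 s hs).ne'
    have i1 : ContinuousOn (fun s : ℝ => (x 1 + s)⁻¹) (Set.Ioi 0) :=
      (continuousOn_const.add continuousOn_id).inv₀ fun s hs => (p1 s hs).ne'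
    have t0 : ∀ c : ℝ, Filter.Tendsto (fun s : ℝ => (c + s)⁻¹) Filter.atTop (nhds 0) := fun c =>
      (Filter.tendsto_atTop_add_const_left _ c Filter.tendsto_id).inv_tendsto_atTop
    have k1 : ContinuousOn (fun s : ℝ => nn (x + s • eA)) (Set.Ioi 0) := by
      simp only [(a2_ray x _).1]
      exact ((continuousOn_const.add continuousOn_id).sub (continuousOn_const.mul i0)).sub (continuousOn_const.mul i1)
    have k2 : ContinuousOn (fun s : ℝ => nn' (x + s • eA)) (Set.Ioi 0) := by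
      simp only [(a2_ray x _).2.1]
      exact ((continuousOn_const.add continuousOn_id).sub (continuousOn_const.mul i1)).sub (continuousOn_const.mul i0)
    have k3 : ContinuousOn (fun s : ℝ => Qf (yy (x + s • eA)) (del (x + s • eA))) (Set.Ioi 0) := by
      simp only [(a2_ray x _).2.2]
      exact cQ.comp_continuousOn ((i1.smul continuousOn_const).sub (i0.smul continuousOn_const))
    obtain ⟨s₀, hs₀, b1, b2⟩ : ∃ s : ℝ, 0 < s ∧ 0 < nn (x + s • eA) ∧
        0 < nn (x + s • eA) * nn' (x + s • eA) - Qf (yy (x + s • eA)) (del (x + s • eA)) := by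
      have l1 := ((t0 (x 0)).const_mul (uu x ⬝ᵥ uu x)).add ((t0 (x 1)).const_mul (Ny (yy x)))
      have l2 := ((t0 (x 1)).const_mul (vv x ⬝ᵥ vv x)).add ((t0 (x 0)).const_mul (4 * Ny (yy x)))
      have l3 := (cQ.tendsto _).comp (((t0 (x 1)).smul_const (vv x)).sub ((t0 (x 0)).smul_const (uu x)))
      have q0 : Qf (yy x) ((0 : ℝ) • vv x - (0 : ℝ) • uu x) = 0 := by simp [Qf]
      rw [q0] at l3
      obtain ⟨s, h1, h2, h3, h4, h5, h6⟩ := ((l1.eventually (gt_mem_nhds (by simp : _ < (1 : ℝ)))).and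
        ((l2.eventually (gt_mem_nhds (by simp : _ < (1 : ℝ)))).and ((l3.eventually (gt_mem_nhds one_pos)).and
        ((Filter.eventually_gt_atTop 0).and ((Filter.eventually_gt_atTop (2 - x 2)).and
        (Filter.eventually_gt_atTop (2 - x 3))))))).exists
      have n1 : 1 < nn (x + s • eA) := by rw [(a2_ray x s).1]; linarith
      have n2 : 1 < nn' (x + s • eA) := by rw [(a2_ray x s).2.1]; linarith
      refine ⟨s, h4, by linarith, ?_⟩
      rw [(a2_ray x s).2.2]
      have : 1 < nn (x + s • eA) * nn' (x + s • eA) := by nlinarith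
      exact sub_pos.2 (lt_trans h3 this)
    have g1 := a2_pos ((k1.mul k2).sub k3) (fun s hs h0 => hne s hs (by
      rw [pp, p6_eq _ (by rw [c0]; exact (p0 s hs).ne') (by rw [c1]; exact (p1 s hs).ne')]
      simp only [Pi.sub_apply, Pi.mul_apply] at h0
      rw [h0, mul_zero, zero_mul])) hs₀ b2
    have g2 : ∀ s : ℝ, 0 < s → 0 < nn (x + s • eA) * nn' (x + s • eA) := fun s hs =>
      (Qf_nonneg _ _).trans_lt (sub_pos.1 (g1 s hs))
    have g3 := a2_pos k1 (fun s hs => left_ne_zero_of_mul (g2 s hs).ne') hs₀ b1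
    exact fun s hs => ⟨c0 s ▸ p0 s hs, c1 s ▸ p1 s hs, g3 s hs, (mul_pos_iff_of_pos_left (g3 s hs)).1 (g2 s hs),
      sub_pos.1 (g1 s hs)⟩
  · intro h t ht
    by_contra hc
    obtain ⟨h0, h1, -, -, h2⟩ := h (-t) (by linarith)
    rw [e0, pp, p6_eq _ h0.ne' h1.ne'] at ht
    have := sub_pos.2 h2
    exact absurd ht (by positivity)

end Crest.Agent.R237
end
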