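import Crest.Agent.R237.A0

set_option autoImplicit false
open scoped BigOperators Matrix
open Crest.GeometryTopology

noncomputable section
namespace Crest.Agent.R237

/-! # A3a: a linear matrix inequality for the cone gives a block pencil.

Recipe.  Write `F x a b = a ⬝ᵥ L x *ᵥ b`, `x = X + Z + y` with `X = (ρ, xx, u)`, `Z = (σ, ζ, v)`;
`F_X, F_Z, F_Y` the three parts, `eX = (1,1,0)`, `eZ = (1,1,0)`.  `Kb` (for `ρ, σ > 0`) is invariant under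
`(X, Z, y) ↦ (t X, Z / t, y)` (`nn ↦ t nn`, `nn' ↦ nn'/t`, `del` fixed) and under `y ↦ -y`.
* `F_X X ≥ 0` for `X` near `eX` (points `(X, s eZ, 0)`, `s → 0`), so every `F_X X` kills `H' = rad (F_X eX)`;
  `F_Z eZ ≥ 0` likewise; `eA` is interior, so every `F x` kills `Hc = rad (F eA) = rad (F_X eX) ⊓ rad (F_Z eZ)`.
* `F_Y y η η = 0` for `η ∈ H'`: `F_Z eZ η η / t ± F_Y y η η ≥ 0` for all `t > 0`, small `y`.
* `H₁` a complement of `H'`, `H₀` a complement of `Hc` in `H'`; `L₁, L₂, B` the restrictions of `F_X, F_Z, F_Y`.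
  `F (tX, Z/t, y) (ξ/√t + √t η)` is `G x ξ η + O(1/t)`; `t → ∞` gives `→` of `iff`.
  For `←`: `G (x + ε e)` is positive definite on `H₁ × H₀`, so `L (tX', Z'/t, y) ≥ 0` for large `t`
  (compactness / equivalence of norms), hence `Kb (x + ε e)` for all `ε > 0`, and `Kb x` by continuity. -/

section a3a
open Filter Topology

theorem a3a_dom {W : Type} [NormedAddCommGroup W] [NormedSpace ℝ W] [FiniteDimensional ℝ W]
    {f g : W → ℝ} (hf : Continuous f) (hg : Continuous g)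
    (hf2 : ∀ (c : ℝ) w, f (c • w) = c ^ 2 * f w) (hg2 : ∀ (c : ℝ) w, g (c • w) = c ^ 2 * g w)
    (hp : ∀ w, w ≠ 0 → 0 < f w) : ∃ C : ℝ, 0 ≤ C ∧ ∀ w, |g w| ≤ C * f w := by
  have : ProperSpace W := FiniteDimensional.proper ℝ W
  have hne : ∀ w ∈ Metric.sphere (0 : W) 1, w ≠ 0 := fun w hw h => by
    rw [h] at hw; simp at hw
  obtain ⟨C, hC⟩ := (isCompact_sphere (0 : W) 1).exists_bound_of_continuousOn
    (f := fun w => g w / f w) (hg.continuousOn.div hf.continuousOn fun w hw => (hp w (hne w hw)).ne')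
  refine ⟨max C 0, le_max_right _ _, fun w => ?_⟩
  by_cases hw : w = 0
  · have h1 := hf2 0 w
    have h2 := hg2 0 w
    rw [zero_smul] at h1 h2
    rw [hw, h1, h2]
    simp
  · have hn : 0 < ‖w‖ := norm_pos_iff.2 hw
    have hs : ‖w‖⁻¹ • w ∈ Metric.sphere (0 : W) 1 := by
      simp [norm_smul, hn.ne']
    have h1 := hC _ hs
    rw [hf2, hg2, mul_div_mul_left _ _ (by positivity), Real.norm_eq_abs, abs_div,
      abs_of_pos (hp w hw), div_le_iff₀ (hp w hw)] at h1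
    exact h1.trans (mul_le_mul_of_nonneg_right (le_max_left _ _) (hp w hw).le)

theorem a3a_lim {a b c : ℝ} (h : ∀ s : ℝ, 0 < s → 0 ≤ a + s * b + s ^ 2 * c) : 0 ≤ a := by
  have h1 : Tendsto (fun s : ℝ => a + s * b + s ^ 2 * c) (𝓝[>] 0) (𝓝 (a + 0 * b + 0 ^ 2 * c)) :=
    tendsto_nhdsWithin_of_tendsto_nhds
      ((by fun_prop : Continuous fun s : ℝ => a + s * b + s ^ 2 * c).tendsto 0)
  have h2 := ge_of_tendsto h1 (eventually_nhdsWithin_of_forall fun s hs => h s hs)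
  simpa using h2

theorem a3a_zero {c : ℝ} (h : ∀ᶠ s in 𝓝 (0 : ℝ), 0 ≤ s * c) : c = 0 := by
  obtain ⟨δ, hδ, h⟩ := Metric.eventually_nhds_iff.1 h
  have h1 := h (y := δ / 2) (by rw [Real.dist_eq, sub_zero, abs_of_pos (by positivity)]; linarith)
  have h2 := h (y := -(δ / 2))
    (by rw [Real.dist_eq, sub_zero, abs_neg, abs_of_pos (by positivity)]; linarith)
  nlinarith

theorem a3a_ne {p : ℝ → Prop} (h : ∀ᶠ s in 𝓝 (0 : ℝ), p s) : ∃ s, s ≠ 0 ∧ p s :=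
  ((eventually_mem_nhdsWithin (s := {0}ᶜ) (a := (0 : ℝ))).and (h.filter_mono nhdsWithin_le_nhds)).exists

variable {V : Type} [AddCommGroup V] [Module ℝ V]

theorem a3a_rad (F : V →ₗ[ℝ] V →ₗ[ℝ] ℝ) (hs : ∀ a b, F a b = F b a) (hp : ∀ a, 0 ≤ F a a) {η : V}
    (h : F η η = 0) (a : V) : F η a = 0 := by
  refine a3a_zero (c := F η a) ?_
  by_contra hc
  have h1 : ∀ s : ℝ, 0 ≤ s ^ 2 * F a a + 2 * s * F η a := fun s => by
    have := hp (η + s • a)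
    simp only [map_add, map_smul, LinearMap.add_apply, LinearMap.smul_apply, smul_eq_mul, h,
      hs a η] at this
    linarith
  have h2 : 0 ≤ F η a := by
    have := a3a_lim (a := 2 * F η a) (b := F a a) (c := 0) fun s hs => by
      have := h1 s
      nlinarith
    linarith
  have h3 : 0 ≤ -F η a := by
    have := a3a_lim (a := -(2 * F η a)) (b := F a a) (c := 0) fun s hs => by
      have := h1 (-s)
      nlinarith
    linarith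
  exact hc (Eventually.of_forall fun s => by rw [le_antisymm (by linarith) h2, mul_zero])

theorem a3a_abs {V P Y : Type} [NormedAddCommGroup V] [NormedSpace ℝ V] [FiniteDimensional ℝ V]
    [AddCommGroup P] [Module ℝ P] [AddCommGroup Y] [Module ℝ Y]
    (FX FZ : P →ₗ[ℝ] V →ₗ[ℝ] V →ₗ[ℝ] ℝ) (FY : Y →ₗ[ℝ] V →ₗ[ℝ] V →ₗ[ℝ] ℝ)
    (sX : ∀ X a b, FX X a b = FX X b a) (sZ : ∀ X a b, FZ X a b = FZ X b a)
    (sY : ∀ y a b, FY y a b = FY y b a) (e : P) (K : P → P → Y → Prop)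
    (hK : ∀ X Z y, K X Z y ↔ ∀ a, 0 ≤ FX X a a + FZ Z a a + FY y a a) (pos : P → Prop)
    (hpos : ∀ X, pos X → ∀ t : ℝ, 0 < t → pos (t • X))
    (hpos' : ∀ X, pos X → ∀ t : ℝ, 0 < t → pos (X + t • e))
    (K1 : ∀ X Z y, pos X → pos Z → K X Z y → ∀ t : ℝ, 0 < t → K (t • X) (t⁻¹ • Z) y)
    (K2 : ∀ X Z y, ∀ᶠ s in 𝓝 (0 : ℝ), pos (e + s • X) ∧ pos (e + s • Z) ∧
      K (e + s • X) (e + s • Z) (s • y)) :
    ∃ H₁ H₀ : Submodule ℝ V, (∀ a ∈ H₁, a ≠ 0 → 0 < FX e a a) ∧ (∀ a ∈ H₀, a ≠ 0 → 0 < FZ e a a) ∧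
      ∀ X Z y, pos X → pos Z →
        (K X Z y → ∀ ξ ∈ H₁, ∀ η ∈ H₀, 0 ≤ FX X ξ ξ + 2 * FY y ξ η + FZ Z η η) ∧
        ((∀ ξ ∈ H₁, ∀ η ∈ H₀, 0 ≤ FX X ξ ξ + 2 * FY y ξ η + FZ Z η η) →
          ∀ ε : ℝ, 0 < ε → K (X + ε • e) (Z + ε • e) y) := by
  have A : ∀ X Z y, pos X → pos Z → K X Z y → ∀ a, ∀ s : ℝ, 0 < s →
      0 ≤ FX X a a + s * FY y a a + s ^ 2 * FZ Z a a ∧
      0 ≤ FZ Z a a + s * FY y a a + s ^ 2 * FX X a a := fun X Z y hX hZ h a s hs => by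
    have h1 := (hK _ _ _).1 (K1 X Z y hX hZ h s⁻¹ (by positivity)) a
    have h2 := (hK _ _ _).1 (K1 X Z y hX hZ h s hs) a
    simp only [map_smul, LinearMap.smul_apply, smul_eq_mul, inv_inv] at h1 h2
    constructor
    · have := mul_nonneg hs.le h1
      rw [mul_add, mul_add, mul_inv_cancel_left₀ hs.ne'] at this
      linarith
    · have := mul_nonneg hs.le h2
      rw [mul_add, mul_add, mul_inv_cancel_left₀ hs.ne'] at this
      linarith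
  have AX : ∀ X, ∀ᶠ s in 𝓝 (0 : ℝ), ∀ a, 0 ≤ FX (e + s • X) a a := fun X =>
    (K2 X 0 0).mono fun s hs a => a3a_lim fun r hr => (A _ _ _ hs.1 hs.2.1 hs.2.2 a r hr).1
  have AZ : ∀ X, ∀ᶠ s in 𝓝 (0 : ℝ), ∀ a, 0 ≤ FZ (e + s • X) a a := fun X =>
    (K2 0 X 0).mono fun s hs a => a3a_lim fun r hr => (A _ _ _ hs.1 hs.2.1 hs.2.2 a r hr).2
  have kill : ∀ (F : P →ₗ[ℝ] V →ₗ[ℝ] V →ₗ[ℝ] ℝ), (∀ X a b, F X a b = F X b a) →
      (∀ X, ∀ᶠ s in 𝓝 (0 : ℝ), ∀ a, 0 ≤ F (e + s • X) a a) →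
      ∀ η, F e η = 0 → ∀ X a, F X η a = 0 := fun F sF hF η hη X a => by
    have h1 : F X η η = 0 := a3a_zero ((hF X).mono fun s hs => by simpa [hη] using hs η)
    obtain ⟨s, hs0, hs⟩ := a3a_ne (hF X)
    have h2 := a3a_rad (F (e + s • X)) (sF _) hs (η := η) (by simp [hη, h1]) a
    simpa [hη, hs0] using h2
  have pX : ∀ a, 0 ≤ FX e a a := by simpa using (AX 0).self_of_nhds
  have pZ : ∀ a, 0 ≤ FZ e a a := by simpa using (AZ 0).self_of_nhds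
  have kY : ∀ η, FX e η = 0 → ∀ y, FY y η η = 0 := fun η hη y =>
    a3a_zero ((K2 0 0 y).mono fun s hs => by
      refine a3a_lim (b := FZ e η η) (c := 0) fun r hr => ?_
      have := (A _ _ _ hs.1 hs.2.1 hs.2.2 η r hr).1
      simp only [smul_zero, add_zero, hη, LinearMap.zero_apply, map_smul, LinearMap.smul_apply,
        smul_eq_mul, zero_add] at this
      have h2 : 0 ≤ r * (s * FY y η η + r * FZ e η η + r ^ 2 * 0) := by linarith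
      exact (mul_nonneg_iff_of_pos_left hr).1 h2)
  have kY' : ∀ η, FX e η = 0 → FZ e η = 0 → ∀ y a, FY y η a = 0 := fun η hη hη' y a => by
    obtain ⟨s, hs0, -, -, hs⟩ := a3a_ne (K2 0 0 y)
    rw [smul_zero, add_zero, hK] at hs
    have := a3a_rad (FX e + FZ e + FY (s • y))
      (fun a b => by simp only [LinearMap.add_apply]; rw [sX, sZ, sY]) hs (η := η)
      (by simp [hη, hη', kY η hη]) a
    simpa [hη, hη', hs0] using this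
  obtain ⟨H₁, hH₁⟩ := Submodule.exists_isCompl (LinearMap.ker (FX e))
  obtain ⟨C, hC⟩ := Submodule.exists_isCompl (LinearMap.ker (FX e) ⊓ LinearMap.ker (FZ e))
  have p₁ : ∀ a ∈ H₁, a ≠ 0 → 0 < FX e a a := fun a ha h0 => (pX a).lt_of_ne fun h =>
    h0 (Submodule.disjoint_def.1 hH₁.disjoint a
      (LinearMap.ext (a3a_rad _ (sX e) pX h.symm)) ha)
  have p₂ : ∀ a ∈ LinearMap.ker (FX e) ⊓ C, a ≠ 0 → 0 < FZ e a a := fun a ha h0 =>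
    (pZ a).lt_of_ne fun h => h0 (Submodule.disjoint_def.1 hC.disjoint a
      ⟨ha.1, LinearMap.ext (a3a_rad _ (sZ e) pZ h.symm)⟩ ha.2)
  have form : ∀ X Z y ξ η k, FX e η = 0 → FX e k = 0 → FZ e k = 0 → ∀ s : ℝ, 0 < s →
      s * (FX (s⁻¹ • X) (ξ + s⁻¹ • η + k) (ξ + s⁻¹ • η + k) +
        FZ (s • Z) (ξ + s⁻¹ • η + k) (ξ + s⁻¹ • η + k) + FY y (ξ + s⁻¹ • η + k) (ξ + s⁻¹ • η + k)) =
      FX X ξ ξ + 2 * FY y ξ η + FZ Z η η + s * (2 * FZ Z ξ η + FY y ξ ξ) + s ^ 2 * FZ Z ξ ξ := by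
    intro X Z y ξ η k hη hk hk' s hs
    simp only [map_add, map_smul, LinearMap.add_apply, LinearMap.smul_apply, smul_eq_mul,
      kill FX sX AX η hη, kill FX sX AX k hk, kill FZ sZ AZ k hk', kY' k hk hk', kY η hη,
      sX X ξ η, sX X ξ k, sZ Z ξ k, sZ Z η k, sY y ξ k, sY y η k, sZ Z η ξ, sY y η ξ]
    field_simp
    ring
  refine ⟨H₁, LinearMap.ker (FX e) ⊓ C, p₁, p₂, fun X Z y hX hZ => ⟨fun h ξ _ η hη => ?_, ?_⟩⟩
  · refine a3a_lim (b := 2 * FZ Z ξ η + FY y ξ ξ) (c := FZ Z ξ ξ) fun s hs => ?_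
    rw [← form X Z y ξ η 0 hη.1 (map_zero _) (map_zero _) s hs]
    have := (hK _ _ _).1 (K1 X Z y hX hZ h s⁻¹ (by positivity))
    rw [inv_inv] at this
    exact mul_nonneg hs.le (this _)
  · intro h ε hε
    set H₀ := LinearMap.ker (FX e) ⊓ C
    have cont : ∀ (F : V →ₗ[ℝ] V →ₗ[ℝ] ℝ) {u v : H₁ × H₀ → V}, Continuous u → Continuous v →
        Continuous fun w => F (u w) (v w) := fun F u v hu hv =>
      F.toContinuousBilinearMap.continuous₂.comp (hu.prodMk hv)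
    have c1 : Continuous fun w : H₁ × H₀ => (w.1 : V) := by fun_prop
    have c2 : Continuous fun w : H₁ × H₀ => (w.2 : V) := by fun_prop
    have hp : ∀ w : H₁ × H₀, w ≠ 0 → 0 < FX e w.1 w.1 + FZ e w.2 w.2 := fun w hw => by
      by_cases h1 : (w.1 : V) = 0
      · have h2 : (w.2 : V) ≠ 0 := fun h2 => hw (Prod.ext (Subtype.ext h1) (Subtype.ext h2))
        exact add_pos_of_nonneg_of_pos (pX _) (p₂ _ w.2.2 h2)
      · exact add_pos_of_pos_of_nonneg (p₁ _ w.1.2 h1) (pZ _)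
    obtain ⟨C₁, hC₁, b₁⟩ := a3a_dom (W := H₁ × H₀)
      (g := fun w => 2 * FZ (Z + ε • e) w.1 w.2 + FY y w.1 w.1) ((cont _ c1 c1).add (cont _ c2 c2))
      (((cont _ c1 c2).const_mul _).add (cont _ c1 c1)) (fun c w => by simp; ring)
      (fun c w => by simp; ring) hp
    obtain ⟨C₂, hC₂, b₂⟩ := a3a_dom (W := H₁ × H₀)
      (g := fun w => FZ (Z + ε • e) w.1 w.1) ((cont _ c1 c1).add (cont _ c2 c2))
      (cont _ c1 c1) (fun c w => by simp; ring) (fun c w => by simp; ring) hp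
    set s := min 1 (ε / (C₁ + C₂ + 1)) with hs
    have hs0 : 0 < s := lt_min one_pos (by positivity)
    have hs1 : s ≤ 1 := min_le_left _ _
    have hs2 : s * (C₁ + C₂ + 1) ≤ ε := (le_div_iff₀ (by positivity)).1 (min_le_right _ _)
    have h1 : K (s⁻¹ • (X + ε • e)) (s • (Z + ε • e)) y := by
      refine (hK _ _ _).2 fun a => ?_
      obtain ⟨η', hη', ξ, hξ, rfl⟩ := Submodule.mem_sup.1 (hH₁.sup_eq_top ▸ Submodule.mem_top (x := a))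
      obtain ⟨k, hk, c, hc, rfl⟩ := Submodule.mem_sup.1 (hC.sup_eq_top ▸ Submodule.mem_top (x := η'))
      have hc' : c ∈ LinearMap.ker (FX e) := by simpa using Submodule.sub_mem _ hη' hk.1
      have hη : s • c ∈ H₀ := Submodule.smul_mem _ _ ⟨hc', hc⟩
      have e1 : k + c + ξ = ξ + s⁻¹ • s • c + k := by
        rw [smul_smul, inv_mul_cancel₀ hs0.ne', one_smul]; abel
      refine (mul_nonneg_iff_of_pos_left hs0).1 ?_
      rw [e1, form _ _ _ ξ (s • c) k hη.1 hk.1 hk.2 s hs0]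
      have h2 := h ξ hξ _ hη
      have h3 := neg_le_of_abs_le (b₁ (⟨ξ, hξ⟩, ⟨_, hη⟩))
      have h4 := neg_le_of_abs_le (b₂ (⟨ξ, hξ⟩, ⟨_, hη⟩))
      have h5 := add_nonneg (pX ξ) (pZ (s • c))
      simp only [Pi.add_apply] at h3 h4
      have e2 : FX (X + ε • e) ξ ξ = FX X ξ ξ + ε * FX e ξ ξ := by simp
      have e3 : FZ (Z + ε • e) (s • c) (s • c) = FZ Z (s • c) (s • c) + ε * FZ e (s • c) (s • c) := by
        rw [map_add, map_smul FZ]; rfl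
      rw [e2, e3]
      generalize FX e ξ ξ = u at *
      generalize FZ e (s • c) (s • c) = v at *
      have h6 := mul_le_mul_of_nonneg_left h3 hs0.le
      have h7 := mul_le_mul_of_nonneg_left h4 (sq_nonneg s)
      have h8 : s ^ 2 * (C₂ * (u + v)) ≤ s * (C₂ * (u + v)) :=
        mul_le_mul_of_nonneg_right (by nlinarith) (mul_nonneg hC₂ h5)
      have h9 := mul_le_mul_of_nonneg_right hs2 h5
      nlinarith [mul_nonneg hs0.le h5]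
    have h2 := K1 _ _ _ (hpos _ (hpos' X hX ε hε) _ (by positivity)) (hpos _ (hpos' Z hZ ε hε) _ hs0)
      h1 s hs0
    rwa [smul_smul, smul_smul, mul_inv_cancel₀ hs0.ne', inv_mul_cancel₀ hs0.ne', one_smul,
      one_smul] at h2

/-- the point with blocks `X`, `Z`, `y` -/
def a3a_mk (X Z : ℝ × ℝ × (Fin 8 → ℝ)) (y : Fin 3 → ℝ) : Fin 23 → ℝ :=
  ![X.1, Z.1, X.2.1, Z.2.1, X.2.2 0, X.2.2 1, X.2.2 2, X.2.2 3, X.2.2 4, X.2.2 5, X.2.2 6, X.2.2 7,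
    Z.2.2 0, Z.2.2 1, Z.2.2 2, Z.2.2 3, Z.2.2 4, Z.2.2 5, Z.2.2 6, Z.2.2 7, y 0, y 1, y 2]

theorem a3a_uu (X Z : ℝ × ℝ × (Fin 8 → ℝ)) (y : Fin 3 → ℝ) : uu (a3a_mk X Z y) = X.2.2 := by
  ext i; fin_cases i <;> rfl
theorem a3a_vv (X Z : ℝ × ℝ × (Fin 8 → ℝ)) (y : Fin 3 → ℝ) : vv (a3a_mk X Z y) = Z.2.2 := by
  ext i; fin_cases i <;> rfl
theorem a3a_yy (X Z : ℝ × ℝ × (Fin 8 → ℝ)) (y : Fin 3 → ℝ) : yy (a3a_mk X Z y) = y := by
  ext i; fin_cases i <;> rfl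
theorem a3a_eta (x : Fin 23 → ℝ) : a3a_mk (x 0, x 2, uu x) (x 1, x 3, vv x) (yy x) = x := by
  ext i; fin_cases i <;> rfl

/-- `a3a_mk` as a linear map -/
def a3a_lin : ((ℝ × ℝ × (Fin 8 → ℝ)) × (ℝ × ℝ × (Fin 8 → ℝ)) × (Fin 3 → ℝ)) →ₗ[ℝ] (Fin 23 → ℝ) where
  toFun w := a3a_mk w.1 w.2.1 w.2.2
  map_add' w w' := by ext i; fin_cases i <;> rfl
  map_smul' c w := by ext i; fin_cases i <;> rfl

theorem a3a_Kb (X Z : ℝ × ℝ × (Fin 8 → ℝ)) (y : Fin 3 → ℝ) : Kb (a3a_mk X Z y) ↔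
    0 ≤ X.2.1 - X.2.2 ⬝ᵥ X.2.2 / X.1 - Ny y / Z.1 ∧
    0 ≤ Z.2.1 - Z.2.2 ⬝ᵥ Z.2.2 / Z.1 - 4 * Ny y / X.1 ∧
    Qf y ((Z.1)⁻¹ • Z.2.2 - (X.1)⁻¹ • X.2.2) ≤ (X.2.1 - X.2.2 ⬝ᵥ X.2.2 / X.1 - Ny y / Z.1) *
      (Z.2.1 - Z.2.2 ⬝ᵥ Z.2.2 / Z.1 - 4 * Ny y / X.1) := by
  simp only [Kb, nn, nn', del, a3a_uu, a3a_vv, a3a_yy]
  rfl

theorem a3a_K1 (X Z : ℝ × ℝ × (Fin 8 → ℝ)) (y : Fin 3 → ℝ) (hX : 0 < X.1) (hZ : 0 < Z.1)
    (h : Kb (a3a_mk X Z y)) {t : ℝ} (ht : 0 < t) : Kb (a3a_mk (t • X) (t⁻¹ • Z) y) := by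
  rw [a3a_Kb] at h ⊢
  have e1 : (t • X).2.1 - (t • X).2.2 ⬝ᵥ (t • X).2.2 / (t • X).1 - Ny y / (t⁻¹ • Z).1 =
      t * (X.2.1 - X.2.2 ⬝ᵥ X.2.2 / X.1 - Ny y / Z.1) := by
    simp only [Prod.smul_fst, Prod.smul_snd, smul_eq_mul, dotProduct_smul, smul_dotProduct]
    field_simp
  have e2 : (t⁻¹ • Z).2.1 - (t⁻¹ • Z).2.2 ⬝ᵥ (t⁻¹ • Z).2.2 / (t⁻¹ • Z).1 - 4 * Ny y / (t • X).1 =
      t⁻¹ * (Z.2.1 - Z.2.2 ⬝ᵥ Z.2.2 / Z.1 - 4 * Ny y / X.1) := by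
    simp only [Prod.smul_fst, Prod.smul_snd, smul_eq_mul, dotProduct_smul, smul_dotProduct]
    field_simp
  have e3 : ((t⁻¹ • Z).1)⁻¹ • (t⁻¹ • Z).2.2 - ((t • X).1)⁻¹ • (t • X).2.2 =
      (Z.1)⁻¹ • Z.2.2 - (X.1)⁻¹ • X.2.2 := by
    simp only [Prod.smul_fst, Prod.smul_snd, smul_eq_mul, smul_smul]
    congr 2 <;> field_simp
  rw [e1, e2, e3]
  refine ⟨mul_nonneg ht.le h.1, mul_nonneg (by positivity) h.2.1, h.2.2.trans_eq ?_⟩
  field_simp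

theorem a3a_K2 (X Z : ℝ × ℝ × (Fin 8 → ℝ)) (y : Fin 3 → ℝ) :
    ∀ᶠ s in 𝓝 (0 : ℝ), 0 < (((1, 1, 0) : ℝ × ℝ × (Fin 8 → ℝ)) + s • X).1 ∧
      0 < (((1, 1, 0) : ℝ × ℝ × (Fin 8 → ℝ)) + s • Z).1 ∧
      Kb (a3a_mk ((1, 1, 0) + s • X) ((1, 1, 0) + s • Z) (s • y)) := by
  simp only [a3a_Kb, Prod.fst_add, Prod.snd_add, Prod.smul_fst, Prod.smul_snd, smul_eq_mul, zero_add]
  have cN : Continuous fun s : ℝ => Ny (s • y) := by unfold Ny; fun_prop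
  have N0 : Ny ((0 : ℝ) • y) = 0 := by simp [Ny]
  have c1 : ContinuousAt (fun s : ℝ => 1 + s * X.2.1 - (s • X.2.2) ⬝ᵥ (s • X.2.2) / (1 + s * X.1) -
      Ny (s • y) / (1 + s * Z.1)) 0 := by fun_prop (disch := simp)
  have c2 : ContinuousAt (fun s : ℝ => 1 + s * Z.2.1 - (s • Z.2.2) ⬝ᵥ (s • Z.2.2) / (1 + s * Z.1) -
      4 * Ny (s • y) / (1 + s * X.1)) 0 := by fun_prop (disch := simp)
  have c3 : ContinuousAt (fun s : ℝ => Ny (s • y) *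
      (((1 + s * Z.1)⁻¹ • s • Z.2.2 - (1 + s * X.1)⁻¹ • s • X.2.2) ⬝ᵥ
        ((1 + s * Z.1)⁻¹ • s • Z.2.2 - (1 + s * X.1)⁻¹ • s • X.2.2))) 0 := by
    have : ContinuousAt (fun s : ℝ => (1 + s * Z.1)⁻¹ • s • Z.2.2 - (1 + s * X.1)⁻¹ • s • X.2.2) 0 := by
      fun_prop (disch := simp)
    exact cN.continuousAt.mul
      ((by fun_prop : Continuous fun c : Fin 8 → ℝ => c ⬝ᵥ c).continuousAt.comp this)
  filter_upwards [continuousAt_const.eventually_lt (f := fun _ => (0 : ℝ))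
      (by fun_prop : ContinuousAt (fun s : ℝ => 1 + s * X.1) 0) (by simp),
    continuousAt_const.eventually_lt (f := fun _ => (0 : ℝ))
      (by fun_prop : ContinuousAt (fun s : ℝ => 1 + s * Z.1) 0) (by simp),
    continuousAt_const.eventually_lt (f := fun _ => (0 : ℝ)) c1 (by simp [Ny]),
    continuousAt_const.eventually_lt (f := fun _ => (0 : ℝ)) c2 (by simp [Ny]),
    c3.eventually_lt (c1.mul c2) (by simp [Ny])] with s h1 h2 h3 h4 h5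
  exact ⟨h1, h2, h3.le, h4.le, (Qf_le _ _).trans h5.le⟩

theorem a3a_K3 (X Z : ℝ × ℝ × (Fin 8 → ℝ)) (y : Fin 3 → ℝ) (hX : 0 < X.1) (hZ : 0 < Z.1)
    (h : ∀ ε : ℝ, 0 < ε → Kb (a3a_mk (X + ε • (1, 1, 0)) (Z + ε • (1, 1, 0)) y)) :
    Kb (a3a_mk X Z y) := by
  simp only [a3a_Kb, Prod.fst_add, Prod.snd_add, Prod.smul_fst, Prod.smul_snd, smul_eq_mul, mul_one,
    smul_zero, add_zero] at h ⊢
  have lim : ∀ {f g : ℝ → ℝ}, ContinuousAt f 0 → ContinuousAt g 0 → (∀ ε, 0 < ε → f ε ≤ g ε) →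
      f 0 ≤ g 0 := fun {f g} hf hg hle =>
    le_of_tendsto_of_tendsto (b := 𝓝[>] 0) (hf.tendsto.mono_left nhdsWithin_le_nhds)
      (hg.tendsto.mono_left nhdsWithin_le_nhds) (eventually_nhdsWithin_of_forall hle)
  have c1 : ContinuousAt (fun s : ℝ => X.2.1 + s - X.2.2 ⬝ᵥ X.2.2 / (X.1 + s) - Ny y / (Z.1 + s)) 0 := by
    fun_prop (disch := simp [hX.ne', hZ.ne'])
  have c2 : ContinuousAt
      (fun s : ℝ => Z.2.1 + s - Z.2.2 ⬝ᵥ Z.2.2 / (Z.1 + s) - 4 * Ny y / (X.1 + s)) 0 := by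
    fun_prop (disch := simp [hX.ne', hZ.ne'])
  have c3 : ContinuousAt (fun s : ℝ => Qf y ((Z.1 + s)⁻¹ • Z.2.2 - (X.1 + s)⁻¹ • X.2.2)) 0 := by
    have : Continuous (Qf y) := by unfold Qf; fun_prop
    fun_prop (disch := simp [hX.ne', hZ.ne'])
  simpa using And.intro (lim continuousAt_const c1 fun ε hε => (h ε hε).1)
    (And.intro (lim continuousAt_const c2 fun ε hε => (h ε hε).2.1)
      (lim c3 (c1.mul c2) fun ε hε => (h ε hε).2.2))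

end a3a

theorem pencil_of_LMI {N : ℕ} (L : (Fin 23 → ℝ) →ₗ[ℝ] Matrix (Fin N) (Fin N) ℝ) (hs : ∀ x, (L x).IsSymm)
    (h : ∀ x : Fin 23 → ℝ, 0 < x 0 → 0 < x 1 → (Kb x ↔ (L x).PosSemidef)) :
    ∃ H₁ H₀ : Submodule ℝ (Fin N → ℝ), Nonempty (Pencil H₁ H₀) := by
  let F : ((ℝ × ℝ × (Fin 8 → ℝ)) × (ℝ × ℝ × (Fin 8 → ℝ)) × (Fin 3 → ℝ)) →ₗ[ℝ]
      (Fin N → ℝ) →ₗ[ℝ] (Fin N → ℝ) →ₗ[ℝ] ℝ := Matrix.toBilin'.toLinearMap ∘ₗ L ∘ₗ a3a_lin
  have hF : ∀ w a b, F w a b = a ⬝ᵥ L (a3a_mk w.1 w.2.1 w.2.2) *ᵥ b := fun w a b =>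
    Matrix.toBilin'_apply' _ _ _
  have sF : ∀ w a b, F w a b = F w b a := fun w a b => by
    rw [hF, hF, Matrix.dotProduct_mulVec, ← Matrix.mulVec_transpose, (hs _).eq, dotProduct_comm]
  let FX := F ∘ₗ LinearMap.inl ℝ _ _
  let FZ := F ∘ₗ LinearMap.inr ℝ _ _ ∘ₗ LinearMap.inl ℝ _ _
  let FY := F ∘ₗ LinearMap.inr ℝ _ _ ∘ₗ LinearMap.inr ℝ _ _
  have hsum : ∀ X Z y a, FX X a a + FZ Z a a + FY y a a = F (X, Z, y) a a := fun X Z y a => by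
    have : ((X, Z, y) : (ℝ × ℝ × (Fin 8 → ℝ)) × (ℝ × ℝ × (Fin 8 → ℝ)) × (Fin 3 → ℝ)) =
        (X, 0, 0) + (0, Z, 0) + (0, 0, y) := by simp
    rw [this, map_add, map_add]
    rfl
  have hK : ∀ X Z y, 0 < X.1 → 0 < Z.1 →
      (Kb (a3a_mk X Z y) ↔ ∀ a, 0 ≤ FX X a a + FZ Z a a + FY y a a) := fun X Z y hX hZ => by
    rw [h _ hX hZ, Matrix.posSemidef_iff_dotProduct_mulVec]
    simp only [hsum, hF, star_trivial]
    exact and_iff_right (Matrix.isHermitian_iff_isSymm.2 (hs _))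
  have hp : ∀ X : ℝ × ℝ × (Fin 8 → ℝ), 0 < X.1 → ∀ t : ℝ, 0 < t → 0 < (t • X).1 :=
    fun X hX t ht => mul_pos ht hX
  have hp' : ∀ X : ℝ × ℝ × (Fin 8 → ℝ), 0 < X.1 → ∀ t : ℝ, 0 < t →
      0 < (X + t • ((1, 1, 0) : ℝ × ℝ × (Fin 8 → ℝ))).1 :=
    fun X hX t ht => add_pos hX (mul_pos ht one_pos)
  obtain ⟨H₁, H₀, p₁, p₂, H⟩ := a3a_abs FX FZ FY (fun _ => sF _) (fun _ => sF _) (fun _ => sF _)
    (1, 1, 0) _ (fun _ _ _ => Iff.rfl) (fun X => 0 < X.1) hp hp'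
    (fun X Z y hX hZ h t ht => (hK _ _ _ (hp X hX t ht) (hp Z hZ _ (by positivity))).1
      (a3a_K1 X Z y hX hZ ((hK _ _ _ hX hZ).2 h) ht))
    fun X Z y => (a3a_K2 X Z y).mono fun s hs => ⟨hs.1, hs.2.1, (hK _ _ _ hs.1 hs.2.1).1 hs.2.2⟩
  refine ⟨H₁, H₀, ⟨{
    L₁ := { toFun := fun X => (FX X).compl₁₂ H₁.subtype H₁.subtype
            map_add' := fun X X' => by ext; simp
            map_smul' := fun c X => by ext; simp }
    L₂ := { toFun := fun X => (FZ X).compl₁₂ H₀.subtype H₀.subtype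
            map_add' := fun X X' => by ext; simp
            map_smul' := fun c X => by ext; simp }
    B := { toFun := fun X => (FY X).compl₁₂ H₁.subtype H₀.subtype
           map_add' := fun X X' => by ext; simp
           map_smul' := fun c X => by ext; simp }
    s₁ := fun X a b => sF _ _ _
    s₂ := fun X a b => sF _ _ _
    p₁ := fun a ha => p₁ a a.2 fun h0 => ha (Subtype.ext h0)
    p₂ := fun a ha => p₂ a a.2 fun h0 => ha (Subtype.ext h0)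
    iff := fun x h0 h1 => ?_ }⟩⟩
  have H' := H (x 0, x 2, uu x) (x 1, x 3, vv x) (yy x) h0 h1
  constructor
  · intro hx ξ η
    exact H'.1 ((hK _ _ _ h0 h1).1 (by rwa [a3a_eta])) ξ ξ.2 η η.2
  · intro hx
    rw [← a3a_eta x]
    exact a3a_K3 _ _ _ h0 h1 fun ε hε => (hK _ _ _ (hp' _ h0 ε hε) (hp' _ h1 ε hε)).2
      (H'.2 (fun ξ hξ η hη => hx ⟨ξ, hξ⟩ ⟨η, hη⟩) ε hε)

end Crest.Agent.R237
end
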