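import Crest.Agent.R237.A0

set_option autoImplicit false
set_option linter.unusedSectionVars false
open scoped BigOperators Matrix
open Crest.GeometryTopology

noncomputable section
namespace Crest.Agent.R237

/-! # A3b: upper bound and touching.

To use `P.iff` build `x : Fin 23 → ℝ` with prescribed `x 0, x 1, x 2, x 3, uu x, vv x, yy x` (lemma `exists_pt`).
* `psd₁`: point `(X, (1,1,0), y = 0)`, `η = 0`.  `g_nonneg₁`: `(s, 1, 0)`, `s → 0`.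
* `cmp₁`: `C (bd α + (0,1,0)) - (1,1,0)` lies in the arrow cone for `C = |α|² + 2`.
* `upper`: points `X = k • bd α + n₁ (0,1,0)`, `Z = k • bd β + n₂ (0,1,0)`: `nn = n₁ - N/k`, `nn' = n₂ - 4N/k`,
  `del = β - α`; for `n₁ n₂ > Q`, `n₁, n₂ > 0` and `k` large `Kb` holds, so
  `a² n₁ g ξ + 2 a b B + b² n₂ g' η ≥ 0` for all `a b`, so `B² ≤ n₁ n₂ g g'`.
* `touch`: with `n₁ = 1`, `n₂ = Q/2` the same points violate `Kb` for every `k > 0`; take unit `(ξ_k, η_k)` with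
  negative value, pass to a convergent subsequence: the limit is in the radicals and
  `g ξ + 2B + (Q/2) g' η ≤ 0`; by `cmp` the left and right terms have positive sum, so `B < 0`, `ξ, η ≠ 0`, AM-GM. -/

theorem exists_pt (ρ σ xx ζ : ℝ) (u v : Fin 8 → ℝ) (y : Fin 3 → ℝ) :
    ∃ x : Fin 23 → ℝ, x 0 = ρ ∧ x 1 = σ ∧ x 2 = xx ∧ x 3 = ζ ∧ uu x = u ∧ vv x = v ∧ yy x = y := by
  refine ⟨![ρ, σ, xx, ζ, u 0, u 1, u 2, u 3, u 4, u 5, u 6, u 7, v 0, v 1, v 2, v 3, v 4, v 5, v 6, v 7,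
    y 0, y 1, y 2], rfl, rfl, rfl, rfl, ?_, ?_, ?_⟩ <;> funext i <;> fin_cases i <;> rfl

variable {H₁ H₀ : Type} [NormedAddCommGroup H₁] [NormedSpace ℝ H₁] [FiniteDimensional ℝ H₁]
  [NormedAddCommGroup H₀] [NormedSpace ℝ H₀] [FiniteDimensional ℝ H₀]

theorem Pencil.psd₁ (P : Pencil H₁ H₀) (ρ xx : ℝ) (u : Fin 8 → ℝ) (hρ : 0 < ρ) (h : u ⬝ᵥ u ≤ ρ * xx) (ξ : H₁) :
    0 ≤ P.L₁ (ρ, xx, u) ξ ξ := by
  obtain ⟨x, h0, h1, h2, h3, hu, hv, hy⟩ := exists_pt ρ 1 xx 1 u 0 0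
  have hn : 0 ≤ nn x := by simpa [nn, h0, h1, h2, hu, hy, Ny, div_le_iff₀' hρ] using h
  have hn' : nn' x = 1 := by simp [nn', h0, h1, h3, hv, hy, Ny]
  have := (P.iff x (h0 ▸ hρ) (h1 ▸ one_pos)).1 ⟨hn, hn' ▸ zero_le_one, by rwa [hy, Qf_zero_left, hn', mul_one]⟩ ξ 0
  simpa [h0, h2, hu] using this

theorem Pencil.psd₂ (P : Pencil H₁ H₀) (σ ζ : ℝ) (v : Fin 8 → ℝ) (hσ : 0 < σ) (h : v ⬝ᵥ v ≤ σ * ζ) (η : H₀) :
    0 ≤ P.L₂ (σ, ζ, v) η η := by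
  obtain ⟨x, h0, h1, h2, h3, hu, hv, hy⟩ := exists_pt 1 σ 1 ζ 0 v 0
  have hn : 0 ≤ nn' x := by simpa [nn', h0, h1, h3, hv, hy, Ny, div_le_iff₀' hσ] using h
  have hn' : nn x = 1 := by simp [nn, h0, h1, h2, hu, hy, Ny]
  have := (P.iff x (h0 ▸ one_pos) (h1 ▸ hσ)).1 ⟨hn' ▸ zero_le_one, hn, by rwa [hy, Qf_zero_left, hn', one_mul]⟩ 0 η
  simpa [h1, h3, hv] using this

theorem a3b_g {H : Type} [AddCommGroup H] [Module ℝ H] (L : (ℝ × ℝ × (Fin 8 → ℝ)) →ₗ[ℝ] H →ₗ[ℝ] H →ₗ[ℝ] ℝ) (ξ : H)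
    (h : ∀ (ρ xx : ℝ) (u : Fin 8 → ℝ), 0 < ρ → u ⬝ᵥ u ≤ ρ * xx → 0 ≤ L (ρ, xx, u) ξ ξ) : 0 ≤ L (0, 1, 0) ξ ξ := by
  have h1 : Filter.Tendsto (fun s : ℝ => s * L (1, 0, 0) ξ ξ + L (0, 1, 0) ξ ξ) (nhdsWithin 0 (Set.Ioi 0))
      (nhds (0 * L (1, 0, 0) ξ ξ + L (0, 1, 0) ξ ξ)) :=
    (Continuous.tendsto (by fun_prop) 0).mono_left nhdsWithin_le_nhds
  rw [zero_mul, zero_add] at h1
  refine ge_of_tendsto h1 (eventually_nhdsWithin_of_forall fun s hs => ?_)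
  have := h s 1 0 hs (by simpa using le_of_lt hs)
  rw [show ((s, 1, 0) : ℝ × ℝ × (Fin 8 → ℝ)) = s • (1, 0, 0) + (0, 1, 0) by simp] at this
  simpa only [map_add, map_smul, LinearMap.add_apply, LinearMap.smul_apply, smul_eq_mul] using this

theorem a3b_cmp {H : Type} [AddCommGroup H] [Module ℝ H] (L : (ℝ × ℝ × (Fin 8 → ℝ)) →ₗ[ℝ] H →ₗ[ℝ] H →ₗ[ℝ] ℝ) (ξ : H)
    (h : ∀ (ρ xx : ℝ) (u : Fin 8 → ℝ), 0 < ρ → u ⬝ᵥ u ≤ ρ * xx → 0 ≤ L (ρ, xx, u) ξ ξ) (α : Fin 8 → ℝ)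
    (h0 : L (bd α) ξ ξ = 0) : L (1, 1, 0) ξ ξ ≤ (α ⬝ᵥ α + 2) * L (0, 1, 0) ξ ξ := by
  have ha : 0 ≤ α ⬝ᵥ α := Finset.sum_nonneg fun i _ => mul_self_nonneg _
  have := h (α ⬝ᵥ α + 1) ((α ⬝ᵥ α + 2) * (α ⬝ᵥ α + 1) - 1) ((α ⬝ᵥ α + 2) • α) (by linarith) (by
    rw [smul_dotProduct, dotProduct_smul, smul_eq_mul, smul_eq_mul]
    nlinarith)
  rw [show ((α ⬝ᵥ α + 1, (α ⬝ᵥ α + 2) * (α ⬝ᵥ α + 1) - 1, (α ⬝ᵥ α + 2) • α) : ℝ × ℝ × (Fin 8 → ℝ)) =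
      (α ⬝ᵥ α + 2) • bd α + (α ⬝ᵥ α + 2) • (0, 1, 0) - (1, 1, 0) by
    simp only [bd, Prod.smul_mk, Prod.mk_add_mk, Prod.mk_sub_mk, smul_eq_mul, smul_zero, add_zero, sub_zero]
    congr 1
    · ring
    · congr 1
      ring] at this
  simp only [map_add, map_sub, map_smul, LinearMap.add_apply, LinearMap.sub_apply, LinearMap.smul_apply, smul_eq_mul,
    h0] at this
  linarith

theorem Pencil.g_nonneg₁ (P : Pencil H₁ H₀) (ξ : H₁) : 0 ≤ P.L₁ (0, 1, 0) ξ ξ := by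
  exact a3b_g P.L₁ ξ fun ρ xx u h1 h2 => P.psd₁ ρ xx u h1 h2 ξ

theorem Pencil.g_nonneg₂ (P : Pencil H₁ H₀) (η : H₀) : 0 ≤ P.L₂ (0, 1, 0) η η := by
  exact a3b_g P.L₂ η fun ρ xx u h1 h2 => P.psd₂ ρ xx u h1 h2 η

theorem Pencil.cmp₁ (P : Pencil H₁ H₀) (α : Fin 8 → ℝ) (ξ : H₁) (h : P.L₁ (bd α) ξ ξ = 0) :
    P.L₁ (1, 1, 0) ξ ξ ≤ (α ⬝ᵥ α + 2) * P.L₁ (0, 1, 0) ξ ξ := by
  exact a3b_cmp P.L₁ ξ (fun ρ xx u h1 h2 => P.psd₁ ρ xx u h1 h2 ξ) α h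

theorem Pencil.cmp₂ (P : Pencil H₁ H₀) (β : Fin 8 → ℝ) (η : H₀) (h : P.L₂ (bd β) η η = 0) :
    P.L₂ (1, 1, 0) η η ≤ (β ⬝ᵥ β + 2) * P.L₂ (0, 1, 0) η η := by
  exact a3b_cmp P.L₂ η (fun ρ xx u h1 h2 => P.psd₂ ρ xx u h1 h2 η) β h

theorem Pencil.a3b_iff (P : Pencil H₁ H₀) (α β : Fin 8 → ℝ) (y : Fin 3 → ℝ) {k : ℝ} (hk : 0 < k) (n₁ n₂ : ℝ) :
    (0 ≤ n₁ - Ny y / k ∧ 0 ≤ n₂ - 4 * Ny y / k ∧ Qf y (β - α) ≤ (n₁ - Ny y / k) * (n₂ - 4 * Ny y / k)) ↔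
      ∀ ξ η, 0 ≤ k * (P.L₁ (bd α) ξ ξ + P.L₂ (bd β) η η) +
        (n₁ * P.L₁ (0, 1, 0) ξ ξ + 2 * P.B y ξ η + n₂ * P.L₂ (0, 1, 0) η η) := by
  obtain ⟨x, h0, h1, h2, h3, hu, hv, hy⟩ := exists_pt k k (k * (α ⬝ᵥ α) + n₁) (k * (β ⬝ᵥ β) + n₂) (k • α) (k • β) y
  have e1 : nn x = n₁ - Ny y / k := by
    rw [nn, h0, h1, h2, hu, hy, smul_dotProduct, dotProduct_smul, smul_eq_mul, smul_eq_mul]
    field_simp
    ring
  have e2 : nn' x = n₂ - 4 * Ny y / k := by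
    rw [nn', h0, h1, h3, hv, hy, smul_dotProduct, dotProduct_smul, smul_eq_mul, smul_eq_mul]
    field_simp
    ring
  have e3 : del x = β - α := by rw [del, h0, h1, hu, hv, inv_smul_smul₀ hk.ne', inv_smul_smul₀ hk.ne']
  have e4 : ∀ (γ : Fin 8 → ℝ) (n : ℝ), ((k, k * (γ ⬝ᵥ γ) + n, k • γ) : ℝ × ℝ × (Fin 8 → ℝ)) =
      k • bd γ + n • (0, 1, 0) := fun γ n => by simp [bd]
  have := P.iff x (h0 ▸ hk) (h1 ▸ hk)
  rw [Kb, e1, e2, e3, h0, h1, h2, h3, hu, hv, hy, e4, e4] at this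
  rw [this]
  refine forall₂_congr fun ξ η => ?_
  simp only [map_add, map_smul, LinearMap.add_apply, LinearMap.smul_apply, smul_eq_mul]
  constructor <;> intro h <;> linarith

theorem a3b_cont {E F : Type} [NormedAddCommGroup E] [NormedSpace ℝ E] [FiniteDimensional ℝ E] [NormedAddCommGroup F]
    [NormedSpace ℝ F] [FiniteDimensional ℝ F] (L : E →ₗ[ℝ] F →ₗ[ℝ] ℝ) : Continuous fun p : E × F => L p.1 p.2 :=
  (LinearMap.toContinuousLinearMap ((LinearMap.toContinuousLinearMap (𝕜 := ℝ) (E := F) (F' := ℝ)).toLinearMap ∘ₗ L)).continuous₂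

theorem Pencil.upper (P : Pencil H₁ H₀) (α β : Fin 8 → ℝ) (y : Fin 3 → ℝ) (ξ : H₁) (η : H₀)
    (hξ : P.L₁ (bd α) ξ ξ = 0) (hη : P.L₂ (bd β) η η = 0) :
    P.B y ξ η ^ 2 ≤ P.L₁ (0, 1, 0) ξ ξ * P.L₂ (0, 1, 0) η η * Qf y (β - α) := by
  have g1 := P.g_nonneg₁ ξ
  have g2 := P.g_nonneg₂ η
  have key : ∀ s : ℝ, 0 < s → P.B y ξ η ^ 2 ≤
      (1 + Ny y * s) * P.L₁ (0, 1, 0) ξ ξ * ((Qf y (β - α) + 4 * Ny y * s) * P.L₂ (0, 1, 0) η η) := fun s hs => by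
    have h := (P.a3b_iff α β y (inv_pos.2 hs) (1 + Ny y * s) (Qf y (β - α) + 4 * Ny y * s)).1
      (by simpa [div_inv_eq_mul] using Qf_nonneg y (β - α))
    have := discrim_le_zero (a := (1 + Ny y * s) * P.L₁ (0, 1, 0) ξ ξ) (b := 2 * P.B y ξ η)
      (c := (Qf y (β - α) + 4 * Ny y * s) * P.L₂ (0, 1, 0) η η) fun a => by
        have := h (a • ξ) η
        simp only [map_smul, LinearMap.smul_apply, smul_eq_mul, hξ, hη] at this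
        linarith
    rw [discrim] at this
    linarith
  have h1 : Filter.Tendsto (fun s : ℝ => (1 + Ny y * s) * P.L₁ (0, 1, 0) ξ ξ *
      ((Qf y (β - α) + 4 * Ny y * s) * P.L₂ (0, 1, 0) η η)) (nhdsWithin 0 (Set.Ioi 0))
      (nhds ((1 + Ny y * 0) * P.L₁ (0, 1, 0) ξ ξ * ((Qf y (β - α) + 4 * Ny y * 0) * P.L₂ (0, 1, 0) η η))) :=
    (Continuous.tendsto (by fun_prop) 0).mono_left nhdsWithin_le_nhds
  exact (ge_of_tendsto h1 (eventually_nhdsWithin_of_forall key)).trans_eq (by ring)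

theorem Pencil.touch (P : Pencil H₁ H₀) (α β : Fin 8 → ℝ) (y : Fin 3 → ℝ) (hQ : 0 < Qf y (β - α)) :
    ∃ (ξ : H₁) (η : H₀), ξ ≠ 0 ∧ η ≠ 0 ∧ P.L₁ (bd α) ξ ξ = 0 ∧ P.L₂ (bd β) η η = 0 ∧
      P.L₁ (0, 1, 0) ξ ξ * P.L₂ (0, 1, 0) η η * Qf y (β - α) ≤ 2 * P.B y ξ η ^ 2 := by
  let A : H₁ × H₀ → ℝ := fun p => P.L₁ (bd α) p.1 p.1 + P.L₂ (bd β) p.2 p.2
  let D : H₁ × H₀ → ℝ := fun p =>
    1 * P.L₁ (0, 1, 0) p.1 p.1 + 2 * P.B y p.1 p.2 + Qf y (β - α) / 2 * P.L₂ (0, 1, 0) p.2 p.2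
  have c1 : ∀ X, Continuous fun p : H₁ × H₀ => P.L₁ X p.1 p.1 := fun X =>
    (a3b_cont (P.L₁ X)).comp (continuous_fst.prodMk continuous_fst)
  have c2 : ∀ X, Continuous fun p : H₁ × H₀ => P.L₂ X p.2 p.2 := fun X =>
    (a3b_cont (P.L₂ X)).comp (continuous_snd.prodMk continuous_snd)
  have cA : Continuous A := (c1 _).add (c2 _)
  have cD : Continuous D := ((continuous_const.mul (c1 _)).add (continuous_const.mul (a3b_cont _))).add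
    (continuous_const.mul (c2 _))
  have a1 : ∀ ξ, 0 ≤ P.L₁ (bd α) ξ ξ := P.psd₁ _ _ _ one_pos (one_mul _).ge
  have a2 : ∀ η, 0 ≤ P.L₂ (bd β) η η := P.psd₂ _ _ _ one_pos (one_mul _).ge
  have hcl : ∀ k : ℕ, IsClosed (Metric.sphere (0 : H₁ × H₀) 1 ∩ {p | ((k : ℝ) + 1) * A p + D p ≤ 0}) := fun k =>
    Metric.isClosed_sphere.inter (isClosed_le ((continuous_const.mul cA).add cD) continuous_const)
  obtain ⟨⟨ξ, η⟩, hp⟩ := IsCompact.nonempty_iInter_of_sequence_nonempty_isCompact_isClosed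
    (fun k : ℕ => Metric.sphere (0 : H₁ × H₀) 1 ∩ {p | ((k : ℝ) + 1) * A p + D p ≤ 0})
    (fun k p hp => ⟨hp.1, by
      have h1 : (((k + 1 : ℕ) : ℝ) + 1) * A p + D p ≤ 0 := hp.2
      have h2 : 0 ≤ A p := add_nonneg (a1 _) (a2 _)
      push_cast at h1
      exact show ((k : ℝ) + 1) * A p + D p ≤ 0 by linarith⟩)
    (fun k => by
      have hk : (0 : ℝ) < k + 1 := by positivity
      have h1 := mt (P.a3b_iff α β y hk 1 (Qf y (β - α) / 2)).2 fun ⟨b1, b2, b3⟩ => by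
        have := div_nonneg (Ny_nonneg y) hk.le
        rw [mul_div_assoc] at b2 b3
        nlinarith
      push Not at h1
      obtain ⟨ξ, η, h1⟩ := h1
      have h0 : ((ξ, η) : H₁ × H₀) ≠ 0 := fun e => by
        obtain ⟨rfl, rfl⟩ := Prod.mk.inj e
        simp at h1
      refine ⟨‖(ξ, η)‖⁻¹ • (ξ, η), mem_sphere_zero_iff_norm.2 (norm_smul_inv_norm h0), ?_⟩
      simp only [A, D, Set.mem_ofPred_eq, Prod.smul_mk, map_smul, LinearMap.smul_apply, smul_eq_mul]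
      nlinarith [mul_nonneg (mul_self_nonneg ‖(ξ, η)‖⁻¹) (neg_nonneg.2 h1.le)])
    ((isCompact_sphere _ _).of_isClosed_subset (hcl 0) Set.inter_subset_left) hcl
  have hp' := Set.mem_iInter.1 hp
  have hA : A (ξ, η) ≤ 0 := by
    by_contra h
    obtain ⟨k, hk⟩ := exists_nat_gt (-D (ξ, η) / A (ξ, η))
    have h1 : ((k : ℝ) + 1) * A (ξ, η) + D (ξ, η) ≤ 0 := (hp' k).2
    rw [div_lt_iff₀ (not_le.1 h)] at hk
    linarith [not_le.1 h]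
  have b1 : P.L₁ (bd α) ξ ξ = 0 := by linarith [a1 ξ, a2 η, show P.L₁ (bd α) ξ ξ + P.L₂ (bd β) η η ≤ 0 from hA]
  have b2 : P.L₂ (bd β) η η = 0 := by linarith [a1 ξ, a2 η, show P.L₁ (bd α) ξ ξ + P.L₂ (bd β) η η ≤ 0 from hA]
  have hD : P.L₁ (0, 1, 0) ξ ξ + 2 * P.B y ξ η + Qf y (β - α) / 2 * P.L₂ (0, 1, 0) η η ≤ 0 := by
    have := (hp' 0).2
    simpa [A, D, b1, b2] using this
  have g1 := P.g_nonneg₁ ξ
  have g2 := mul_nonneg (half_pos hQ).le (P.g_nonneg₂ η)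
  have hd : ∀ γ : Fin 8 → ℝ, 0 < γ ⬝ᵥ γ + 2 := fun γ =>
    add_pos_of_nonneg_of_pos (Finset.sum_nonneg fun i _ => mul_self_nonneg _) two_pos
  have hB : P.B y ξ η < 0 := by
    by_cases hξ : ξ = 0
    · have hη : η ≠ 0 := fun e => by simpa [hξ, e] using (hp' 0).1
      linarith [mul_pos (half_pos hQ) (pos_of_mul_pos_right ((P.p₂ η hη).trans_le (P.cmp₂ β η b2)) (hd β).le)]
    · linarith [pos_of_mul_pos_right ((P.p₁ ξ hξ).trans_le (P.cmp₁ α ξ b1)) (hd α).le]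
  refine ⟨ξ, η, fun e => by simp [e] at hB, fun e => by simp [e] at hB, b1, b2, ?_⟩
  nlinarith [sq_nonneg (P.L₁ (0, 1, 0) ξ ξ - Qf y (β - α) / 2 * P.L₂ (0, 1, 0) η η),
    mul_self_le_mul_self (add_nonneg g1 g2) (show _ ≤ -(2 * P.B y ξ η) by linarith)]

end Crest.Agent.R237
end
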