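import Crest.Agent.R237.ADefs

set_option autoImplicit false
open scoped BigOperators Matrix
open Crest.GeometryTopology

noncomputable section
namespace Crest.Agent.R237

/-! # A3c: radicals of a family of semidefinite forms at a point of minimal corank (pure linear algebra).

Recipe.  `E₀ = ker D₀` (as a linear map `H → (H →ₗ ℝ)`; for a symmetric semidefinite form `D η η = 0 ↔ η ∈ ker D`),
`E₁` a complement, `π` the projection onto `E₀` along `E₁`; `D₀ a a ≥ κ ‖a‖²` on `E₁`.  `S c η₀ ∈ E₁` is defined by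
`D₀ (S c η₀) a = - C c η₀ a` for `a ∈ E₁` (nondegenerate form on `E₁`).  For `η ∈ ker D(t)`, `η₁ = η - π η`:
`D₀ η₁ a = - t C c η a - t² G η a`, so `‖η₁‖ ≤ K |t| ‖η‖` (take `a = η₁`) and
`D₀ (η₁ - t S c (π η)) a = - t C c η₁ a - t² G η a` gives the `t²` bound.  For small `t`, `π` is injective on
`ker D(t)`, whose dimension is `≥ dim E₀`, so it is onto `E₀`. -/

/-- a generalised inverse -/
theorem a3c_ginv {H W : Type} [AddCommGroup H] [Module ℝ H] [AddCommGroup W] [Module ℝ W] (f : H →ₗ[ℝ] W) :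
    ∃ g : W →ₗ[ℝ] H, ∀ a, f (g (f a)) = f a := by
  obtain ⟨r, hr⟩ := f.rangeRestrict.exists_rightInverse_of_surjective f.range_rangeRestrict
  obtain ⟨p, hp⟩ := (LinearMap.range f).subtype.exists_leftInverse_of_injective (Submodule.ker_subtype _)
  refine ⟨r ∘ₗ p, fun a => ?_⟩
  have h1 : p (f a) = f.rangeRestrict a := LinearMap.congr_fun hp (f.rangeRestrict a)
  rw [LinearMap.comp_apply, h1]
  exact congrArg Subtype.val (LinearMap.congr_fun hr (f.rangeRestrict a))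

theorem a3c_bd {H : Type} [NormedAddCommGroup H] [NormedSpace ℝ H] [FiniteDimensional ℝ H] (A : H →ₗ[ℝ] H) :
    ∃ a : ℝ, 0 ≤ a ∧ ∀ x, ‖A x‖ ≤ a * ‖x‖ :=
  ⟨_, norm_nonneg _, (LinearMap.toContinuousLinearMap A).le_opNorm⟩

theorem const_rank {H V : Type} [NormedAddCommGroup H] [NormedSpace ℝ H] [FiniteDimensional ℝ H]
    [AddCommGroup V] [Module ℝ V]
    (D₀ : H →ₗ[ℝ] H →ₗ[ℝ] ℝ) (C : V →ₗ[ℝ] H →ₗ[ℝ] H →ₗ[ℝ] ℝ)
    (hs : ∀ a b, D₀ a b = D₀ b a) (hpsd : ∀ a, 0 ≤ D₀ a a) :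
    ∃ (π : H →ₗ[ℝ] H) (S : V →ₗ[ℝ] H →ₗ[ℝ] H), (∀ η, D₀ (π η) = 0) ∧
      ∀ (c : V) (G : H →ₗ[ℝ] H →ₗ[ℝ] ℝ), ∃ K t₀ : ℝ, 0 < t₀ ∧ ∀ t : ℝ, |t| < t₀ →
        (∀ η, (D₀ + t • C c + t ^ 2 • G) η = 0 → ‖η - π η - t • S c (π η)‖ ≤ K * t ^ 2 * ‖η‖) ∧
        (Module.finrank ℝ (LinearMap.ker D₀) ≤ Module.finrank ℝ (LinearMap.ker (D₀ + t • C c + t ^ 2 • G)) →
          ∀ η₀, D₀ η₀ = 0 → ∃ η, (D₀ + t • C c + t ^ 2 • G) η = 0 ∧ π η = η₀ ∧ ‖η‖ ≤ 2 * ‖η₀‖) := by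
  obtain ⟨g, hg⟩ := a3c_ginv D₀
  let π : H →ₗ[ℝ] H := LinearMap.id - g ∘ₗ D₀
  have hπ : ∀ η, π η = η - g (D₀ η) := fun _ => rfl
  have h0 : ∀ η, D₀ (π η) = 0 := fun η => by rw [hπ, map_sub, hg, sub_self]
  refine ⟨π, -(LinearMap.llcomp ℝ H (H →ₗ[ℝ] ℝ) H g ∘ₗ C), h0, fun c G => ?_⟩
  obtain ⟨a, ha, hA⟩ := a3c_bd (g ∘ₗ C c)
  obtain ⟨b, hb, hB⟩ := a3c_bd (g ∘ₗ G)
  refine ⟨a * (a + b) + b, 1 / (2 * (a + b + 1)), by positivity, fun t ht => ?_⟩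
  have ht0 := abs_nonneg t
  have ht1 : |t| * (2 * (a + b + 1)) < 1 := (lt_div_iff₀ (by positivity)).1 ht
  have ht2 : |t| ≤ 1 := by nlinarith
  have h1 : ∀ η, (D₀ + t • C c + t ^ 2 • G) η = 0 →
      η - π η = -(t • (g ∘ₗ C c) η) - t ^ 2 • (g ∘ₗ G) η := fun η hη => by
    have : D₀ η = -(t • C c η) - t ^ 2 • G η := by
      rw [LinearMap.add_apply, LinearMap.add_apply, LinearMap.smul_apply, LinearMap.smul_apply] at hη
      rw [← sub_eq_zero, ← hη]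
      abel
    rw [hπ, sub_sub_cancel, this, map_sub, map_neg, map_smul, map_smul]
    rfl
  have h2 : ∀ η, (D₀ + t • C c + t ^ 2 • G) η = 0 → ‖η - π η‖ ≤ |t| * (a + b) * ‖η‖ := fun η hη => by
    rw [h1 η hη]
    refine (norm_sub_le _ _).trans ?_
    rw [norm_neg, norm_smul, norm_smul, Real.norm_eq_abs, Real.norm_eq_abs, abs_pow]
    have e1 := mul_le_mul_of_nonneg_left (hA η) ht0
    have e2 : |t| ^ 2 * ‖(g ∘ₗ G) η‖ ≤ |t| * (b * ‖η‖) :=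
      mul_le_mul (by nlinarith) (hB η) (norm_nonneg _) ht0
    linarith
  have h3 : ∀ η, (D₀ + t • C c + t ^ 2 • G) η = 0 → ‖η‖ ≤ 2 * ‖π η‖ := fun η hη => by
    have e1 := h2 η hη
    have e2 := norm_sub_norm_le η (π η)
    have e3 : |t| * (a + b) * ‖η‖ ≤ 1 / 2 * ‖η‖ := mul_le_mul_of_nonneg_right (by nlinarith) (norm_nonneg _)
    linarith
  refine ⟨fun η hη => ?_, fun hd η₀ hη₀ => ?_⟩
  · have e : η - π η - t • (-(LinearMap.llcomp ℝ H (H →ₗ[ℝ] ℝ) H g ∘ₗ C)) c (π η) =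
        -(t • (g ∘ₗ C c) (η - π η)) - t ^ 2 • (g ∘ₗ G) η := by
      rw [map_sub, smul_sub, neg_sub, h1 η hη]
      change _ - t • -(g ∘ₗ C c) (π η) = _
      rw [smul_neg]
      abel
    rw [e]
    refine (norm_sub_le _ _).trans ?_
    rw [norm_neg, norm_smul, norm_smul, Real.norm_eq_abs, Real.norm_eq_abs, abs_pow, ← sq_abs t]
    have e1 := mul_le_mul_of_nonneg_left ((hA _).trans (mul_le_mul_of_nonneg_left (h2 η hη) ha)) ht0
    have e2 := mul_le_mul_of_nonneg_left (hB η) (sq_nonneg |t|)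
    linarith
  · let φ : LinearMap.ker (D₀ + t • C c + t ^ 2 • G) →ₗ[ℝ] LinearMap.ker D₀ :=
      π.restrict fun η _ => h0 η
    have hi : Function.Injective φ := (injective_iff_map_eq_zero φ).2 fun η hη => by
      have e := h3 η.1 η.2
      rw [show π η.1 = 0 from congrArg Subtype.val hη, norm_zero, mul_zero] at e
      exact Subtype.ext (norm_le_zero_iff.1 e)
    obtain ⟨η, hη⟩ := (LinearMap.injective_iff_surjective_of_finrank_eq_finrank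
      (le_antisymm (LinearMap.finrank_le_finrank_of_injective hi) hd)).1 hi ⟨η₀, hη₀⟩
    have e : π η.1 = η₀ := congrArg Subtype.val hη
    exact ⟨η.1, η.2, e, e ▸ h3 η.1 η.2⟩

/-- for a symmetric semidefinite form, isotropic vectors are in the kernel -/
theorem ker_of_isotropic {H : Type} [AddCommGroup H] [Module ℝ H] (D : H →ₗ[ℝ] H →ₗ[ℝ] ℝ)
    (hs : ∀ a b, D a b = D b a) (hpsd : ∀ a, 0 ≤ D a a) (η : H) (h : D η η = 0) : D η = 0 := by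
  exact (LinearMap.BilinForm.apply_apply_same_eq_zero_iff D hpsd ⟨hs⟩).1 h

end Crest.Agent.R237
end
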