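import Crest.Agent.R237.A0

set_option autoImplicit false
open scoped BigOperators Matrix
open Crest.GeometryTopology

noncomputable section
namespace Crest.Agent.R237

/-! # A3d: `Q` dominates no bilinear square.

Recipe.  `Qf y (J y a) = 0` (`Qm_mulVec_J`), so `β y (J y a) = 0` for all `y, a`.  With the 24 unknowns
`β (e_i) (e_j)`, evaluating at `y = e_i` and `y = e_i + e_i'` gives 24 linear equations with determinant `65536`;
`linarith` each unknown. -/

theorem no_touch (β : (Fin 3 → ℝ) →ₗ[ℝ] (Fin 8 → ℝ) →ₗ[ℝ] ℝ) (K : ℝ)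
    (h : ∀ y c, β y c ^ 2 ≤ K * Qf y c) : β = 0 := by
  have h0 : ∀ y a, β y (J y a) = 0 := fun y a => by
    have := h y (J y a)
    rw [Qf, Qm_mulVec_J, dotProduct_zero, mul_zero] at this
    exact pow_eq_zero_iff (two_ne_zero) |>.1 (le_antisymm this (sq_nonneg _))
  obtain ⟨b, hb⟩ : ∃ b : Fin 3 → Fin 8 → ℝ, ∀ y c, β y c = ∑ i, ∑ j, y i * c j * b i j := by
    refine ⟨fun i j => β (Pi.single i 1) (Pi.single j 1), fun y c => ?_⟩
    conv_lhs => rw [pi_eq_sum_univ' y, pi_eq_sum_univ' c]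
    simp only [map_sum, map_smul, LinearMap.sum_apply, LinearMap.smul_apply, smul_eq_mul, Finset.mul_sum]
    rw [Finset.sum_comm]
    exact Finset.sum_congr rfl fun i _ => Finset.sum_congr rfl fun j _ => by ring
  have h1 : ∀ (p q r : ℝ) a, ∑ i, ∑ j, (![p, q, r] : Fin 3 → ℝ) i * J ![p, q, r] a j * b i j = 0 :=
    fun p q r a => by rw [← hb, h0]
  have e0 := fun p q r => h1 p q r 0
  have e1 := fun p q r => h1 p q r 1
  have e2 := fun p q r => h1 p q r 2
  have e3 := fun p q r => h1 p q r 3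
  simp only [J, Fin.sum_univ_three, Fin.sum_univ_eight, Matrix.cons_val_zero, Matrix.cons_val_one,
    Matrix.cons_val] at e0 e1 e2 e3
  have hz : ∀ i j, b i j = 0 := by
    have a1 := e0 1 0 0
    have a2 := e0 0 1 0
    have a3 := e0 0 0 1
    have a4 := e0 1 1 0
    have a5 := e0 1 0 1
    have a6 := e0 0 1 1
    have b1 := e1 1 0 0
    have b2 := e1 0 1 0
    have b3 := e1 0 0 1
    have b4 := e1 1 1 0
    have b5 := e1 1 0 1
    have b6 := e1 0 1 1
    have c1 := e2 1 0 0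
    have c2 := e2 0 1 0
    have c3 := e2 0 0 1
    have c4 := e2 1 1 0
    have c5 := e2 1 0 1
    have c6 := e2 0 1 1
    have d1 := e3 1 0 0
    have d2 := e3 0 1 0
    have d3 := e3 0 0 1
    have d4 := e3 1 1 0
    have d5 := e3 1 0 1
    have d6 := e3 0 1 1
    clear e0 e1 e2 e3 h1 hb h0 h
    norm_num at a1 a2 a3 a4 a5 a6 b1 b2 b3 b4 b5 b6 c1 c2 c3 c4 c5 c6 d1 d2 d3 d4 d5 d6
    intro i j
    fin_cases i <;> fin_cases j <;> simp only [Fin.zero_eta, Fin.mk_one, Fin.reduceFinMk] <;> linarith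
  exact LinearMap.ext₂ fun y c => by simp [hb, hz]

end Crest.Agent.R237
end
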