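import Crest.Agent.R237.A3b
import Crest.Agent.R237.A3c
import Crest.Agent.R237.A3d

set_option autoImplicit false
open scoped BigOperators Matrix
open Crest.GeometryTopology

noncomputable section
namespace Crest.Agent.R237

/-! # A3e: no block pencil exists.

Recipe.  Choose `β₀` minimising `finrank (ker (P.L₂ (bd β)))`.  `bd (β₀ + t c) = bd β₀ + t (0, 2 β₀⬝c, c) + t² |c|² (0,1,0)`,
so `const_rank` applies with `D₀ = P.L₂ (bd β₀)`, `C c = P.L₂ (0, 2 β₀⬝c, c)`, `G = |c|² • P.L₂ (0,1,0)`.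
For `ξ` isotropic for `P.L₁ (bd β₀)` and `η₀ ∈ ker D₀`: `P.B y ξ η₀ = 0` (`upper` with `α = β = β₀`), and the bilinear form
`(y, c) ↦ P.B y ξ (S c η₀)` has square `≤ K Qf y c` with `K = g ξ * g' η₀` (apply `upper` to the lifts `η(t) → η₀`,
divide by `t²`, let `t → 0`; or use `K = g ξ * (bound of g' on the ball of radius 2‖η₀‖)`), so it vanishes (`no_touch`).
Fix `y, c` with `Qf y c > 0` (`exists_Qf_pos`).  `touch` at `α = β₀`, `β = β₀ + t c` gives `ξ, η ≠ 0` with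
`g ξ g' η t² Q ≤ 2 (B y ξ η)²`, and `B y ξ η = B y ξ (η - π η - t S c (π η))` is `O(t² ‖ξ‖ ‖η‖)`, while
`g ξ ≥ κ ‖ξ‖²`, `g' η ≥ κ ‖η‖²` (`cmp₁`, `cmp₂`, `p₁`, `p₂`, compactness of the unit spheres).  Contradiction as `t → 0`. -/

theorem a3e_bound {H₁ H₀ : Type} [NormedAddCommGroup H₁] [NormedSpace ℝ H₁] [FiniteDimensional ℝ H₁]
    [NormedAddCommGroup H₀] [NormedSpace ℝ H₀] [FiniteDimensional ℝ H₀] (L : H₁ →ₗ[ℝ] H₀ →ₗ[ℝ] ℝ) :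
    ∃ M : ℝ, 0 ≤ M ∧ ∀ a b, |L a b| ≤ M * ‖a‖ * ‖b‖ := by
  let L' : H₁ →L[ℝ] H₀ →L[ℝ] ℝ :=
    LinearMap.toContinuousLinearMap
      ((LinearMap.toContinuousLinearMap : (H₀ →ₗ[ℝ] ℝ) ≃ₗ[ℝ] H₀ →L[ℝ] ℝ).toLinearMap ∘ₗ L)
  exact ⟨‖L'‖, L'.opNorm_nonneg, fun a b => L'.le_opNorm₂ a b⟩

theorem a3e_coer {H : Type} [NormedAddCommGroup H] [NormedSpace ℝ H] [FiniteDimensional ℝ H]
    (L : H →ₗ[ℝ] H →ₗ[ℝ] ℝ) (hp : ∀ a, a ≠ 0 → 0 < L a a) : ∃ κ : ℝ, 0 < κ ∧ ∀ a, κ * ‖a‖ ^ 2 ≤ L a a := by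
  let L' : H →L[ℝ] H →L[ℝ] ℝ :=
    LinearMap.toContinuousLinearMap
      ((LinearMap.toContinuousLinearMap : (H →ₗ[ℝ] ℝ) ≃ₗ[ℝ] H →L[ℝ] ℝ).toLinearMap ∘ₗ L)
  have hc : Continuous fun a : H => L a a := (L'.continuous.clm_apply continuous_id :)
  obtain ⟨κ, hκ, h⟩ := (isCompact_sphere (0 : H) 1).exists_forall_le' hc.continuousOn (a := 0) fun b hb =>
    hp b (by rintro rfl; simp at hb)
  refine ⟨κ, hκ, fun a => ?_⟩
  by_cases ha : a = 0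
  · simp [ha]
  have hn : 0 < ‖a‖ := norm_pos_iff.2 ha
  have h1 := h (‖a‖⁻¹ • a) (by simp [norm_smul, hn.ne'])
  simp only [map_smul, LinearMap.smul_apply, smul_eq_mul] at h1
  calc κ * ‖a‖ ^ 2 ≤ ‖a‖⁻¹ * (‖a‖⁻¹ * L a a) * ‖a‖ ^ 2 := by gcongr
    _ = L a a := by field_simp

theorem a3e_small {t₀ M ε : ℝ} (ht : 0 < t₀) (hε : 0 < ε) : ∃ t, 0 < t ∧ t < t₀ ∧ t ≤ 1 ∧ M * t ≤ ε := by
  have h1 : 0 < ε / (|M| + 1) := by positivity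
  refine ⟨min (min (t₀ / 2) 1) (ε / (|M| + 1)), by positivity,
    (min_le_left _ _).trans_lt ((min_le_left _ _).trans_lt (by linarith)),
    (min_le_left _ _).trans (min_le_right _ _), ?_⟩
  calc M * min (min (t₀ / 2) 1) (ε / (|M| + 1)) ≤ (|M| + 1) * min (min (t₀ / 2) 1) (ε / (|M| + 1)) :=
        mul_le_mul_of_nonneg_right (by linarith [le_abs_self M]) (by positivity)
    _ ≤ (|M| + 1) * (ε / (|M| + 1)) := mul_le_mul_of_nonneg_left (min_le_right _ _) (by positivity)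
    _ = ε := by field_simp

theorem a3e_lim {t₀ M A b : ℝ} (ht : 0 < t₀) (hA : 0 ≤ A)
    (h : ∀ t, 0 < t → t < t₀ → ∃ e, |e| ≤ M * t ^ 2 ∧ (e + t * b) ^ 2 ≤ A * t ^ 2) : b ^ 2 ≤ A := by
  have : |b| ≤ √A := le_of_forall_pos_le_add fun ε hε => by
    obtain ⟨t, h0, h1, -, h2⟩ := a3e_small (M := M) ht hε
    obtain ⟨e, h3, h4⟩ := h t h0 h1
    have h5 : |e + t * b| ≤ √A * t := by
      refine abs_le_of_sq_le_sq ?_ (by positivity)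
      rwa [mul_pow, Real.sq_sqrt hA]
    have h6 : t * |b| ≤ |e + t * b| + |e| := by
      calc t * |b| = |(e + t * b) - e| := by rw [add_sub_cancel_left, abs_mul, abs_of_pos h0]
        _ ≤ _ := abs_sub _ _
    refine le_of_mul_le_mul_left ?_ h0
    nlinarith
  calc b ^ 2 = |b| ^ 2 := (sq_abs b).symm
    _ ≤ √A ^ 2 := by gcongr
    _ = A := Real.sq_sqrt hA

theorem no_pencil {H₁ H₀ : Type} [NormedAddCommGroup H₁] [NormedSpace ℝ H₁] [FiniteDimensional ℝ H₁]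
    [NormedAddCommGroup H₀] [NormedSpace ℝ H₀] [FiniteDimensional ℝ H₀] (P : Pencil H₁ H₀) : False := by
  classical
  obtain ⟨β₀, hmin⟩ : ∃ β₀ : Fin 8 → ℝ, ∀ β, Module.finrank ℝ (LinearMap.ker (P.L₂ (bd β₀))) ≤
      Module.finrank ℝ (LinearMap.ker (P.L₂ (bd β))) := by
    have hex : ∃ n, ∃ β : Fin 8 → ℝ, Module.finrank ℝ (LinearMap.ker (P.L₂ (bd β))) = n := ⟨_, 0, rfl⟩
    obtain ⟨β₀, h⟩ := Nat.find_spec hex
    exact ⟨β₀, fun β => h ▸ Nat.find_min' hex ⟨β, rfl⟩⟩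
  let ι : (Fin 8 → ℝ) →ₗ[ℝ] ℝ × ℝ × (Fin 8 → ℝ) :=
    { toFun := fun c => (0, 2 * (β₀ ⬝ᵥ c), c)
      map_add' := fun c d => by simp [mul_add]
      map_smul' := fun s c => by simp; ring }
  have hD : ∀ (t : ℝ) (c : Fin 8 → ℝ), P.L₂ (bd (β₀ + t • c)) =
      P.L₂ (bd β₀) + t • (P.L₂ ∘ₗ ι) c + t ^ 2 • ((c ⬝ᵥ c) • P.L₂ (0, 1, 0)) := fun t c => by
    rw [LinearMap.comp_apply, ← map_smul P.L₂, ← map_smul P.L₂, ← map_smul P.L₂, ← map_add, ← map_add]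
    congr 1
    refine Prod.ext (by simp [bd, ι]) (Prod.ext ?_ (by simp [bd, ι]))
    simp [bd, ι, dotProduct_comm c β₀]
    ring
  have hpsd : ∀ β η, 0 ≤ P.L₂ (bd β) η η := fun β η => P.psd₂ 1 _ β one_pos (by simp) η
  obtain ⟨π, S, hπ, hS⟩ := const_rank (P.L₂ (bd β₀)) (P.L₂ ∘ₗ ι) (P.s₂ _) (hpsd β₀)
  have hB0 : ∀ y ξ η, P.L₁ (bd β₀) ξ ξ = 0 → P.L₂ (bd β₀) η = 0 → P.B y ξ η = 0 := fun y ξ η hξ hη => by
    have := P.upper β₀ β₀ y ξ η hξ (by rw [hη]; rfl)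
    rw [sub_self, Qf, zero_dotProduct, mul_zero] at this
    exact pow_eq_zero_iff two_ne_zero |>.1 (le_antisymm this (sq_nonneg _))
  have hsplit : ∀ y ξ η c (t : ℝ), P.L₁ (bd β₀) ξ ξ = 0 →
      P.B y ξ η = P.B y ξ (η - π η - t • S c (π η)) + t * P.B y ξ (S c (π η)) := fun y ξ η c t hξ => by
    rw [map_sub, map_sub, map_smul, hB0 y ξ _ hξ (hπ η), smul_eq_mul]
    ring
  obtain ⟨Mg, hMg0, hMg⟩ := a3e_bound (P.L₂ (0, 1, 0))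
  have hB1 : ∀ y ξ η₀ c, P.L₁ (bd β₀) ξ ξ = 0 → P.L₂ (bd β₀) η₀ = 0 → P.B y ξ (S c η₀) = 0 := by
    intro y ξ η₀ c hξ hη
    have := no_touch (LinearMap.mk₂ ℝ (fun y c => P.B y ξ (S c η₀)) (by simp) (by simp) (by simp) (by simp))
      (P.L₁ (0, 1, 0) ξ ξ * (Mg * (2 * ‖η₀‖) * (2 * ‖η₀‖))) (fun y c => by
        obtain ⟨K, t₀, ht₀, hK⟩ := hS c ((c ⬝ᵥ c) • P.L₂ (0, 1, 0))
        obtain ⟨MB, hMB0, hMB⟩ := a3e_bound (P.B y)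
        have hg := P.g_nonneg₁ ξ
        have hQ := Qf_nonneg y c
        refine a3e_lim (M := MB * ‖ξ‖ * (|K| * (2 * ‖η₀‖))) ht₀ (by positivity) fun t h0 h1 => ?_
        obtain ⟨h2, h3⟩ := hK t (by rwa [abs_of_pos h0])
        rw [← hD] at h2 h3
        obtain ⟨η, h4, h5, h6⟩ := h3 (hmin _) η₀ hη
        refine ⟨P.B y ξ (η - π η - t • S c (π η)), ?_, ?_⟩
        · calc _ ≤ MB * ‖ξ‖ * ‖η - π η - t • S c (π η)‖ := hMB _ _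
            _ ≤ MB * ‖ξ‖ * (|K| * t ^ 2 * (2 * ‖η₀‖)) := by
              gcongr
              exact (h2 η h4).trans (by gcongr; exact le_abs_self K)
            _ = _ := by ring
        · have h7 := P.upper β₀ _ y ξ η hξ (by rw [h4]; rfl)
          rw [add_sub_cancel_left, Qf_smul, hsplit y ξ η c t hξ, h5] at h7
          rw [h5, LinearMap.mk₂_apply]
          refine h7.trans ?_
          have h8 : P.L₂ (0, 1, 0) η η ≤ Mg * (2 * ‖η₀‖) * (2 * ‖η₀‖) :=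
            (le_abs_self _).trans ((hMg η η).trans (by gcongr))
          calc _ ≤ P.L₁ (0, 1, 0) ξ ξ * (Mg * (2 * ‖η₀‖) * (2 * ‖η₀‖)) * (t ^ 2 * Qf y c) := by gcongr
            _ = _ := by ring)
    exact LinearMap.congr_fun₂ this y c
  obtain ⟨y, c, hQ⟩ := exists_Qf_pos
  obtain ⟨K, t₀, ht₀, hK⟩ := hS c ((c ⬝ᵥ c) • P.L₂ (0, 1, 0))
  obtain ⟨MB, hMB0, hMB⟩ := a3e_bound (P.B y)
  obtain ⟨κ₁, hκ₁, hc₁⟩ := a3e_coer _ P.p₁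
  obtain ⟨κ₂, hκ₂, hc₂⟩ := a3e_coer _ P.p₂
  have hdot : ∀ v : Fin 8 → ℝ, 0 ≤ v ⬝ᵥ v := fun v => Finset.sum_nonneg fun i _ => mul_self_nonneg _
  set a := β₀ ⬝ᵥ β₀ + 2 with ha
  set b := 2 * (β₀ ⬝ᵥ β₀) + 2 * (c ⬝ᵥ c) + 2 with hb
  have ha0 : 0 < a := by linarith [hdot β₀]
  have hb0 : 0 < b := by linarith [hdot β₀, hdot c]
  obtain ⟨t, h0, h1, h1', h2⟩ := a3e_small (M := 2 * a * b * (MB * K) ^ 2) ht₀
    (show 0 < κ₁ * κ₂ * Qf y c / 2 by positivity)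
  obtain ⟨ξ, η, hξ0, hη0, hξ, hη, h3⟩ := P.touch β₀ (β₀ + t • c) y (by
    rw [add_sub_cancel_left, Qf_smul]; positivity)
  have hk := ker_of_isotropic _ (P.s₂ _) (hpsd _) η hη
  have h4 := (hK t (by rwa [abs_of_pos h0])).1 η (hD t c ▸ hk)
  rw [add_sub_cancel_left, Qf_smul, hsplit y ξ η c t hξ, hB1 y ξ _ c hξ (hπ η), mul_zero, add_zero] at h3
  have h5 : |P.B y ξ (η - π η - t • S c (π η))| ≤ MB * ‖ξ‖ * (K * t ^ 2 * ‖η‖) :=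
    (hMB _ _).trans (by gcongr)
  have h6 : P.B y ξ (η - π η - t • S c (π η)) ^ 2 ≤ (MB * ‖ξ‖ * (K * t ^ 2 * ‖η‖)) ^ 2 := by
    rw [← sq_abs]
    gcongr
  have h7 : κ₁ * ‖ξ‖ ^ 2 ≤ a * P.L₁ (0, 1, 0) ξ ξ := (hc₁ ξ).trans (P.cmp₁ β₀ ξ hξ)
  have h8 : κ₂ * ‖η‖ ^ 2 ≤ b * P.L₂ (0, 1, 0) η η := by
    refine (hc₂ η).trans ((P.cmp₂ _ η hη).trans (mul_le_mul_of_nonneg_right ?_ (P.g_nonneg₂ η)))
    have h9 := hdot (β₀ - t • c)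
    have h10 : t * t * (c ⬝ᵥ c) ≤ 1 * 1 * (c ⬝ᵥ c) := by
      have := hdot c
      gcongr
    simp only [add_dotProduct, dotProduct_add, sub_dotProduct, dotProduct_sub, smul_dotProduct, dotProduct_smul,
      smul_eq_mul] at h9 ⊢
    linarith
  have hn₁ : 0 < ‖ξ‖ := norm_pos_iff.2 hξ0
  have hn₂ : 0 < ‖η‖ := norm_pos_iff.2 hη0
  have h11 : (‖ξ‖ ^ 2 * ‖η‖ ^ 2 * t ^ 2) * (κ₁ * κ₂ * Qf y c) ≤
      (‖ξ‖ ^ 2 * ‖η‖ ^ 2 * t ^ 2) * (2 * a * b * (MB * K) ^ 2 * t * t) := by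
    calc _ = (κ₁ * ‖ξ‖ ^ 2) * (κ₂ * ‖η‖ ^ 2) * (t ^ 2 * Qf y c) := by ring
      _ ≤ (a * P.L₁ (0, 1, 0) ξ ξ) * (b * P.L₂ (0, 1, 0) η η) * (t ^ 2 * Qf y c) := by
        have := P.g_nonneg₁ ξ
        gcongr
      _ = a * b * (P.L₁ (0, 1, 0) ξ ξ * P.L₂ (0, 1, 0) η η * (t ^ 2 * Qf y c)) := by ring
      _ ≤ a * b * (2 * (MB * ‖ξ‖ * (K * t ^ 2 * ‖η‖)) ^ 2) :=
        mul_le_mul_of_nonneg_left (by linarith) (by positivity)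
      _ = _ := by ring
  have h12 := le_of_mul_le_mul_left h11 (by positivity)
  have h13 : 2 * a * b * (MB * K) ^ 2 * t * t ≤ κ₁ * κ₂ * Qf y c / 2 * 1 := by gcongr
  have h14 : 0 < κ₁ * κ₂ * Qf y c := by positivity
  linarith

end Crest.Agent.R237
end
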