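import Crest.Agent.R237.A0

set_option autoImplicit false
open scoped BigOperators Matrix
open Crest.GeometryTopology

noncomputable section
namespace Crest.Agent.R237

/-! # A4a: true values are feasible.

Recipe.  `N = Ny y`, `Π = Qm y / N` (projection, `0` if `y = 0`; all divisions by `N` are harmless then),
`m` as in the docstring of `mT` (then `mT y m i a b = y i * y a * y b / N`, `phi y m i j k = y i * Π j k` by `Qc_sum`),
`su = |u|²/ρ`, `sv = |v|²/σ`, `θρ i j = y i (Π u) j / ρ`, `θσ i j = y i (Π v) j / σ`,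
`t i i' a b = y i y i' y a y b / (4 N ρ)`, `T`-part `y i y i' / (2σ)`, `w₀ = Π δ`; if `Qf y δ = N |w₀|² = 0` take the
`A`- and `B`-parts `0`, else `nn > 0`, `τ = nn / |w₀|²`, `A`-part `τ w₀ j w₀ j' / 2`, `B`-part `y i y i' / (2τ)`.
The three forms are the squares in the docstrings of `ADefs`; `slack1 = nn - τ |w₀|²`, `slack2 = nn' - N/τ`.
Bounds: `|y i| ≤ √N`, `|u|²/ρ, N/σ ≤ xx`, `|v|²/σ, 4N/ρ ≤ ζ`, `nn ≤ xx`, `nn' ≤ ζ`, AM-GM; every coordinate of `w` is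
at most `2 ‖x‖` (sup norms: `pi_norm_le_iff_of_nonneg`, `Prod.norm_def`). -/

theorem a4a_sq (y : Fin 3 → ℝ) (a : Fin 3) : y a ^ 2 ≤ Ny y := by
  have h0 := sq_nonneg (y 0)
  have h1 := sq_nonneg (y 1)
  have h2 := sq_nonneg (y 2)
  fin_cases a <;> simp only [Ny, Fin.zero_eta, Fin.mk_one, Fin.reduceFinMk] <;> linarith

theorem a4a_amgm (a b : ℝ) : |a * b| ≤ (a ^ 2 + b ^ 2) / 2 :=
  abs_le.2 ⟨by nlinarith [sq_nonneg (a + b)], by nlinarith [sq_nonneg (a - b)]⟩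

theorem a4a_yy (y : Fin 3 → ℝ) (a b : Fin 3) : |y a * y b| ≤ Ny y := by
  linarith [a4a_amgm (y a) (y b), a4a_sq y a, a4a_sq y b]

theorem a4a_dot (v : Fin 8 → ℝ) : 0 ≤ v ⬝ᵥ v := Finset.sum_nonneg fun _ _ => mul_self_nonneg _

theorem a4a_coord (v : Fin 8 → ℝ) (j : Fin 8) : v j ^ 2 ≤ v ⬝ᵥ v := by
  rw [sq]
  exact Finset.single_le_sum (f := fun j => v j * v j) (fun _ _ => mul_self_nonneg _) (Finset.mem_univ j)

/-- the projection -/
def a4aP (y : Fin 3 → ℝ) : Matrix (Fin 8) (Fin 8) ℝ := (Ny y)⁻¹ • Qm y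

theorem a4a_swap (y : Fin 3 → ℝ) (z p : Fin 8 → ℝ) : z ⬝ᵥ a4aP y *ᵥ p = (a4aP y *ᵥ z) ⬝ᵥ p := by
  rw [Matrix.dotProduct_mulVec, ← Matrix.mulVec_transpose]
  congr 2
  ext j k
  simp [a4aP, Qm_symm y k j]

theorem a4a_form (y : Fin 3 → ℝ) (c : Fin 8 → ℝ) : c ⬝ᵥ a4aP y *ᵥ c = (Ny y)⁻¹ * Qf y c := by
  rw [a4aP, Matrix.smul_mulVec, dotProduct_smul, smul_eq_mul, Qf]

theorem a4a_idem (y : Fin 3 → ℝ) (c : Fin 8 → ℝ) : (a4aP y *ᵥ c) ⬝ᵥ (a4aP y *ᵥ c) = (Ny y)⁻¹ * Qf y c := by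
  rw [a4aP, Matrix.smul_mulVec, dotProduct_smul, smul_dotProduct, Qm_dot_Qm, smul_eq_mul, smul_eq_mul]
  by_cases h : Ny y = 0
  · simp [h]
  · field_simp

theorem a4a_le (y : Fin 3 → ℝ) (c : Fin 8 → ℝ) : (Ny y)⁻¹ * Qf y c ≤ c ⬝ᵥ c := by
  rcases (Ny_nonneg y).eq_or_lt with h | h
  · rw [← h, inv_zero, zero_mul]
    exact a4a_dot c
  · rw [inv_mul_le_iff₀ h]
    exact Qf_le y c

/-- the true value of `m` -/
def a4aM (y : Fin 3 → ℝ) : Fin 7 → ℝ :=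
  ![y 0 * (y 1 * y 1) / Ny y, y 0 * (y 2 * y 2) / Ny y, y 1 * (y 1 * y 1) / Ny y, y 1 * (y 2 * y 2) / Ny y,
    y 2 * (y 1 * y 1) / Ny y, y 2 * (y 2 * y 2) / Ny y, y 0 * (y 1 * y 2) / Ny y]

theorem a4a_mT (y : Fin 3 → ℝ) (i a b : Fin 3) : mT y (a4aM y) i a b = y i * (y a * y b) * (Ny y)⁻¹ := by
  by_cases hy : y = 0
  · subst hy
    fin_cases i <;> fin_cases a <;> fin_cases b <;> simp [mT, a4aM]
  · have h := (Ny_pos y hy).ne'
    fin_cases i <;> fin_cases a <;> fin_cases b <;> simp [mT, a4aM] <;> field_simp <;> simp only [Ny] <;> ring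

theorem a4a_phi (y : Fin 3 → ℝ) (i : Fin 3) (j k : Fin 8) : phi y (a4aM y) i j k = y i * a4aP y j k := by
  simp only [phi, a4a_mT, a4aP, Matrix.smul_apply, smul_eq_mul, ← Qc_sum, Finset.mul_sum]
  exact Finset.sum_congr rfl fun a _ => Finset.sum_congr rfl fun b _ => by ring

theorem a4a_m_le (y : Fin 3 → ℝ) (i a b : Fin 3) : |y i * (y a * y b) / Ny y| ≤ |y i| := by
  rw [mul_div_assoc, abs_mul, abs_div, abs_of_nonneg (Ny_nonneg y)]
  exact mul_le_of_le_one_right (abs_nonneg _) (div_le_one_of_le₀ (a4a_yy y a b) (Ny_nonneg y))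

/-- the true values of the lifted variables -/
def a4aW (x : Fin 23 → ℝ) (τ : ℝ) : W :=
  (a4aM (yy x), (uu x ⬝ᵥ uu x / x 0, vv x ⬝ᵥ vv x / x 1),
    (fun i j => yy x i * (a4aP (yy x) *ᵥ uu x) j / x 0, fun i j => yy x i * (a4aP (yy x) *ᵥ vv x) j / x 1),
    fun i i' a b => yy x i * yy x i' * (yy x a * yy x b) / (4 * Ny (yy x) * x 0),
    fun i i' => yy x i * yy x i' / (2 * x 1),
    fun j j' => τ * ((a4aP (yy x) *ᵥ del x) j * (a4aP (yy x) *ᵥ del x) j') / 2,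
    fun i i' => yy x i * yy x i' / (2 * τ))

theorem a4a_Γ (x : Fin 23 → ℝ) (τ : ℝ) (i : Fin 3) (j : Fin 8) (i' : Fin 3) (j' : Fin 8) :
    (a4aW x τ).Γ i j i' j' = yy x i * yy x i' * a4aP (yy x) j j' / x 0 := by
  have h : (a4aW x τ).Γ i j i' j' = yy x i * yy x i' * (Ny (yy x))⁻¹ / x 0 / 2 *
      ((∑ a, ∑ b, Qc a b j j' * (yy x a * yy x b)) + ∑ a, ∑ b, Qc a b j' j * (yy x a * yy x b)) := by
    simp only [W.Γ, a4aW, ← Finset.sum_add_distrib, Finset.mul_sum]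
    exact Finset.sum_congr rfl fun a _ => Finset.sum_congr rfl fun b _ => by ring
  rw [h, Qc_sum, Qc_sum, Qm_symm _ j' j, a4aP, Matrix.smul_apply, smul_eq_mul]
  ring

theorem a4a_T (x : Fin 23 → ℝ) (τ : ℝ) (i i' : Fin 3) : (a4aW x τ).T i i' = yy x i * yy x i' / x 1 := by
  simp only [W.T, a4aW]
  ring

theorem a4a_A (x : Fin 23 → ℝ) (τ : ℝ) (j j' : Fin 8) :
    (a4aW x τ).A j j' = τ * ((a4aP (yy x) *ᵥ del x) j * (a4aP (yy x) *ᵥ del x) j') := by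
  simp only [W.A, a4aW]
  ring

theorem a4a_B (x : Fin 23 → ℝ) (τ : ℝ) (i i' : Fin 3) : (a4aW x τ).B i i' = yy x i * yy x i' / τ := by
  simp only [W.B, a4aW]
  ring

theorem a4a_s3 (η : Fin 3 → Fin 8 → ℝ) (y : Fin 3 → ℝ) (p : Fin 8 → ℝ) :
    ∑ i, ∑ j, ∑ k, η i j * (y i * a4aP y j k) * p k = (a4aP y *ᵥ fun j => ∑ i, η i j * y i) ⬝ᵥ p := by
  rw [← a4a_swap, Finset.sum_comm]
  simp only [dotProduct, Matrix.mulVec, Finset.sum_mul, Finset.mul_sum]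
  refine Finset.sum_congr rfl fun j _ => ?_
  rw [Finset.sum_comm]
  exact Finset.sum_congr rfl fun a _ => Finset.sum_congr rfl fun b _ => by ring

theorem a4a_s2 (η : Fin 3 → Fin 8 → ℝ) (y : Fin 3 → ℝ) (u : Fin 8 → ℝ) (r : ℝ) :
    ∑ i, ∑ j, η i j * (y i * (a4aP y *ᵥ u) j / r) = (a4aP y *ᵥ fun j => ∑ i, η i j * y i) ⬝ᵥ u / r := by
  rw [← a4a_swap, Finset.sum_comm]
  simp only [dotProduct, Finset.sum_mul, Finset.sum_div]
  exact Finset.sum_congr rfl fun a _ => Finset.sum_congr rfl fun b _ => by ring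

theorem a4a_s4 (η : Fin 3 → Fin 8 → ℝ) (y : Fin 3 → ℝ) (r : ℝ) :
    ∑ i, ∑ j, ∑ i', ∑ j', η i j * (y i * y i' * a4aP y j j' / r) * η i' j' =
      (a4aP y *ᵥ fun j => ∑ i, η i j * y i) ⬝ᵥ (a4aP y *ᵥ fun j => ∑ i, η i j * y i) / r := by
  rw [a4a_idem, ← a4a_form, Finset.sum_comm]
  simp only [dotProduct, Matrix.mulVec, Finset.sum_mul, Finset.mul_sum, Finset.sum_div]
  refine Finset.sum_congr rfl fun j _ => ?_
  rw [Finset.sum_congr rfl fun i _ => Finset.sum_comm, Finset.sum_comm]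
  refine Finset.sum_congr rfl fun j' _ => ?_
  rw [Finset.sum_comm]
  exact Finset.sum_congr rfl fun a _ => Finset.sum_congr rfl fun b _ => by ring

theorem a4a_s5 (η : Fin 3 → Fin 8 → ℝ) (y : Fin 3 → ℝ) (r : ℝ) :
    ∑ i, ∑ i', ∑ j, η i j * (y i * y i' / r) * η i' j =
      (fun j => ∑ i, η i j * y i) ⬝ᵥ (fun j => ∑ i, η i j * y i) / r := by
  rw [Finset.sum_congr rfl fun i _ => Finset.sum_comm, Finset.sum_comm]
  simp only [dotProduct, Finset.sum_mul, Finset.mul_sum, Finset.sum_div]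
  refine Finset.sum_congr rfl fun j _ => ?_
  rw [Finset.sum_comm]
  exact Finset.sum_congr rfl fun a _ => Finset.sum_congr rfl fun b _ => by ring

theorem a4a_square {r : ℝ} (hr : 0 < r) (p u q : Fin 8 → ℝ) (ξ : ℝ) :
    0 ≤ r * (p ⬝ᵥ p) + 2 * ξ * (u ⬝ᵥ p) + u ⬝ᵥ u / r * ξ ^ 2 + 2 * (q ⬝ᵥ p) + 2 * ξ * (q ⬝ᵥ u / r) + q ⬝ᵥ q / r := by
  have h := div_nonneg (a4a_dot (r • p + ξ • u + q)) hr.le
  simp only [add_dotProduct, dotProduct_add, smul_dotProduct, dotProduct_smul, smul_eq_mul, dotProduct_comm p u,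
    dotProduct_comm p q, dotProduct_comm u q] at h
  refine h.trans_eq ?_
  field_simp
  ring

theorem a4a_gw (y : Fin 3 → ℝ) (r : ℝ) : ∑ i, gw i * (y i * y i / r) = Ny y / r := by
  simp [gw, Ny, Fin.sum_univ_three]
  ring

theorem a4a_tr (y : Fin 3 → ℝ) (r : ℝ) : ∑ i, ∑ j, gw i * (y i * y i * a4aP y j j / r) = 4 * Ny y / r := by
  have h : ∑ i, ∑ j, gw i * (y i * y i * a4aP y j j / r) =
      (∑ i, gw i * (y i * y i / r)) * ((Ny y)⁻¹ * ∑ j, Qm y j j) := by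
    simp only [a4aP, Matrix.smul_apply, smul_eq_mul, Finset.sum_mul, Finset.mul_sum]
    rw [Finset.sum_comm]
    exact Finset.sum_congr rfl fun a _ => Finset.sum_congr rfl fun b _ => by ring
  rw [h, a4a_gw, trace_Qm]
  by_cases h : Ny y = 0
  · simp [h]
  · field_simp

theorem feas_of_Kb : ∃ C : ℝ, ∀ x : Fin 23 → ℝ, 0 < x 0 → 0 < x 1 → Kb x → ∃ w : W, Feas x w ∧ ‖w‖ ≤ C * ‖x‖ := by
  refine ⟨1, fun x h0 h1 ⟨hn, hn', hQ⟩ => ?_⟩
  have hN := Ny_nonneg (yy x)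
  obtain ⟨w₀, hw₀⟩ : ∃ w₀, w₀ = a4aP (yy x) *ᵥ del x := ⟨_, rfl⟩
  have hww := a4a_dot w₀
  obtain ⟨τ, hτ0, hτ, hτ1, hτ2⟩ : ∃ τ : ℝ, 0 ≤ τ ∧ (w₀ = 0 ∨ 0 < τ) ∧ τ * (w₀ ⬝ᵥ w₀) ≤ nn x ∧ Ny (yy x) / τ ≤ nn' x := by
    rcases hww.eq_or_lt with h | h
    · exact ⟨0, le_rfl, Or.inl (dotProduct_self_eq_zero.1 h.symm), by rwa [zero_mul], by rwa [div_zero]⟩
    · have h2 : w₀ ⬝ᵥ w₀ = (Ny (yy x))⁻¹ * Qf (yy x) (del x) := by rw [hw₀, a4a_idem]
      have h3 : 0 < Ny (yy x) := hN.lt_of_ne fun e => by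
        rw [h2, ← e, inv_zero, zero_mul] at h
        exact lt_irrefl _ h
      have h4 : Qf (yy x) (del x) = Ny (yy x) * (w₀ ⬝ᵥ w₀) := by rw [h2, mul_inv_cancel_left₀ h3.ne']
      have h5 : 0 < nn x := hn.lt_of_ne fun e => by
        rw [h4, ← e, zero_mul] at hQ
        exact absurd hQ (not_le.2 (mul_pos h3 h))
      refine ⟨nn x / (w₀ ⬝ᵥ w₀), by positivity, Or.inr (by positivity), (div_mul_cancel₀ _ h.ne').le, ?_⟩
      rw [div_div_eq_mul_div, div_le_iff₀ h5, ← h4, mul_comm]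
      exact hQ
  refine ⟨a4aW x τ, ⟨fun p ξ η => ?_, fun p ξ η => ?_, fun p q => ?_, ?_, ?_⟩, ?_⟩
  · have := a4a_square h0 p (uu x) (a4aP (yy x) *ᵥ fun j => ∑ i, η i j * yy x i) ξ
    rw [← a4a_s3, ← a4a_s2, ← a4a_s4] at this
    simp only [formρ, a4a_Γ]
    simp only [a4aW, W.m, W.su, W.θρ, a4a_phi]
    exact this
  · have := a4a_square h1 p (vv x) (a4aP (yy x) *ᵥ fun j => ∑ i, η i j * yy x i) ξ
    rw [← a4a_s3, ← a4a_s2, a4a_idem] at this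
    simp only [formσ, a4a_T]
    simp only [a4aW, W.m, W.sv, W.θσ, a4a_phi, a4a_s5]
    refine this.trans ?_
    gcongr
    exact a4a_le _ _
  · have hθ : ∀ i j, (a4aW x τ).θσ i j - (a4aW x τ).θρ i j = yy x i * w₀ j := fun i j => by
      simp only [a4aW, W.θσ, W.θρ, hw₀, del, Matrix.mulVec_sub, Matrix.mulVec_smul, Pi.sub_apply, Pi.smul_apply,
        smul_eq_mul]
      ring
    have e : formN (a4aW x τ) p q = τ * (w₀ ⬝ᵥ p) ^ 2 + 2 * ((q ⬝ᵥ yy x) * (w₀ ⬝ᵥ p)) + (q ⬝ᵥ yy x) ^ 2 / τ := by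
      simp only [formN, a4a_A, a4a_B, hθ, ← hw₀, dotProduct, sq]
      rw [Finset.sum_mul_sum, Finset.sum_mul_sum, Finset.sum_mul_sum]
      simp only [Finset.mul_sum, Finset.sum_div]
      congr 1
      · congr 1 <;> exact Finset.sum_congr rfl fun a _ => Finset.sum_congr rfl fun b _ => by ring
      · exact Finset.sum_congr rfl fun a _ => Finset.sum_congr rfl fun b _ => by ring
    rw [e]
    rcases hτ with h | h
    · rw [h, zero_dotProduct, mul_zero]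
      positivity
    · refine (show 0 ≤ (τ * (w₀ ⬝ᵥ p) + q ⬝ᵥ yy x) ^ 2 / τ by positivity).trans_eq ?_
      field_simp
      ring
  · have e : ∑ j, τ * (w₀ j * w₀ j) = τ * (w₀ ⬝ᵥ w₀) := by rw [dotProduct, Finset.mul_sum]
    simp only [slack1, a4a_T, a4a_A, a4a_gw, ← hw₀, e]
    simp only [a4aW, W.su]
    rw [nn] at hτ1
    linarith
  · simp only [slack2, a4a_Γ, a4a_B, a4a_gw, a4a_tr]
    simp only [a4aW, W.sv]
    rw [nn'] at hτ2
    linarith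
  · have hx : ∀ i, |x i| ≤ ‖x‖ := fun i => norm_le_pi_norm x i
    have hy : ∀ i, |yy x i| ≤ ‖x‖ := fun i => hx _
    have hR := norm_nonneg x
    have h2 := (le_abs_self _).trans (hx 2)
    have h3 := (le_abs_self _).trans (hx 3)
    have u0 : 0 ≤ uu x ⬝ᵥ uu x / x 0 := div_nonneg (a4a_dot _) h0.le
    have v0 : 0 ≤ vv x ⬝ᵥ vv x / x 1 := div_nonneg (a4a_dot _) h1.le
    have n0 : 0 ≤ Ny (yy x) / x 0 := div_nonneg hN h0.le
    have n1 : 0 ≤ Ny (yy x) / x 1 := div_nonneg hN h1.le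
    rw [nn] at hn hτ1
    rw [nn', mul_div_assoc] at hn' hτ2
    have hθ : ∀ (u : Fin 8 → ℝ) (r : ℝ), 0 < r → ∀ i j,
        |yy x i * (a4aP (yy x) *ᵥ u) j / r| ≤ (Ny (yy x) / r + u ⬝ᵥ u / r) / 2 := fun u r hr i j => by
      rw [abs_div, abs_of_pos hr, ← add_div, div_right_comm]
      gcongr
      have := a4a_coord (a4aP (yy x) *ᵥ u) j
      rw [a4a_idem] at this
      linarith [a4a_amgm (yy x i) ((a4aP (yy x) *ᵥ u) j), a4a_sq (yy x) i, a4a_le (yy x) u]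
    have hT : ∀ r : ℝ, 0 ≤ r → ∀ i i', |yy x i * yy x i' / (2 * r)| ≤ Ny (yy x) / r / 2 := fun r hr i i' => by
      rw [abs_div, abs_of_nonneg (by positivity : 0 ≤ 2 * r), div_div, mul_comm r]
      gcongr
      exact a4a_yy _ _ _
    simp only [a4aW, one_mul, norm_prod_le_iff, pi_norm_le_iff_of_nonneg hR, Real.norm_eq_abs, ← hw₀]
    refine ⟨fun i => ?_, ⟨?_, ?_⟩, ⟨fun i j => ?_, fun i j => ?_⟩, fun i i' a b => ?_, fun i i' => ?_,
      fun j j' => ?_, fun i i' => ?_⟩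
    · fin_cases i <;> exact (a4a_m_le _ _ _ _).trans (hy _)
    · rw [abs_of_nonneg u0]
      linarith
    · rw [abs_of_nonneg v0]
      linarith
    · linarith [hθ (uu x) _ h0 i j]
    · linarith [hθ (vv x) _ h1 i j]
    · have e : yy x i * yy x i' * (yy x a * yy x b) / (4 * Ny (yy x) * x 0) =
          yy x i * yy x i' / (2 * x 0) * (yy x a * yy x b / Ny (yy x)) / 2 := by ring
      have h4 : |yy x a * yy x b / Ny (yy x)| ≤ 1 := by
        rw [abs_div, abs_of_nonneg hN]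
        exact div_le_one_of_le₀ (a4a_yy _ _ _) hN
      have h5 := mul_le_of_le_one_right (abs_nonneg (yy x i * yy x i' / (2 * x 0))) h4
      rw [e, abs_div, abs_mul, abs_two]
      linarith [hT _ h0.le i i']
    · linarith [hT _ h1.le i i']
    · have h4 : |w₀ j * w₀ j'| ≤ w₀ ⬝ᵥ w₀ := by
        linarith [a4a_amgm (w₀ j) (w₀ j'), a4a_coord w₀ j, a4a_coord w₀ j']
      have h5 := mul_le_mul_of_nonneg_left h4 hτ0
      rw [abs_div, abs_mul, abs_two, abs_of_nonneg hτ0]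
      linarith
    · linarith [hT _ hτ0 i i']

end Crest.Agent.R237
end
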