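import Crest.Agent.R237.A0

set_option autoImplicit false
open scoped BigOperators Matrix
open Crest.GeometryTopology

noncomputable section
namespace Crest.Agent.R237

/-! # A4b: the master inequality.

Recipe.  Add `Σ_l formρ (P l) (ξ l) (-b₀ • μ l)`, `formσ b b₀ L` with `L i j = Σ_l ξ l * μ l i j`,
`Σ_i formN (L i) (Pi.single i (-b₀ * gw i)) / gw i`, `slack1 * |ξ|²`, `slack2 * b₀²`.  The `θ` terms cancel.
* `Σ_l μ l Γ μ l = Σ_{i j} gw i Γ i j i j`: polarise `Mult` in `y` and `v`; `Γ` is symmetric in `i ↔ i'` and in `j ↔ j'`.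
* `L i ⬝ L i' = gw i δ_{ii'} |ξ|²`: the square matrix `M y = (Σ_i y i μ l i j)_{l j}` has `Mᵀ M = N I`, so
  `M Mᵀ = N I` (`Matrix.mul_eq_one_comm` after scaling); polarise in `y`.
* Bessel: `Σ_i (L i)ᵀ A (L i) / gw i ≤ |ξ|² tr A` for `A ≥ 0` (`formN _ 0`): with `E = |ξ|² I - Σ_i L i (L i)ᵀ / gw i`,
  `E² = |ξ|² E`, so `|ξ|² tr (A E) = Σ_k (E e_k)ᵀ A (E e_k) ≥ 0` (and `ξ = 0` is trivial). -/

theorem a4b_gw (i : Fin 3) : (0 : ℝ) < gw i := by
  fin_cases i <;> simp [gw]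

theorem a4b_bessel {ι κ : Type} [Fintype ι] [Fintype κ] [DecidableEq ι] [DecidableEq κ] (L : ι → κ → ℝ)
    (g : ι → ℝ) (hg : ∀ i, g i ≠ 0) {E : ℝ} (hE : 0 ≤ E)
    (hL : ∀ i i', L i ⬝ᵥ L i' = if i = i' then g i * E else 0) (A : κ → κ → ℝ)
    (hA : ∀ p : κ → ℝ, 0 ≤ ∑ j, ∑ j', p j * A j j' * p j') :
    ∑ i, (∑ j, ∑ j', L i j * A j j' * L i j') / g i ≤ E * ∑ j, A j j := by
  rcases hE.eq_or_lt with rfl | hE
  · have : ∀ i, L i = 0 := fun i => dotProduct_self_eq_zero.1 (by simpa using hL i i)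
    simp [this]
  set N : Matrix ι κ ℝ := Matrix.of L with hN
  set D : Matrix ι ι ℝ := Matrix.diagonal fun i => (g i)⁻¹ with hD
  have h1 : D * (N * Nᵀ) = E • (1 : Matrix ι ι ℝ) := by
    ext i i'
    have : (N * Nᵀ) i i' = L i ⬝ᵥ L i' := rfl
    rw [hD, Matrix.diagonal_mul, this, hL, Matrix.smul_apply, Matrix.one_apply]
    split_ifs
    · rw [inv_mul_cancel_left₀ (hg i), smul_eq_mul, mul_one]
    · simp
  set F : Matrix κ κ ℝ := E • (1 : Matrix κ κ ℝ) - Nᵀ * D * N with hF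
  have h2 : Fᵀ = F := by
    simp only [hF, hD, Matrix.transpose_sub, Matrix.transpose_smul, Matrix.transpose_one, Matrix.transpose_mul,
      Matrix.transpose_transpose, Matrix.diagonal_transpose, Matrix.mul_assoc]
  have h3 : F * F = E • F := by
    have : Nᵀ * D * N * (Nᵀ * D * N) = E • (Nᵀ * D * N) := by
      calc _ = Nᵀ * (D * (N * Nᵀ)) * (D * N) := by simp only [Matrix.mul_assoc]
        _ = _ := by rw [h1, Matrix.mul_smul, Matrix.mul_one, Matrix.smul_mul, Matrix.mul_assoc]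
    rw [hF, Matrix.sub_mul, Matrix.mul_sub (Nᵀ * D * N), this, Matrix.smul_mul, Matrix.one_mul, Matrix.mul_smul,
      Matrix.mul_one, sub_self, sub_zero]
  have h4 : 0 ≤ Matrix.trace (Fᵀ * Matrix.of A * F) := by
    refine Finset.sum_nonneg fun k _ => (hA fun j => F j k).trans_eq ?_
    simp only [Matrix.diag_apply, Matrix.mul_apply, Matrix.transpose_apply, Matrix.of_apply, Finset.sum_mul]
    exact Finset.sum_comm
  rw [Matrix.trace_mul_cycle, h2, h3, Matrix.smul_mul, Matrix.trace_smul, smul_eq_mul,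
    mul_nonneg_iff_of_pos_left hE, hF, Matrix.sub_mul, Matrix.trace_sub, Matrix.smul_mul, Matrix.one_mul,
    Matrix.trace_smul, smul_eq_mul, Matrix.mul_assoc, Matrix.mul_assoc, Matrix.trace_mul_comm,
    Matrix.mul_assoc, sub_nonneg] at h4
  refine le_of_eq_of_le (Finset.sum_congr rfl fun i _ => ?_) h4
  simp only [Matrix.diag_apply, hD, Matrix.diagonal_mul]
  simp only [hN, Matrix.mul_apply, Matrix.transpose_apply, Matrix.of_apply, Finset.sum_mul]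
  rw [div_eq_inv_mul, Finset.sum_comm]

theorem a4b_mu_add_left (μ : Fin 8 → Fin 3 → Fin 8 → ℝ) (y y' : Fin 3 → ℝ) (v : Fin 8 → ℝ) :
    mu μ (y + y') v = mu μ y v + mu μ y' v := by
  ext l
  simp only [mu, Pi.add_apply, mul_add, add_mul, Finset.sum_add_distrib]

theorem a4b_mu_add_right (μ : Fin 8 → Fin 3 → Fin 8 → ℝ) (y : Fin 3 → ℝ) (v v' : Fin 8 → ℝ) :
    mu μ y (v + v') = mu μ y v + mu μ y v' := by
  ext l
  simp only [mu, Pi.add_apply, mul_add, Finset.sum_add_distrib]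

theorem a4b_pol {μ : Fin 8 → Fin 3 → Fin 8 → ℝ} (hμ : Mult μ) (y : Fin 3 → ℝ) (v v' : Fin 8 → ℝ) :
    mu μ y v ⬝ᵥ mu μ y v' = Ny y * (v ⬝ᵥ v') := by
  have h := hμ y (v + v')
  simp only [a4b_mu_add_right, add_dotProduct, dotProduct_add, hμ y v, hμ y v', dotProduct_comm (mu μ y v'),
    dotProduct_comm v'] at h
  have h' := hμ y v'
  linarith

theorem a4b_Ny (i i' : Fin 3) : Ny (Pi.single i 1 + Pi.single i' 1 : Fin 3 → ℝ) - Ny (Pi.single i 1) -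
    Ny (Pi.single i' 1) = if i = i' then 2 * gw i else 0 := by
  fin_cases i <;> fin_cases i' <;> simp [Ny, gw] <;> norm_num

theorem a4b_mu_single (μ : Fin 8 → Fin 3 → Fin 8 → ℝ) (i : Fin 3) (j l : Fin 8) :
    mu μ (Pi.single i 1) (Pi.single j 1) l = μ l i j := by
  simp [mu, Pi.single_apply]

theorem a4b_G {μ : Fin 8 → Fin 3 → Fin 8 → ℝ} (hμ : Mult μ) (i i' : Fin 3) (j j' : Fin 8) :
    ∑ l, μ l i j * μ l i' j' + ∑ l, μ l i' j * μ l i j' =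
      if i = i' then (if j = j' then 2 * gw i else 0) else 0 := by
  have h := a4b_pol hμ (Pi.single i 1 + Pi.single i' 1) (Pi.single j 1) (Pi.single j' 1)
  rw [a4b_mu_add_left, a4b_mu_add_left, add_dotProduct, dotProduct_add, dotProduct_add, a4b_pol hμ, a4b_pol hμ] at h
  have h1 := a4b_Ny i i'
  simp only [dotProduct, a4b_mu_single] at h
  have h2 : ∑ k, (Pi.single j 1 : Fin 8 → ℝ) k * (Pi.single j' 1 : Fin 8 → ℝ) k = if j = j' then 1 else 0 := by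
    simp [Pi.single_apply, eq_comm]
  rw [h2] at h
  split_ifs at h h1 ⊢ <;> linarith

theorem a4b_Gam {μ : Fin 8 → Fin 3 → Fin 8 → ℝ} (hμ : Mult μ) (Γ : Fin 3 → Fin 8 → Fin 3 → Fin 8 → ℝ)
    (hΓ : ∀ i j i' j', Γ i j i' j' = Γ i' j i j') :
    ∑ l, ∑ i, ∑ j, ∑ i', ∑ j', μ l i j * Γ i j i' j' * μ l i' j' = ∑ i, ∑ j, gw i * Γ i j i j := by
  have e1 : ∑ l, ∑ i, ∑ j, ∑ i', ∑ j', μ l i j * Γ i j i' j' * μ l i' j' =
      ∑ i, ∑ i', ∑ j, ∑ j', Γ i j i' j' * ∑ l, μ l i j * μ l i' j' := by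
    rw [Finset.sum_comm]
    refine Finset.sum_congr rfl fun i _ => ?_
    rw [Finset.sum_comm, Finset.sum_comm (f := fun i' j => ∑ j', Γ i j i' j' * ∑ l, μ l i j * μ l i' j')]
    refine Finset.sum_congr rfl fun j _ => ?_
    rw [Finset.sum_comm]
    refine Finset.sum_congr rfl fun i' _ => ?_
    rw [Finset.sum_comm]
    refine Finset.sum_congr rfl fun j' _ => ?_
    rw [Finset.mul_sum]
    exact Finset.sum_congr rfl fun l _ => by ring
  have e2 : ∑ i, ∑ i', ∑ j, ∑ j', Γ i j i' j' * ∑ l, μ l i j * μ l i' j' =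
      ∑ i, ∑ i', ∑ j, ∑ j', Γ i j i' j' * ∑ l, μ l i' j * μ l i j' := by
    rw [Finset.sum_comm]
    exact Finset.sum_congr rfl fun i _ => Finset.sum_congr rfl fun i' _ => Finset.sum_congr rfl fun j _ =>
      Finset.sum_congr rfl fun j' _ => by rw [hΓ]
  have e3 : ∑ i, ∑ i', ∑ j, ∑ j', Γ i j i' j' * ∑ l, μ l i j * μ l i' j' +
      ∑ i, ∑ i', ∑ j, ∑ j', Γ i j i' j' * ∑ l, μ l i' j * μ l i j' = 2 * ∑ i, ∑ j, gw i * Γ i j i j := by
    simp only [← Finset.sum_add_distrib, ← mul_add, a4b_G hμ]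
    rw [Finset.mul_sum]
    refine Finset.sum_congr rfl fun i _ => ?_
    rw [Finset.sum_eq_single i (fun i' _ h => by simp [h.symm]) (by simp), Finset.mul_sum]
    refine Finset.sum_congr rfl fun j _ => ?_
    simp only [if_true, mul_ite, mul_zero, Finset.sum_ite_eq, Finset.mem_univ]
    ring
  linarith

theorem a4b_LL {μ : Fin 8 → Fin 3 → Fin 8 → ℝ} (hμ : Mult μ) (ξ : Fin 8 → ℝ) (i i' : Fin 3) :
    (fun j => ∑ l, ξ l * μ l i j) ⬝ᵥ (fun j => ∑ l, ξ l * μ l i' j) =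
      if i = i' then gw i * (ξ ⬝ᵥ ξ) else 0 := by
  have key : ∀ y : Fin 3 → ℝ, (ξ ᵥ* Matrix.of fun l j => mu μ y (Pi.single j 1) l) ⬝ᵥ
      (ξ ᵥ* Matrix.of fun l j => mu μ y (Pi.single j 1) l) = Ny y * (ξ ⬝ᵥ ξ) := fun y => by
    set M : Matrix (Fin 8) (Fin 8) ℝ := Matrix.of fun l j => mu μ y (Pi.single j 1) l with hM
    have h1 : Mᵀ * M = Ny y • (1 : Matrix (Fin 8) (Fin 8) ℝ) := by
      ext j j'
      have : (Mᵀ * M) j j' = mu μ y (Pi.single j 1) ⬝ᵥ mu μ y (Pi.single j' 1) := rfl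
      rw [this, a4b_pol hμ]
      simp [Matrix.one_apply, Pi.single_apply, eq_comm]
    have h2 : M * Mᵀ = Ny y • (1 : Matrix (Fin 8) (Fin 8) ℝ) := by
      rcases eq_or_ne (Ny y) 0 with h0 | h0
      · rw [h0, zero_smul] at h1 ⊢
        rw [← Matrix.conjTranspose_eq_transpose_of_trivial] at h1
        rw [Matrix.conjTranspose_mul_self_eq_zero.1 h1, Matrix.zero_mul]
      · have h3 : ((Ny y)⁻¹ • Mᵀ) * M = 1 := by rw [Matrix.smul_mul, h1, inv_smul_smul₀ h0]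
        have h4 := mul_eq_one_comm.1 h3
        rw [← h4, Matrix.mul_smul, smul_inv_smul₀ h0]
    rw [← Matrix.mulVec_transpose M ξ, Matrix.dotProduct_mulVec, Matrix.vecMul_transpose, Matrix.mulVec_mulVec, h2,
      Matrix.smul_mulVec, Matrix.one_mulVec, smul_dotProduct, smul_eq_mul]
  have e : ∀ i : Fin 3, (ξ ᵥ* Matrix.of fun l j => mu μ (Pi.single i 1) (Pi.single j 1) l) =
      fun j => ∑ l, ξ l * μ l i j := fun i => by
    ext j
    simp only [Matrix.vecMul, dotProduct, Matrix.of_apply, a4b_mu_single]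
  have e' : (ξ ᵥ* Matrix.of fun l j => mu μ (Pi.single i 1 + Pi.single i' 1) (Pi.single j 1) l) =
      (fun j => ∑ l, ξ l * μ l i j) + fun j => ∑ l, ξ l * μ l i' j := by
    ext j
    simp only [Matrix.vecMul, dotProduct, Matrix.of_apply, a4b_mu_add_left, Pi.add_apply, a4b_mu_single, mul_add,
      Finset.sum_add_distrib]
  have h1 := key (Pi.single i 1)
  have h2 := key (Pi.single i' 1)
  have h3 := key (Pi.single i 1 + Pi.single i' 1)
  rw [e] at h1 h2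
  rw [e', add_dotProduct, dotProduct_add, dotProduct_add, h1, h2,
    dotProduct_comm (fun j => ∑ l, ξ l * μ l i' j)] at h3
  have h4 := a4b_Ny i i'
  split_ifs at h4 ⊢
  · linear_combination h3 / 2 + (ξ ⬝ᵥ ξ) / 2 * h4
  · linear_combination h3 / 2 + (ξ ⬝ᵥ ξ) / 2 * h4

theorem master (x : Fin 23 → ℝ) (w : W) (hw : Feas x w) (μ : Fin 8 → Fin 3 → Fin 8 → ℝ) (hμ : Mult μ)
    (ξ : Fin 8 → ℝ) (b₀ : ℝ) (b : Fin 8 → ℝ) (P : Fin 8 → Fin 8 → ℝ) :
    0 ≤ x 2 * (ξ ⬝ᵥ ξ) + 2 * (∑ l, ξ l * (uu x ⬝ᵥ P l)) + x 0 * (∑ l, P l ⬝ᵥ P l) + x 3 * b₀ ^ 2 +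
      2 * b₀ * (vv x ⬝ᵥ b) + x 1 * (b ⬝ᵥ b) + 2 * (∑ l, ξ l * (Rm μ (yy x) w.m l ⬝ᵥ b)) -
      2 * b₀ * ∑ l, P l ⬝ᵥ Rm μ (yy x) w.m l := by
  set L : Fin 3 → Fin 8 → ℝ := fun i j => ∑ l, ξ l * μ l i j with hL
  have hLL : ∀ i i', L i ⬝ᵥ L i' = if i = i' then gw i * (ξ ⬝ᵥ ξ) else 0 := a4b_LL hμ ξ
  have hE : 0 ≤ ξ ⬝ᵥ ξ := Finset.sum_nonneg fun l _ => mul_self_nonneg _
  have hR : ∀ l (p : Fin 8 → ℝ), ∑ i, ∑ j, ∑ k, μ l i j * phi (yy x) w.m i j k * p k =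
      Rm μ (yy x) w.m l ⬝ᵥ p := fun l p => by
    simp only [dotProduct, Rm, Finset.sum_mul]
    rw [Finset.sum_comm (f := fun k i => ∑ j, μ l i j * phi (yy x) w.m i j k * p k)]
    exact Finset.sum_congr rfl fun i _ => Finset.sum_comm
  have hθ : ∀ θ : Fin 3 → Fin 8 → ℝ, ∑ l, ξ l * ∑ i, ∑ j, μ l i j * θ i j = ∑ i, ∑ j, L i j * θ i j := fun θ => by
    simp only [hL, Finset.sum_mul, Finset.mul_sum, mul_assoc]
    rw [Finset.sum_comm]
    exact Finset.sum_congr rfl fun i _ => Finset.sum_comm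
  have e0 : ∀ l, formρ x w (P l) (ξ l) (fun i j => -b₀ * μ l i j) =
      x 0 * (P l ⬝ᵥ P l) + 2 * (ξ l * (uu x ⬝ᵥ P l)) + w.su * (ξ l * ξ l) - 2 * b₀ * (P l ⬝ᵥ Rm μ (yy x) w.m l) -
        2 * b₀ * (ξ l * ∑ i, ∑ j, μ l i j * w.θρ i j) +
        b₀ ^ 2 * ∑ i, ∑ j, ∑ i', ∑ j', μ l i j * w.Γ i j i' j' * μ l i' j' := fun l => by
    have a1 : ∑ i, ∑ j, ∑ k, -b₀ * μ l i j * phi (yy x) w.m i j k * P l k =
        -b₀ * (P l ⬝ᵥ Rm μ (yy x) w.m l) := by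
      rw [dotProduct_comm, ← hR]
      simp only [Finset.mul_sum, mul_assoc]
    have a2 : ∑ i, ∑ j, -b₀ * μ l i j * w.θρ i j = -b₀ * ∑ i, ∑ j, μ l i j * w.θρ i j := by
      simp only [Finset.mul_sum, mul_assoc]
    have a3 : ∑ i, ∑ j, ∑ i', ∑ j', -b₀ * μ l i j * w.Γ i j i' j' * (-b₀ * μ l i' j') =
        b₀ ^ 2 * ∑ i, ∑ j, ∑ i', ∑ j', μ l i j * w.Γ i j i' j' * μ l i' j' := by
      simp only [Finset.mul_sum]
      exact Finset.sum_congr rfl fun i _ => Finset.sum_congr rfl fun j _ => Finset.sum_congr rfl fun i' _ =>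
        Finset.sum_congr rfl fun j' _ => by ring
    rw [formρ, a1, a2, a3]
    ring
  have e1 : ∑ l, formρ x w (P l) (ξ l) (fun i j => -b₀ * μ l i j) =
      x 0 * (∑ l, P l ⬝ᵥ P l) + 2 * (∑ l, ξ l * (uu x ⬝ᵥ P l)) + w.su * (ξ ⬝ᵥ ξ) -
        2 * b₀ * (∑ l, P l ⬝ᵥ Rm μ (yy x) w.m l) - 2 * b₀ * (∑ i, ∑ j, L i j * w.θρ i j) +
        b₀ ^ 2 * ∑ i, ∑ j, gw i * w.Γ i j i j := by
    rw [← hθ, ← a4b_Gam hμ w.Γ fun i j i' j' => by simp only [W.Γ, add_comm (w.2.2.2.1 i i' _ _)]]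
    simp only [e0, Finset.sum_add_distrib, Finset.sum_sub_distrib, ← Finset.mul_sum]
    rfl
  have e2 : formσ x w b b₀ L = x 1 * (b ⬝ᵥ b) + 2 * b₀ * (vv x ⬝ᵥ b) + w.sv * b₀ ^ 2 +
      2 * (∑ l, ξ l * (Rm μ (yy x) w.m l ⬝ᵥ b)) + 2 * b₀ * (∑ i, ∑ j, L i j * w.θσ i j) +
      (∑ i, gw i * w.T i i) * (ξ ⬝ᵥ ξ) := by
    have a1 : ∑ i, ∑ j, ∑ k, L i j * phi (yy x) w.m i j k * b k = ∑ l, ξ l * (Rm μ (yy x) w.m l ⬝ᵥ b) := by
      have := hθ fun i j => ∑ k, phi (yy x) w.m i j k * b k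
      simp only [← hR]
      simp only [Finset.mul_sum, mul_assoc] at this ⊢
      exact this.symm
    have a2 : ∑ i, ∑ i', ∑ j, L i j * w.T i i' * L i' j = (∑ i, gw i * w.T i i) * (ξ ⬝ᵥ ξ) := by
      have : ∀ i i', ∑ j, L i j * w.T i i' * L i' j = w.T i i' * (L i ⬝ᵥ L i') := fun i i' => by
        simp only [dotProduct, Finset.mul_sum]
        exact Finset.sum_congr rfl fun j _ => by ring
      simp only [this, hLL, mul_ite, mul_zero, Finset.sum_ite_eq, Finset.mem_univ, if_true, Finset.sum_mul]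
      exact Finset.sum_congr rfl fun i _ => by ring
    rw [formσ, a1, a2]
  have e3 : ∀ i, formN w (L i) (Pi.single i (-b₀ * gw i)) / gw i = (∑ j, ∑ j', L i j * w.A j j' * L i j') / gw i -
      2 * b₀ * ((∑ j, L i j * w.θσ i j) - ∑ j, L i j * w.θρ i j) + b₀ ^ 2 * (gw i * w.B i i) := fun i => by
    have a1 : ∑ i', ∑ j, (Pi.single i (-b₀ * gw i) : Fin 3 → ℝ) i' * (w.θσ i' j - w.θρ i' j) * L i j =
        -b₀ * gw i * ((∑ j, L i j * w.θσ i j) - ∑ j, L i j * w.θρ i j) := by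
      rw [Finset.sum_eq_single i (fun i' _ h => by simp [Pi.single_eq_of_ne h]) (by simp), ← Finset.sum_sub_distrib,
        Finset.mul_sum]
      exact Finset.sum_congr rfl fun j _ => by rw [Pi.single_eq_same]; ring
    have a2 : ∑ a, ∑ a', (Pi.single i (-b₀ * gw i) : Fin 3 → ℝ) a * w.B a a' *
        (Pi.single i (-b₀ * gw i) : Fin 3 → ℝ) a' = -b₀ * gw i * w.B i i * (-b₀ * gw i) := by
      rw [Finset.sum_eq_single i (fun i' _ h => by simp [Pi.single_eq_of_ne h]) (by simp),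
        Finset.sum_eq_single i (fun i' _ h => by simp [Pi.single_eq_of_ne h]) (by simp), Pi.single_eq_same]
    have := (a4b_gw i).ne'
    rw [formN, a1, a2]
    field_simp
    ring
  have i1 : 0 ≤ ∑ l, formρ x w (P l) (ξ l) (fun i j => -b₀ * μ l i j) := Finset.sum_nonneg fun l _ => hw.hρ _ _ _
  have i2 := hw.hσ b b₀ L
  have i3 : 0 ≤ ∑ i, formN w (L i) (Pi.single i (-b₀ * gw i)) / gw i :=
    Finset.sum_nonneg fun i _ => div_nonneg (hw.hN _ _) (a4b_gw i).le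
  have i4 := mul_nonneg hw.h1 hE
  have i5 := mul_nonneg hw.h2 (sq_nonneg b₀)
  have i6 := a4b_bessel L gw (fun i => (a4b_gw i).ne') hE hLL w.A fun p => by simpa [formN] using hw.hN p 0
  simp only [e3, Finset.sum_add_distrib, Finset.sum_sub_distrib, ← Finset.mul_sum] at i3
  rw [e1] at i1
  rw [e2] at i2
  rw [slack1] at i4
  rw [slack2] at i5
  linarith

end Crest.Agent.R237
end
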