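import Crest.Agent.R237.ADefs

set_option autoImplicit false
open scoped BigOperators Matrix
open Crest.GeometryTopology

noncomputable section
namespace Crest.Agent.R237

/-! # A4c: the system `Feas` as one padded linear matrix inequality.

Recipe.  Generic lemma: `V`, `W` finite-dimensional with `finrank V ≤ 100`, `finrank W ≤ 307`,
`G : ((Fin 23 → ℝ) × W) →ₗ V →ₗ V →ₗ ℝ`.  Take surjective linear maps `r : (Fin 100 → ℝ) → V`, `s : (Fin 307 → ℝ) → W`,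
`A ν a b = (G (e_ν, 0) (r e_a) (r e_b) + G (e_ν, 0) (r e_b) (r e_a)) / 2`, `B j` likewise with `(0, s e_j)`;
then the matrix is PSD iff `∀ v, 0 ≤ G (x, s u) v v`.  Apply it with
`V = (ℝ^8 × ℝ × ℝ^(3×8)) × (ℝ^8 × ℝ × ℝ^(3×8)) × (ℝ^8 × ℝ^3) × ℝ × ℝ` (dimension 79), `finrank W = 220`,
`G (x,w) v v = formρ .. + formσ .. + formN .. + slack1 a² + slack2 b²` (every term is linear in `(x, w)`; `phi` is linear
in `(y, m)`).  A cheap way to get `G`: any function `F : E → V → ℝ` that is a finite sum of products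
`ℓ(e) λ(v) λ'(v)` of linear forms; or build explicit `Matrix.fromBlocks`. -/

theorem a4c_surj {V : Type} [AddCommGroup V] [Module ℝ V] [Module.Finite ℝ V] {n : ℕ}
    (h : Module.finrank ℝ V ≤ n) : ∃ r : (Fin n → ℝ) →ₗ[ℝ] V, Function.Surjective r := by
  obtain ⟨f, hf⟩ := (finrank_le_iff_exists_linearMap (R := ℝ) (M := V) (M' := Fin n → ℝ)).1 (by simpa using h)
  obtain ⟨g, hg⟩ := f.exists_leftInverse_of_injective (LinearMap.ker_eq_bot.2 hf)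
  exact ⟨g, fun v => ⟨f v, LinearMap.congr_fun hg v⟩⟩

section
variable {E V : Type} [AddCommGroup E] [Module ℝ E] [AddCommGroup V] [Module ℝ V] {n : ℕ}

/-- `F e` pulled back along `r` is the quadratic form of a matrix depending linearly on `e` -/
def a4c_Q (r : (Fin n → ℝ) →ₗ[ℝ] V) (F : E → V → ℝ) : Prop :=
  ∃ M : E →ₗ[ℝ] Matrix (Fin n) (Fin n) ℝ, ∀ e c, F e (r c) = c ⬝ᵥ M e *ᵥ c

variable {r : (Fin n → ℝ) →ₗ[ℝ] V}

theorem a4c_Q.add {F G : E → V → ℝ} (hF : a4c_Q r F) (hG : a4c_Q r G) : a4c_Q r fun e v => F e v + G e v := by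
  obtain ⟨M, hM⟩ := hF
  obtain ⟨N, hN⟩ := hG
  exact ⟨M + N, fun e c => by rw [LinearMap.add_apply, Matrix.add_mulVec, dotProduct_add, ← hM, ← hN]⟩

theorem a4c_Q.sum {ι : Type} [Fintype ι] {F : ι → E → V → ℝ} (hF : ∀ i, a4c_Q r (F i)) :
    a4c_Q r fun e v => ∑ i, F i e v := by
  choose M hM using hF
  exact ⟨∑ i, M i, fun e c => by
    rw [LinearMap.sum_apply, Matrix.sum_mulVec, dotProduct_sum]
    exact Finset.sum_congr rfl fun i _ => hM i e c⟩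

theorem a4c_Q.of3 {F : E → V → ℝ} (k : ℝ) (l : E → ℝ) (a b : V → ℝ) (hl : IsLinearMap ℝ l) (ha : IsLinearMap ℝ a)
    (hb : IsLinearMap ℝ b) (h : ∀ e v, F e v = k * l e * a v * b v) : a4c_Q r F := by
  have key : ∀ a : V → ℝ, IsLinearMap ℝ a → ∀ c, a (r c) = c ⬝ᵥ fun i => a (r (Pi.single i 1)) := fun a ha c => by
    conv_lhs => rw [pi_eq_sum_univ' c]
    rw [map_sum]
    refine (map_sum (IsLinearMap.mk' a ha) _ _).trans (Finset.sum_congr rfl fun i _ => ?_)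
    rw [map_smul, map_smul]
    rfl
  refine ⟨(IsLinearMap.mk' l hl).smulRight
    (k • Matrix.vecMulVec (fun i => a (r (Pi.single i 1))) fun i => b (r (Pi.single i 1))), fun e c => ?_⟩
  rw [LinearMap.smulRight_apply, Matrix.smul_mulVec, Matrix.smul_mulVec, dotProduct_smul, dotProduct_smul,
    Matrix.vecMulVec_mulVec, h, key a ha c, key b hb c]
  simp only [IsLinearMap.mk'_apply, smul_eq_mul, op_smul_eq_smul, dotProduct_smul]
  rw [dotProduct_comm c fun i => b (r (Pi.single i 1))]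
  ring

theorem a4c_lsum {ι : Type} [Fintype ι] {f : ι → E → ℝ} (h : ∀ i, IsLinearMap ℝ (f i)) :
    IsLinearMap ℝ fun e => ∑ i, f i e :=
  ⟨fun a b => by simp only [(h _).map_add, Finset.sum_add_distrib],
    fun c a => by simp only [(h _).map_smul, Finset.smul_sum]⟩

theorem a4c_lmul (k : ℝ) {f : E → ℝ} (h : IsLinearMap ℝ f) : IsLinearMap ℝ fun e => k * f e :=
  ⟨fun a b => by rw [h.map_add, mul_add], fun c a => by rw [h.map_smul, smul_eq_mul, smul_eq_mul, mul_left_comm]⟩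

theorem a4c_ladd {f g : E → ℝ} (h : IsLinearMap ℝ f) (h' : IsLinearMap ℝ g) : IsLinearMap ℝ fun e => f e + g e :=
  ⟨fun a b => by rw [h.map_add, h'.map_add]; ring, fun c a => by rw [h.map_smul, h'.map_smul, smul_add]⟩

theorem a4c_lsub {f g : E → ℝ} (h : IsLinearMap ℝ f) (h' : IsLinearMap ℝ g) : IsLinearMap ℝ fun e => f e - g e :=
  ⟨fun a b => by rw [h.map_add, h'.map_add]; ring, fun c a => by rw [h.map_smul, h'.map_smul, smul_sub]⟩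

end

abbrev a4c_E : Type := (Fin 23 → ℝ) × W
abbrev a4c_U : Type := (Fin 8 → ℝ) × ℝ × (Fin 3 → Fin 8 → ℝ)
abbrev a4c_V : Type := a4c_U × a4c_U × ((Fin 8 → ℝ) × (Fin 3 → ℝ)) × ℝ × ℝ

theorem a4c_mT (i a b : Fin 3) : IsLinearMap ℝ fun e : a4c_E => mT (yy e.1) e.2.m i a b := by
  have h : ∀ i j k : _, IsLinearMap ℝ fun e : a4c_E => yy e.1 i - 2 * e.2.m j - e.2.m k := fun i j k =>
    a4c_lsub (a4c_lsub ⟨fun _ _ => rfl, fun _ _ => rfl⟩ (a4c_lmul 2 ⟨fun _ _ => rfl, fun _ _ => rfl⟩)) ⟨fun _ _ => rfl, fun _ _ => rfl⟩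
  fin_cases i <;> fin_cases a <;> fin_cases b <;> first | exact h _ _ _ | exact ⟨fun _ _ => rfl, fun _ _ => rfl⟩

theorem a4c_phi (i : Fin 3) (j k : Fin 8) : IsLinearMap ℝ fun e : a4c_E => phi (yy e.1) e.2.m i j k :=
  a4c_lsum fun a => a4c_lsum fun b => a4c_lmul _ (a4c_mT i a b)

theorem a4c_Γ (i : Fin 3) (j : Fin 8) (i' : Fin 3) (j' : Fin 8) : IsLinearMap ℝ fun e : a4c_E => e.2.Γ i j i' j' :=
  a4c_lsum fun _ => a4c_lsum fun _ => a4c_lmul _ (a4c_ladd ⟨fun _ _ => rfl, fun _ _ => rfl⟩ ⟨fun _ _ => rfl, fun _ _ => rfl⟩)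

theorem a4c_T (i i' : Fin 3) : IsLinearMap ℝ fun e : a4c_E => e.2.T i i' := a4c_ladd ⟨fun _ _ => rfl, fun _ _ => rfl⟩ ⟨fun _ _ => rfl, fun _ _ => rfl⟩
theorem a4c_A (i i' : Fin 8) : IsLinearMap ℝ fun e : a4c_E => e.2.A i i' := a4c_ladd ⟨fun _ _ => rfl, fun _ _ => rfl⟩ ⟨fun _ _ => rfl, fun _ _ => rfl⟩
theorem a4c_B (i i' : Fin 3) : IsLinearMap ℝ fun e : a4c_E => e.2.B i i' := a4c_ladd ⟨fun _ _ => rfl, fun _ _ => rfl⟩ ⟨fun _ _ => rfl, fun _ _ => rfl⟩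

/-- the direct sum of the five forms -/
def a4c_F (e : a4c_E) (v : a4c_V) : ℝ :=
  formρ e.1 e.2 v.1.1 v.1.2.1 v.1.2.2 + formσ e.1 e.2 v.2.1.1 v.2.1.2.1 v.2.1.2.2 +
    formN e.2 v.2.2.1.1 v.2.2.1.2 + slack1 e.1 e.2 * v.2.2.2.1 ^ 2 + slack2 e.1 e.2 * v.2.2.2.2 ^ 2

theorem a4c_feas (x : Fin 23 → ℝ) (w : W) : Feas x w ↔ ∀ v, 0 ≤ a4c_F (x, w) v := by
  constructor
  · intro h v
    exact add_nonneg (add_nonneg (add_nonneg (add_nonneg (h.hρ _ _ _) (h.hσ _ _ _)) (h.hN _ _))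
      (mul_nonneg h.h1 (sq_nonneg _))) (mul_nonneg h.h2 (sq_nonneg _))
  · intro h
    have z1 : formρ x w 0 0 0 = 0 := by simp [formρ]
    have z2 : formσ x w 0 0 0 = 0 := by simp [formσ]
    have z3 : formN w 0 0 = 0 := by simp [formN]
    exact ⟨fun p ξ η => by simpa [a4c_F, z2, z3] using h ((p, ξ, η), 0),
      fun p ξ η => by simpa [a4c_F, z1, z3] using h (0, (p, ξ, η), 0),
      fun p q => by simpa [a4c_F, z1, z2] using h (0, 0, (p, q), 0),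
      by simpa [a4c_F, z1, z2, z3] using h (0, 0, 0, 1, 0), by simpa [a4c_F, z1, z2, z3] using h (0, 0, 0, 0, 1)⟩

theorem a4c_ρ {n : ℕ} (r : (Fin n → ℝ) →ₗ[ℝ] a4c_V) :
    a4c_Q r fun (e : a4c_E) v => formρ e.1 e.2 v.1.1 v.1.2.1 v.1.2.2 := by
  simp only [formρ, dotProduct, Finset.mul_sum]
  refine .add (.add (.add (.add (.add (.sum fun k => ?_) (.sum fun k => ?_)) ?_)
    (.sum fun i => .sum fun j => .sum fun k => ?_)) (.sum fun i => .sum fun j => ?_))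
    (.sum fun i => .sum fun j => .sum fun i' => .sum fun j' => ?_)
  · exact .of3 1 (fun e => e.1 0) (fun v => v.1.1 k) (fun v => v.1.1 k) ⟨fun _ _ => rfl, fun _ _ => rfl⟩ ⟨fun _ _ => rfl, fun _ _ => rfl⟩ ⟨fun _ _ => rfl, fun _ _ => rfl⟩ fun _ _ => by ring
  · exact .of3 2 (fun e => uu e.1 k) (fun v => v.1.2.1) (fun v => v.1.1 k) ⟨fun _ _ => rfl, fun _ _ => rfl⟩ ⟨fun _ _ => rfl, fun _ _ => rfl⟩ ⟨fun _ _ => rfl, fun _ _ => rfl⟩ fun _ _ => by ring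
  · exact .of3 1 (fun e => e.2.su) (fun v => v.1.2.1) (fun v => v.1.2.1) ⟨fun _ _ => rfl, fun _ _ => rfl⟩ ⟨fun _ _ => rfl, fun _ _ => rfl⟩ ⟨fun _ _ => rfl, fun _ _ => rfl⟩ fun _ _ => by ring
  · exact .of3 2 _ (fun v => v.1.2.2 i j) (fun v => v.1.1 k) (a4c_phi i j k) ⟨fun _ _ => rfl, fun _ _ => rfl⟩ ⟨fun _ _ => rfl, fun _ _ => rfl⟩ fun _ _ => by ring
  · exact .of3 2 (fun e => e.2.θρ i j) (fun v => v.1.2.1) (fun v => v.1.2.2 i j) ⟨fun _ _ => rfl, fun _ _ => rfl⟩ ⟨fun _ _ => rfl, fun _ _ => rfl⟩ ⟨fun _ _ => rfl, fun _ _ => rfl⟩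
      fun _ _ => by ring
  · exact .of3 1 _ (fun v => v.1.2.2 i j) (fun v => v.1.2.2 i' j') (a4c_Γ i j i' j') ⟨fun _ _ => rfl, fun _ _ => rfl⟩ ⟨fun _ _ => rfl, fun _ _ => rfl⟩
      fun _ _ => by ring

theorem a4c_σ {n : ℕ} (r : (Fin n → ℝ) →ₗ[ℝ] a4c_V) :
    a4c_Q r fun (e : a4c_E) v => formσ e.1 e.2 v.2.1.1 v.2.1.2.1 v.2.1.2.2 := by
  simp only [formσ, dotProduct, Finset.mul_sum]
  refine .add (.add (.add (.add (.add (.sum fun k => ?_) (.sum fun k => ?_)) ?_)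
    (.sum fun i => .sum fun j => .sum fun k => ?_)) (.sum fun i => .sum fun j => ?_))
    (.sum fun i => .sum fun i' => .sum fun j => ?_)
  · exact .of3 1 (fun e => e.1 1) (fun v => v.2.1.1 k) (fun v => v.2.1.1 k) ⟨fun _ _ => rfl, fun _ _ => rfl⟩ ⟨fun _ _ => rfl, fun _ _ => rfl⟩ ⟨fun _ _ => rfl, fun _ _ => rfl⟩ fun _ _ => by ring
  · exact .of3 2 (fun e => vv e.1 k) (fun v => v.2.1.2.1) (fun v => v.2.1.1 k) ⟨fun _ _ => rfl, fun _ _ => rfl⟩ ⟨fun _ _ => rfl, fun _ _ => rfl⟩ ⟨fun _ _ => rfl, fun _ _ => rfl⟩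
      fun _ _ => by ring
  · exact .of3 1 (fun e => e.2.sv) (fun v => v.2.1.2.1) (fun v => v.2.1.2.1) ⟨fun _ _ => rfl, fun _ _ => rfl⟩ ⟨fun _ _ => rfl, fun _ _ => rfl⟩ ⟨fun _ _ => rfl, fun _ _ => rfl⟩
      fun _ _ => by ring
  · exact .of3 2 _ (fun v => v.2.1.2.2 i j) (fun v => v.2.1.1 k) (a4c_phi i j k) ⟨fun _ _ => rfl, fun _ _ => rfl⟩ ⟨fun _ _ => rfl, fun _ _ => rfl⟩ fun _ _ => by ring
  · exact .of3 2 (fun e => e.2.θσ i j) (fun v => v.2.1.2.1) (fun v => v.2.1.2.2 i j) ⟨fun _ _ => rfl, fun _ _ => rfl⟩ ⟨fun _ _ => rfl, fun _ _ => rfl⟩ ⟨fun _ _ => rfl, fun _ _ => rfl⟩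
      fun _ _ => by ring
  · exact .of3 1 _ (fun v => v.2.1.2.2 i j) (fun v => v.2.1.2.2 i' j) (a4c_T i i') ⟨fun _ _ => rfl, fun _ _ => rfl⟩ ⟨fun _ _ => rfl, fun _ _ => rfl⟩
      fun _ _ => by ring

theorem a4c_N {n : ℕ} (r : (Fin n → ℝ) →ₗ[ℝ] a4c_V) :
    a4c_Q r fun (e : a4c_E) v => formN e.2 v.2.2.1.1 v.2.2.1.2 := by
  simp only [formN, Finset.mul_sum]
  refine .add (.add (.sum fun j => .sum fun j' => ?_) (.sum fun i => .sum fun j => ?_))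
    (.sum fun i => .sum fun i' => ?_)
  · exact .of3 1 _ (fun v => v.2.2.1.1 j) (fun v => v.2.2.1.1 j') (a4c_A j j') ⟨fun _ _ => rfl, fun _ _ => rfl⟩ ⟨fun _ _ => rfl, fun _ _ => rfl⟩ fun _ _ => by ring
  · exact .of3 2 (fun e => e.2.θσ i j - e.2.θρ i j) (fun v => v.2.2.1.2 i) (fun v => v.2.2.1.1 j)
      (a4c_lsub ⟨fun _ _ => rfl, fun _ _ => rfl⟩ ⟨fun _ _ => rfl, fun _ _ => rfl⟩) ⟨fun _ _ => rfl, fun _ _ => rfl⟩ ⟨fun _ _ => rfl, fun _ _ => rfl⟩ fun _ _ => by ring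
  · exact .of3 1 _ (fun v => v.2.2.1.2 i) (fun v => v.2.2.1.2 i') (a4c_B i i') ⟨fun _ _ => rfl, fun _ _ => rfl⟩ ⟨fun _ _ => rfl, fun _ _ => rfl⟩ fun _ _ => by ring

theorem a4c_tot {n : ℕ} (r : (Fin n → ℝ) →ₗ[ℝ] a4c_V) : a4c_Q r a4c_F := by
  refine .add (.add (.add (.add (a4c_ρ r) (a4c_σ r)) (a4c_N r)) ?_) ?_
  · exact .of3 1 (fun e => slack1 e.1 e.2) (fun v => v.2.2.2.1) (fun v => v.2.2.2.1)
      (a4c_lsub (a4c_lsub (a4c_lsub ⟨fun _ _ => rfl, fun _ _ => rfl⟩ ⟨fun _ _ => rfl, fun _ _ => rfl⟩) (a4c_lsum fun i => a4c_lmul _ (a4c_T i i)))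
        (a4c_lsum fun j => a4c_A j j)) ⟨fun _ _ => rfl, fun _ _ => rfl⟩ ⟨fun _ _ => rfl, fun _ _ => rfl⟩ fun _ _ => by ring
  · exact .of3 1 (fun e => slack2 e.1 e.2) (fun v => v.2.2.2.2) (fun v => v.2.2.2.2)
      (a4c_lsub (a4c_lsub (a4c_lsub ⟨fun _ _ => rfl, fun _ _ => rfl⟩ ⟨fun _ _ => rfl, fun _ _ => rfl⟩) (a4c_lsum fun i => a4c_lsum fun j => a4c_lmul _ (a4c_Γ i j i j)))
        (a4c_lsum fun i => a4c_lmul _ (a4c_B i i))) ⟨fun _ _ => rfl, fun _ _ => rfl⟩ ⟨fun _ _ => rfl, fun _ _ => rfl⟩ fun _ _ => by ring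

theorem feas_matrices : ∃ (A : Fin 23 → Matrix (Fin 100) (Fin 100) ℝ) (B : Fin 307 → Matrix (Fin 100) (Fin 100) ℝ),
    (∀ ν, (A ν).IsSymm) ∧ (∀ j, (B j).IsSymm) ∧ ∀ x : Fin 23 → ℝ,
      (∃ w : W, Feas x w) ↔ ∃ v : Fin 307 → ℝ, (∑ ν, x ν • A ν + ∑ j, v j • B j).PosSemidef := by
  obtain ⟨r, hr⟩ := a4c_surj (V := a4c_V) (n := 100) (by
    simp [Module.finrank_prod, Module.finrank_pi_fintype])
  obtain ⟨s, hs⟩ := a4c_surj (V := W) (n := 307) (by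
    simp [Module.finrank_prod, Module.finrank_pi_fintype])
  obtain ⟨M, hM⟩ := a4c_tot r
  let M' : ((Fin 23 → ℝ) × W) →ₗ[ℝ] Matrix (Fin 100) (Fin 100) ℝ :=
    M + (Matrix.transposeLinearEquiv (Fin 100) (Fin 100) ℝ ℝ).toLinearMap ∘ₗ M
  have e : ∀ z, M' z = M z + (M z)ᵀ := fun z => rfl
  have hsym : ∀ z, (M' z).IsSymm := fun z => by
    rw [e]; exact Matrix.isSymm_add_transpose_self _
  have key : ∀ z, (M' z).PosSemidef ↔ Feas z.1 z.2 := fun z => by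
    rw [Matrix.posSemidef_iff_dotProduct_mulVec, a4c_feas, and_iff_right (by
      rw [Matrix.IsHermitian, Matrix.conjTranspose_eq_transpose_of_trivial]; exact hsym z), hr.forall]
    refine forall_congr' fun c => ?_
    rw [star_trivial, e, Matrix.add_mulVec, dotProduct_add, Matrix.mulVec_transpose, dotProduct_comm c (c ᵥ* _),
      ← Matrix.dotProduct_mulVec, ← hM]
    constructor <;> intro h <;> linarith
  refine ⟨fun ν => M' (Pi.single ν 1, 0), fun j => M' (0, s (Pi.single j 1)), fun _ => hsym _, fun _ => hsym _,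
    fun x => ?_⟩
  rw [hs.exists]
  refine exists_congr fun u => ?_
  have e2 : ∑ ν, x ν • M' (Pi.single ν 1, 0) + ∑ j, u j • M' (0, s (Pi.single j 1)) = M' (x, s u) := by
    simp only [← map_smul, ← map_sum, ← map_add]
    congr 1
    refine Prod.ext ?_ ?_
    · simp only [Prod.fst_add, Prod.fst_sum, Prod.smul_fst, smul_zero, Finset.sum_const_zero, add_zero]
      exact (pi_eq_sum_univ' x).symm
    · simp only [Prod.snd_add, Prod.snd_sum, Prod.smul_snd, smul_zero, Finset.sum_const_zero, zero_add,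
        ← map_smul, ← map_sum]
      exact congrArg s (pi_eq_sum_univ' u).symm
  rw [e2, key]

end Crest.Agent.R237
end
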