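import Mathlib

/-! # A4d, auxiliary: quaternion identities -/

set_option autoImplicit false
open scoped Quaternion
open Quaternion

noncomputable section
namespace Crest.Agent.R237.A4dQ

/-- real inner product -/
def dt (a b : ℍ[ℝ]) : ℝ := (star a * b).re

def m1 (t u₂ v₁ v₂ : ℍ[ℝ]) : ℍ[ℝ] := v₂ * t - u₂ * v₁
def m2 (t u₂ v₁ v₂ : ℍ[ℝ]) : ℍ[ℝ] := star u₂ * v₂ + v₁ * star t

/-- the quadratic form whose values and trace are needed -/
def T (N : ℝ) (t u₁ u₂ v₁ v₂ : ℍ[ℝ]) : ℝ :=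
  dt (m1 t u₂ (N • v₁ - u₁ * (star u₁ * v₁ + star u₂ * v₂)) (N • v₂ - u₂ * (star u₁ * v₁ + star u₂ * v₂))) v₂

theorem dt_self (a : ℍ[ℝ]) : dt a a = normSq a := by
  simp [dt, normSq_def']
  ring

theorem norm_m (t u₂ v₁ v₂ : ℍ[ℝ]) : normSq (m1 t u₂ v₁ v₂) + normSq (m2 t u₂ v₁ v₂) =
    (normSq t + normSq u₂) * (normSq v₁ + normSq v₂) := by
  simp [m1, m2, normSq_def']
  ring

theorem T_eq (N : ℝ) (t u₁ u₂ v₁ v₂ : ℍ[ℝ]) : T N t u₁ u₂ v₁ v₂ =
    (N - normSq u₂) * normSq v₂ * t.re + normSq v₂ * normSq u₂ * u₁.re - dt (u₂ * star u₁ * (v₁ * t)) v₂ -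
      (N - normSq u₁) * dt (u₂ * v₁) v₂ := by
  simp [T, dt, m1, normSq_def']
  ring

theorem T_val {N : ℝ} {t u₁ u₂ c₁ c₂ : ℍ[ℝ]} (hN : N = normSq u₁ + normSq u₂) (h : c₁ * t = u₁ * c₁)
    (hr : t.re = u₁.re) : T N t u₁ u₂ c₁ c₂ = N * (u₁.re * normSq c₂ - dt (u₂ * c₁) c₂) := by
  rw [T_eq, h, hr, hN]
  simp [dt, normSq_def']
  ring

def e0 : ℍ[ℝ] := ⟨1, 0, 0, 0⟩
def e1 : ℍ[ℝ] := ⟨0, 1, 0, 0⟩
def e2 : ℍ[ℝ] := ⟨0, 0, 1, 0⟩
def e3 : ℍ[ℝ] := ⟨0, 0, 0, 1⟩

theorem avg (A x z t : ℍ[ℝ]) : dt (A * (x * e0 * t)) (z * e0) + dt (A * (x * e1 * t)) (z * e1) +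
    dt (A * (x * e2 * t)) (z * e2) + dt (A * (x * e3 * t)) (z * e3) = 4 * t.re * (A * (x * star z)).re := by
  simp [dt, e0, e1, e2, e3]
  ring

theorem T_tr (N : ℝ) (t u₁ u₂ x z : ℍ[ℝ]) : T N t u₁ u₂ (x * e0) (z * e0) + T N t u₁ u₂ (x * e1) (z * e1) +
    T N t u₁ u₂ (x * e2) (z * e2) + T N t u₁ u₂ (x * e3) (z * e3) =
    4 * (((N - normSq u₂) * t.re + normSq u₂ * u₁.re) * normSq z -
      ((t.re • (u₂ * star u₁) + (N - normSq u₁) • u₂) * (x * star z)).re) := by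
  have h1 := avg (u₂ * star u₁) x z t
  have h2 := avg u₂ x z 1
  have a0 : normSq (z * e0) = normSq z := by simp [e0, normSq_def']
  have a1 : normSq (z * e1) = normSq z := by simp [e1, normSq_def']; ring
  have a2 : normSq (z * e2) = normSq z := by simp [e2, normSq_def']; ring
  have a3 : normSq (z * e3) = normSq z := by simp [e3, normSq_def']; ring
  simp only [mul_one, re_one] at h2
  simp only [T_eq, a0, a1, a2, a3, add_mul, smul_mul_assoc, re_add, re_smul, smul_eq_mul]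
  linear_combination -h1 - (N - normSq u₁) * h2

theorem re_comm (a b : ℍ[ℝ]) : (a * b).re = (b * a).re := by
  simp
  ring

/-- conjugation by a non-zero element agreeing with `c` -/
theorem exists_conj (c : ℍ[ℝ]) : ∃ κ : ℍ[ℝ] →ₗ[ℝ] ℍ[ℝ], (∀ u, c * κ u = u * c) ∧ (∀ u, normSq (κ u) = normSq u) ∧
    (∀ u, (κ u).re = u.re) ∧ κ 1 = 1 := by
  by_cases hc : c = 0
  · exact ⟨LinearMap.id, by simp [hc], by simp, by simp, rfl⟩
  refine ⟨LinearMap.mulLeft ℝ c⁻¹ ∘ₗ LinearMap.mulRight ℝ c, fun u => ?_, fun u => ?_, fun u => ?_, ?_⟩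
  · simp [hc]
  · have : normSq c ≠ 0 := mt normSq_eq_zero.1 hc
    simp only [LinearMap.comp_apply, LinearMap.mulLeft_apply, LinearMap.mulRight_apply, map_mul, map_inv₀]
    field_simp
  · simp only [LinearMap.comp_apply, LinearMap.mulLeft_apply, LinearMap.mulRight_apply]
    rw [re_comm, mul_inv_cancel_right₀ hc]
  · simp [hc]

theorem exists_p' (p q : ℍ[ℝ]) : ∃ p' : ℍ[ℝ], p' * q = q * p ∧ star q * p' = p * star q ∧ normSq p' = normSq p := by
  obtain ⟨κ, h1, h2, -, -⟩ := exists_conj (star q)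
  refine ⟨κ p, ?_, h1 p, h2 p⟩
  by_cases hq : q = 0
  · simp [hq]
  · have hq' : star q ≠ 0 := by simpa using hq
    refine mul_left_cancel₀ hq' ?_
    rw [← mul_assoc, h1, mul_assoc, ← mul_assoc (star q), star_mul_self, coe_commutes]

/-- the frame change multiplies the hermitian product by `|p|² + |q|²` -/
theorem frame {p q p' : ℍ[ℝ]} (h : star q * p' = p * star q) (hn : normSq p' = normSq p) (a₁ a₂ b₁ b₂ : ℍ[ℝ]) :
    star (star p * a₁ + star q * a₂) * (star p * b₁ + star q * b₂) + star (q * a₁ - p' * a₂) * (q * b₁ - p' * b₂) =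
      (normSq p + normSq q) • (star a₁ * b₁ + star a₂ * b₂) := by
  have h' : star p' * q = q * star p := by simpa using congrArg star h
  have e : star (star p * a₁ + star q * a₂) * (star p * b₁ + star q * b₂) +
      star (q * a₁ - p' * a₂) * (q * b₁ - p' * b₂) =
      star a₁ * (p * star p + star q * q) * b₁ + star a₁ * (p * star q - star q * p') * b₂ +
      star a₂ * (q * star p - star p' * q) * b₁ + star a₂ * (star p' * p' + q * star q) * b₂ := by
    simp only [star_add, star_sub, star_mul, star_star]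
    noncomm_ring
  rw [e, h, h', sub_self, sub_self, self_mul_star, self_mul_star, star_mul_self, star_mul_self, hn, ← coe_add,
    mul_coe_eq_smul, mul_coe_eq_smul]
  simp

end Crest.Agent.R237.A4dQ
end
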