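import Crest.Agent.R237.A0
import Crest.Agent.R237.A4dQ

set_option autoImplicit false
open scoped BigOperators Matrix
open Crest.GeometryTopology

noncomputable section
namespace Crest.Agent.R237

/-! # A4d: the dual certificate (quaternions).

Recipe (checked numerically).  Identify `ℝ^8 = ℍ²` (`v ↦ (v0 + v1 i + v2 j + v3 k, v4 + v5 i + v6 j + v7 k)`), and
`y ↦ (y0 + y1 i, y2 + y1 j)`; `J y a` is the right multiple of `y` by `1, i, j, k`.  Let `ŷ = (p, q) = y₀/|y₀|`,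
`ẑ = (|q|, -q p̄/|q|)` (or `(0,1)` if `q = 0`), an `ℍ`-orthonormal frame for `⟨a, b⟩ = ā₁ b₁ + ā₂ b₂`.
In frame coordinates `y = (u₁, u₂)`, `v = (v₁, v₂)`, `c = (c₁, c₂)`, the coordinate `u₁ = ⟨ŷ, y⟩`; let `w = c₁/|c₁|`
(`w = 1` if `c₁ = 0`) and `μ(y, v) = (v₂ ũ - u₂ v₁, ū₂ v₂ + v₁ conj ũ)` with `ũ = w̄ u₁ w`.  The frame change is a right
`ℍ`-linear isometry, and `Qm y c = N c - y ⟨y, c⟩`, i.e. `(N c₁ - u₁ s, N c₂ - u₂ s)` with `s = ū₁ c₁ + ū₂ c₂`.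
In frame coordinates `y₀ = (|y₀|, 0)`, so `μ(y₀, Qm y₀ c) = |y₀|³ (c₂, 0)`.  Identities in `ℍ` (any `u₁ u₂ c₁ c₂`):
`|μ(y,v)|² = N |v|²`; `⟨fst μ(y, Qm y c), c₂⟩ = N (re u₁ |c₂|² - ⟨c₂, u₂ c₁⟩)` (uses `c₁ ũ = u₁ c₁`);
`Σ_{e ∈ 1,i,j,k} ⟨fst μ(y, Qm y (0,e)), e⟩ = 4 N re u₁`; the trace over `k` does not depend on the orthonormal basis.
On the right side `⟨y₀, y⟩ = |y₀| re u₁` and `Σ_a (J y₀ a ⬝ c)(J y a ⬝ c) = |y₀| (re u₁ |c₁|² + ⟨u₂ c₁, c₂⟩)`. -/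

namespace A4dQ
open scoped Quaternion
open Quaternion

def h1 : (Fin 8 → ℝ) →ₗ[ℝ] ℍ[ℝ] where
  toFun v := ⟨v 0, v 1, v 2, v 3⟩
  map_add' _ _ := by ext <;> simp
  map_smul' _ _ := by ext <;> simp

def h2 : (Fin 8 → ℝ) →ₗ[ℝ] ℍ[ℝ] where
  toFun v := ⟨v 4, v 5, v 6, v 7⟩
  map_add' _ _ := by ext <;> simp
  map_smul' _ _ := by ext <;> simp

def y1 : (Fin 3 → ℝ) →ₗ[ℝ] ℍ[ℝ] where
  toFun y := ⟨y 0, y 1, 0, 0⟩
  map_add' _ _ := by ext <;> simp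
  map_smul' _ _ := by ext <;> simp

def y2 : (Fin 3 → ℝ) →ₗ[ℝ] ℍ[ℝ] where
  toFun y := ⟨y 2, 0, y 1, 0⟩
  map_add' _ _ := by ext <;> simp
  map_smul' _ _ := by ext <;> simp

def ofH : (ℍ[ℝ] × ℍ[ℝ]) →ₗ[ℝ] (Fin 8 → ℝ) where
  toFun a := ![a.1.re, a.1.imI, a.1.imJ, a.1.imK, a.2.re, a.2.imI, a.2.imJ, a.2.imK]
  map_add' _ _ := by ext i; fin_cases i <;> simp
  map_smul' _ _ := by ext i; fin_cases i <;> simp

theorem ofH_dot (a b a' b' : ℍ[ℝ]) : ofH (a, b) ⬝ᵥ ofH (a', b') = dt a a' + dt b b' := by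
  simp [ofH, dt, dotProduct, Fin.sum_univ_eight]
  ring

theorem dot_h (v : Fin 8 → ℝ) : v ⬝ᵥ v = normSq (h1 v) + normSq (h2 v) := by
  simp [h1, h2, normSq_def', dotProduct, Fin.sum_univ_eight]
  ring

theorem Ny_eq (y : Fin 3 → ℝ) : Ny y = normSq (y1 y) + normSq (y2 y) := by
  simp [y1, y2, normSq_def', Ny]
  ring

theorem gw_eq (y₀ y : Fin 3 → ℝ) : ∑ i, gw i * y₀ i * y i = (star (y1 y₀) * y1 y + star (y2 y₀) * y2 y).re := by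
  simp [y1, y2, gw, Fin.sum_univ_three]
  ring

theorem J_eq (y₀ y : Fin 3 → ℝ) (c : Fin 8 → ℝ) : ∑ a, (J y₀ a ⬝ᵥ c) * (J y a ⬝ᵥ c) =
    dt (star (y1 y₀) * h1 c + star (y2 y₀) * h2 c) (star (y1 y) * h1 c + star (y2 y) * h2 c) := by
  simp [y1, y2, h1, h2, dt, J, dotProduct, Fin.sum_univ_four, Fin.sum_univ_eight]
  ring

theorem Qm_vec (y : Fin 3 → ℝ) (v : Fin 8 → ℝ) (j : Fin 8) :
    (Qm y *ᵥ v) j = Ny y * v j - ∑ a, J y a j * (J y a ⬝ᵥ v) := by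
  simp only [Qm, Matrix.mulVec, dotProduct, Matrix.of_apply, sub_mul, Finset.sum_sub_distrib, ite_mul, zero_mul,
    Finset.sum_ite_eq, Finset.mem_univ, if_true, Finset.sum_mul, Finset.mul_sum, mul_assoc]
  rw [Finset.sum_comm]

theorem h1_Q (y : Fin 3 → ℝ) (v : Fin 8 → ℝ) :
    h1 (Qm y *ᵥ v) = Ny y • h1 v - y1 y * (star (y1 y) * h1 v + star (y2 y) * h2 v) := by
  ext <;> simp [y1, y2, h1, h2, Qm_vec, J, dotProduct, Fin.sum_univ_four, Fin.sum_univ_eight] <;> ring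

theorem h2_Q (y : Fin 3 → ℝ) (v : Fin 8 → ℝ) :
    h2 (Qm y *ᵥ v) = Ny y • h2 v - y2 y * (star (y1 y) * h1 v + star (y2 y) * h2 v) := by
  ext <;> simp [y1, y2, h1, h2, Qm_vec, J, dotProduct, Fin.sum_univ_four, Fin.sum_univ_eight] <;> ring

theorem sum_single (F : ℍ[ℝ] → ℍ[ℝ] → ℝ) : ∑ k : Fin 8, F (h1 (Pi.single k 1)) (h2 (Pi.single k 1)) =
    F e0 0 + F e1 0 + F e2 0 + F e3 0 + (F 0 e0 + F 0 e1 + F 0 e2 + F 0 e3) := by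
  have z : (0 : ℍ[ℝ]) = ⟨0, 0, 0, 0⟩ := rfl
  rw [z]
  simp [Fin.sum_univ_eight, h1, h2, e0, e1, e2, e3, add_assoc]

theorem mu_eq (B : (Fin 3 → ℝ) →ₗ[ℝ] (Fin 8 → ℝ) →ₗ[ℝ] (Fin 8 → ℝ)) (y : Fin 3 → ℝ) (v : Fin 8 → ℝ) :
    mu (fun l i j => B (Pi.single i 1) (Pi.single j 1) l) y v = B y v := by
  ext l
  conv_rhs => rw [pi_eq_sum_univ' y, pi_eq_sum_univ' v]
  simp only [mu, map_sum, map_smul, LinearMap.sum_apply, LinearMap.smul_apply, Finset.sum_apply, Pi.smul_apply,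
    smul_eq_mul, Finset.mul_sum]
  rw [Finset.sum_comm]
  refine Finset.sum_congr rfl fun j _ => Finset.sum_congr rfl fun i _ => ?_
  ring

theorem exists_bil (A₁ A₂ : (Fin 3 → ℝ) →ₗ[ℝ] ℍ[ℝ]) (V₁ V₂ : (Fin 8 → ℝ) →ₗ[ℝ] ℍ[ℝ]) (r : ℝ) :
    ∃ μ : Fin 8 → Fin 3 → Fin 8 → ℝ, ∀ y v,
      mu μ y v = r • ofH (m1 (A₁ y) (A₂ y) (V₁ v) (V₂ v), m2 (A₁ y) (A₂ y) (V₁ v) (V₂ v)) := by
  refine ⟨_, mu_eq (LinearMap.mk₂ ℝ
    (fun y v => r • ofH (m1 (A₁ y) (A₂ y) (V₁ v) (V₂ v), m2 (A₁ y) (A₂ y) (V₁ v) (V₂ v))) ?_ ?_ ?_ ?_)⟩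
  · intro y y' v
    rw [← smul_add, ← map_add]
    congr 2
    simp only [m1, m2, map_add, star_add, mul_add, add_mul, Prod.mk_add_mk, Prod.mk.injEq]
    constructor <;> abel
  · intro t y v
    rw [smul_comm t r, ← map_smul ofH t]
    congr 2
    simp [m1, m2, smul_sub, smul_add]
  · intro y v v'
    rw [← smul_add, ← map_add]
    congr 2
    simp only [m1, m2, map_add, mul_add, add_mul, Prod.mk_add_mk, Prod.mk.injEq]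
    constructor <;> abel
  · intro t y v
    rw [smul_comm t r, ← map_smul ofH t]
    congr 2
    simp [m1, m2, smul_sub, smul_add]

theorem exists_lin {M : Type} [AddCommGroup M] [Module ℝ M] (f g : M →ₗ[ℝ] ℍ[ℝ]) (a b : ℍ[ℝ]) :
    ∃ h : M →ₗ[ℝ] ℍ[ℝ], ∀ x, h x = a * f x + b * g x :=
  ⟨LinearMap.mulLeft ℝ a ∘ₗ f + LinearMap.mulLeft ℝ b ∘ₗ g, fun _ => rfl⟩

end A4dQ

open A4dQ Quaternion in

theorem exists_mu (y₀ : Fin 3 → ℝ) (hy : y₀ ≠ 0) (c : Fin 8 → ℝ) :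
    ∃ μ : Fin 8 → Fin 3 → Fin 8 → ℝ, Mult μ ∧ ∀ y : Fin 3 → ℝ,
      mu μ y (Qm y *ᵥ c) ⬝ᵥ mu μ y₀ (Qm y₀ *ᵥ c) =
        Ny y * Ny y₀ * ((∑ i, gw i * y₀ i * y i) * (c ⬝ᵥ c) - ∑ a, (J y₀ a ⬝ᵥ c) * (J y a ⬝ᵥ c)) ∧
      ∑ k, mu μ y (Qm y *ᵥ Pi.single k 1) ⬝ᵥ mu μ y₀ (Qm y₀ *ᵥ Pi.single k 1) =
        4 * Ny y * Ny y₀ * ∑ i, gw i * y₀ i * y i := by
  have hN : Ny y₀ ≠ 0 := (Ny_pos y₀ hy).ne'
  obtain ⟨p', hp1, hp2, hp3⟩ := exists_p' (y1 y₀) (y2 y₀)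
  obtain ⟨U₁, hU₁⟩ := exists_lin y1 y2 (star (y1 y₀)) (star (y2 y₀))
  obtain ⟨U₂, hU₂⟩ := exists_lin y1 y2 (y2 y₀) (-p')
  obtain ⟨V₁, hV₁⟩ := exists_lin h1 h2 (star (y1 y₀)) (star (y2 y₀))
  obtain ⟨V₂, hV₂⟩ := exists_lin h1 h2 (y2 y₀) (-p')
  simp only [neg_mul, ← sub_eq_add_neg] at hU₂ hV₂
  obtain ⟨κ, k1, k2, k3, k4⟩ := exists_conj (V₁ c)
  obtain ⟨μ, hμ⟩ := exists_bil (κ ∘ₗ U₁) U₂ V₁ V₂ (Ny y₀)⁻¹
  simp only [LinearMap.comp_apply] at hμ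
  have fr := frame hp2 hp3
  rw [← Ny_eq] at fr
  have frn : ∀ a₁ a₂, normSq (star (y1 y₀) * a₁ + star (y2 y₀) * a₂) + normSq (y2 y₀ * a₁ - p' * a₂) =
      Ny y₀ * (normSq a₁ + normSq a₂) := by
    intro a₁ a₂
    have := congrArg QuaternionAlgebra.re (fr a₁ a₂ a₁ a₂)
    simpa only [star_mul_self, ← coe_add, re_smul, re_coe, smul_eq_mul] using this
  have nU : ∀ y, normSq (U₁ y) + normSq (U₂ y) = Ny y₀ * Ny y := fun y => by rw [hU₁, hU₂, frn, Ny_eq y]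
  have nV : ∀ v, normSq (V₁ v) + normSq (V₂ v) = Ny y₀ * (v ⬝ᵥ v) := fun v => by rw [hV₁, hV₂, frn, dot_h v]
  have hs : ∀ y v, star (y1 y) * h1 v + star (y2 y) * h2 v =
      (Ny y₀)⁻¹ • (star (U₁ y) * V₁ v + star (U₂ y) * V₂ v) := fun y v => by
    rw [hU₁, hU₂, hV₁, hV₂, fr, smul_smul, inv_mul_cancel₀ hN, one_smul]
  have q1 : ∀ y v, V₁ (Qm y *ᵥ v) = (Ny y₀)⁻¹ •
      ((Ny y₀ * Ny y) • V₁ v - U₁ y * (star (U₁ y) * V₁ v + star (U₂ y) * V₂ v)) := fun y v => by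
    rw [smul_sub, smul_smul, inv_mul_cancel_left₀ hN, ← mul_smul_comm, ← hs, hV₁, hV₁, hU₁, h1_Q, h2_Q]
    simp only [mul_sub, mul_smul_comm, smul_add, add_mul, mul_assoc]
    abel
  have q2 : ∀ y v, V₂ (Qm y *ᵥ v) = (Ny y₀)⁻¹ •
      ((Ny y₀ * Ny y) • V₂ v - U₂ y * (star (U₁ y) * V₁ v + star (U₂ y) * V₂ v)) := fun y v => by
    rw [smul_sub, smul_smul, inv_mul_cancel_left₀ hN, ← mul_smul_comm, ← hs, hV₂, hV₂, hU₂, h1_Q, h2_Q]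
    simp only [mul_sub, mul_smul_comm, smul_sub, sub_mul, mul_assoc]
    abel
  have u1 : U₁ y₀ = Ny y₀ • 1 := by
    rw [hU₁, star_mul_self, star_mul_self, ← coe_add, ← Ny_eq, ← coe_mul_eq_smul, mul_one]
  have u2 : U₂ y₀ = 0 := by rw [hU₂, hp1, sub_self]
  have m0 : ∀ v, mu μ y₀ (Qm y₀ *ᵥ v) = ofH (Ny y₀ • V₂ v, 0) := fun v => by
    rw [hμ, q1, q2, u1, u2, map_smul, k4, ← map_smul]
    congr 1
    simp [m1, m2, smul_smul, hN]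
  have key : ∀ y v, mu μ y (Qm y *ᵥ v) ⬝ᵥ mu μ y₀ (Qm y₀ *ᵥ v) =
      (Ny y₀)⁻¹ * T (Ny y₀ * Ny y) (κ (U₁ y)) (U₁ y) (U₂ y) (V₁ v) (V₂ v) := fun y v => by
    rw [m0, hμ, smul_dotProduct, ofH_dot, q1, q2, T]
    generalize (Ny y₀ * Ny y) • V₁ v - U₁ y * (star (U₁ y) * V₁ v + star (U₂ y) * V₂ v) = a
    generalize (Ny y₀ * Ny y) • V₂ v - U₂ y * (star (U₁ y) * V₁ v + star (U₂ y) * V₂ v) = b
    simp [dt, m1]
    field_simp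
    exact Or.inl trivial
  refine ⟨μ, fun y v => ?_, fun y => ⟨?_, ?_⟩⟩
  · rw [hμ, smul_dotProduct, dotProduct_smul, ofH_dot, dt_self, dt_self, norm_m, k2, nU, nV]
    simp only [smul_eq_mul]
    field_simp
  · rw [key, T_val (nU y).symm (k1 _) (k3 _), gw_eq, J_eq, ← hU₁, ← hV₁, hs y c]
    have e := nV c
    have e' : dt (V₁ c) ((Ny y₀)⁻¹ • (star (U₁ y) * V₁ c + star (U₂ y) * V₂ c)) =
        (Ny y₀)⁻¹ * ((U₁ y).re * normSq (V₁ c) + dt (U₂ y * V₁ c) (V₂ c)) := by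
      simp [dt, normSq_def']
      ring
    rw [e']
    field_simp
    linear_combination (Ny y * (U₁ y).re) * e
  · simp only [key, hV₁, hV₂]
    rw [← Finset.mul_sum, sum_single fun a b => T (Ny y₀ * Ny y) (κ (U₁ y)) (U₁ y) (U₂ y)
      (star (y1 y₀) * a + star (y2 y₀) * b) (y2 y₀ * a - p' * b), gw_eq, ← hU₁]
    simp only [mul_zero, add_zero, sub_zero, zero_add, zero_sub, ← neg_mul]
    rw [T_tr, T_tr, normSq_neg, hp3, k3]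
    have e : star (y1 y₀) * star (y2 y₀) + star (y2 y₀) * star (-p') = 0 := by
      rw [star_neg, mul_neg, ← star_mul, ← star_mul, hp1, add_neg_cancel]
    generalize (U₁ y).re • (U₂ y * star (U₁ y)) + (Ny y₀ * Ny y - normSq (U₁ y)) • U₂ y = A
    have e' : (A * (star (y1 y₀) * star (y2 y₀))).re + (A * (star (y2 y₀) * star (-p'))).re = 0 := by
      rw [← re_add, ← mul_add, e, mul_zero, re_zero]
    have e'' := Ny_eq y₀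
    field_simp
    linear_combination -e' - (Ny y₀ * Ny y * (U₁ y).re) * e''

end Crest.Agent.R237
end
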