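import Crest.Agent.R237.A4b
import Crest.Agent.R237.A4d

set_option autoImplicit false
open scoped BigOperators Matrix
open Crest.GeometryTopology

noncomputable section
namespace Crest.Agent.R237

/-! # A4e: feasible points satisfy `Kb`.

Recipe.
* `pseudo`: both sides of the hypothesis are cubic forms; compare the 10 coefficients (evaluate at enough points, or
  polarise) and use that `mT y m` is symmetric with `Σ_a gw a * mT y m i a a = y i`.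
* `key` (`y ≠ 0`): take `μ` from `exists_mu y c`, `R = Rm μ y w.m`, `R₀ l k = mu μ y (Qm y e_k) l / N`.  `pseudo` turns the
  two identities of `exists_mu` into `⟨R c, R₀ c⟩ = Qf y c = |R₀ c|²` and `Σ_{l k} R l k R₀ l k = 4N = Σ R₀ l k²`
  (`mu μ y' (Qm y' c) l = Σ_{i a b} (Σ_{j k} μ l i j Qc a b j k c k) y' i y' a y' b`).  Apply `master` with `b₀ = 1`,
  `ξ = s R₀ c`, `P l = (R₀ l - ξ l u)/ρ`, `b = c - u/ρ`.
* `Kb_of_feas`: `nn' ≥ 0` from `s = 0, c = -δ`.  `nn ≥ 0` from `s = -σ/N`, `c = κ c₀`, `c₀ = Qm y e_k ≠ 0`, `κ → ∞`.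
  If `nn > 0`: `λ = nn + N/σ`, `κ = λ/nn`, `s κ = -1/nn`, `c = -δ + (1 - κ) Qm y δ / N` give `nn' - Qf y δ / nn ≥ 0`;
  in general apply this to `x + ε e₂` (still feasible with the same `w`) and let `ε → 0`.
  For `y = 0`: `su ≥ |u|²/ρ`, `sv ≥ |v|²/σ` and the diagonal entries of `T, A, Γ, B` are `≥ 0`; use the slacks. -/

theorem pseudo (C : Fin 3 → Fin 3 → Fin 3 → ℝ) (ℓ : Fin 3 → ℝ)
    (h : ∀ y : Fin 3 → ℝ, ∑ i, ∑ a, ∑ b, C i a b * (y i * y a * y b) = Ny y * ∑ i, ℓ i * y i)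
    (y : Fin 3 → ℝ) (m : Fin 7 → ℝ) : ∑ i, ∑ a, ∑ b, C i a b * mT y m i a b = ∑ i, ℓ i * y i := by
  have h1 := h ![1, 0, 0]
  have h2 := h ![0, 1, 0]
  have h3 := h ![0, 0, 1]
  have h4 := h ![1, 1, 0]
  have h5 := h ![1, -1, 0]
  have h6 := h ![1, 0, 1]
  have h7 := h ![1, 0, -1]
  have h8 := h ![0, 1, 1]
  have h9 := h ![0, 1, -1]
  have h10 := h ![1, 1, 1]
  simp [Fin.sum_univ_three, Ny] at h1 h2 h3 h4 h5 h6 h7 h8 h9 h10
  have e1 : C 0 0 1 + C 0 1 0 + C 1 0 0 = ℓ 1 := by linarith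
  have e2 : C 0 0 2 + C 0 2 0 + C 2 0 0 = ℓ 2 := by linarith
  have e3 : C 0 1 1 + C 1 0 1 + C 1 1 0 = 2 * ℓ 0 := by linarith
  have e4 : C 0 2 2 + C 2 0 2 + C 2 2 0 = ℓ 0 := by linarith
  have e5 : C 1 1 2 + C 1 2 1 + C 2 1 1 = 2 * ℓ 2 := by linarith
  have e6 : C 1 2 2 + C 2 1 2 + C 2 2 1 = ℓ 1 := by linarith
  have e7 : C 0 1 2 + C 0 2 1 + C 1 0 2 + C 1 2 0 + C 2 0 1 + C 2 1 0 = 0 := by linarith
  have e8 : C 1 1 1 = 2 * ℓ 1 := by linarith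
  simp [Fin.sum_univ_three, mT]
  linear_combination (y 0 - 2 * m 0 - m 1) * h1 + (y 1 - 2 * m 2 - m 3) * e1 + (y 2 - 2 * m 4 - m 5) * e2 +
    m 0 * e3 + m 1 * e4 + m 4 * e5 + m 3 * e6 + m 6 * e7 + m 2 * e8 + m 5 * h3

theorem a4e_pe {K : Type} [Fintype K] (μ : Fin 8 → Fin 3 → Fin 8 → ℝ) (c ζ : K → Fin 8 → ℝ) (ℓ : Fin 3 → ℝ)
    (h : ∀ y, ∑ k, mu μ y (Qm y *ᵥ c k) ⬝ᵥ ζ k = Ny y * ∑ i, ℓ i * y i) (y : Fin 3 → ℝ) (m : Fin 7 → ℝ) :
    ∑ k, ∑ l, ζ k l * (Rm μ y m l ⬝ᵥ c k) = ∑ i, ℓ i * y i := by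
  have key : ∀ M : Fin 3 → Fin 3 → Fin 3 → ℝ,
      ∑ i, ∑ a, ∑ b, (∑ k, ∑ l, ∑ j, ∑ n, ζ k l * μ l i j * Qc a b j n * c k n) * M i a b =
        ∑ k, ∑ l, ζ k l * ∑ n, (∑ i, ∑ j, μ l i j * ∑ a, ∑ b, Qc a b j n * M i a b) * c k n := by
    intro M
    simp only [Finset.sum_mul, Finset.mul_sum, ← Fintype.sum_prod_type']
    refine Fintype.sum_bijective
      (fun p : Fin 3 × Fin 3 × Fin 3 × K × Fin 8 × Fin 8 × Fin 8 =>
        ((p.2.2.2.1, p.2.2.2.2.1, p.2.2.2.2.2.2, p.1, p.2.2.2.2.2.1, p.2.1, p.2.2.1) :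
          K × Fin 8 × Fin 8 × Fin 3 × Fin 8 × Fin 3 × Fin 3)) ?_ _ _ fun p => by ring
    exact Function.bijective_iff_has_inverse.2
      ⟨fun q => (q.2.2.2.1, q.2.2.2.2.2.1, q.2.2.2.2.2.2, q.1, q.2.1, q.2.2.2.2.1, q.2.2.1), fun _ => rfl, fun _ => rfl⟩
  rw [← pseudo (fun i a b => ∑ k, ∑ l, ∑ j, ∑ n, ζ k l * μ l i j * Qc a b j n * c k n) ℓ (fun y' => ?_) y m, key]
  · rfl
  · rw [key, ← h y']
    refine Finset.sum_congr rfl fun k _ => Finset.sum_congr rfl fun l _ => ?_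
    have e : ∀ i j n, ∑ a, ∑ b, Qc a b j n * (y' i * y' a * y' b) = y' i * Qm y' j n := by
      intro i j n
      rw [← Qc_sum]
      simp only [Finset.mul_sum]
      exact Finset.sum_congr rfl fun a _ => Finset.sum_congr rfl fun b _ => by ring
    simp only [e, mu, Matrix.mulVec, dotProduct]
    rw [mul_comm]
    congr 1
    simp only [Finset.sum_mul, Finset.mul_sum]
    rw [Finset.sum_comm]
    refine Finset.sum_congr rfl fun i _ => ?_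
    rw [Finset.sum_comm]
    exact Finset.sum_congr rfl fun j _ => Finset.sum_congr rfl fun n _ => by ring

theorem a4e_J (y : Fin 3 → ℝ) (a : Fin 4) (c : Fin 8 → ℝ) : J y a ⬝ᵥ c = ∑ i, (J (Pi.single i 1) a ⬝ᵥ c) * y i := by
  fin_cases a <;> simp [J, dotProduct, Fin.sum_univ_succ] <;> ring

theorem a4e_lin (y y' : Fin 3 → ℝ) (c : Fin 8 → ℝ) :
    Ny y' * Ny y * ((∑ i, gw i * y i * y' i) * (c ⬝ᵥ c) - ∑ a, (J y a ⬝ᵥ c) * (J y' a ⬝ᵥ c)) =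
      Ny y' * ∑ i, (Ny y * (gw i * y i * (c ⬝ᵥ c) - ∑ a, (J y a ⬝ᵥ c) * (J (Pi.single i 1) a ⬝ᵥ c))) * y' i := by
  simp only [a4e_J y', Fin.sum_univ_three, Fin.sum_univ_four]
  ring

theorem a4e_core (x : Fin 23 → ℝ) (w : W) (hw : Feas x w) (h0 : 0 < x 0) (h1 : 0 < x 1)
    (μ : Fin 8 → Fin 3 → Fin 8 → ℝ) (hμ : Mult μ) (s : ℝ) (c ξ : Fin 8 → ℝ) (R₀ : Fin 8 → Fin 8 → ℝ)
    (ha : ξ ⬝ᵥ ξ = s ^ 2 * Qf (yy x) c) (hb : ∑ l, ξ l * (Rm μ (yy x) w.m l ⬝ᵥ c) = s * Qf (yy x) c)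
    (hc : ∑ l, R₀ l ⬝ᵥ R₀ l = 4 * Ny (yy x)) (hd : ∑ l, R₀ l ⬝ᵥ Rm μ (yy x) w.m l = 4 * Ny (yy x)) :
    0 ≤ ((x 2 - uu x ⬝ᵥ uu x / x 0) * s ^ 2 + 2 * s) * Qf (yy x) c + nn' x + x 1 * ((c + del x) ⬝ᵥ (c + del x)) := by
  have h := master x w hw μ hμ ξ 1 (c - (x 0)⁻¹ • uu x) fun l => (x 0)⁻¹ • (R₀ l - ξ l • uu x)
  set R := Rm μ (yy x) w.m
  have e1 : ∑ l, ξ l * (uu x ⬝ᵥ (x 0)⁻¹ • (R₀ l - ξ l • uu x)) =
      (x 0)⁻¹ * (∑ l, ξ l * (R₀ l ⬝ᵥ uu x) - (ξ ⬝ᵥ ξ) * (uu x ⬝ᵥ uu x)) := by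
    rw [show ξ ⬝ᵥ ξ = ∑ l, ξ l * ξ l from rfl, Finset.sum_mul, ← Finset.sum_sub_distrib, Finset.mul_sum]
    refine Finset.sum_congr rfl fun l _ => ?_
    simp only [dotProduct_smul, dotProduct_sub, smul_eq_mul, dotProduct_comm (uu x) (R₀ l)]
    ring
  have e2 : ∑ l, (x 0)⁻¹ • (R₀ l - ξ l • uu x) ⬝ᵥ (x 0)⁻¹ • (R₀ l - ξ l • uu x) =
      (x 0)⁻¹ ^ 2 * (∑ l, R₀ l ⬝ᵥ R₀ l - 2 * ∑ l, ξ l * (R₀ l ⬝ᵥ uu x) + (ξ ⬝ᵥ ξ) * (uu x ⬝ᵥ uu x)) := by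
    rw [show ξ ⬝ᵥ ξ = ∑ l, ξ l * ξ l from rfl, Finset.sum_mul, Finset.mul_sum, ← Finset.sum_sub_distrib,
      ← Finset.sum_add_distrib, Finset.mul_sum]
    refine Finset.sum_congr rfl fun l _ => ?_
    simp only [dotProduct_smul, dotProduct_sub, smul_dotProduct, sub_dotProduct, smul_eq_mul,
      dotProduct_comm (uu x) (R₀ l)]
    ring
  have e3 : ∑ l, ξ l * (R l ⬝ᵥ (c - (x 0)⁻¹ • uu x)) =
      ∑ l, ξ l * (R l ⬝ᵥ c) - (x 0)⁻¹ * ∑ l, ξ l * (R l ⬝ᵥ uu x) := by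
    rw [Finset.mul_sum, ← Finset.sum_sub_distrib]
    refine Finset.sum_congr rfl fun l _ => ?_
    simp only [dotProduct_smul, dotProduct_sub, smul_eq_mul]
    ring
  have e4 : ∑ l, (x 0)⁻¹ • (R₀ l - ξ l • uu x) ⬝ᵥ R l =
      (x 0)⁻¹ * (∑ l, R₀ l ⬝ᵥ R l - ∑ l, ξ l * (R l ⬝ᵥ uu x)) := by
    rw [← Finset.sum_sub_distrib, Finset.mul_sum]
    refine Finset.sum_congr rfl fun l _ => ?_
    simp only [smul_dotProduct, sub_dotProduct, smul_eq_mul, dotProduct_comm (uu x) (R l)]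
  rw [e1, e2, e3, e4, ha, hb, hc, hd] at h
  have e5 : c + del x = (c - (x 0)⁻¹ • uu x) + (x 1)⁻¹ • vv x := by
    unfold del
    abel
  rw [e5]
  set b := c - (x 0)⁻¹ • uu x
  simp only [dotProduct_smul, dotProduct_add, smul_dotProduct, add_dotProduct, smul_eq_mul,
    dotProduct_comm b (vv x)]
  unfold nn'
  refine h.trans_eq ?_
  field_simp
  ring

theorem key (x : Fin 23 → ℝ) (w : W) (hw : Feas x w) (h0 : 0 < x 0) (h1 : 0 < x 1) (hy : yy x ≠ 0)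
    (s : ℝ) (c : Fin 8 → ℝ) :
    0 ≤ ((x 2 - uu x ⬝ᵥ uu x / x 0) * s ^ 2 + 2 * s) * Qf (yy x) c + nn' x + x 1 * ((c + del x) ⬝ᵥ (c + del x)) := by
  obtain ⟨μ, hμ, hid⟩ := exists_mu (yy x) hy c
  set y := yy x with hyd
  have hN : 0 < Ny y := Ny_pos y hy
  have hgw : ∑ i, gw i * y i * y i = Ny y := by simp [Fin.sum_univ_three, gw, Ny]; ring
  have hQ : Ny y * (c ⬝ᵥ c) - ∑ a, (J y a ⬝ᵥ c) * (J y a ⬝ᵥ c) = Qf y c := by
    rw [Qf_eq]; simp only [sq]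
  -- first identity
  have hb : ∑ l, mu μ y (Qm y *ᵥ c) l * (Rm μ y w.m l ⬝ᵥ c) = Ny y * Qf y c := by
    have := a4e_pe (K := Unit) μ (fun _ => c) (fun _ => mu μ y (Qm y *ᵥ c))
      (fun i => Ny y * (gw i * y i * (c ⬝ᵥ c) - ∑ a, (J y a ⬝ᵥ c) * (J (Pi.single i 1) a ⬝ᵥ c))) (fun y' => by
        rw [Fintype.sum_unique, (hid y').1, a4e_lin]) y w.m
    rw [Fintype.sum_unique, ← mul_right_inj' hN.ne', ← a4e_lin, hgw, hQ] at this
    rw [← mul_right_inj' hN.ne', this]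
    ring
  have ha : mu μ y (Qm y *ᵥ c) ⬝ᵥ mu μ y (Qm y *ᵥ c) = Ny y * Ny y * Qf y c := by
    rw [(hid y).1, hgw, hQ]
  have hd : ∑ k, ∑ l, mu μ y (Qm y *ᵥ Pi.single k 1) l * (Rm μ y w.m l ⬝ᵥ Pi.single k 1) = 4 * Ny y * Ny y := by
    rw [a4e_pe μ (fun k => Pi.single k 1) (fun k => mu μ y (Qm y *ᵥ Pi.single k 1))
      (fun i => 4 * Ny y * (gw i * y i)) (fun y' => by
        rw [(hid y').2]
        simp only [Fin.sum_univ_three]
        ring) y w.m]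
    conv_rhs => rw [← hgw]
    simp only [Fin.sum_univ_three, hgw]
    rw [← hgw]
    simp only [Fin.sum_univ_three]
    ring
  have hc := (hid y).2
  rw [hgw] at hc
  refine a4e_core x w hw h0 h1 μ hμ s c ((s / Ny y) • mu μ y (Qm y *ᵥ c))
    (fun l k => mu μ y (Qm y *ᵥ Pi.single k 1) l / Ny y) ?_ ?_ ?_ ?_
  · rw [smul_dotProduct, dotProduct_smul, ha, smul_eq_mul, smul_eq_mul, ← hyd]
    field_simp
  · simp only [Pi.smul_apply, smul_eq_mul, mul_assoc]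
    rw [← Finset.mul_sum, hb, ← hyd]
    field_simp
  · simp only [dotProduct] at hc ⊢
    rw [Finset.sum_comm]
    simp only [div_mul_div_comm, ← Finset.sum_div]
    rw [hc, ← hyd]
    field_simp
  · simp only [dotProduct_single, mul_one] at hd
    simp only [dotProduct]
    rw [Finset.sum_comm]
    simp only [div_mul_eq_mul_div, ← Finset.sum_div]
    rw [hd, ← hyd]
    field_simp

theorem Kb_of_feas (x : Fin 23 → ℝ) (w : W) (hw : Feas x w) (h0 : 0 < x 0) (h1 : 0 < x 1) : Kb x := by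
  by_cases hy : yy x = 0
  · obtain ⟨μ, hμ, -⟩ := exists_mu ![1, 0, 0] (fun h => by simpa using congrFun h 0) 0
    have k1 := master x w hw μ hμ (Pi.single 0 1) 0 0 fun l => (-(Pi.single 0 1 : Fin 8 → ℝ) l * (x 0)⁻¹) • uu x
    have k2 := master x w hw μ hμ 0 1 (-(x 1)⁻¹ • vv x) 0
    have hN : Ny (0 : Fin 3 → ℝ) = 0 := by simp [Ny]
    have n1 : 0 ≤ nn x := by
      unfold nn
      rw [hy, hN]
      refine k1.trans_eq ?_
      simp [Fin.sum_univ_succ, dotProduct_smul, smul_dotProduct]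
      field_simp
      ring
    have n2 : 0 ≤ nn' x := by
      unfold nn'
      rw [hy, hN]
      refine k2.trans_eq ?_
      simp [dotProduct_smul, smul_dotProduct]
      field_simp
      ring
    exact ⟨n1, n2, by rw [hy, Qf_zero_left]; positivity⟩
  have hk := key x w hw h0 h1 hy
  have hN : 0 < Ny (yy x) := Ny_pos _ hy
  have ha : x 2 - uu x ⬝ᵥ uu x / x 0 = nn x + Ny (yy x) / x 1 := by unfold nn; ring
  rw [ha] at hk
  set y := yy x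
  set N := Ny y
  have hQQ : ∀ z, Qm y *ᵥ (Qm y *ᵥ z) = N • Qm y *ᵥ z := by
    intro z
    rw [Matrix.mulVec_mulVec, Qm_mul_Qm, Matrix.smul_mulVec]
  have n1 : 0 ≤ nn x := by
    obtain ⟨j, hj⟩ : ∃ j, 0 < Qm y j j := by
      by_contra hne
      push Not at hne
      have h2 : ∑ j, Qm y j j ≤ 0 := Finset.sum_nonpos fun j _ => hne j
      rw [trace_Qm] at h2
      linarith
    set c₀ := Qm y *ᵥ (Pi.single j 1 : Fin 8 → ℝ) with hc₀
    have h2 : c₀ ⬝ᵥ c₀ = N * Qm y j j := by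
      rw [hc₀, Qm_dot_Qm]
      simp [Qf, N]
    have h3 : 0 < c₀ ⬝ᵥ c₀ := by rw [h2]; positivity
    have h4 : Qf y c₀ = N * (c₀ ⬝ᵥ c₀) := by
      unfold Qf
      rw [hc₀, hQQ, dotProduct_smul, smul_eq_mul]
    have h5 : ∀ κ : ℝ, 0 ≤ (c₀ ⬝ᵥ c₀ * x 1 ^ 2 / N * nn x) * (κ * κ) + (2 * x 1 * (c₀ ⬝ᵥ del x)) * κ +
        (nn' x + x 1 * (del x ⬝ᵥ del x)) := by
      intro κ
      refine (hk (-(x 1 / N)) (κ • c₀)).trans_eq ?_
      rw [Qf_smul, h4]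
      simp only [dotProduct_smul, dotProduct_add, smul_dotProduct, add_dotProduct, smul_eq_mul,
        dotProduct_comm (del x) c₀]
      field_simp
      ring
    by_contra hneg
    push Not at hneg
    have h6 : c₀ ⬝ᵥ c₀ * x 1 ^ 2 / N * nn x < 0 := mul_neg_of_pos_of_neg (by positivity) hneg
    generalize c₀ ⬝ᵥ c₀ * x 1 ^ 2 / N * nn x = A at h5 h6
    generalize 2 * x 1 * (c₀ ⬝ᵥ del x) = B at h5
    generalize nn' x + x 1 * (del x ⬝ᵥ del x) = C at h5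
    have h7 := h5 0
    have h8 := h5 (1 + C / -A)
    have h9 := h5 (-(1 + C / -A))
    have h10 : 0 ≤ C / -A := div_nonneg (by linarith) (by linarith)
    have h11 : -A * (C / -A) = C := mul_div_cancel₀ _ (by linarith)
    nlinarith [mul_nonneg (neg_nonneg.2 h6.le) (mul_nonneg h10 h10)]
  have hQ := Qf_nonneg y (del x)
  have h5 : ∀ t : ℝ, t ≤ 0 → 0 ≤ (nn x * t ^ 2 + 2 * t) * Qf y (del x) + nn' x := by
    intro t ht
    have hκ : 0 < 1 - t * N / x 1 := by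
      have : t * N / x 1 ≤ 0 := div_nonpos_of_nonpos_of_nonneg (mul_nonpos_of_nonpos_of_nonneg ht hN.le) h1.le
      linarith
    refine (hk (t / (1 - t * N / x 1)) (-del x + (t / x 1) • Qm y *ᵥ del x)).trans_eq ?_
    have h6 : Qf y (-del x + (t / x 1) • Qm y *ᵥ del x) = (1 - t * N / x 1) ^ 2 * Qf y (del x) := by
      have h7 := Qm_dot_Qm y (del x)
      unfold Qf at h7 ⊢
      simp only [Matrix.mulVec_add, Matrix.mulVec_neg, Matrix.mulVec_smul, hQQ, dotProduct_smul, dotProduct_add,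
        smul_dotProduct, add_dotProduct, neg_dotProduct, dotProduct_neg, smul_eq_mul, h7]
      ring
    rw [h6, neg_add_cancel_comm, smul_dotProduct, dotProduct_smul, Qm_dot_Qm, smul_eq_mul, smul_eq_mul]
    generalize hκ' : 1 - t * N / x 1 = κ at hκ
    have h8 : t * N / x 1 = 1 - κ := by linarith
    have h9 : (nn x + N / x 1) * (t / κ) ^ 2 * κ ^ 2 = (nn x + N / x 1) * t ^ 2 := by field_simp
    have h10 : 2 * (t / κ) * κ ^ 2 = 2 * t * κ := by field_simp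
    have h11 : x 1 * (t / x 1 * (t / x 1 * (N * Qf y (del x)))) = t * (t * N / x 1) * Qf y (del x) := by field_simp
    have h12 : N / x 1 * t ^ 2 = t * (t * N / x 1) := by ring
    rw [h11]
    linear_combination Qf y (del x) * (h9 + h10 + h12) + 2 * t * Qf y (del x) * h8
  have n2 : 0 ≤ nn' x := by simpa using h5 0 le_rfl
  refine ⟨n1, n2, ?_⟩
  rcases n1.eq_or_lt with h6 | h6
  · rw [← h6, zero_mul]
    by_contra hpos
    push Not at hpos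
    have h7 := h5 (-(nn' x + 1) / Qf y (del x)) (div_nonpos_of_nonpos_of_nonneg (by linarith) hQ)
    rw [← h6, zero_mul, zero_add, mul_assoc, div_mul_cancel₀ _ hpos.ne'] at h7
    linarith
  · have h7 := h5 (-(nn x)⁻¹) (neg_nonpos.2 (inv_nonneg.2 h6.le))
    have h8 : (nn x * (-(nn x)⁻¹) ^ 2 + 2 * -(nn x)⁻¹) * Qf y (del x) = -(Qf y (del x) / nn x) := by
      field_simp
      ring
    rw [h8] at h7
    rw [mul_comm, ← div_le_iff₀ h6]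
    linarith

end Crest.Agent.R237
end
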