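import Crest.Agent.R237.A4a
import Crest.Agent.R237.A4e

set_option autoImplicit false
open scoped BigOperators Matrix
open Crest.GeometryTopology

noncomputable section
namespace Crest.Agent.R237

/-! # A4f: the projection of the lift is `Kc`.

Recipe.  `Feas x w` persists when `x 0, x 1, x 2, x 3` increase, and gives `0 ≤ x 0`, `0 ≤ x 1`.  For `t > 0` the point
`x' = x + t e - (t/2)(e₂ + e₃)` is feasible, so `Kb x'`; `nn, nn'` of `x + t e` exceed those of `x'` by `t/2` and `del`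
is the same, so `x + t e ∈ Ko`.  Conversely for `x ∈ Kc` take `w_n` for `x + e/(n+1)` from `feas_of_Kb`, a convergent
subsequence (bounded set in the finite-dimensional space `W`), and continuity of the forms in `(x, w)`.
`mem_Kc_iff`: `→` by `t → 0`, `←` by `feas_of_Kb` and `mem_Kc_iff_feas`. -/

/-- the shift of the first four coordinates -/
def a4f_sh (a b : ℝ) : Fin 23 → ℝ := fun i => if i.1 < 2 then a else if i.1 < 4 then b else 0

theorem a4f_sh_eA (t : ℝ) : t • (eA : Fin 23 → ℝ) = a4f_sh t t := by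
  funext i
  simp only [eA, a4f_sh, Pi.smul_apply, smul_eq_mul]
  split_ifs <;> first | omega | simp

theorem a4f_uu (x : Fin 23 → ℝ) (a b : ℝ) : uu (x + a4f_sh a b) = uu x := by
  funext i
  simp only [uu, a4f_sh, Pi.add_apply]
  rw [if_neg (by omega), if_neg (by omega), add_zero]

theorem a4f_vv (x : Fin 23 → ℝ) (a b : ℝ) : vv (x + a4f_sh a b) = vv x := by
  funext i
  simp only [vv, a4f_sh, Pi.add_apply]
  rw [if_neg (by omega), if_neg (by omega), add_zero]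

theorem a4f_yy (x : Fin 23 → ℝ) (a b : ℝ) : yy (x + a4f_sh a b) = yy x := by
  funext i
  simp only [yy, a4f_sh, Pi.add_apply]
  rw [if_neg (by omega), if_neg (by omega), add_zero]

theorem a4f_0 (x : Fin 23 → ℝ) (a b : ℝ) : (x + a4f_sh a b) 0 = x 0 + a := rfl
theorem a4f_1 (x : Fin 23 → ℝ) (a b : ℝ) : (x + a4f_sh a b) 1 = x 1 + a := rfl
theorem a4f_2 (x : Fin 23 → ℝ) (a b : ℝ) : (x + a4f_sh a b) 2 = x 2 + b := rfl
theorem a4f_3 (x : Fin 23 → ℝ) (a b : ℝ) : (x + a4f_sh a b) 3 = x 3 + b := rfl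

theorem a4f_dot (p : Fin 8 → ℝ) : 0 ≤ p ⬝ᵥ p := Finset.sum_nonneg fun i _ => mul_self_nonneg (p i)

theorem Feas.a4f_mono {x : Fin 23 → ℝ} {w : W} (h : Feas x w) {a b : ℝ} (ha : 0 ≤ a) (hb : 0 ≤ b) :
    Feas (x + a4f_sh a b) w := by
  refine ⟨fun p ξ η => ?_, fun p ξ η => ?_, h.hN, ?_, ?_⟩
  · have := h.hρ p ξ η
    simp only [formρ, a4f_uu, a4f_yy, a4f_0] at this ⊢
    nlinarith [mul_nonneg ha (a4f_dot p)]
  · have := h.hσ p ξ η
    simp only [formσ, a4f_vv, a4f_yy, a4f_1] at this ⊢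
    nlinarith [mul_nonneg ha (a4f_dot p)]
  · have := h.h1
    simp only [slack1, a4f_2] at this ⊢
    linarith
  · have := h.h2
    simp only [slack2, a4f_3] at this ⊢
    linarith

theorem Feas.a4f_nonneg {x : Fin 23 → ℝ} {w : W} (h : Feas x w) : 0 ≤ x 0 ∧ 0 ≤ x 1 :=
  ⟨by simpa [formρ] using h.hρ (Pi.single 0 1) 0 0, by simpa [formσ] using h.hσ (Pi.single 0 1) 0 0⟩

theorem a4f_cont_phi (i : Fin 3) (j k : Fin 8) :
    Continuous fun p : (Fin 23 → ℝ) × W => phi (yy p.1) p.2.m i j k := by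
  refine continuous_finsetSum _ fun a _ => continuous_finsetSum _ fun b _ => continuous_const.mul ?_
  fin_cases i <;> fin_cases a <;> fin_cases b <;> simp [mT, yy, W.m] <;> fun_prop

theorem a4f_closed : IsClosed {p : (Fin 23 → ℝ) × W | Feas p.1 p.2} := by
  have e : {p : (Fin 23 → ℝ) × W | Feas p.1 p.2} =
      (⋂ q, ⋂ ξ, ⋂ η, {p | 0 ≤ formρ p.1 p.2 q ξ η}) ∩ (⋂ q, ⋂ ξ, ⋂ η, {p | 0 ≤ formσ p.1 p.2 q ξ η}) ∩
        (⋂ q, ⋂ r, {p | 0 ≤ formN p.2 q r}) ∩ {p | 0 ≤ slack1 p.1 p.2} ∩ {p | 0 ≤ slack2 p.1 p.2} := by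
    ext p
    simp only [Set.mem_ofPred_eq, Set.mem_inter_iff, Set.mem_iInter]
    exact ⟨fun h => ⟨⟨⟨⟨h.hρ, h.hσ⟩, h.hN⟩, h.h1⟩, h.h2⟩, fun h => ⟨h.1.1.1.1, h.1.1.1.2, h.1.1.2, h.1.2, h.2⟩⟩
  have := a4f_cont_phi
  rw [e]
  refine ((((isClosed_iInter fun q => isClosed_iInter fun ξ => isClosed_iInter fun η => ?_).inter
    (isClosed_iInter fun q => isClosed_iInter fun ξ => isClosed_iInter fun η => ?_)).inter
    (isClosed_iInter fun q => isClosed_iInter fun r => ?_)).inter ?_).inter ?_ <;>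
    refine isClosed_le continuous_const ?_
  · unfold formρ dotProduct uu W.su W.θρ W.Γ
    fun_prop
  · unfold formσ dotProduct vv W.sv W.θσ W.T
    fun_prop
  · unfold formN W.A W.B W.θσ W.θρ
    fun_prop
  · unfold slack1 W.su W.T W.A
    fun_prop
  · unfold slack2 W.sv W.Γ W.B
    fun_prop

theorem mem_Kc_iff_feas (x : Fin 23 → ℝ) : x ∈ Kc ↔ ∃ w : W, Feas x w := by
  constructor
  · intro hx
    obtain ⟨C, hC⟩ := feas_of_Kb
    have hK : IsCompact ({p : (Fin 23 → ℝ) × W | Feas p.1 p.2} ∩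
        Metric.closedBall 0 (‖x‖ + ‖(eA : Fin 23 → ℝ)‖) ×ˢ Metric.closedBall 0 (|C| * (‖x‖ + ‖(eA : Fin 23 → ℝ)‖))) :=
      ((isCompact_closedBall _ _).prod (isCompact_closedBall _ _)).inter_left a4f_closed
    have ht : Filter.Tendsto (fun n : ℕ => x + (1 / ((n : ℝ) + 1)) • (eA : Fin 23 → ℝ)) Filter.atTop (nhds x) := by
      simpa using ((tendsto_one_div_add_atTop_nhds_zero_nat (𝕜 := ℝ)).smul_const (eA : Fin 23 → ℝ)).const_add x
    obtain ⟨p, hp, rfl⟩ := (hK.image continuous_fst).isClosed.mem_of_tendsto ht (Filter.Eventually.of_forall fun n => by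
      have h0 : 0 < 1 / ((n : ℝ) + 1) := by positivity
      have h1 : 1 / ((n : ℝ) + 1) ≤ 1 := div_le_one_of_le₀ (by simp) (by positivity)
      obtain ⟨a0, a1, a2, a3, a4⟩ := hx _ h0
      obtain ⟨w, hw, hn⟩ := hC _ a0 a1 ⟨a2.le, a3.le, a4.le⟩
      have h2 : ‖x + (1 / ((n : ℝ) + 1)) • (eA : Fin 23 → ℝ)‖ ≤ ‖x‖ + ‖(eA : Fin 23 → ℝ)‖ :=
        (norm_add_le _ _).trans (by
          rw [norm_smul, Real.norm_of_nonneg h0.le]
          nlinarith [norm_nonneg (eA : Fin 23 → ℝ)])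
      exact ⟨(_, w), ⟨hw, mem_closedBall_zero_iff.2 h2, mem_closedBall_zero_iff.2
        (hn.trans (mul_le_mul (le_abs_self C) h2 (norm_nonneg _) (abs_nonneg C)))⟩, rfl⟩)
    exact ⟨p.2, hp.1⟩
  · rintro ⟨w, hw⟩ t ht
    obtain ⟨h0, h1⟩ := hw.a4f_nonneg
    obtain ⟨k1, k2, k3⟩ := Kb_of_feas _ w (hw.a4f_mono ht.le (half_pos ht).le) (by rw [a4f_0]; linarith)
      (by rw [a4f_1]; linarith)
    rw [a4f_sh_eA]
    have e1 : nn (x + a4f_sh t t) = nn (x + a4f_sh t (t / 2)) + t / 2 := by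
      simp only [nn, a4f_uu, a4f_yy, a4f_0, a4f_1, a4f_2]
      ring
    have e2 : nn' (x + a4f_sh t t) = nn' (x + a4f_sh t (t / 2)) + t / 2 := by
      simp only [nn', a4f_vv, a4f_yy, a4f_0, a4f_1, a4f_3]
      ring
    have e3 : del (x + a4f_sh t t) = del (x + a4f_sh t (t / 2)) := by
      simp only [del, a4f_uu, a4f_vv, a4f_0, a4f_1]
    refine ⟨by rw [a4f_0]; linarith, by rw [a4f_1]; linarith, by linarith, by linarith, ?_⟩
    rw [e1, e2, e3]
    rw [a4f_yy] at k3 ⊢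
    nlinarith

theorem mem_Kc_iff (x : Fin 23 → ℝ) (h0 : 0 < x 0) (h1 : 0 < x 1) : x ∈ Kc ↔ Kb x := by
  rw [mem_Kc_iff_feas]
  refine ⟨fun ⟨w, hw⟩ => Kb_of_feas x w hw h0 h1, fun h => ?_⟩
  obtain ⟨C, hC⟩ := feas_of_Kb
  exact (hC x h0 h1 h).imp fun w hw => hw.1

end Crest.Agent.R237
end
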