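import Mathlib
import Crest.Prelude.Def_Hyperbolic

/-!
# Row 237, part A (S0368): definitions (frozen)

Coordinates of `x : Fin 23 → R`: `ρ = x 0`, `σ = x 1`, `xx = x 2`, `ζ = x 3`, `u = x 4..11`, `v = x 12..19`,
`y = x 20..22`.  `ℝ^8 = ℍ²`; `y` stands for the quaternionic vector `(y₀ + y₁ i, y₂ + y₁ j)`, `J y a` is its
right multiple by the unit `1, i, j, k`, and `Qm y = |y|² · (projection onto (yℍ)^⊥)`.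
-/

set_option autoImplicit false
open scoped BigOperators Matrix

noncomputable section
namespace Crest.Agent.R237

section Ring
variable {R : Type} [CommRing R]

def uu (x : Fin 23 → R) : Fin 8 → R := fun i => x ⟨4 + i.1, by omega⟩
def vv (x : Fin 23 → R) : Fin 8 → R := fun i => x ⟨12 + i.1, by omega⟩
def yy (x : Fin 23 → R) : Fin 3 → R := fun i => x ⟨20 + i.1, by omega⟩

/-- weights of the norm on the `y`-space -/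
def gw : Fin 3 → R := ![1, 2, 1]
/-- `|y|²` -/
def Ny (y : Fin 3 → R) : R := y 0 ^ 2 + 2 * y 1 ^ 2 + y 2 ^ 2
/-- `y · 1, y · i, y · j, y · k` in real coordinates -/
def J (y : Fin 3 → R) : Fin 4 → Fin 8 → R :=
  ![![y 0, y 1, 0, 0, y 2, 0, y 1, 0], ![-y 1, y 0, 0, 0, 0, y 2, 0, -y 1],
    ![0, 0, y 0, y 1, -y 1, 0, y 2, 0], ![0, 0, -y 1, y 0, 0, y 1, 0, y 2]]
/-- `Q(y) = |y|² I - Σ_a (J y a)(J y a)ᵀ` -/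
def Qm (y : Fin 3 → R) : Matrix (Fin 8) (Fin 8) R :=
  Matrix.of fun j k => (if j = k then Ny y else 0) - ∑ a, J y a j * J y a k
/-- the biquadratic form `Q(y; c)` -/
def Qf (y : Fin 3 → R) (c : Fin 8 → R) : R := c ⬝ᵥ Qm y *ᵥ c
/-- the sextic -/
def p6 (x : Fin 23 → R) : R :=
  (x 1 * (x 0 * x 2 - uu x ⬝ᵥ uu x) - x 0 * Ny (yy x)) *
      (x 0 * (x 1 * x 3 - vv x ⬝ᵥ vv x) - 4 * x 1 * Ny (yy x)) -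
    Qf (yy x) (x 0 • vv x - x 1 • uu x)
/-- the sextic times `ρ^a σ^a` -/
def pp (a : ℕ) (x : Fin 23 → R) : R := p6 x * (x 0 * x 1) ^ a
/-- the direction -/
def eA : Fin 23 → R := fun i => if i.1 < 4 then 1 else 0
end Ring

/-- the polynomial of degree `6 + 2a` -/
def PA (a : ℕ) : MvPolynomial (Fin 23) ℝ := pp a MvPolynomial.X

def nn (x : Fin 23 → ℝ) : ℝ := x 2 - uu x ⬝ᵥ uu x / x 0 - Ny (yy x) / x 1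
def nn' (x : Fin 23 → ℝ) : ℝ := x 3 - vv x ⬝ᵥ vv x / x 1 - 4 * Ny (yy x) / x 0
def del (x : Fin 23 → ℝ) : Fin 8 → ℝ := (x 1)⁻¹ • vv x - (x 0)⁻¹ • uu x

/-- the open cone -/
def Ko : Set (Fin 23 → ℝ) :=
  {x | 0 < x 0 ∧ 0 < x 1 ∧ 0 < nn x ∧ 0 < nn' x ∧ Qf (yy x) (del x) < nn x * nn' x}
/-- the closed conditions (meaningful when `0 < x 0`, `0 < x 1`) -/
def Kb (x : Fin 23 → ℝ) : Prop := 0 ≤ nn x ∧ 0 ≤ nn' x ∧ Qf (yy x) (del x) ≤ nn x * nn' x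
/-- the closed cone -/
def Kc : Set (Fin 23 → ℝ) := {x | ∀ t : ℝ, 0 < t → x + t • eA ∈ Ko}

/-! ## The lift -/

/-- coefficients of `Qm`: `Σ_{ab} Qc a b j k y_a y_b = Qm y j k` -/
def Qc (a b : Fin 3) (j k : Fin 8) : ℝ :=
  (if j = k ∧ a = b then gw a else 0) - ∑ e, J (Pi.single a 1) e j * J (Pi.single b 1) e k

/-- pseudo-evaluation of `y_i y_a y_b / |y|²`: a symmetric tensor with `Σ_a gw a * mT i a a = y i`.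
True values: `m = (y0 y1², y0 y2², y1³, y1 y2², y1² y2, y2³, y0 y1 y2) / |y|²`. -/
def mT (y : Fin 3 → ℝ) (m : Fin 7 → ℝ) : Fin 3 → Fin 3 → Fin 3 → ℝ :=
  ![![![y 0 - 2 * m 0 - m 1, y 1 - 2 * m 2 - m 3, y 2 - 2 * m 4 - m 5],
      ![y 1 - 2 * m 2 - m 3, m 0, m 6], ![y 2 - 2 * m 4 - m 5, m 6, m 1]],
    ![![y 1 - 2 * m 2 - m 3, m 0, m 6], ![m 0, m 2, m 4], ![m 6, m 4, m 3]],
    ![![y 2 - 2 * m 4 - m 5, m 6, m 1], ![m 6, m 4, m 3], ![m 1, m 3, m 5]]]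

/-- pseudo-evaluation of `y_i P^⊥(y)_{jk}` -/
def phi (y : Fin 3 → ℝ) (m : Fin 7 → ℝ) (i : Fin 3) (j k : Fin 8) : ℝ :=
  ∑ a, ∑ b, Qc a b j k * mT y m i a b

/-- lifted variables `(m, (su, sv), (θρ, θσ), t, T, A, B)`; dimension `7+2+48+81+9+64+9 = 220` -/
abbrev W : Type :=
  (Fin 7 → ℝ) × (ℝ × ℝ) × ((Fin 3 → Fin 8 → ℝ) × (Fin 3 → Fin 8 → ℝ)) ×
    (Fin 3 → Fin 3 → Fin 3 → Fin 3 → ℝ) × (Fin 3 → Fin 3 → ℝ) × (Fin 8 → Fin 8 → ℝ) × (Fin 3 → Fin 3 → ℝ)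

def W.m (w : W) := w.1
def W.su (w : W) := w.2.1.1
def W.sv (w : W) := w.2.1.2
def W.θρ (w : W) := w.2.2.1.1
def W.θσ (w : W) := w.2.2.1.2
/-- true value `y_i y_i' P^⊥_{jj'} / ρ` for `t i i' a b = y_i y_i' y_a y_b / (4 |y|² ρ)` -/
def W.Γ (w : W) (i : Fin 3) (j : Fin 8) (i' : Fin 3) (j' : Fin 8) : ℝ :=
  ∑ a, ∑ b, (Qc a b j j' + Qc a b j' j) * (w.2.2.2.1 i i' a b + w.2.2.2.1 i' i a b)
/-- true value `y_i y_i' / σ` -/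
def W.T (w : W) (i i' : Fin 3) : ℝ := w.2.2.2.2.1 i i' + w.2.2.2.2.1 i' i
def W.A (w : W) (j j' : Fin 8) : ℝ := w.2.2.2.2.2.1 j j' + w.2.2.2.2.2.1 j' j
def W.B (w : W) (i i' : Fin 3) : ℝ := w.2.2.2.2.2.2 i i' + w.2.2.2.2.2.2 i' i

/-- true value `|ρ p + ξ u + Σ η_ij y_i P^⊥ e_j|² / ρ` -/
def formρ (x : Fin 23 → ℝ) (w : W) (p : Fin 8 → ℝ) (ξ : ℝ) (η : Fin 3 → Fin 8 → ℝ) : ℝ :=
  x 0 * (p ⬝ᵥ p) + 2 * ξ * (uu x ⬝ᵥ p) + w.su * ξ ^ 2 +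
    2 * (∑ i, ∑ j, ∑ k, η i j * phi (yy x) w.m i j k * p k) + 2 * ξ * (∑ i, ∑ j, η i j * w.θρ i j) +
    ∑ i, ∑ j, ∑ i', ∑ j', η i j * w.Γ i j i' j' * η i' j'
/-- true value `(|σ p + ξ v + Σ η_ij y_i P^⊥ e_j|² + |Σ η_ij y_i P e_j|²) / σ` -/
def formσ (x : Fin 23 → ℝ) (w : W) (p : Fin 8 → ℝ) (ξ : ℝ) (η : Fin 3 → Fin 8 → ℝ) : ℝ :=
  x 1 * (p ⬝ᵥ p) + 2 * ξ * (vv x ⬝ᵥ p) + w.sv * ξ ^ 2 +
    2 * (∑ i, ∑ j, ∑ k, η i j * phi (yy x) w.m i j k * p k) + 2 * ξ * (∑ i, ∑ j, η i j * w.θσ i j) +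
    ∑ i, ∑ i', ∑ j, η i j * w.T i i' * η i' j
/-- the nuclear norm block -/
def formN (w : W) (p : Fin 8 → ℝ) (q : Fin 3 → ℝ) : ℝ :=
  (∑ j, ∑ j', p j * w.A j j' * p j') + 2 * (∑ i, ∑ j, q i * (w.θσ i j - w.θρ i j) * p j) +
    ∑ i, ∑ i', q i * w.B i i' * q i'
def slack1 (x : Fin 23 → ℝ) (w : W) : ℝ := x 2 - w.su - (∑ i, gw i * w.T i i) - ∑ j, w.A j j
def slack2 (x : Fin 23 → ℝ) (w : W) : ℝ :=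
  x 3 - w.sv - (∑ i, ∑ j, gw i * w.Γ i j i j) - ∑ i, gw i * w.B i i

/-- feasibility of the lifted system (sizes `33 + 33 + 11 + 1 + 1 = 79`) -/
structure Feas (x : Fin 23 → ℝ) (w : W) : Prop where
  hρ : ∀ p ξ η, 0 ≤ formρ x w p ξ η
  hσ : ∀ p ξ η, 0 ≤ formσ x w p ξ η
  hN : ∀ p q, 0 ≤ formN w p q
  h1 : 0 ≤ slack1 x w
  h2 : 0 ≤ slack2 x w

/-- the bilinear map `Y × ℝ^8 → ℝ^8` with coefficients `μ` -/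
def mu (μ : Fin 8 → Fin 3 → Fin 8 → ℝ) (y : Fin 3 → ℝ) (v : Fin 8 → ℝ) : Fin 8 → ℝ :=
  fun l => ∑ i, ∑ j, μ l i j * y i * v j
/-- norm multiplicativity -/
def Mult (μ : Fin 8 → Fin 3 → Fin 8 → ℝ) : Prop := ∀ y v, mu μ y v ⬝ᵥ mu μ y v = Ny y * (v ⬝ᵥ v)
/-- `R_{lk} = Σ μ_{l,ij} φ_{ijk}` -/
def Rm (μ : Fin 8 → Fin 3 → Fin 8 → ℝ) (y : Fin 3 → ℝ) (m : Fin 7 → ℝ) (l k : Fin 8) : ℝ :=
  ∑ i, ∑ j, μ l i j * phi y m i j k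

/-- block pencils: `F(x)(ξ, η) = L₁(ρ, xx, u)(ξ,ξ) + 2 B(y)(ξ,η) + L₂(σ, ζ, v)(η,η)` -/
structure Pencil (H₁ H₀ : Type) [AddCommGroup H₁] [Module ℝ H₁] [AddCommGroup H₀] [Module ℝ H₀] where
  L₁ : (ℝ × ℝ × (Fin 8 → ℝ)) →ₗ[ℝ] H₁ →ₗ[ℝ] H₁ →ₗ[ℝ] ℝ
  L₂ : (ℝ × ℝ × (Fin 8 → ℝ)) →ₗ[ℝ] H₀ →ₗ[ℝ] H₀ →ₗ[ℝ] ℝ
  B : (Fin 3 → ℝ) →ₗ[ℝ] H₁ →ₗ[ℝ] H₀ →ₗ[ℝ] ℝ
  s₁ : ∀ X a b, L₁ X a b = L₁ X b a
  s₂ : ∀ X a b, L₂ X a b = L₂ X b a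
  p₁ : ∀ a, a ≠ 0 → 0 < L₁ (1, 1, 0) a a
  p₂ : ∀ a, a ≠ 0 → 0 < L₂ (1, 1, 0) a a
  iff : ∀ x : Fin 23 → ℝ, 0 < x 0 → 0 < x 1 → (Kb x ↔ ∀ ξ η,
    0 ≤ L₁ (x 0, x 2, uu x) ξ ξ + 2 * B (yy x) ξ η + L₂ (x 1, x 3, vv x) η η)

/-- the boundary point `(1, |α|², α)` of the arrow cone -/
def bd (α : Fin 8 → ℝ) : ℝ × ℝ × (Fin 8 → ℝ) := (1, α ⬝ᵥ α, α)

end Crest.Agent.R237
end
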