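import Crest.Agent.R237.BDefs

set_option autoImplicit false
open scoped BigOperators Matrix Topology
open Crest.GeometryTopology

noncomputable section
namespace Crest.Agent.R237

/-! # B0a: coordinates, tensors, pairings (unfolding, `Finset.sum_comm`, `Fin.cases`) -/

theorem sym3_sy {R : Type} [CommRing R] (t : C3 R) : Sym3 (sy t) := by
  intro a b c
  simp only [sy]
  constructor <;> ring
theorem mkP_ix {R : Type} [CommRing R] (t : C3 R) (z : R) (a b c : Fin 8) : mkP t z (ix a b c) = t a b c := by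
  have ha := a.2
  have hb := b.2
  have hc := c.2
  have h : (ix a b c).1 < 512 := by simp only [ix]; omega
  unfold mkP
  rw [dif_pos h]
  have e : ∀ {u v w : Fin 8}, u = a → v = b → w = c → t u v w = t a b c := by
    rintro _ _ _ rfl rfl rfl; rfl
  refine e (Fin.ext ?_) (Fin.ext ?_) (Fin.ext ?_) <;> simp only [ix] <;> omega
theorem Lof_mkP {R : Type} [CommRing R] (t : C3 R) (z : R) : Lof (mkP t z) = sy t := by
  unfold Lof
  congr 1
  funext a b c
  exact mkP_ix t z a b c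
theorem zof_mkP {R : Type} [CommRing R] (t : C3 R) (z : R) : zof (mkP t z) = z := by
  simp [zof, mkP]
theorem mkP_eta {R : Type} [CommRing R] (x : Fin 513 → R) : mkP (fun a b c => x (ix a b c)) (zof x) = x := by
  funext i
  unfold mkP
  split_ifs with h
  · refine congrArg x (Fin.ext ?_)
    simp only [ix]
    omega
  · refine congrArg x (Fin.ext ?_)
    have := i.2
    simp only [Fin.val_last]
    omega
theorem sy_div (L : C3 ℝ) (hL : Sym3 L) : sy (fun a b c => L a b c / 6) = L := by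
  funext a b c
  have h1 := (hL a b c).1
  have h2 := (hL a b c).2
  have h3 := (hL b a c).2
  have h4 := (hL a c b).1
  have h5 := (hL c a b).2
  simp only [sy]
  linarith
theorem Sym4.zero {D : Q4 ℝ} (hD : Sym4 D) : Sym3 (D 0) := by
  intro a b c
  exact ⟨(hD 0 a b c).2.1, (hD 0 a b c).2.2⟩
theorem Sym4.add {D D' : Q4 ℝ} (hD : Sym4 D) (hD' : Sym4 D') : Sym4 (D + D') := by
  intro a b c d
  obtain ⟨h1, h2, h3⟩ := hD a b c d
  obtain ⟨h4, h5, h6⟩ := hD' a b c d
  simp only [Pi.add_apply]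
  exact ⟨by rw [h1, h4], by rw [h2, h5], by rw [h3, h6]⟩
theorem Sym4.smul {D : Q4 ℝ} (hD : Sym4 D) (c : ℝ) : Sym4 (c • D) := by
  intro a b e d
  obtain ⟨h1, h2, h3⟩ := hD a b e d
  simp only [Pi.smul_apply]
  exact ⟨by rw [h1], by rw [h2], by rw [h3]⟩
theorem Sym4.sum {ι : Type} (s : Finset ι) (D : ι → Q4 ℝ) (h : ∀ i ∈ s, Sym4 (D i)) : Sym4 (∑ i ∈ s, D i) := by
  intro a b c d
  simp only [Finset.sum_apply]
  exact ⟨Finset.sum_congr rfl fun i hi => (h i hi a b c d).1, Finset.sum_congr rfl fun i hi => (h i hi a b c d).2.1,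
    Finset.sum_congr rfl fun i hi => (h i hi a b c d).2.2⟩
theorem Sym4.dv {D : Q4 ℝ} (hD : Sym4 D) (v : Fin 8) : Sym4 (dv D v) := by
  intro a b c d
  simp only [R237.dv]
  refine ⟨?_, ?_, ?_⟩
  · rw [(hD a 0 c d).1, (hD b 0 c d).1, (hD a b 0 d).1, (hD a b c 0).1]
    ring
  · rw [(hD 0 b c d).2.1, (hD a 0 c d).2.1, (hD a 0 b d).2.1, (hD a b c 0).2.1]
    ring
  · rw [(hD 0 b c d).2.2, (hD a 0 c d).2.2, (hD a b 0 d).2.2, (hD a b 0 c).2.2]
    ring
theorem Sym4.act {D : Q4 ℝ} (hD : Sym4 D) (U : Matrix (Fin 8) (Fin 8) ℝ) : Sym4 (act U D) := by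
  intro a b c d
  simp only [R237.act]
  refine ⟨?_, ?_, ?_⟩
  · rw [Finset.sum_comm]
    refine Finset.sum_congr rfl fun a' _ => Finset.sum_congr rfl fun b' _ => Finset.sum_congr rfl fun c' _ =>
      Finset.sum_congr rfl fun d' _ => ?_
    rw [(hD a' b' c' d').1]
    ring
  · refine Finset.sum_congr rfl fun a' _ => ?_
    rw [Finset.sum_comm]
    refine Finset.sum_congr rfl fun b' _ => Finset.sum_congr rfl fun c' _ => Finset.sum_congr rfl fun d' _ => ?_
    rw [(hD a' b' c' d').2.1]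
    ring
  · refine Finset.sum_congr rfl fun a' _ => Finset.sum_congr rfl fun b' _ => ?_
    rw [Finset.sum_comm]
    refine Finset.sum_congr rfl fun c' _ => Finset.sum_congr rfl fun d' _ => ?_
    rw [(hD a' b' c' d').2.2]
    ring
theorem Sym4.symT {D : Q4 ℝ} (hD : Sym4 D) : SymT (top D) := by
  intro i j k l
  exact hD _ _ _ _
theorem sym4_dirac (x : Fin 8 → ℝ) : Sym4 (dirac x) := by
  intro a b c d
  simp only [dirac]
  refine ⟨?_, ?_, ?_⟩ <;> ring
theorem sym3_Le : Sym3 Le := by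
  intro a b c
  simp only [Le]
  constructor
  · by_cases ha : a = 0 <;> by_cases hb : b = 0
    · rw [ha, hb]
    · simp only [if_pos ha, if_neg hb]
    · simp only [if_neg ha, if_pos hb]
    · simp only [if_neg ha, if_neg hb, eq_comm (a := a)]
  · by_cases ha : a = 0
    · simp only [if_pos ha, eq_comm (a := b)]
    · by_cases hb : b = 0 <;> by_cases hc : c = 0
      · rw [hb, hc]
      · simp only [if_neg ha, if_pos hb, if_neg hc]
      · simp only [if_neg ha, if_neg hb, if_pos hc]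
      · simp only [if_neg ha, if_neg hb, if_neg hc]
theorem Mm_Le : Mm Le = 1 := by
  ext a b
  simp [Mm, Le, Matrix.one_apply]
theorem Sym3.isSymm {L : C3 ℝ} (hL : Sym3 L) : (Mm L).IsSymm := by
  ext a b
  simp only [Mm, Matrix.transpose_apply, Matrix.of_apply]
  exact (hL 0 b a).2
theorem Lof_pt (ψ : X4 → ℝ) {D : Q4 ℝ} (hD : Sym4 D) : Lof (pt ψ D) = D 0 := by
  exact (Lof_mkP (fun a b c => D 0 a b c / 6) (ψ ⬝ᵥ top D)).trans (sy_div _ hD.zero)
theorem zof_pt (ψ : X4 → ℝ) (D : Q4 ℝ) : zof (pt ψ D) = ψ ⬝ᵥ top D := by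
  exact zof_mkP (fun a b c => D 0 a b c / 6) (ψ ⬝ᵥ top D)
theorem asm_zero (L : C3 ℝ) (τ : X4 → ℝ) : asm L τ 0 = L := by
  rfl
theorem top_asm (L : C3 ℝ) (τ : X4 → ℝ) : top (asm L τ) = τ := by
  rfl
theorem sym4_asm {L : C3 ℝ} {τ : X4 → ℝ} (hL : Sym3 L) (hτ : SymT τ) : Sym4 (asm L τ) := by
  intro a b c d
  cases a using Fin.cases <;> cases b using Fin.cases <;> cases c using Fin.cases <;> cases d using Fin.cases <;>
    simp only [asm, Fin.cases_zero, Fin.cases_succ] <;>
    refine ⟨?_, ?_, ?_⟩ <;>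
    first
      | trivial
      | rfl
      | exact (hL _ _ _).1
      | exact (hL _ _ _).2
      | exact (hτ _ _ _ _).1
      | exact (hτ _ _ _ _).2.1
      | exact (hτ _ _ _ _).2.2
theorem asm_eta {D : Q4 ℝ} (hD : Sym4 D) : asm (D 0) (top D) = D := by
  funext a b c d
  cases a using Fin.cases with
  | zero => rfl
  | succ i =>
    cases b using Fin.cases with
    | zero => exact (hD _ _ _ _).1
    | succ j =>
      cases c using Fin.cases with
      | zero => exact (hD _ _ _ _).1.trans (hD _ _ _ _).2.1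
      | succ k =>
        cases d using Fin.cases with
        | zero => exact ((hD _ _ _ _).1.trans (hD _ _ _ _).2.1).trans (hD _ _ _ _).2.2
        | succ l => rfl
theorem asm_add (L L' : C3 ℝ) (τ τ' : X4 → ℝ) : asm (L + L') (τ + τ') = asm L τ + asm L' τ' := by
  funext a b c d
  cases a using Fin.cases <;> cases b using Fin.cases <;> cases c using Fin.cases <;> cases d using Fin.cases <;> rfl
theorem asm_smul (c : ℝ) (L : C3 ℝ) (τ : X4 → ℝ) : asm (c • L) (c • τ) = c • asm L τ := by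
  funext a b e d
  cases a using Fin.cases <;> cases b using Fin.cases <;> cases e using Fin.cases <;> cases d using Fin.cases <;> rfl
theorem SymT.rel {τ : X4 → ℝ} (hτ : SymT τ) : rel τ = 0 := by
  funext ⟨i, j, k, l⟩
  exact sub_eq_zero.2 (hτ i j k l).2.1
theorem symT_of_rel {τ : X4 → ℝ} (h1 : ∀ i j k l, τ (i, j, k, l) = τ (j, i, k, l))
    (h2 : ∀ i j k l, τ (i, j, k, l) = τ (k, l, i, j)) (h : rel τ = 0) : SymT τ := by
  intro i j k l
  refine ⟨h1 i j k l, sub_eq_zero.1 (congrFun h (i, j, k, l)), ?_⟩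
  rw [h2 i j k l, h1 k l i j, h2 l k i j]
theorem rel_add {R : Type} [CommRing R] (Γ Γ' : X4 → R) : rel (Γ + Γ') = rel Γ + rel Γ' := by
  funext x
  simp only [rel, Pi.add_apply]
  ring
theorem rel_sub {R : Type} [CommRing R] (Γ Γ' : X4 → R) : rel (Γ - Γ') = rel Γ - rel Γ' := by
  funext x
  simp only [rel, Pi.sub_apply]
  ring
theorem rel_smul (c : ℝ) (Γ : X4 → ℝ) : rel (c • Γ) = c • rel Γ := by
  funext x
  simp only [rel, Pi.smul_apply, smul_eq_mul]
  ring
theorem rel_bb_idm_ne : rel (bb idm) ≠ 0 := by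
  intro h
  have := congrFun h (0, 0, 1, 1)
  simp [rel, bb, idm] at this
theorem pr_add_left (D D' : Q4 ℝ) (q q' : Q2) : pr (D + D') q q' = pr D q q' + pr D' q q' := by
  simp only [pr, Pi.add_apply, mul_add, Finset.sum_add_distrib]
theorem pr_smul_left (c : ℝ) (D : Q4 ℝ) (q q' : Q2) : pr (c • D) q q' = c * pr D q q' := by
  simp only [pr, Pi.smul_apply, smul_eq_mul, Finset.mul_sum]
  refine Finset.sum_congr rfl fun _ _ => Finset.sum_congr rfl fun _ _ => Finset.sum_congr rfl fun _ _ =>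
    Finset.sum_congr rfl fun _ _ => ?_
  ring
theorem pr_sum_left {ι : Type} (s : Finset ι) (D : ι → Q4 ℝ) (q q' : Q2) :
    pr (∑ i ∈ s, D i) q q' = ∑ i ∈ s, pr (D i) q q' := by
  induction s using Finset.cons_induction with
  | empty => simp [pr]
  | cons i s hi ih => rw [Finset.sum_cons, Finset.sum_cons, pr_add_left, ih]
theorem pr_add_mid (D : Q4 ℝ) (q₁ q₂ q' : Q2) : pr D (q₁ + q₂) q' = pr D q₁ q' + pr D q₂ q' := by
  simp only [pr, Pi.add_apply, add_mul, Finset.sum_add_distrib]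
theorem pr_sub_mid (D : Q4 ℝ) (q₁ q₂ q' : Q2) : pr D (q₁ - q₂) q' = pr D q₁ q' - pr D q₂ q' := by
  simp only [pr, Pi.sub_apply, sub_mul, Finset.sum_sub_distrib]
theorem pr_smul_mid (D : Q4 ℝ) (c : ℝ) (q q' : Q2) : pr D (c • q) q' = c * pr D q q' := by
  simp only [pr, Pi.smul_apply, smul_eq_mul, Finset.mul_sum, mul_assoc]
theorem pr_sum_mid {ι : Type} (s : Finset ι) (D : Q4 ℝ) (q : ι → Q2) (q' : Q2) :
    pr D (∑ i ∈ s, q i) q' = ∑ i ∈ s, pr D (q i) q' := by
  induction s using Finset.cons_induction with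
  | empty => simp [pr]
  | cons i s hi ih => rw [Finset.sum_cons, Finset.sum_cons, pr_add_mid, ih]
theorem pr_add_right (D : Q4 ℝ) (q q₁ q₂ : Q2) : pr D q (q₁ + q₂) = pr D q q₁ + pr D q q₂ := by
  simp only [pr, Pi.add_apply, add_mul, mul_add, Finset.sum_add_distrib]
theorem pr_sub_right (D : Q4 ℝ) (q q₁ q₂ : Q2) : pr D q (q₁ - q₂) = pr D q q₁ - pr D q q₂ := by
  simp only [pr, Pi.sub_apply, sub_mul, mul_sub, Finset.sum_sub_distrib]
theorem pr_smul_right (D : Q4 ℝ) (c : ℝ) (q q' : Q2) : pr D q (c • q') = c * pr D q q' := by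
  simp only [pr, Pi.smul_apply, smul_eq_mul, Finset.mul_sum]
  refine Finset.sum_congr rfl fun _ _ => Finset.sum_congr rfl fun _ _ => Finset.sum_congr rfl fun _ _ =>
    Finset.sum_congr rfl fun _ _ => ?_
  ring
theorem pr_sum_right {ι : Type} (s : Finset ι) (D : Q4 ℝ) (q : Q2) (q' : ι → Q2) :
    pr D q (∑ i ∈ s, q' i) = ∑ i ∈ s, pr D q (q' i) := by
  induction s using Finset.cons_induction with
  | empty => simp [pr]
  | cons i s hi ih => rw [Finset.sum_cons, Finset.sum_cons, pr_add_right, ih]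
theorem Sym4.swap {D : Q4 ℝ} (hD : Sym4 D) (a b c d : Fin 8) : D a b c d = D c d a b := by
  rw [(hD a b c d).2.1, (hD a c b d).1, (hD c a b d).2.2, (hD c a d b).2.1]
theorem sum4_swap (f : Q4 ℝ) : ∑ a, ∑ b, ∑ c, ∑ d, f a b c d = ∑ c, ∑ d, ∑ a, ∑ b, f a b c d := by
  simp only [← Finset.sum_product', Finset.univ_product_univ]
  exact Fintype.sum_equiv ⟨fun x => (x.2.2.1, x.2.2.2, x.1, x.2.1), fun x => (x.2.2.1, x.2.2.2, x.1, x.2.1),
    fun _ => rfl, fun _ => rfl⟩ _ _ fun _ => rfl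
theorem pr_comm {D : Q4 ℝ} (hD : Sym4 D) (q q' : Q2) : pr D q q' = pr D q' q := by
  simp only [pr]
  rw [sum4_swap]
  refine Finset.sum_congr rfl fun a _ => Finset.sum_congr rfl fun b _ => Finset.sum_congr rfl fun c _ =>
    Finset.sum_congr rfl fun d _ => ?_
  rw [hD.swap c d a b]
  ring
/-- only the symmetric part of `q` matters -/
theorem pr_congr {D : Q4 ℝ} (hD : Sym4 D) {q₁ q₂ : Q2} (h : ∀ a b, q₁ a b + q₁ b a = q₂ a b + q₂ b a) (q' : Q2) :
    pr D q₁ q' = pr D q₂ q' := by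
  have key : ∀ q : Q2, pr D (fun a b => q a b + q b a) q' = 2 * pr D q q' := fun q => by
    have e : pr D (fun a b => q b a) q' = pr D q q' := by
      simp only [pr]
      rw [Finset.sum_comm]
      refine Finset.sum_congr rfl fun a _ => Finset.sum_congr rfl fun b _ => Finset.sum_congr rfl fun c _ =>
        Finset.sum_congr rfl fun d _ => ?_
      rw [(hD a b c d).1]
    have := pr_add_mid D q (fun a b => q b a) q'
    rw [e] at this
    rw [two_mul, ← this]
    rfl
  have h1 := key q₁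
  have h2 := key q₂
  simp only [h] at h1
  linarith
theorem pr_dirac (x : Fin 8 → ℝ) (q q' : Q2) : pr (dirac x) q q' = ev q x * ev q' x := by
  simp only [pr, ev, dirac, Finset.sum_mul]
  simp only [Finset.mul_sum]
  refine Finset.sum_congr rfl fun _ _ => Finset.sum_congr rfl fun _ _ => Finset.sum_congr rfl fun _ _ =>
    Finset.sum_congr rfl fun _ _ => ?_
  ring
theorem act_dirac (U : Matrix (Fin 8) (Fin 8) ℝ) (x : Fin 8 → ℝ) : act U (dirac x) = dirac (U *ᵥ x) := by
  funext a b c d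
  simp only [act, dirac, Matrix.mulVec, dotProduct]
  rw [Finset.sum_mul_sum, mul_assoc, Finset.sum_mul_sum, Finset.sum_mul]
  refine Finset.sum_congr rfl fun _ _ => ?_
  rw [Finset.sum_mul]
  refine Finset.sum_congr rfl fun _ _ => ?_
  rw [Finset.mul_sum]
  refine Finset.sum_congr rfl fun _ _ => ?_
  rw [Finset.mul_sum]
  refine Finset.sum_congr rfl fun _ _ => ?_
  ring
theorem act_add (U : Matrix (Fin 8) (Fin 8) ℝ) (D D' : Q4 ℝ) : act U (D + D') = act U D + act U D' := by
  funext a b c d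
  simp only [act, Pi.add_apply, mul_add, Finset.sum_add_distrib]
theorem act_smul (U : Matrix (Fin 8) (Fin 8) ℝ) (c : ℝ) (D : Q4 ℝ) : act U (c • D) = c • act U D := by
  funext a b e d
  simp only [act, Pi.smul_apply, smul_eq_mul, Finset.mul_sum]
  refine Finset.sum_congr rfl fun _ _ => Finset.sum_congr rfl fun _ _ => Finset.sum_congr rfl fun _ _ =>
    Finset.sum_congr rfl fun _ _ => ?_
  ring
theorem act_one (D : Q4 ℝ) : act 1 D = D := by
  funext a b c d
  simp only [act, Matrix.one_apply, ite_mul, mul_ite, one_mul, mul_one, zero_mul, mul_zero,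
    Finset.sum_ite_eq, Finset.mem_univ, if_true]
theorem Um_zero_one : Um 0 1 = 1 := by
  ext i j
  simp only [Um, Matrix.of_apply, Matrix.one_apply]
  split_ifs with h1 h2 h2
  · subst h1 h2; rfl
  · subst h1
    obtain ⟨k, rfl⟩ := Fin.exists_succ_eq.2 h2
    rfl
  · rfl
  · rfl

end Crest.Agent.R237
end
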