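import Crest.Agent.R237.B0a

set_option autoImplicit false
open scoped BigOperators Matrix Topology
open Crest.GeometryTopology

noncomputable section
namespace Crest.Agent.R237

/-! # B0b: `Gam`, `Del`, `PP`, the polynomial.

`Matrix.inv_def`, `Matrix.mul_nonsing_inv`; `(Mm (D 0))⁻¹` is symmetric.  `pr_lin_Aq`: `Aq` is `D`-orthogonal to
`x₀ · (linear forms)`.  `MvPolynomial.IsHomogeneous` for `det` (degree 8) and `adjugate` (degree 7): expand with
`Matrix.det_apply`, `Matrix.adjugate_fin_succ_eq_det_submatrix`; `IsHomogeneous.aeval`/`eval₂` for `aeval R F`. -/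

theorem aG_eq {L : C3 ℝ} (h : (Mm L).det ≠ 0) : aG L = (Mm L).det • Gam L := by
  funext x
  simp only [aG, Gam, Pi.smul_apply, smul_eq_mul, Finset.mul_sum, Matrix.inv_def, Ring.inverse_eq_inv',
    Matrix.smul_apply]
  refine Finset.sum_congr rfl fun a _ => Finset.sum_congr rfl fun b _ => ?_
  field_simp
theorem b0b_Mm_smul (L : C3 ℝ) (c : ℝ) : Mm (c • L) = c • Mm L := rfl
theorem b0b_inv_smul (M : Matrix (Fin 8) (Fin 8) ℝ) (c : ℝ) (hc : c ≠ 0) : (c • M)⁻¹ = c⁻¹ • M⁻¹ := by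
  rw [Matrix.inv_def, Matrix.inv_def, Matrix.det_smul, Matrix.adjugate_smul, smul_smul, smul_smul, Ring.inverse_eq_inv']
  congr 1
  rw [Fintype.card_fin, mul_inv]
  field_simp
theorem Gam_smul (L : C3 ℝ) (c : ℝ) (hc : c ≠ 0) : Gam (c • L) = c • Gam L := by
  funext x
  simp only [Gam, b0b_Mm_smul, b0b_inv_smul _ c hc, Pi.smul_apply, smul_eq_mul, Finset.mul_sum, Matrix.smul_apply]
  refine Finset.sum_congr rfl fun a _ => Finset.sum_congr rfl fun b _ => ?_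
  field_simp
theorem Gam_Le : Gam Le = bb idm := by
  funext x
  simp only [Gam, Mm_Le, inv_one, Matrix.one_apply, mul_ite, mul_one, mul_zero, ite_mul, zero_mul, Finset.sum_ite_eq,
    Finset.mem_univ, if_true]
  rw [Fin.sum_univ_succ]
  simp [Le, bb, idm, Fin.succ_ne_zero]
theorem Gam_swap {L : C3 ℝ} (hL : Sym3 L) (i j k l : Fin 7) :
    Gam L (i, j, k, l) = Gam L (j, i, k, l) ∧ Gam L (i, j, k, l) = Gam L (k, l, i, j) := by
  have hs : ∀ a b, (Mm L)⁻¹ a b = (Mm L)⁻¹ b a := fun a b => (hL.isSymm.inv.apply b a)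
  refine ⟨?_, ?_⟩
  · simp only [Gam, (hL _ i.succ j.succ).2]
  · simp only [Gam]
    rw [Finset.sum_comm]
    refine Finset.sum_congr rfl fun a _ => Finset.sum_congr rfl fun b _ => ?_
    rw [hs b a]
    ring
theorem Del_swap {D : Q4 ℝ} (hD : Sym4 D) (i j k l : Fin 7) :
    Del D (i, j, k, l) = Del D (j, i, k, l) ∧ Del D (i, j, k, l) = Del D (k, l, i, j) := by
  obtain ⟨h1, h2⟩ := Gam_swap hD.zero i j k l
  have ht := hD.symT
  simp only [Del, Pi.sub_apply]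
  refine ⟨by rw [← h1, ← (ht i j k l).1], ?_⟩
  rw [← h2, (ht i j k l).2.1, (ht i k j l).1, (ht k i j l).2.2, (ht k i l j).2.1]
theorem rel_Del {D : Q4 ℝ} (hD : Sym4 D) : rel (Del D) = -rel (Gam (D 0)) := by
  rw [Del, rel_sub, hD.symT.rel, zero_sub]
theorem b0b_cont_Mm : Continuous (Mm : C3 ℝ → Matrix (Fin 8) (Fin 8) ℝ) :=
  continuous_matrix fun a b => by
    simp only [Mm, Matrix.of_apply]
    fun_prop
theorem continuousAt_Gam {L : C3 ℝ} (h : (Mm L).det ≠ 0) : ContinuousAt Gam L := by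
  have h1 : ContinuousAt (fun L' : C3 ℝ => (Mm L')⁻¹) L := by
    refine ContinuousAt.comp (g := Inv.inv) (continuousAt_matrix_inv _ ?_) b0b_cont_Mm.continuousAt
    rw [Ring.inverse_eq_inv']
    exact continuousAt_inv₀ h
  refine continuousAt_pi.2 fun x => ?_
  simp only [Gam]
  refine tendsto_finsetSum _ fun a _ => tendsto_finsetSum _ fun b _ => ?_
  refine ContinuousAt.mul (ContinuousAt.mul ?_ ?_) ?_
  · exact (by fun_prop : Continuous fun y : C3 ℝ => y a x.1.succ x.2.1.succ).continuousAt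
  · exact continuousAt_pi.1 (continuousAt_pi.1 h1 a) b
  · exact (by fun_prop : Continuous fun y : C3 ℝ => y b x.2.2.1.succ x.2.2.2.succ).continuousAt
theorem Img_smul {R : X4 → ℝ} (hR : R ∈ Img) (c : ℝ) (hc : c ≠ 0) : c • R ∈ Img := by
  obtain ⟨L, hL, hd, rfl⟩ := hR
  refine ⟨c • L, fun a b e => ?_, ?_, by rw [Gam_smul L c hc, rel_smul]⟩
  · simp only [Pi.smul_apply]
    exact ⟨by rw [(hL a b e).1], by rw [(hL a b e).2]⟩
  · rw [b0b_Mm_smul, Matrix.det_smul]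
    exact mul_ne_zero (pow_ne_zero _ hc) hd
theorem closure_Img_smul {R : X4 → ℝ} (hR : R ∈ closure Img) (c : ℝ) (hc : c ≠ 0) : c • R ∈ closure Img := by
  exact map_mem_closure (f := fun R : X4 → ℝ => c • R) (continuous_const_smul c) hR fun R hR => Img_smul hR c hc
/-- the cubic functional with moment matrix `M` and no cubic part -/
def b0bL (M : Matrix (Fin 8) (Fin 8) ℝ) : C3 ℝ := fun a b c =>
  if a = 0 then M b c else if b = 0 then M a c else if c = 0 then M a b else 0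
theorem b0bL_sym {M : Matrix (Fin 8) (Fin 8) ℝ} (hM : ∀ a b, M a b = M b a) : Sym3 (b0bL M) := by
  intro a b c
  by_cases ha : a = 0 <;> by_cases hb : b = 0 <;> by_cases hc : c = 0 <;> simp [b0bL, ha, hb, hc, hM a b, hM b c, hM 0 b,
    hM 0 c]
theorem b0bL_Mm (M : Matrix (Fin 8) (Fin 8) ℝ) : Mm (b0bL M) = M := by
  ext a b
  simp [Mm, b0bL]
theorem b0bL_Gam (M : Matrix (Fin 8) (Fin 8) ℝ) :
    Gam (b0bL M) = M⁻¹ 0 0 • bb fun i j => M i.succ j.succ := by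
  funext x
  simp only [Gam, b0bL_Mm, Pi.smul_apply, smul_eq_mul, bb]
  simp only [b0bL, Fin.succ_ne_zero, if_false, ite_mul, mul_ite, zero_mul, mul_zero, Finset.sum_ite_eq', Finset.mem_univ,
    if_true]
  ring
theorem b0b_mem {M : Matrix (Fin 8) (Fin 8) ℝ} (hM : ∀ a b, M a b = M b a) (hd : M.det ≠ 0)
    (h0 : ∀ i : Fin 7, M 0 i.succ = 0) : rel (bb fun i j => M i.succ j.succ) ∈ Img := by
  have h1 : M 0 0 * M⁻¹ 0 0 = 1 := by
    have := congrFun (congrFun (M.mul_nonsing_inv (isUnit_iff_ne_zero.2 hd)) 0) 0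
    rw [Matrix.mul_apply, Fin.sum_univ_succ] at this
    simpa [h0] using this
  have h2 := Img_smul (R := rel (Gam (b0bL M))) ⟨_, b0bL_sym hM, by rwa [b0bL_Mm], rfl⟩ (M 0 0)
    (left_ne_zero_of_mul_eq_one h1)
  rwa [b0bL_Gam, rel_smul, smul_smul, h1, one_smul] at h2
theorem b0b_cont_rel : Continuous (rel : (X4 → ℝ) → X4 → ℝ) :=
  continuous_pi fun x => by
    simp only [rel]
    fun_prop
/-- `L` with `Mm L = diag(1, b + ε I)` and no cubic part has `Gam L = bb (b + ε I)` -/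
theorem rel_bb_mem (b : Fin 7 → Fin 7 → ℝ) (hb : ∀ i j, b i j = b j i) : rel (bb b) ∈ closure Img := by
  let M : Matrix (Fin 8) (Fin 8) ℝ := Matrix.of fun a c => Fin.cases 0 (fun i => Fin.cases 0 (fun j => b i j) c) a
  have hM : ∀ a c, M a c = M c a := fun a c => by
    cases a using Fin.cases <;> cases c using Fin.cases <;> simp [M, hb]
  have hev : ∀ᶠ ε in 𝓝[≠] (0 : ℝ), ε ∉ spectrum ℝ (-M) :=
    (Matrix.finite_spectrum (-M)).eventually_cofinite_notMem.filter_mono (nhdsNE_le_cofinite 0)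
  have hc : Continuous fun ε : ℝ => rel (bb fun i j => (ε • (1 : Matrix (Fin 8) (Fin 8) ℝ) + M) i.succ j.succ) := by
    refine b0b_cont_rel.comp (continuous_pi fun x => ?_)
    simp only [bb, Matrix.add_apply, Matrix.smul_apply, smul_eq_mul]
    fun_prop
  have ht := (hc.tendsto 0).mono_left (nhdsWithin_le_nhds (s := {0}ᶜ))
  have e : (fun i j : Fin 7 => ((0 : ℝ) • (1 : Matrix (Fin 8) (Fin 8) ℝ) + M) i.succ j.succ) = b := by
    funext i j
    simp [M]
  rw [e] at ht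
  refine mem_closure_of_tendsto ht (hev.mono fun ε hε => b0b_mem (fun a c => ?_) ?_ fun i => ?_)
  · simp only [Matrix.add_apply, Matrix.smul_apply, Matrix.one_apply, hM a c, eq_comm]
  · rw [spectrum.notMem_iff, sub_neg_eq_add, Algebra.algebraMap_eq_smul_one, Matrix.isUnit_iff_isUnit_det] at hε
    exact hε.ne_zero
  · simp [M, (Fin.succ_ne_zero i).symm]
/-- the quadric `x₀ ℓ` -/
def lin (ℓ : Fin 8 → ℝ) : Q2 := fun a b => if a = 0 then ℓ b else 0
/-- the monomial `x_u x_v` -/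
def b0bE (u v : Fin 8) : Q2 := fun a b => if a = u ∧ b = v then 1 else 0
theorem b0b_Aq (D : Q4 ℝ) (i j : Fin 7) : Aq D i j = b0bE i.succ j.succ - lin fun b => lc D b i j := rfl
theorem b0b_sumE (u v : Fin 8) (f : Fin 8 → Fin 8 → ℝ) : ∑ a, ∑ b, b0bE u v a b * f a b = f u v := by
  simp [b0bE, ite_and]
theorem b0b_sumL (ℓ : Fin 8 → ℝ) (f : Fin 8 → Fin 8 → ℝ) : ∑ a, ∑ b, lin ℓ a b * f a b = ∑ b, ℓ b * f 0 b := by
  rw [Fin.sum_univ_succ]
  simp [lin, Fin.succ_ne_zero]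
theorem b0b_pr (D : Q4 ℝ) (q q' : Q2) : pr D q q' = ∑ a, ∑ b, q a b * ∑ c, ∑ d, q' c d * D a b c d := by
  simp only [pr, Finset.mul_sum, mul_assoc]
theorem pr_lin_lin (D : Q4 ℝ) (hD : Sym4 D) (ℓ ℓ' : Fin 8 → ℝ) : pr D (lin ℓ) (lin ℓ') = ℓ ⬝ᵥ Mm (D 0) *ᵥ ℓ' := by
  rw [b0b_pr, b0b_sumL]
  simp only [b0b_sumL, dotProduct, Matrix.mulVec, Mm, Matrix.of_apply]
  refine Finset.sum_congr rfl fun b _ => congrArg _ (Finset.sum_congr rfl fun d _ => ?_)
  rw [mul_comm, (hD 0 b 0 d).2.1]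
theorem pr_lin_Aq {D : Q4 ℝ} (hD : Sym4 D) (h : (Mm (D 0)).det ≠ 0) (ℓ : Fin 8 → ℝ) (k l : Fin 7) :
    pr D (lin ℓ) (Aq D k l) = 0 := by
  rw [b0b_Aq, pr_sub_right, pr_lin_lin D hD, b0b_pr, b0b_sumL]
  have e : (fun b => lc D b k l) = (Mm (D 0))⁻¹ *ᵥ fun b => D 0 b k.succ l.succ := rfl
  rw [e, Matrix.mulVec_mulVec, Matrix.mul_nonsing_inv _ (isUnit_iff_ne_zero.2 h), Matrix.one_mulVec]
  simp only [b0b_sumE]
  exact sub_self _
/-- every quadric is `x₀ ℓ + Σ q_{ij} A_{ij}` up to symmetrisation -/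
theorem exists_lin (D : Q4 ℝ) (q : Q2) : ∃ ℓ : Fin 8 → ℝ, ∀ a b, q a b + q b a =
    (lin ℓ + ∑ i : Fin 7, ∑ j : Fin 7, q i.succ j.succ • Aq D i j) a b +
      (lin ℓ + ∑ i : Fin 7, ∑ j : Fin 7, q i.succ j.succ • Aq D i j) b a := by
  refine ⟨fun b => (if b = 0 then q 0 0 else q 0 b + q b 0) + ∑ i : Fin 7, ∑ j : Fin 7, q i.succ j.succ * lc D b i j,
    fun a b => ?_⟩
  simp only [Pi.add_apply, Finset.sum_apply, Pi.smul_apply, smul_eq_mul, Aq, lin, mul_sub, Finset.sum_sub_distrib]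
  cases a using Fin.cases <;> cases b using Fin.cases <;>
    simp [Fin.succ_ne_zero, (Fin.succ_ne_zero _).symm, ite_and, add_comm]
theorem dDel_self {D : Q4 ℝ} (hD : Sym4 D) (h : (Mm (D 0)).det ≠ 0) : dDel D D = Del D := by
  funext x
  rw [dDel, b0b_Aq D x.1, pr_sub_mid, pr_lin_Aq hD h, sub_zero, b0b_pr, b0b_sumE, b0b_Aq]
  simp only [Pi.sub_apply, sub_mul, Finset.sum_sub_distrib, b0b_sumE, b0b_sumL, Del, top, Gam, lc, Finset.sum_mul]
  congr 1
  refine Finset.sum_congr rfl fun a _ => Finset.sum_congr rfl fun b _ => ?_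
  rw [(hD x.1.succ x.2.1.succ 0 a).2.1, (hD x.1.succ 0 x.2.1.succ a).1, (hD 0 x.1.succ x.2.1.succ a).2.2,
    (hD 0 x.1.succ a x.2.1.succ).2.1]
  ring
/-- top-only directions -/
theorem dDel_top (D : Q4 ℝ) (τ : X4 → ℝ) : dDel D (asm 0 τ) = τ := by
  funext x
  have h1 : ∀ a b d, asm 0 τ a b 0 d = 0 := fun a b d => by
    cases a using Fin.cases <;> cases b using Fin.cases <;> simp [asm]
  rw [dDel, b0b_pr, b0b_Aq, b0b_Aq]
  simp only [Pi.sub_apply, sub_mul, Finset.sum_sub_distrib, b0b_sumE, b0b_sumL, h1, mul_zero,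
    Finset.sum_const_zero, sub_zero, asm_zero, Pi.zero_apply]
  rfl
theorem dDel_add (D δ δ' : Q4 ℝ) : dDel D (δ + δ') = dDel D δ + dDel D δ' := by
  funext x
  simp only [dDel, pr_add_left, Pi.add_apply]
theorem dDel_smul (D δ : Q4 ℝ) (c : ℝ) : dDel D (c • δ) = c • dDel D δ := by
  funext x
  simp only [dDel, pr_smul_left, Pi.smul_apply, smul_eq_mul]
theorem dDel_swap (D : Q4 ℝ) (hD : Sym4 D) {δ : Q4 ℝ} (hδ : Sym4 δ) (i j k l : Fin 7) :
    dDel D δ (i, j, k, l) = dDel D δ (j, i, k, l) ∧ dDel D δ (i, j, k, l) = dDel D δ (k, l, i, j) := by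
  refine ⟨pr_congr hδ (fun a b => ?_) _, pr_comm hδ _ _⟩
  have e : ∀ c, lc D c i j = lc D c j i := fun c => by simp only [lc, (hD 0 _ i.succ j.succ).2.2]
  simp only [Aq, e, and_comm (a := a = _)]
  ring
theorem Del_psd {D : Q4 ℝ} (hD : Sym4 D) (h : (Mm (D 0)).det ≠ 0) (hp : ∀ q : Q2, 0 ≤ pr D q q)
    (q : Fin 7 → Fin 7 → ℝ) : 0 ≤ ∑ i, ∑ j, ∑ k, ∑ l, q i j * q k l * Del D (i, j, k, l) := by
  have h1 := hp (∑ i, ∑ j, q i j • Aq D i j)
  rw [← dDel_self hD h]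
  refine h1.trans_eq ?_
  rw [pr_sum_mid]
  refine Finset.sum_congr rfl fun i _ => ?_
  rw [pr_sum_mid]
  refine Finset.sum_congr rfl fun j _ => ?_
  rw [pr_smul_mid, pr_sum_right, Finset.mul_sum]
  refine Finset.sum_congr rfl fun k _ => ?_
  rw [pr_sum_right, Finset.mul_sum]
  refine Finset.sum_congr rfl fun l _ => ?_
  rw [pr_smul_right, mul_assoc]
  rfl

theorem qf_smul (Pc : X4 → X4 → ℝ) (c : ℝ) (R : X4 → ℝ) : qf Pc (c • R) = c ^ 2 * qf Pc R := by
  simp only [qf, Finset.mul_sum, Pi.smul_apply, smul_eq_mul]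
  refine Finset.sum_congr rfl fun a _ => Finset.sum_congr rfl fun b _ => ?_
  ring
theorem continuous_qf (Pc : X4 → X4 → ℝ) : Continuous fun R : X4 → ℝ => qf Pc R := by
  simp only [qf]
  fun_prop
theorem b0b_aeval_smul {n : ℕ} {F : MvPolynomial X4 ℝ} (hF : F.IsHomogeneous n) (c : ℝ) (R : X4 → ℝ) :
    MvPolynomial.aeval (c • R) F = c ^ n * MvPolynomial.aeval R F := by
  rw [MvPolynomial.aeval_eq_eval, MvPolynomial.aeval_eq_eval, MvPolynomial.eval_eq, MvPolynomial.eval_eq, Finset.mul_sum]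
  refine Finset.sum_congr rfl fun d hd => ?_
  simp only [Pi.smul_apply, smul_eq_mul, mul_pow, Finset.prod_mul_distrib, Finset.prod_pow_eq_pow_sum]
  rw [← hF.degree_eq_sum_deg_support hd]
  ring
theorem PP_smul {r : ℕ} (Pc : X4 → X4 → ℝ) {F : MvPolynomial X4 ℝ} (hF : F.IsHomogeneous (2 * r)) (c h : ℝ)
    (R : X4 → ℝ) : PP r Pc F (c * h) (c • R) = c ^ (2 * r) * PP r Pc F h R := by
  rw [PP, PP, b0b_aeval_smul hF, qf_smul, mul_sub, pow_mul, ← Finset.card_range r, ← Finset.prod_const, Finset.card_range,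
    ← Finset.prod_mul_distrib]
  congr 1
  exact Finset.prod_congr rfl fun i _ => by ring
theorem PP_neg_left (r : ℕ) (Pc : X4 → X4 → ℝ) (F : MvPolynomial X4 ℝ) (h : ℝ) (R : X4 → ℝ) :
    PP r Pc F (-h) R = PP r Pc F h R := by
  simp only [PP, neg_sq]
theorem PP_neg_right {r : ℕ} (Pc : X4 → X4 → ℝ) {F : MvPolynomial X4 ℝ} (hF : F.IsHomogeneous (2 * r)) (h : ℝ)
    (R : X4 → ℝ) : PP r Pc F h (-R) = PP r Pc F h R := by
  have := PP_smul Pc hF (-1) h R
  rwa [neg_one_mul, PP_neg_left, neg_one_smul, pow_mul, neg_one_sq, one_pow, one_mul] at this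
theorem continuous_PP (r : ℕ) (Pc : X4 → X4 → ℝ) (F : MvPolynomial X4 ℝ) :
    Continuous fun x : ℝ × (X4 → ℝ) => PP r Pc F x.1 x.2 := by
  simp only [PP, MvPolynomial.aeval_eq_eval]
  refine Continuous.sub (continuous_finsetProd _ fun i _ => ?_) (F.continuous_eval.comp continuous_snd)
  exact (continuous_fst.pow 2).sub (continuous_const.mul ((continuous_qf Pc).comp continuous_snd))
theorem Dat.pf_eq (d : Dat) {L : C3 ℝ} (h : (Mm L).det ≠ 0) (z : ℝ) :
    d.pf L z = (Mm L).det ^ (2 * d.r) * d.P (z - d.ψ ⬝ᵥ Gam L) (rel (Gam L)) := by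
  rw [Dat.pf, Dat.P, Dat.P, ← PP_smul d.Pc d.hF, aG_eq h, rel_smul]
  congr 1
  simp only [dotProduct, mul_sub, Finset.mul_sum, Pi.smul_apply, smul_eq_mul, Algebra.algebraMap_self, RingHom.id_apply]
  rw [mul_comm z]
  congr 1
  exact Finset.sum_congr rfl fun x _ => by ring
theorem b0b_map_PP {A B : Type} [CommRing A] [Algebra ℝ A] [CommRing B] [Algebra ℝ B] (φ : A →ₐ[ℝ] B) (r : ℕ)
    (Pc : X4 → X4 → ℝ) (F : MvPolynomial X4 ℝ) (h : A) (R : X4 → A) :
    φ (PP r Pc F h R) = PP r Pc F (φ h) fun x => φ (R x) := by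
  simp only [PP, qf, map_sub, map_prod, map_pow, map_mul, map_add, map_natCast, map_one, map_sum, AlgHom.commutes,
    MvPolynomial.comp_aeval_apply]
theorem b0b_map_pf (d : Dat) {A B : Type} [CommRing A] [Algebra ℝ A] [CommRing B] [Algebra ℝ B] (φ : A →ₐ[ℝ] B)
    (L : C3 A) (z : A) : φ (d.pf L z) = d.pf (fun a b c => φ (L a b c)) (φ z) := by
  have hM : Mm (fun a b c => φ (L a b c)) = φ.mapMatrix (Mm L) := rfl
  have hG : ∀ x, φ (aG L x) = aG (fun a b c => φ (L a b c)) x := fun x => by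
    simp only [aG, map_sum, map_mul, hM, ← AlgHom.map_adjugate]
    rfl
  simp only [Dat.pf, Dat.P, b0b_map_PP, map_sub, map_mul, map_sum, AlgHom.commutes, hG, rel, hM, AlgHom.map_det]
  rfl
theorem Dat.eval_poly (d : Dat) (x : Fin 513 → ℝ) : MvPolynomial.eval x d.poly = d.pf (Lof x) (zof x) := by
  rw [← MvPolynomial.aeval_eq_eval, Dat.poly, b0b_map_pf]
  simp only [Lof, zof, sy, map_add, MvPolynomial.aeval_X]
  rfl
theorem Dat.eval_pt (d : Dat) {D : Q4 ℝ} (hD : Sym4 D) (h : (Mm (D 0)).det ≠ 0) :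
    MvPolynomial.eval (pt d.ψ D) d.poly = (Mm (D 0)).det ^ (2 * d.r) * d.P (d.ψ ⬝ᵥ Del D) (rel (Del D)) := by
  rw [d.eval_poly, Lof_pt _ hD, zof_pt, d.pf_eq h, rel_Del hD, Dat.P, Dat.P, PP_neg_right _ d.hF, Del, dotProduct_sub]
theorem b0b_det_hom {σ : Type} {n : ℕ} (M : Matrix (Fin n) (Fin n) (MvPolynomial σ ℝ))
    (h : ∀ a b, (M a b).IsHomogeneous 1) : M.det.IsHomogeneous n := by
  rw [Matrix.det_apply]
  refine MvPolynomial.IsHomogeneous.sum _ _ _ fun π _ => ?_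
  have h1 := MvPolynomial.IsHomogeneous.prod Finset.univ (fun i => M (π i) i) (fun _ => 1) fun i _ => h _ _
  rw [Finset.sum_const, Finset.card_univ, Fintype.card_fin, smul_eq_mul, mul_one] at h1
  rcases Int.units_eq_one_or (Equiv.Perm.sign π) with e | e <;> rw [e]
  · rwa [one_smul]
  · rw [Units.neg_smul, one_smul]
    exact h1.neg
theorem b0b_PP_hom {σ : Type} {r n : ℕ} (Pc : X4 → X4 → ℝ) {F : MvPolynomial X4 ℝ} (hF : F.IsHomogeneous (2 * r))
    {h : MvPolynomial σ ℝ} {R : X4 → MvPolynomial σ ℝ} (hh : h.IsHomogeneous n) (hR : ∀ x, (R x).IsHomogeneous n) :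
    (PP r Pc F h R).IsHomogeneous (n * (2 * r)) := by
  refine MvPolynomial.IsHomogeneous.sub ?_ (hF.aeval R hR)
  have hq : (qf Pc R).IsHomogeneous (n * 2) := by
    refine MvPolynomial.IsHomogeneous.sum _ _ _ fun x _ => MvPolynomial.IsHomogeneous.sum _ _ _ fun y _ => ?_
    rw [mul_two]
    exact ((hR x).C_mul _).mul (hR y)
  have h1 := MvPolynomial.IsHomogeneous.prod (Finset.range r)
    (fun i => h ^ 2 - ((i : MvPolynomial σ ℝ) + 1) ^ 2 * qf Pc R) (fun _ => n * 2) fun i _ => (hh.pow 2).sub (by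
      have := hq.C_mul (((i : ℝ) + 1) ^ 2)
      rwa [map_pow, map_add, map_natCast, map_one] at this)
  rwa [Finset.sum_const, Finset.card_range, smul_eq_mul, mul_comm r, mul_assoc] at h1
theorem Dat.poly_hom (d : Dat) : d.poly.IsHomogeneous (18 * d.r) := by
  have hX : ∀ i : Fin 513, (MvPolynomial.X i : MvPolynomial (Fin 513) ℝ).IsHomogeneous 1 :=
    fun i => MvPolynomial.isHomogeneous_X _ i
  have hL : ∀ a b c, (Lof (MvPolynomial.X : Fin 513 → MvPolynomial (Fin 513) ℝ) a b c).IsHomogeneous 1 := fun a b c =>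
    ((((((hX _).add (hX _)).add (hX _)).add (hX _)).add (hX _)).add (hX _))
  have hz : (zof (MvPolynomial.X : Fin 513 → MvPolynomial (Fin 513) ℝ)).IsHomogeneous 1 := hX _
  rw [Dat.poly]
  generalize Lof (MvPolynomial.X : Fin 513 → MvPolynomial (Fin 513) ℝ) = L at hL ⊢
  generalize zof (MvPolynomial.X : Fin 513 → MvPolynomial (Fin 513) ℝ) = z at hz ⊢
  have hA : ∀ a b, ((Mm L).adjugate a b).IsHomogeneous 7 := fun a b => by
    rw [Matrix.adjugate_fin_succ_eq_det_submatrix]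
    have := (b0b_det_hom ((Mm L).submatrix b.succAbove a.succAbove) fun _ _ => hL _ _ _).C_mul ((-1) ^ (b + a : ℕ))
    rwa [map_pow, map_neg, map_one] at this
  have hG : ∀ x, (aG L x).IsHomogeneous 9 := fun x =>
    MvPolynomial.IsHomogeneous.sum _ _ _ fun a _ => MvPolynomial.IsHomogeneous.sum _ _ _ fun b _ =>
      ((hL _ _ _).mul (hA a b)).mul (hL _ _ _)
  rw [show 18 * d.r = 9 * (2 * d.r) by ring]
  refine b0b_PP_hom d.Pc d.hF (MvPolynomial.IsHomogeneous.sub (hz.mul (b0b_det_hom (Mm L) fun _ _ => hL _ _ _)) ?_)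
    fun x => (hG _).sub (hG _)
  exact MvPolynomial.IsHomogeneous.sum _ _ _ fun x _ => (hG x).C_mul _
theorem Dat.psi_pos (d : Dat) (b : Fin 7 → Fin 7 → ℝ) (hb : ∀ i j, b i j = b j i) (h0 : b ≠ 0) : 0 < d.ψ ⬝ᵥ bb b := by
  refine lt_of_le_of_lt (mul_nonneg ?_ (Real.sqrt_nonneg _)) (d.pole b hb h0).1
  have : (1 : ℝ) ≤ d.r := by exact_mod_cast d.hr
  linarith
theorem Dat.eval_e_pos (d : Dat) : 0 < MvPolynomial.eval d.e d.poly := by
  have h1 : (Mm Le).det = 1 := by rw [Mm_Le, Matrix.det_one]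
  rw [d.eval_poly, Dat.e, Lof_mkP, zof_mkP, sy_div _ sym3_Le, d.pf_eq (by rw [h1]; exact one_ne_zero), h1, one_pow, one_mul,
    Gam_Le, Dat.ze]
  refine (d.pole idm (fun i j => by simp only [idm, eq_comm]) (fun h => ?_)).2 _ (by linarith)
  simpa [idm] using congrFun (congrFun h 0) 0

end Crest.Agent.R237
end
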