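import Crest.Agent.R237.BDefs

set_option autoImplicit false
open scoped BigOperators Matrix Topology
open Crest.GeometryTopology

noncomputable section
namespace Crest.Agent.R237

/-! # B1: general facts on hyperbolic polynomials.

For fixed `x` let `q_x = aeval (fun i => X * C (e i) - C (x i)) p : ℝ[X]`; for `p` homogeneous of degree `d` it has
`natDegree ≤ d` and `coeff d = eval e p`.  If `p` is hyperbolic (or has `d` distinct real roots) then
`q_x = C (p e) * ∏ (X - λ_i)` with real `λ_i`.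
* closedness: for `t₀ < 0` and `x ∈ K`, `|p (t₀ e - x)| ≥ p(e) |t₀|^d`, a closed condition.
* `path`: on `U` the set `{x | ∃ t < 0, p (t e - x) = 0}` is relatively closed (roots are locally bounded, `t = 0` is
  excluded on `U`), and so is its complement `K ∩ U`.
* `hyp_of_dense`: `‖q_x z‖ ≥ p(e) |im z|^d` on the dense set, hence everywhere. -/

variable {m : ℕ} {p : MvPolynomial (Fin m) ℝ} {e : Fin m → ℝ}

theorem b1_deg {d : ℕ} (hp : p.IsHomogeneous d) {s : Fin m →₀ ℕ} (hs : s ∈ p.support) : ∑ i, s i = d := by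
  rw [hp.degree_eq_sum_deg_support hs]
  exact (Finset.sum_subset (Finset.subset_univ _) fun i _ hi => Finsupp.notMem_support_iff.1 hi).symm

theorem b1_smul {d : ℕ} (hp : p.IsHomogeneous d) (c : ℝ) (x : Fin m → ℝ) :
    MvPolynomial.eval (c • x) p = c ^ d * MvPolynomial.eval x p := by
  rw [MvPolynomial.eval_eq', MvPolynomial.eval_eq', Finset.mul_sum]
  refine Finset.sum_congr rfl fun s hs => ?_
  simp only [Pi.smul_apply, smul_eq_mul, mul_pow, Finset.prod_mul_distrib, Finset.prod_pow_eq_pow_sum, b1_deg hp hs]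
  ring

theorem b1_prod {ι : Type} (s : Finset ι) (f : ι → Polynomial ℂ) (n : ι → ℕ) (h : ∀ i, (f i).natDegree ≤ n i) :
    (∏ i ∈ s, f i).natDegree ≤ ∑ i ∈ s, n i ∧ (∏ i ∈ s, f i).coeff (∑ i ∈ s, n i) = ∏ i ∈ s, (f i).coeff (n i) := by
  classical
  induction s using Finset.induction_on with
  | empty => simp
  | insert a s ha ih =>
    simp only [Finset.prod_insert ha, Finset.sum_insert ha]
    exact ⟨Polynomial.natDegree_mul_le.trans (add_le_add (h a) ih.1),
      by rw [Polynomial.coeff_mul_add_eq_of_natDegree_le (h a) ih.1, ih.2]⟩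

theorem b1_real (p : MvPolynomial (Fin m) ℝ) (e x : Fin m → ℝ) (t : ℝ) :
    Hyperbolic.lineEvalC p e x t = (MvPolynomial.eval (fun i => t * e i - x i) p : ℝ) := by
  have := MvPolynomial.aeval_algebraMap_apply ℂ (fun i => t * e i - x i) p
  rw [Hyperbolic.lineEvalC]
  convert this using 3
  · ext i
    simp
  · rfl

theorem b1_cont (p : MvPolynomial (Fin m) ℝ) (e : Fin m → ℝ) (z : ℂ) :
    Continuous fun x => Hyperbolic.lineEvalC p e x z := by
  simp only [Hyperbolic.lineEvalC, MvPolynomial.aeval_def, MvPolynomial.eval₂_eq_eval_map]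
  exact (MvPolynomial.continuous_eval _).comp (by fun_prop)

/-- factorisation of the restriction to a line -/
theorem b1_fact {d : ℕ} (hp : p.IsHomogeneous d) (he : 0 < MvPolynomial.eval e p) (x : Fin m → ℝ) :
    ∃ s : Multiset ℂ, s.card = d ∧
      ∀ z, Hyperbolic.lineEvalC p e x z = (MvPolynomial.eval e p : ℝ) * (s.map fun a => z - a).prod := by
  let f : Fin m → Polynomial ℂ := fun i => Polynomial.C (e i : ℂ) * Polynomial.X - Polynomial.C (x i : ℂ)
  have f1 : ∀ i, (f i).natDegree ≤ 1 := fun i => by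
    simp only [f]
    compute_degree
  have f2 : ∀ i, (f i).coeff 1 = e i := fun i => by simp [f, Polynomial.coeff_C]
  let Q : Polynomial ℂ := ∑ s ∈ p.support, Polynomial.C ((p.coeff s : ℝ) : ℂ) * ∏ i, f i ^ s i
  have key : ∀ s ∈ p.support, (∏ i, f i ^ s i).natDegree ≤ d ∧ (∏ i, f i ^ s i).coeff d = ∏ i, (e i : ℂ) ^ s i :=
    fun s hs => by
      have := b1_prod Finset.univ (fun i => f i ^ s i) (fun i => s i * 1)
        fun i => Polynomial.natDegree_pow_le_of_le _ (f1 i)
      simp only [Polynomial.coeff_pow_of_natDegree_le (f1 _), f2] at this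
      simpa only [mul_one, b1_deg hp hs] using this
  have q1 : Q.natDegree ≤ d := Polynomial.natDegree_sum_le_of_forall_le _ _ fun s hs =>
    (Polynomial.natDegree_C_mul_le _ _).trans (key s hs).1
  have q2 : Q.coeff d = (MvPolynomial.eval e p : ℝ) := by
    rw [MvPolynomial.eval_eq', Polynomial.finsetSum_coeff]
    push_cast
    exact Finset.sum_congr rfl fun s hs => by rw [Polynomial.coeff_C_mul, (key s hs).2]
  have q3 : Q.natDegree = d := Polynomial.natDegree_eq_of_le_of_coeff_ne_zero q1 (by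
    rw [q2]; exact_mod_cast he.ne')
  refine ⟨Q.roots, by rw [IsAlgClosed.card_roots_eq_natDegree, q3], fun z => ?_⟩
  rw [← q2, ← q3, Polynomial.coeff_natDegree, ← (IsAlgClosed.splits Q).eval_eq_prod_roots, Hyperbolic.lineEvalC,
    MvPolynomial.aeval_def, MvPolynomial.eval₂_eq']
  simp [Q, f, Polynomial.eval_finsetSum, Polynomial.eval_prod, mul_comm z]

theorem b1_root {s : Multiset ℂ} {a : ℂ} (ha : a ∈ s) : (s.map fun b => a - b).prod = 0 :=
  Multiset.prod_eq_zero (Multiset.mem_map.2 ⟨a, ha, sub_self a⟩)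

theorem b1_factR {d : ℕ} (hd : p.IsHomogeneous d) (hp : Hyperbolic.IsHyperbolic p e) (x : Fin m → ℝ) :
    ∃ s : Multiset ℝ, s.card = d ∧ ∀ t : ℝ,
      MvPolynomial.eval (fun i => t * e i - x i) p = MvPolynomial.eval e p * (s.map fun a => t - a).prod := by
  obtain ⟨s, h1, h2⟩ := b1_fact hd hp.2.1 x
  have h3 : ∀ a ∈ s, a.im = 0 := fun a ha => hp.2.2 x a (by rw [h2, b1_root ha, mul_zero])
  refine ⟨s.map Complex.re, by rw [Multiset.card_map, h1], fun t => ?_⟩
  apply Complex.ofReal_injective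
  rw [← b1_real, h2, Complex.ofReal_mul, ← Complex.ofRealHom_eq_coe (Multiset.prod _), map_multiset_prod,
    Multiset.map_map, Multiset.map_map]
  congr 2
  refine Multiset.map_congr rfl fun a ha => ?_
  apply Complex.ext <;> simp [h3 a ha]

theorem b1_le (c : ℝ) (hc : 0 ≤ c) (s : Multiset ℝ) (h : ∀ a ∈ s, c ≤ a) : c ^ s.card ≤ s.prod := by
  induction s using Multiset.induction_on with
  | empty => simp
  | cons a s ih =>
    rw [Multiset.card_cons, Multiset.prod_cons, pow_succ']
    have h1 := h a (Multiset.mem_cons_self a s)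
    exact mul_le_mul h1 (ih fun b hb => h b (Multiset.mem_cons_of_mem hb)) (pow_nonneg hc _) (hc.trans h1)

/-- for a point of the cone, `p (x + r e) ≥ p e * r ^ d` -/
theorem b1_ge {d : ℕ} (hd : p.IsHomogeneous d) (hp : Hyperbolic.IsHyperbolic p e) {x : Fin m → ℝ}
    (hx : x ∈ Hyperbolic.closedCone p e) {r : ℝ} (hr : 0 ≤ r) :
    MvPolynomial.eval e p * r ^ d ≤ MvPolynomial.eval (x + r • e) p := by
  obtain ⟨s, h1, h2⟩ := b1_factR hd hp x
  have h3 : ∀ a ∈ s, 0 ≤ a := fun a ha => hx a (by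
    rw [h2, Multiset.prod_eq_zero (Multiset.mem_map.2 ⟨a, ha, sub_self a⟩), mul_zero])
  have h4 : x + r • e = (-1 : ℝ) • fun i => -r * e i - x i := by
    ext i
    simp only [Pi.add_apply, Pi.smul_apply, smul_eq_mul]
    ring
  have h5 : (s.map fun a => -r - a).prod = (-1) ^ d * (s.map fun a => r + a).prod := by
    rw [← h1, ← Multiset.card_map (fun a => r + a) s, ← Multiset.prod_map_neg, Multiset.map_map]
    congr 1
    exact Multiset.map_congr rfl fun a _ => by simp only [Function.comp_apply]; ring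
  have h6 := b1_le r hr (s.map fun a => r + a) fun b hb => by
    obtain ⟨a, ha, rfl⟩ := Multiset.mem_map.1 hb
    linarith [h3 a ha]
  rw [Multiset.card_map, h1] at h6
  rw [h4, b1_smul hd, h2, h5, mul_left_comm, ← mul_assoc ((-1 : ℝ) ^ d), ← mul_pow]
  simpa using mul_le_mul_of_nonneg_left h6 hp.2.1.le

theorem b1_mem {d : ℕ} (hp : p.IsHomogeneous d) (x : Fin m → ℝ) :
    x ∈ Hyperbolic.closedCone p e ↔ ∀ s : ℝ, 0 < s → MvPolynomial.eval (x + s • e) p ≠ 0 := by
  have key : ∀ t : ℝ, MvPolynomial.eval (fun i => t * e i - x i) p = 0 ↔ MvPolynomial.eval (x + (-t) • e) p = 0 :=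
    fun t => by
      have h4 : (fun i => t * e i - x i) = (-1 : ℝ) • (x + (-t) • e) := by
        ext i
        simp only [Pi.add_apply, Pi.smul_apply, smul_eq_mul]
        ring
      rw [h4, b1_smul hp]
      simp
  constructor
  · intro hx s hs h0
    have := hx (-s) ((key _).2 (by rwa [neg_neg]))
    linarith
  · intro h t ht
    by_contra hn
    exact h (-t) (by linarith) ((key t).1 ht)

theorem isClosed_closedCone (hp : Hyperbolic.IsHyperbolic p e) : IsClosed (Hyperbolic.closedCone p e) := by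
  obtain ⟨d, hd⟩ := hp.1
  have : Hyperbolic.closedCone p e = ⋂ r : ℝ, ⋂ _ : 0 < r,
      {x | MvPolynomial.eval e p * r ^ d ≤ MvPolynomial.eval (x + r • e) p} := by
    ext x
    simp only [Set.mem_iInter, Set.mem_ofPred_eq]
    refine ⟨fun hx r hr => b1_ge hd hp hx hr.le, fun h => (b1_mem hd x).2 fun r hr => ?_⟩
    exact ((mul_pos hp.2.1 (pow_pos hr d)).trans_le (h r hr)).ne'
  rw [this]
  exact isClosed_iInter fun r => isClosed_iInter fun _ =>
    isClosed_le continuous_const ((MvPolynomial.continuous_eval p).comp (by fun_prop))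

theorem eval_nonneg_of_mem (hp : Hyperbolic.IsHyperbolic p e) {x : Fin m → ℝ} (hx : x ∈ Hyperbolic.closedCone p e) :
    0 ≤ MvPolynomial.eval x p := by
  obtain ⟨d, hd⟩ := hp.1
  have := b1_ge hd hp hx le_rfl
  rw [zero_smul, add_zero] at this
  exact (mul_nonneg hp.2.1.le (pow_nonneg le_rfl d)).trans this

theorem mem_cone_iff {d : ℕ} (hp : p.IsHomogeneous d) (x : Fin m → ℝ) :
    x ∈ Hyperbolic.closedCone p e ↔ ∀ s : ℝ, 0 < s → MvPolynomial.eval (x + s • e) p ≠ 0 := by
  exact b1_mem hp x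

theorem cone_path (hp : Hyperbolic.IsHyperbolic p e) {U : Set (Fin m → ℝ)} (hU : IsPreconnected U)
    (h0 : ∀ x ∈ U, MvPolynomial.eval x p ≠ 0) {x₀ : Fin m → ℝ} (hx₀ : x₀ ∈ U)
    (hK : x₀ ∈ Hyperbolic.closedCone p e) : U ⊆ Hyperbolic.closedCone p e := by
  obtain ⟨d, hd⟩ := hp.1
  let Z : Set ((Fin m → ℝ) × Set.Icc (0 : ℝ) 1) :=
    {q | MvPolynomial.eval ((q.2 : ℝ) • q.1 + (1 - (q.2 : ℝ)) • e) p = 0}
  have hZ : IsClosed (Prod.fst '' Z) := isClosedMap_fst_of_compactSpace _
    (isClosed_eq ((MvPolynomial.continuous_eval p).comp (by fun_prop)) continuous_const)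
  have hdis : ∀ x ∈ U, x ∈ Hyperbolic.closedCone p e → x ∉ Prod.fst '' Z := by
    rintro _ hxU hxK ⟨⟨x, s, hs0, hs1⟩, hz, rfl⟩
    simp only [Z, Set.mem_ofPred_eq] at hz hxU hxK
    rcases hs0.eq_or_lt with rfl | hs0
    · simp only [zero_smul, zero_add, sub_zero, one_smul] at hz
      exact hp.2.1.ne' hz
    rcases hs1.eq_or_lt with rfl | hs1
    · simp only [one_smul, sub_self, zero_smul, add_zero] at hz
      exact h0 x hxU hz
    have e1 : s • x + (1 - s) • e = s • (x + ((1 - s) / s) • e) := by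
      rw [smul_add, smul_smul, mul_div_cancel₀ _ hs0.ne']
    rw [e1, b1_smul hd, mul_eq_zero] at hz
    rcases hz with hz | hz
    · exact (pow_pos hs0 d).ne' hz
    · exact (b1_mem hd x).1 hxK _ (div_pos (by linarith) hs0) hz
  have hcov : U ⊆ Hyperbolic.closedCone p e ∪ Prod.fst '' Z := fun x _ => by
    by_cases hx : x ∈ Hyperbolic.closedCone p e
    · exact Or.inl hx
    rw [b1_mem hd] at hx
    push Not at hx
    obtain ⟨r, hr, hz⟩ := hx
    have h1 : 0 < 1 + r := by linarith
    refine Or.inr ⟨(x, ⟨(1 + r)⁻¹, by positivity, inv_le_one_of_one_le₀ (by linarith)⟩), ?_, rfl⟩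
    have e1 : (1 + r)⁻¹ • x + (1 - (1 + r)⁻¹) • e = (1 + r)⁻¹ • (x + r • e) := by
      rw [smul_add, smul_smul]
      congr 2
      field_simp
      ring
    simp only [Z, Set.mem_ofPred_eq]
    rw [e1, b1_smul hd, hz, mul_zero]
  rcases isPreconnected_iff_subset_of_disjoint_closed.1 hU _ _ (isClosed_closedCone hp) hZ hcov
    (Set.eq_empty_of_forall_notMem fun x hx => hdis x hx.1 hx.2.1 hx.2.2) with h | h
  · exact h
  · exact (hdis x₀ hx₀ hK (h hx₀)).elim

theorem hyp_of_dense {d : ℕ} (hp : p.IsHomogeneous d) (he : 0 < MvPolynomial.eval e p) (S : Set (Fin m → ℝ))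
    (hS : Dense S) (h : ∀ x ∈ S, ∃ T : Finset ℝ, d ≤ T.card ∧ ∀ t ∈ T, MvPolynomial.eval (t • e - x) p = 0) :
    Hyperbolic.IsHyperbolic p e := by
  refine ⟨⟨d, hp⟩, he, fun x z hz => ?_⟩
  have hc : IsClosed {x | MvPolynomial.eval e p * |z.im| ^ d ≤ ‖Hyperbolic.lineEvalC p e x z‖} :=
    isClosed_le continuous_const (b1_cont p e z).norm
  have hsub : S ⊆ {x | MvPolynomial.eval e p * |z.im| ^ d ≤ ‖Hyperbolic.lineEvalC p e x z‖} := fun y hy => by
    obtain ⟨T, hT, hT'⟩ := h y hy
    obtain ⟨s, h1, h2⟩ := b1_fact hp he y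
    have h3 : T.val.map Complex.ofReal ≤ s := by
      rw [Multiset.le_iff_subset (T.nodup.map Complex.ofReal_injective)]
      intro a ha
      obtain ⟨t, ht, rfl⟩ := Multiset.mem_map.1 ha
      have h4 := h2 t
      rw [b1_real, show (fun i => t * e i - y i) = t • e - y from rfl, hT' t ht] at h4
      have h5 : (s.map fun a => (t : ℂ) - a).prod = 0 :=
        (mul_eq_zero.1 h4.symm).resolve_left (by exact_mod_cast he.ne')
      obtain ⟨a, ha, h6⟩ := Multiset.mem_map.1 (Multiset.prod_eq_zero_iff.1 h5)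
      rwa [sub_eq_zero.1 h6]
    have h4 : T.val.map Complex.ofReal = s :=
      Multiset.eq_of_le_of_card_le h3 (by rw [Multiset.card_map, h1]; exact hT)
    have h5 := b1_le |z.im| (abs_nonneg _) (s.map fun a => ‖z - a‖) fun b hb => by
      obtain ⟨a, ha, rfl⟩ := Multiset.mem_map.1 hb
      rw [← h4] at ha
      obtain ⟨t, -, rfl⟩ := Multiset.mem_map.1 ha
      simpa using Complex.abs_im_le_norm (z - t)
    rw [Multiset.card_map, h1] at h5
    have h6 : ‖(s.map fun a => z - a).prod‖ = (s.map fun a => ‖z - a‖).prod := by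
      rw [← normHom_apply, map_multiset_prod, Multiset.map_map]
      rfl
    rw [Set.mem_ofPred_eq, h2, norm_mul, Complex.norm_real, Real.norm_of_nonneg he.le, h6]
    exact mul_le_mul_of_nonneg_left h5 he.le
  have := (hc.closure_subset_iff.2 hsub) (hS x)
  rw [Set.mem_ofPred_eq, hz, norm_zero] at this
  by_contra hn
  exact (mul_pos he (pow_pos (abs_pos.2 hn) d)).not_ge this

end Crest.Agent.R237
end
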