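import Mathlib

set_option autoImplicit false
open scoped BigOperators Matrix Topology


noncomputable section
namespace Crest.Agent.R237

/-! # B2a: `2 r` roots on one interval.

Order the values `d_0 < … < d_{2r-1}` = `-(r-1/2), …, -1/2, 1/2, …, r-1/2`; `g_j = h - d_j N` is negative at `t₁` and positive
at `t₂`.  Inductively choose `t₁ < s_0 ≤ s_1 ≤ … ≤ s_{2r-1} < t₂` with `g_j (s_j) = 0`
(`g_{j+1}(s_j) = (d_j - d_{j+1}) N(s_j) ≤ 0`, intermediate value theorem).  The signs of `f` at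
`t₁, s_0, …, s_{2r-1}, t₂` alternate except between `s_{r-1}` and `s_r`: `2 r` sign changes. -/

theorem b2a_root {a b : ℝ} (hab : a ≤ b) {f : ℝ → ℝ} (hf : ContinuousOn f (Set.Icc a b)) {ε : ℝ}
    (ha : 0 < ε * f a) (hb : ε * f b < 0) : ∃ z ∈ Set.Ioo a b, f z = 0 := by
  obtain ⟨z, hz, h0⟩ := intermediate_value_Ioo' hab (continuousOn_const.mul hf) (show (0 : ℝ) ∈ _ from ⟨hb, ha⟩)
  exact ⟨z, hz, (mul_eq_zero.mp h0).resolve_left fun h => by simp [h] at ha⟩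

theorem b2a_level {t₁ t₂ x d : ℝ} {h N : ℝ → ℝ} (hh : ContinuousOn h (Set.Icc t₁ t₂))
    (hN : ContinuousOn N (Set.Icc t₁ t₂)) (hx : x ∈ Set.Icc t₁ t₂) (h1 : h x ≤ d * N x) (h2 : d * N t₂ < h t₂) :
    ∃ y ∈ Set.Icc x t₂, h y = d * N y := by
  have hs : Set.Icc x t₂ ⊆ Set.Icc t₁ t₂ := Set.Icc_subset_Icc_left hx.1
  obtain ⟨y, hy, h0⟩ := intermediate_value_Icc hx.2 ((hh.mono hs).sub (continuousOn_const.mul (hN.mono hs)))
    (show (0 : ℝ) ∈ _ from ⟨sub_nonpos.mpr h1, (sub_pos.mpr h2).le⟩)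
  exact ⟨y, hy, sub_eq_zero.mp h0⟩

theorem b2a_chain {t₁ t₂ x c ε : ℝ} {h N f : ℝ → ℝ} (hh : ContinuousOn h (Set.Icc t₁ t₂))
    (hN : ContinuousOn N (Set.Icc t₁ t₂)) (hf : ContinuousOn f (Set.Icc t₁ t₂))
    (hN0 : ∀ t ∈ Set.Icc t₁ t₂, 0 ≤ N t) (hx : x ∈ Set.Icc t₁ t₂) (h1 : h x ≤ c * N x) (f1 : 0 < ε * f x) (m : ℕ)
    (hs : ∀ j < m, ∀ t ∈ Set.Icc t₁ t₂, h t = (c + j) * N t → 0 < (-1) ^ (j + 1) * ε * f t)
    (h2 : ∀ j < m, (c + j) * N t₂ < h t₂) :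
    ∃ y ∈ Set.Icc x t₂, h y ≤ (c + m) * N y ∧ 0 < (-1) ^ m * ε * f y ∧
      ∃ T : Finset ℝ, T.card = m ∧ ∀ t ∈ T, t ∈ Set.Ioo x y ∧ f t = 0 := by
  induction m with
  | zero => exact ⟨x, ⟨le_rfl, hx.2⟩, by simpa using h1, by simpa using f1, ∅, rfl, by simp⟩
  | succ m ih =>
    obtain ⟨y, hy, hy1, hy2, T, hT, hT'⟩ := ih (fun j hj => hs j (by omega)) fun j hj => h2 j (by omega)
    have hy0 : y ∈ Set.Icc t₁ t₂ := ⟨hx.1.trans hy.1, hy.2⟩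
    obtain ⟨y', hy', he⟩ := b2a_level hh hN hy0 hy1 (h2 m (by omega))
    have hy0' : y' ∈ Set.Icc t₁ t₂ := ⟨hy0.1.trans hy'.1, hy'.2⟩
    have h3 := hs m (by omega) y' hy0' he
    obtain ⟨z, hz, hz0⟩ := b2a_root hy'.1 (hf.mono (Set.Icc_subset_Icc hy0.1 hy'.2)) hy2
      (by rw [pow_succ] at h3; linarith)
    refine ⟨y', ⟨hy.1.trans hy'.1, hy'.2⟩, ?_, h3, insert z T, ?_, fun t ht => ?_⟩
    · rw [he]
      exact mul_le_mul_of_nonneg_right (by push_cast; linarith) (hN0 _ hy0')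
    · rw [Finset.card_insert_of_notMem fun hzT => lt_asymm (hT' z hzT).1.2 hz.1, hT]
    · rcases Finset.mem_insert.mp ht with rfl | ht
      · exact ⟨⟨hy.1.trans_lt hz.1, hz.2⟩, hz0⟩
      · exact ⟨⟨(hT' t ht).1.1, (hT' t ht).1.2.trans_le hy'.1⟩, (hT' t ht).2⟩

theorem roots_Icc (r : ℕ) (hr : 1 ≤ r) {t₁ t₂ : ℝ} (ht : t₁ < t₂) (h N f : ℝ → ℝ) (hh : ContinuousOn h (Set.Icc t₁ t₂))
    (hN : ContinuousOn N (Set.Icc t₁ t₂)) (hf : ContinuousOn f (Set.Icc t₁ t₂)) (hN0 : ∀ t ∈ Set.Icc t₁ t₂, 0 ≤ N t)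
    (hs : ∀ t ∈ Set.Icc t₁ t₂, ∀ i < r, (h t = ((i : ℝ) + 1 / 2) * N t ∨ h t = -(((i : ℝ) + 1 / 2) * N t)) →
      0 < (-1) ^ (r - i) * f t)
    (h1 : h t₁ < -(((r : ℝ) - 1 / 2) * N t₁)) (f1 : 0 < f t₁) (h2 : ((r : ℝ) - 1 / 2) * N t₂ < h t₂) (f2 : 0 < f t₂) :
    ∃ T : Finset ℝ, T.card = 2 * r ∧ ∀ t ∈ T, t ∈ Set.Ioo t₁ t₂ ∧ f t = 0 := by
  obtain ⟨q, rfl⟩ : ∃ q, r = q + 1 := ⟨r - 1, by omega⟩
  have hq : (0 : ℝ) ≤ q := Nat.cast_nonneg _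
  have hN2 := hN0 t₂ ⟨ht.le, le_rfl⟩
  push_cast at h1 h2
  have h3 : ∀ d : ℝ, d ≤ q + 1 / 2 → d * N t₂ < h t₂ := fun d hd =>
    lt_of_le_of_lt (mul_le_mul_of_nonneg_right (by linarith) hN2) h2
  obtain ⟨y₁, hy₁, a1, -, T₁, hT₁, hT₁'⟩ := b2a_chain (c := -(q + 1 / 2)) (ε := 1) hh hN hf hN0 ⟨le_rfl, ht.le⟩
    (by linarith) (by simpa using f1) (q + 1)
    (fun j hj t ht' he => by
      have h4 := hs t ht' (q - j) (by omega) (Or.inr (by rw [he, Nat.cast_sub (by omega)]; ring))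
      rwa [show q + 1 - (q - j) = j + 1 by omega, ← mul_one ((-1 : ℝ) ^ (j + 1))] at h4)
    fun j hj => h3 _ (by have : (j : ℝ) ≤ q := by exact_mod_cast Nat.lt_succ_iff.mp hj
                         linarith)
  obtain ⟨y₂, hy₂, a2⟩ := b2a_level (d := 1 / 2) hh hN hy₁ (by push_cast at a1; linarith) (h3 _ (by linarith))
  have hy₂' : y₂ ∈ Set.Icc t₁ t₂ := ⟨hy₁.1.trans hy₂.1, hy₂.2⟩
  have a3 := hs y₂ hy₂' 0 (by omega) (Or.inl (by simpa using a2))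
  rw [Nat.sub_zero] at a3
  obtain ⟨y₃, hy₃, -, a4, T₂, hT₂, hT₂'⟩ := b2a_chain (c := 3 / 2) hh hN hf hN0 hy₂'
    (by have := hN0 _ hy₂'; linarith) a3 q
    (fun j hj t ht' he => by
      have h4 := hs t ht' (j + 1) (by omega) (Or.inl (by rw [he]; push_cast; ring))
      rwa [← pow_add, show j + 1 + (q + 1) = 2 * (j + 1) + (q + 1 - (j + 1)) by omega, pow_add, pow_mul,
        neg_one_sq, one_pow, one_mul])
    fun j hj => h3 _ (by have : (j : ℝ) + 1 ≤ q := by exact_mod_cast hj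
                         linarith)
  rw [← pow_add, show q + (q + 1) = 2 * q + 1 by omega, pow_succ, pow_mul, neg_one_sq, one_pow, one_mul] at a4
  obtain ⟨z, hz, hz0⟩ := b2a_root hy₃.2 (hf.mono (Set.Icc_subset_Icc_left (hy₂'.1.trans hy₃.1))) a4 (by linarith)
  refine ⟨insert z (T₁ ∪ T₂), ?_, fun t ht' => ?_⟩
  · rw [Finset.card_insert_of_notMem, Finset.card_union_of_disjoint, hT₁, hT₂]
    · ring
    · exact Finset.disjoint_left.mpr fun t a b => by linarith [(hT₁' t a).1.2, (hT₂' t b).1.1, hy₂.1]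
    · intro hc
      rcases Finset.mem_union.mp hc with a | a
      · linarith [(hT₁' z a).1.2, hy₂.1, hy₃.1, hz.1]
      · linarith [(hT₂' z a).1.2, hz.1]
  · rcases Finset.mem_insert.mp ht' with rfl | ht'
    · exact ⟨⟨(hy₂'.1.trans hy₃.1).trans_lt hz.1, hz.2⟩, hz0⟩
    · rcases Finset.mem_union.mp ht' with a | a
      · exact ⟨⟨(hT₁' t a).1.1, (hT₁' t a).1.2.trans_le hy₁.2⟩, (hT₁' t a).2⟩
      · exact ⟨⟨hy₂'.1.trans_lt (hT₂' t a).1.1, (hT₂' t a).1.2.trans_le hy₃.2⟩, (hT₂' t a).2⟩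

end Crest.Agent.R237
end
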