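import Crest.Agent.R237.B0b

set_option autoImplicit false
open scoped BigOperators Matrix Topology
open Crest.GeometryTopology

noncomputable section
namespace Crest.Agent.R237

/-! # B2b: behaviour at the poles and at infinity along a line.

`L(t) = t • Le - L`, `Mm L(t) = V diag(t - λ) Vᵀ`, inverse `V diag((t - λ)⁻¹) Vᵀ` off the poles, so
`Gam L(t) x = Σ_s b_s(t) ⊗ b_s(t) / (t - λ_s)` with `b_s(t) i j = Σ_a V a s * L(t) a i.succ j.succ`, and
`(t - λ_s) • Gam L(t) → bb (b_s(λ_s))`, `(t - λ_s) h(t) → -ψ ⬝ bb b_s`.  At infinity `t⁻¹ • Gam L(t) = Gam (Le - t⁻¹ • L) → bb idm`,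
`h(t)/t → ψ ⬝ bb idm`.  Use `d.pole`, `PP_smul`, `PP_neg_left`, `qf_smul`, continuity. -/

/-- `h(t)` -/
def Dat.hl (d : Dat) (L : C3 ℝ) (z t : ℝ) : ℝ := t * d.ze - z - d.ψ ⬝ᵥ Gam (t • Le - L)
/-- `R(t)` -/
def Rl (L : C3 ℝ) (t : ℝ) : X4 → ℝ := rel (Gam (t • Le - L))
/-- above the top test value, with positive `𝔭` -/
def Dat.Up (d : Dat) (L : C3 ℝ) (z t : ℝ) : Prop :=
  ((d.r : ℝ) - 1 / 2) * √(qf d.Pc (Rl L t)) < d.hl L z t ∧ 0 < d.P (d.hl L z t) (Rl L t)
/-- below the bottom test value, with positive `𝔭` -/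
def Dat.Dn (d : Dat) (L : C3 ℝ) (z t : ℝ) : Prop :=
  d.hl L z t < -(((d.r : ℝ) - 1 / 2) * √(qf d.Pc (Rl L t))) ∧ 0 < d.P (d.hl L z t) (Rl L t)
/-- generic spectral data -/
structure Spec (L : C3 ℝ) where
  V : Matrix (Fin 8) (Fin 8) ℝ
  lam : Fin 8 → ℝ
  hV : Vᵀ * V = 1
  mono : StrictMono lam
  hM : Mm L = V * Matrix.diagonal lam * Vᵀ
  hb : ∀ s, ∃ i j : Fin 7, ∑ a, V a s * (lam s * Le a i.succ j.succ - L a i.succ j.succ) ≠ 0

theorem Spec.mm {L : C3 ℝ} (S : Spec L) (t : ℝ) :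
    Mm (t • Le - L) = S.V * Matrix.diagonal (fun s => t - S.lam s) * S.Vᵀ := by
  have h1 : Mm (t • Le - L) = t • Mm Le - Mm L := rfl
  have h2 : Matrix.diagonal (fun s => t - S.lam s) = t • (1 : Matrix (Fin 8) (Fin 8) ℝ) - Matrix.diagonal S.lam := by
    ext i j
    by_cases h : i = j <;> simp [h]
  rw [h1, h2, Mm_Le, S.hM, Matrix.mul_sub, Matrix.sub_mul, Matrix.mul_smul, Matrix.mul_one, Matrix.smul_mul,
    mul_eq_one_comm.1 S.hV]

theorem Spec.mul_inv {L : C3 ℝ} (S : Spec L) {t : ℝ} (ht : ∀ s, t ≠ S.lam s) :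
    Mm (t • Le - L) * (S.V * Matrix.diagonal (fun s => (t - S.lam s)⁻¹) * S.Vᵀ) = 1 := by
  have h : Matrix.diagonal (fun s => t - S.lam s) * Matrix.diagonal (fun s => (t - S.lam s)⁻¹) = 1 := by
    rw [Matrix.diagonal_mul_diagonal, ← Matrix.diagonal_one]
    exact congrArg _ (funext fun s => mul_inv_cancel₀ (sub_ne_zero.2 (ht s)))
  rw [S.mm, Matrix.mul_assoc S.V _ S.Vᵀ, Matrix.mul_assoc S.V _ S.Vᵀ, Matrix.mul_assoc, Matrix.mul_assoc,
    ← Matrix.mul_assoc S.Vᵀ, S.hV, Matrix.one_mul, ← Matrix.mul_assoc (Matrix.diagonal _), h, Matrix.one_mul,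
    mul_eq_one_comm.1 S.hV]

theorem Spec.det_ne {L : C3 ℝ} (S : Spec L) (t : ℝ) (ht : ∀ s, t ≠ S.lam s) : (Mm (t • Le - L)).det ≠ 0 := by
  exact Matrix.det_ne_zero_of_right_inverse (S.mul_inv ht)

theorem b2b_rel : Continuous (rel : (X4 → ℝ) → X4 → ℝ) := by
  unfold rel
  fun_prop

theorem Dat.b2b_key (d : Dat) {L : C3 ℝ} {z : ℝ} {l : Filter ℝ} {c : ℝ → ℝ} {b : Fin 7 → Fin 7 → ℝ}
    (hb : ∀ i j, b i j = b j i) (h0 : b ≠ 0) {ε : ℝ} (hε : ε = 1 ∨ ε = -1)
    (h1 : Filter.Tendsto (fun t => c t * (t * d.ze - z)) l (𝓝 ((1 + ε) * d.ψ ⬝ᵥ bb b)))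
    (h2 : Filter.Tendsto (fun t => c t • Gam (t • Le - L)) l (𝓝 (ε • bb b))) :
    ∀ᶠ t in l, (0 < c t → d.Up L z t) ∧ (c t < 0 → d.Dn L z t) := by
  obtain ⟨p1, p2⟩ := d.pole b hb h0
  have h3 : Filter.Tendsto (fun t => c t * d.hl L z t) l (𝓝 (d.ψ ⬝ᵥ bb b)) := by
    have hc : Continuous fun y : X4 → ℝ => d.ψ ⬝ᵥ y := by fun_prop
    convert h1.sub ((hc.tendsto _).comp h2) using 2
    · simp only [Dat.hl, Function.comp, dotProduct_smul, smul_eq_mul]
      ring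
    · simp only [dotProduct_smul, smul_eq_mul]
      ring
  have h4 : Filter.Tendsto (fun t => c t • Rl L t) l (𝓝 (ε • rel (bb b))) := by
    simpa only [Function.comp_def, rel_smul, Rl] using (b2b_rel.tendsto _).comp h2
  have e1 : qf d.Pc (ε • rel (bb b)) = qf d.Pc (rel (bb b)) := by
    rw [qf_smul]
    rcases hε with rfl | rfl <;> simp
  have e2 : 0 < PP d.r d.Pc d.F (d.ψ ⬝ᵥ bb b) (ε • rel (bb b)) := by
    rcases hε with rfl | rfl
    · simpa using p2 _ le_rfl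
    · simpa [PP_neg_right d.Pc d.hF] using p2 _ le_rfl
  have h5 := ((((continuous_qf d.Pc).tendsto _).comp h4).sqrt.const_mul ((d.r : ℝ) - 1 / 2)).eventually_lt h3
    (by rwa [e1])
  have h6 := (((continuous_PP d.r d.Pc d.F).tendsto _).comp (h3.prodMk_nhds h4)).eventually_const_lt e2
  filter_upwards [h5, h6] with t h5 h6
  simp only [Function.comp, qf_smul, PP_smul d.Pc d.hF, Real.sqrt_mul (sq_nonneg _), Real.sqrt_sq_eq_abs] at h5 h6
  have h7 : 0 < d.P (d.hl L z t) (Rl L t) := 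
    (pos_iff_pos_of_mul_pos h6).1 (lt_of_le_of_ne (by rw [pow_mul]; positivity) (left_ne_zero_of_mul h6.ne').symm)
  refine ⟨fun hc => ⟨?_, h7⟩, fun hc => ⟨?_, h7⟩⟩
  · rw [abs_of_pos hc, mul_left_comm] at h5
    exact lt_of_mul_lt_mul_left h5 hc.le
  · rw [abs_of_neg hc] at h5
    nlinarith

theorem b2b_split (L : C3 ℝ) {t : ℝ} (ht : t ≠ 0) : t • Le - L = t • (Le - t⁻¹ • L) := by
  rw [smul_sub, smul_inv_smul₀ ht]

theorem Dat.b2b_inf (d : Dat) (L : C3 ℝ) (z : ℝ) {l : Filter ℝ} (h0 : ∀ᶠ t in l, t ≠ 0)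
    (h : Filter.Tendsto (fun t : ℝ => t⁻¹) l (𝓝 0)) :
    ∀ᶠ t in l, (0 < t⁻¹ → d.Up L z t) ∧ (t⁻¹ < 0 → d.Dn L z t) := by
  refine d.b2b_key (b := idm) (fun i j => by simp [idm, eq_comm]) (fun e => by simpa [idm] using congrFun₂ e 0 0)
    (Or.inl rfl) ?_ ?_
  · refine Filter.Tendsto.congr' (f₁ := fun t => d.ze - t⁻¹ * z) (h0.mono fun t ht => by field_simp) ?_
    convert (h.mul_const z).const_sub d.ze using 2
    rw [Dat.ze]
    ring
  · refine Filter.Tendsto.congr' (f₁ := fun t => Gam (Le - t⁻¹ • L)) (h0.mono fun t ht => ?_) ?_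
    · simp only [b2b_split L ht, Gam_smul _ _ ht, inv_smul_smul₀ ht]
    · rw [one_smul, ← Gam_Le]
      refine (continuousAt_Gam (by simp [Mm_Le])).tendsto.comp ?_
      simpa using (h.smul_const L).const_sub Le

theorem Dat.up_atTop (d : Dat) {L : C3 ℝ} (hL : Sym3 L) (z : ℝ) : ∀ᶠ t in Filter.atTop, d.Up L z t := by
  filter_upwards [d.b2b_inf L z (Filter.eventually_ne_atTop 0) tendsto_inv_atTop_zero,
    Filter.eventually_gt_atTop 0] with t h ht using h.1 (inv_pos.2 ht)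

theorem Dat.dn_atBot (d : Dat) {L : C3 ℝ} (hL : Sym3 L) (z : ℝ) : ∀ᶠ t in Filter.atBot, d.Dn L z t := by
  filter_upwards [d.b2b_inf L z (Filter.eventually_ne_atBot 0) tendsto_inv_atBot_zero,
    Filter.eventually_lt_atBot 0] with t h ht using h.2 (inv_lt_zero.2 ht)

theorem Dat.b2b_pole (d : Dat) {L : C3 ℝ} (hL : Sym3 L) (S : Spec L) (z : ℝ) (s : Fin 8) :
    ∀ᶠ t in 𝓝[≠] (S.lam s), (0 < S.lam s - t → d.Up L z t) ∧ (S.lam s - t < 0 → d.Dn L z t) := by
  let b : ℝ → Fin 8 → Fin 7 → Fin 7 → ℝ := fun t u i j =>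
    ∑ a, S.V a u * (t * Le a i.succ j.succ - L a i.succ j.succ)
  let n : ℝ → Fin 8 → ℝ := fun t u => if u = s then -1 else (S.lam s - t) * (t - S.lam u)⁻¹
  refine d.b2b_key (b := b (S.lam s) s) (fun i j => ?_) (fun e => ?_) (Or.inr rfl) ?_ ?_
  · exact Finset.sum_congr rfl fun a _ => by rw [(hL a _ _).2, (sym3_Le a _ _).2]
  · obtain ⟨i, j, h⟩ := S.hb s
    exact h (congrFun₂ e i j)
  · have : Continuous fun t => (S.lam s - t) * (t * d.ze - z) := by fun_prop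
    simpa using (this.tendsto (S.lam s)).mono_left nhdsWithin_le_nhds
  have hev : ∀ᶠ t in 𝓝[≠] (S.lam s), ∀ u, t ≠ S.lam u := Filter.eventually_all.2 fun u => by
    by_cases h : u = s
    · subst h
      exact self_mem_nhdsWithin
    · exact (eventually_ne_nhds fun e => h (S.mono.injective e).symm).filter_mono nhdsWithin_le_nhds
  refine Filter.Tendsto.congr' (f₁ := fun t => ∑ u, n t u • bb (b t u)) (hev.mono fun t ht => ?_) ?_
  · have hn : ∀ u, n t u = (S.lam s - t) * (t - S.lam u)⁻¹ := fun u => by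
      by_cases h : u = s
      · have := sub_ne_zero.2 (ht s)
        simp only [n, h, if_true]
        field_simp
        ring
      · simp only [n, h, if_false]
    funext x
    simp only [Gam, Matrix.inv_eq_right_inv (S.mul_inv ht), Finset.sum_apply, Pi.smul_apply, smul_eq_mul, bb, b, hn,
      Matrix.mul_apply (N := S.Vᵀ), Matrix.mul_diagonal, Matrix.transpose_apply, Pi.sub_apply,
      Finset.mul_sum, Finset.sum_mul]
    rw [Finset.sum_comm_cycle]
    refine Finset.sum_congr rfl fun a _ => ?_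
    rw [Finset.sum_comm]
    exact Finset.sum_congr rfl fun a' _ => Finset.sum_congr rfl fun u _ => by ring
  · have e : (-1 : ℝ) • bb (b (S.lam s) s) = ∑ u, n (S.lam s) u • bb (b (S.lam s) u) := by
      rw [Finset.sum_eq_single s (fun u _ h => by simp [n, h]) (by simp)]
      simp [n]
    rw [e]
    refine Filter.Tendsto.mono_left (tendsto_finsetSum _ fun u _ => Filter.Tendsto.smul
      (?_ : ContinuousAt (fun t => n t u) _) (?_ : ContinuousAt (fun t => bb (b t u)) _)) nhdsWithin_le_nhds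
    · by_cases h : u = s
      · simp only [n, h, if_true]
        exact continuousAt_const
      · have : S.lam s - S.lam u ≠ 0 := sub_ne_zero.2 fun e => h (S.mono.injective e).symm
        simp only [n, h, if_false]
        fun_prop (disch := assumption)
    · unfold bb
      fun_prop

theorem Dat.up_left (d : Dat) {L : C3 ℝ} (hL : Sym3 L) (S : Spec L) (z : ℝ) (s : Fin 8) :
    ∀ᶠ t in 𝓝[<] (S.lam s), d.Up L z t := by
  filter_upwards [(d.b2b_pole hL S z s).filter_mono (nhdsLT_le_nhdsNE _), self_mem_nhdsWithin] with t h ht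
    using h.1 (sub_pos.2 ht)

theorem Dat.dn_right (d : Dat) {L : C3 ℝ} (hL : Sym3 L) (S : Spec L) (z : ℝ) (s : Fin 8) :
    ∀ᶠ t in 𝓝[>] (S.lam s), d.Dn L z t := by
  filter_upwards [(d.b2b_pole hL S z s).filter_mono (nhdsGT_le_nhdsNE _), self_mem_nhdsWithin] with t h ht
    using h.2 (sub_neg.2 ht)

theorem b2b_map {R R' : Type} [CommRing R] [CommRing R'] (φ : R →+* R') (L : C3 R) (x : X4) :
    φ (aG L x) = aG (fun a b c => φ (L a b c)) x := by
  have : (Mm fun a b c => φ (L a b c)).adjugate = φ.mapMatrix (Mm L).adjugate := (φ.map_adjugate (Mm L)).symm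
  simp only [aG, map_sum, map_mul, this, RingHom.mapMatrix_apply, Matrix.map_apply]

theorem b2b_map_rel {R R' : Type} [CommRing R] [CommRing R'] (φ : R →+* R') (L : C3 R) {L' : C3 R'}
    (h : ∀ a b c, φ (L a b c) = L' a b c) (x : X4) : φ (rel (aG L) x) = rel (aG L') x := by
  obtain rfl : (fun a b c => φ (L a b c)) = L' := funext₃ h
  simp only [rel, map_sub, b2b_map]

theorem b2b_poly (L₀ L : C3 ℝ) (x : X4) : ∃ q : Polynomial ℝ, ∀ s, q.eval s = rel (aG (L₀ - s • L)) x :=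
  ⟨rel (aG fun a b c => Polynomial.C (L₀ a b c) - Polynomial.X * Polynomial.C (L a b c)) x, fun s =>
    b2b_map_rel (Polynomial.evalRingHom s) _ (fun a b c => by
      rw [map_sub, map_mul, Polynomial.coe_evalRingHom, Polynomial.eval_C, Polynomial.eval_C, Polynomial.eval_X]
      rfl) x⟩

/-- some coordinate of `rel (aG (t • Le - L))` is a nonzero polynomial in `t` -/
theorem finite_Rl {L : C3 ℝ} (hL : Sym3 L) : {t : ℝ | (Mm (t • Le - L)).det ≠ 0 ∧ Rl L t = 0}.Finite := by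
  obtain ⟨x, hx⟩ := Function.ne_iff.1 rel_bb_idm_ne
  obtain ⟨q, hq⟩ := b2b_poly Le L x
  have h0 : q ≠ 0 := fun e => hx (by
    have := hq 0
    rw [e, zero_smul, sub_zero, aG_eq (by simp [Mm_Le]), Mm_Le, Matrix.det_one, one_smul, Gam_Le] at this
    exact this.symm.trans (Polynomial.eval_zero))
  refine (((q.finite_setOfPred_isRoot h0).image (·⁻¹)).insert 0).subset fun t ⟨h1, h2⟩ => ?_
  refine (eq_or_ne t 0).imp_right fun ht => ⟨t⁻¹, ?_, inv_inv t⟩
  rw [Rl, b2b_split L ht, Gam_smul _ _ ht, rel_smul, smul_eq_zero_iff_right ht] at h2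
  rw [b2b_split L ht, show Mm (t • (Le - t⁻¹ • L)) = t • Mm (Le - t⁻¹ • L) from rfl, Matrix.det_smul] at h1
  change q.eval t⁻¹ = 0
  rw [hq, aG_eq (right_ne_zero_of_mul h1), rel_smul, h2, smul_zero, Pi.zero_apply]


end Crest.Agent.R237
end
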