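import Crest.Agent.R237.B1
import Crest.Agent.R237.B2a
import Crest.Agent.R237.B2b

set_option autoImplicit false
open scoped BigOperators Matrix Topology
open Crest.GeometryTopology

noncomputable section
namespace Crest.Agent.R237

/-! # B2c: hyperbolicity.

* `count`: exclude the finitely many `z = t ze - ψ ⬝ Gam L(t)` with `Rl L t = 0`.  On each of the 9 intervals cut out by
  the poles choose `t₁ < t₂` with `Dn` at `t₁` and `Up` at `t₂`, apply `roots_Icc` with `N = √(qf (Rl L t))`,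
  `f = d.P (hl) (Rl)` (`d.sgn`, `PP_neg_left`, `d.hP`), and use `pf_eq`.  The 9 root sets are disjoint.
* `dense_spec`: spectral theorem for `Mm L` (sort the eigenvalues, `Tuple.sort`), perturb `L` by
  `η • (asm-free) symmetric tensor` with `Mm`-part `V diag(0,1,…,7) Vᵀ` (eigenvalues become strictly increasing) and then by
  `η' Σ_i e_i ⊗ e_i ⊗ e_i` (`i ≠ 0`; `Mm` unchanged): `b_s` changes by `-η' diag(V i.succ s)`; if that vector is `0`
  then `V · s = ± e₀` and `b_s = ± (λ_s I - lower block of Mm L) ≠ 0` because the eigenvalues are distinct.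
* `hyp_poly`: `Lof (t • e - x) = t • Le - Lof x`, `zof (t • e - x) = t ze - zof x`; `hyp_of_dense` with
  `S = {x | ∃ T, …}`; density through `mkP`: change `x` by `mkP (ΔL/6) Δz`. -/

theorem h87_sym3_line {L : C3 ℝ} (hL : Sym3 L) (t : ℝ) : Sym3 (t • Le - L) := by
  intro a b c
  simp only [Pi.sub_apply, Pi.smul_apply, smul_eq_mul]
  refine ⟨?_, ?_⟩
  · rw [(sym3_Le a b c).1, (hL a b c).1]
  · rw [(sym3_Le a b c).2, (hL a b c).2]

theorem h87_cont_rel : Continuous fun Γ : X4 → ℝ => rel Γ := by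
  refine continuous_pi fun x => ?_
  unfold rel
  fun_prop

theorem h87_cont_Gam {L : C3 ℝ} {t : ℝ} (ht : (Mm (t • Le - L)).det ≠ 0) :
    ContinuousAt (fun t : ℝ => Gam (t • Le - L)) t := by
  have h1 : ContinuousAt (fun t : ℝ => t • Le - L) t := by fun_prop
  exact ContinuousAt.comp (f := fun t : ℝ => t • Le - L) (continuousAt_Gam ht) h1

theorem h87_cont_Rl {L : C3 ℝ} {t : ℝ} (ht : (Mm (t • Le - L)).det ≠ 0) : ContinuousAt (Rl L) t :=
  ContinuousAt.comp (f := fun t : ℝ => Gam (t • Le - L)) h87_cont_rel.continuousAt (h87_cont_Gam ht)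

theorem h87_cont_hl (d : Dat) {L : C3 ℝ} (z : ℝ) {t : ℝ} (ht : (Mm (t • Le - L)).det ≠ 0) :
    ContinuousAt (d.hl L z) t := by
  have h1 : Continuous fun Γ : X4 → ℝ => d.ψ ⬝ᵥ Γ := by fun_prop
  have h2 : ContinuousAt (fun t : ℝ => d.ψ ⬝ᵥ Gam (t • Le - L)) t :=
    ContinuousAt.comp (f := fun t : ℝ => Gam (t • Le - L)) h1.continuousAt (h87_cont_Gam ht)
  have h3 : ContinuousAt (fun t : ℝ => t * d.ze - z) t := by fun_prop
  exact h3.sub h2

theorem h87_interval (d : Dat) {L : C3 ℝ} (hL : Sym3 L) (z : ℝ) {t₁ t₂ : ℝ} (ht : t₁ < t₂)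
    (hdet : ∀ t ∈ Set.Icc t₁ t₂, (Mm (t • Le - L)).det ≠ 0)
    (hz : ∀ t, (Mm (t • Le - L)).det ≠ 0 → Rl L t = 0 → d.hl L z t ≠ 0)
    (h1 : d.Dn L z t₁) (h2 : d.Up L z t₂) :
    ∃ T : Finset ℝ, T.card = 2 * d.r ∧ ∀ t ∈ T, t ∈ Set.Ioo t₁ t₂ ∧ d.pf (t • Le - L) (t * d.ze - z) = 0 := by
  have hN : ContinuousOn (fun t => √(qf d.Pc (Rl L t))) (Set.Icc t₁ t₂) := fun t htI =>
    (Real.continuous_sqrt.continuousAt.comp
      (ContinuousAt.comp (f := Rl L) (continuous_qf d.Pc).continuousAt (h87_cont_Rl (hdet t htI)))).continuousWithinAt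
  have hf : ContinuousOn (fun t => d.P (d.hl L z t) (Rl L t)) (Set.Icc t₁ t₂) := fun t htI =>
    (ContinuousAt.comp (f := fun t => (d.hl L z t, Rl L t)) (continuous_PP d.r d.Pc d.F).continuousAt
      ((h87_cont_hl d z (hdet t htI)).prodMk (h87_cont_Rl (hdet t htI)))).continuousWithinAt
  obtain ⟨T, hT, hT'⟩ := roots_Icc d.r d.hr ht (d.hl L z) (fun t => √(qf d.Pc (Rl L t)))
    (fun t => d.P (d.hl L z t) (Rl L t)) (fun t htI => (h87_cont_hl d z (hdet t htI)).continuousWithinAt) hN hf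
    (fun t _ => Real.sqrt_nonneg _) (by
      intro t htI i hi hc
      have hR : Rl L t ≠ 0 := by
        intro h0
        apply hz t (hdet t htI) h0
        have hq : qf d.Pc (Rl L t) = 0 := by simp [h0, qf]
        rcases hc with hc | hc <;> simp [hc, hq]
      have hI : Rl L t ∈ Img := ⟨t • Le - L, h87_sym3_line hL t, hdet t htI, rfl⟩
      have := d.sgn _ hI hR i hi
      rcases hc with hc | hc
      · simpa only [Dat.P, hc] using this
      · simpa only [Dat.P, hc, PP_neg_left] using this) h1.1 h1.2 h2.1 h2.2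
  refine ⟨T, hT, fun t htT => ⟨(hT' t htT).1, ?_⟩⟩
  rw [d.pf_eq (hdet t (Set.Ioo_subset_Icc_self (hT' t htT).1))]
  have : d.P (t * d.ze - z - d.ψ ⬝ᵥ Gam (t • Le - L)) (rel (Gam (t • Le - L))) = 0 := (hT' t htT).2
  rw [this, mul_zero]

theorem h87_lo (d : Dat) {L : C3 ℝ} (hL : Sym3 L) (S : Spec L) (z : ℝ) (k : Fin 9) (m : ℝ)
    (hm : ∀ s : Fin 8, s.val < k.val → S.lam s < m) :
    ∃ t, t < m ∧ (∀ s : Fin 8, s.val < k.val → S.lam s < t) ∧ d.Dn L z t := by
  induction k using Fin.cases with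
  | zero =>
    obtain ⟨t, h1, h2⟩ := ((Filter.eventually_lt_atBot m).and (d.dn_atBot hL z)).exists
    exact ⟨t, h1, fun s hs => absurd hs (by simp), h2⟩
  | succ s =>
    have e1 : ∀ᶠ t in 𝓝[>] (S.lam s), t < m :=
      nhdsWithin_le_nhds (Iio_mem_nhds (hm s (by simp)))
    have e2 : ∀ᶠ t in 𝓝[>] (S.lam s), S.lam s < t := self_mem_nhdsWithin
    obtain ⟨t, h1, h2, h3⟩ := (e1.and (e2.and (d.dn_right hL S z s))).exists
    refine ⟨t, h1, fun s' hs' => lt_of_le_of_lt (S.mono.monotone ?_) h2, h3⟩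
    rw [Fin.le_def]
    simp only [Fin.val_succ] at hs'
    omega

theorem h87_hi (d : Dat) {L : C3 ℝ} (hL : Sym3 L) (S : Spec L) (z : ℝ) (k : Fin 9) (m : ℝ)
    (hm : ∀ s : Fin 8, k.val ≤ s.val → m < S.lam s) :
    ∃ t, m < t ∧ (∀ s : Fin 8, k.val ≤ s.val → t < S.lam s) ∧ d.Up L z t := by
  induction k using Fin.lastCases with
  | last =>
    obtain ⟨t, h1, h2⟩ := ((Filter.eventually_gt_atTop m).and (d.up_atTop hL z)).exists
    refine ⟨t, h1, fun s hs => ?_, h2⟩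
    have := s.2
    simp only [Fin.val_last] at hs
    omega
  | cast s =>
    have e1 : ∀ᶠ t in 𝓝[<] (S.lam s), m < t :=
      nhdsWithin_le_nhds (Ioi_mem_nhds (hm s (by simp)))
    have e2 : ∀ᶠ t in 𝓝[<] (S.lam s), t < S.lam s := self_mem_nhdsWithin
    obtain ⟨t, h1, h2, h3⟩ := (e1.and (e2.and (d.up_left hL S z s))).exists
    refine ⟨t, h1, fun s' hs' => lt_of_lt_of_le h2 (S.mono.monotone ?_), h3⟩
    rw [Fin.le_def]
    simpa using hs'

theorem h87_piece (d : Dat) {L : C3 ℝ} (hL : Sym3 L) (S : Spec L) (z : ℝ)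
    (hz : ∀ t, (Mm (t • Le - L)).det ≠ 0 → Rl L t = 0 → d.hl L z t ≠ 0) (k : Fin 9) :
    ∃ T : Finset ℝ, T.card = 2 * d.r ∧ ∀ t ∈ T, (∀ s : Fin 8, s.val < k.val → S.lam s < t) ∧
      (∀ s : Fin 8, k.val ≤ s.val → t < S.lam s) ∧ d.pf (t • Le - L) (t * d.ze - z) = 0 := by
  obtain ⟨m, hm1, hm2⟩ : ∃ m : ℝ, (∀ s : Fin 8, s.val < k.val → S.lam s < m) ∧
      (∀ s : Fin 8, k.val ≤ s.val → m ≤ S.lam s) := by
    by_cases hk : k.val < 8
    · refine ⟨S.lam ⟨k.val, hk⟩, fun s hs => S.mono ?_, fun s hs => S.mono.monotone ?_⟩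
      · rw [Fin.lt_def]; exact hs
      · rw [Fin.le_def]; exact hs
    · refine ⟨S.lam (Fin.last 7) + 1, fun s _ => ?_, fun s hs => ?_⟩
      · have := S.mono.monotone (Fin.le_last s)
        linarith
      · have := s.2
        omega
  obtain ⟨t₁, a1, a2, a3⟩ := h87_lo d hL S z k m hm1
  obtain ⟨t₂, b1, b2, b3⟩ := h87_hi d hL S z k t₁ fun s hs => lt_of_lt_of_le a1 (hm2 s hs)
  obtain ⟨T, hT, hT'⟩ := h87_interval d hL z b1 (fun t ht => S.det_ne t fun s hs => by
    rcases lt_or_ge s.val k.val with h | h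
    · have := a2 s h
      have := ht.1
      linarith
    · have := b2 s h
      have := ht.2
      linarith) hz a3 b3
  exact ⟨T, hT, fun t ht => ⟨fun s hs => lt_trans (a2 s hs) (hT' t ht).1.1,
    fun s hs => lt_trans (hT' t ht).1.2 (b2 s hs), (hT' t ht).2⟩⟩

theorem Dat.count (d : Dat) {L : C3 ℝ} (hL : Sym3 L) (S : Spec L) : ∃ Z : Finset ℝ, ∀ z, z ∉ Z →
    ∃ T : Finset ℝ, 18 * d.r ≤ T.card ∧ ∀ t ∈ T, d.pf (t • Le - L) (t * d.ze - z) = 0 := by
  classical
  refine ⟨(finite_Rl hL).toFinset.image fun t => t * d.ze - d.ψ ⬝ᵥ Gam (t • Le - L), fun z hzZ => ?_⟩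
  have hz : ∀ t, (Mm (t • Le - L)).det ≠ 0 → Rl L t = 0 → d.hl L z t ≠ 0 := by
    intro t h1 h2 h3
    apply hzZ
    refine Finset.mem_image.2 ⟨t, (Set.Finite.mem_toFinset _).2 ⟨h1, h2⟩, ?_⟩
    unfold Dat.hl at h3
    linarith
  choose T hT hT' using h87_piece d hL S z hz
  refine ⟨Finset.univ.biUnion T, ?_, fun t ht => ?_⟩
  · rw [Finset.card_biUnion]
    · simp only [hT, Finset.sum_const, Finset.card_univ, Fintype.card_fin, smul_eq_mul]
      omega
    · have key : ∀ k k' : Fin 9, k.val < k'.val → Disjoint (T k) (T k') := by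
        intro k k' hk
        rw [Finset.disjoint_left]
        intro t h1 h2
        have hk8 : k.val < 8 := by
          have := k'.2
          omega
        have e1 := (hT' k t h1).2.1 ⟨k.val, hk8⟩ le_rfl
        have e2 := (hT' k' t h2).1 ⟨k.val, hk8⟩ hk
        linarith
      intro k _ k' _ hne
      rcases lt_trichotomy k.val k'.val with h | h | h
      · exact key k k' h
      · exact absurd (Fin.ext h) hne
      · exact (key k' k h).symm
  · obtain ⟨k, _, hk⟩ := Finset.mem_biUnion.1 ht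
    exact (hT' k t hk).2.2

end Crest.Agent.R237
end
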