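import Crest.Agent.R237.B2c

set_option autoImplicit false
open scoped BigOperators Matrix Topology
open Crest.GeometryTopology

noncomputable section
namespace Crest.Agent.R237

/-! # B2d: density of generic spectral data and hyperbolicity (recipe in the docstring of `B2c`) -/

theorem b2d_spec {M : Matrix (Fin 8) (Fin 8) ℝ} (h : M.IsSymm) : ∃ (V : Matrix (Fin 8) (Fin 8) ℝ) (μ : Fin 8 → ℝ),
    Vᵀ * V = 1 ∧ Monotone μ ∧ M = V * Matrix.diagonal μ * Vᵀ := by
  have hH : M.IsHermitian := h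
  set U : Matrix (Fin 8) (Fin 8) ℝ := hH.eigenvectorUnitary.1
  have h1 : Uᵀ * U = 1 := hH.eigenvectorUnitary.2.1
  have h2 : M = U * Matrix.diagonal hH.eigenvalues * Uᵀ := hH.spectral_theorem
  let σ := Tuple.sort hH.eigenvalues
  refine ⟨U.submatrix id σ, hH.eigenvalues ∘ σ, ?_, Tuple.monotone_sort _, ?_⟩
  · rw [Matrix.transpose_submatrix, ← Matrix.submatrix_mul _ _ _ _ _ Function.bijective_id, h1, Matrix.submatrix_one_equiv]
  · rw [Matrix.transpose_submatrix, ← Matrix.submatrix_diagonal_equiv, Matrix.submatrix_mul_equiv,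
      Matrix.submatrix_mul_equiv, ← h2, Matrix.submatrix_id_id]

/-- a symmetric tensor with prescribed moment matrix -/
def b2dT (N : Matrix (Fin 8) (Fin 8) ℝ) : C3 ℝ := fun a b c =>
  if a = 0 then N b c else if b = 0 then N a c else if c = 0 then N a b else 0

/-- the diagonal cubic part -/
def b2dE : C3 ℝ := fun a b c => if a ≠ 0 ∧ a = b ∧ a = c then 1 else 0

theorem b2d_symT {N : Matrix (Fin 8) (Fin 8) ℝ} (h : N.IsSymm) : Sym3 (b2dT N) := fun a b c => by
  by_cases ha : a = 0 <;> by_cases hb : b = 0 <;> by_cases hc : c = 0 <;> simp [b2dT, ha, hb, hc, h.apply]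

theorem b2d_symE : Sym3 b2dE := fun a b c => by
  unfold b2dE
  constructor <;> refine if_congr ⟨?_, ?_⟩ rfl rfl <;> rintro ⟨h, rfl, rfl⟩ <;> exact ⟨h, rfl, rfl⟩

theorem b2d_ne {L : C3 ℝ} {V : Matrix (Fin 8) (Fin 8) ℝ} {lam : Fin 8 → ℝ} (hV : Vᵀ * V = 1) (hl : Function.Injective lam)
    (hM : Mm L = V * Matrix.diagonal lam * Vᵀ) (s : Fin 8) (h0 : ∀ i : Fin 7, V i.succ s = 0)
    (h : ∀ i j : Fin 7, ∑ a, V a s * (lam s * Le a i.succ j.succ - L a i.succ j.succ) = 0) : False := by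
  obtain ⟨s', hs⟩ := exists_ne s
  have h1 : ∀ u, ∑ a, V a u * V a u = 1 := fun u => by simpa [Matrix.mul_apply] using congrFun₂ hV u u
  have h2 : V 0 s ≠ 0 := fun e => by simpa [Fin.sum_univ_succ (n := 7), h0, e] using h1 s
  have h3 : V 0 s' = 0 := by
    simpa [Matrix.mul_apply, Fin.sum_univ_succ (n := 7), h0, h2, Matrix.one_apply_ne hs.symm] using congrFun₂ hV s s'
  have h4 : ∀ i j : Fin 7, Mm L i.succ j.succ = if i = j then lam s else 0 := fun i j => by
    have := h i j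
    simp only [Fin.sum_univ_succ (n := 7), h0, zero_mul, Finset.sum_const_zero, add_zero, mul_eq_zero, h2, false_or, Le,
      if_true, Fin.succ_inj, sub_eq_zero, mul_ite, mul_one, mul_zero] at this
    exact this.symm
  have h5 : Mm L * V = V * Matrix.diagonal lam := by rw [hM, Matrix.mul_assoc, hV, Matrix.mul_one]
  have h6 : ∀ i : Fin 7, V i.succ s' = 0 := fun i => by
    have := congrFun₂ h5 i.succ s'
    rw [Matrix.mul_diagonal, Matrix.mul_apply, Fin.sum_univ_succ, h3] at this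
    simp only [h4, ite_mul, zero_mul, Finset.sum_ite_eq, Finset.mem_univ, if_true, mul_zero, zero_add] at this
    by_contra hn
    exact hs (hl (mul_left_cancel₀ hn (by rw [← this, mul_comm])))
  simpa [Fin.sum_univ_succ (n := 7), h3, h6] using h1 s'

theorem dense_spec {L : C3 ℝ} (hL : Sym3 L) (ε : ℝ) (hε : 0 < ε) :
    ∃ L' : C3 ℝ, Sym3 L' ∧ ‖L' - L‖ < ε ∧ Nonempty (Spec L') := by
  obtain ⟨V, μ, hV, hμ, hM⟩ := b2d_spec hL.isSymm
  set N : Matrix (Fin 8) (Fin 8) ℝ := V * Matrix.diagonal (fun s : Fin 8 => (s : ℝ)) * Vᵀ with hN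
  have hNs : N.IsSymm := by
    rw [Matrix.IsSymm, hN, Matrix.transpose_mul, Matrix.transpose_mul, Matrix.transpose_transpose,
      Matrix.diagonal_transpose, Matrix.mul_assoc]
  obtain ⟨η, hη, hη'⟩ := exists_pos_mul_lt (half_pos hε) ‖b2dT N‖
  obtain ⟨δ, hδ, hδ'⟩ := exists_pos_mul_lt (half_pos hε) ‖b2dE‖
  let lam : Fin 8 → ℝ := fun s => μ s + η * s
  have hl : StrictMono lam := hμ.add_strictMono fun s s' h => mul_lt_mul_of_pos_left (Nat.cast_lt.2 h) hη
  have hM' : ∀ θ : ℝ, Mm (L + η • b2dT N + θ • b2dE) = V * Matrix.diagonal lam * Vᵀ := fun θ => by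
    have e1 : Mm (L + η • b2dT N + θ • b2dE) = Mm L + η • N := by
      ext a b
      simp [Mm, b2dT, b2dE]
    have e2 : Matrix.diagonal lam = Matrix.diagonal μ + η • Matrix.diagonal fun s : Fin 8 => (s : ℝ) := by
      rw [← Matrix.diagonal_smul, Matrix.diagonal_add]
      rfl
    rw [e1, e2, hM, hN, Matrix.mul_add, Matrix.add_mul, Matrix.mul_smul, Matrix.smul_mul]
  have hf : ∀ s, {θ : ℝ | ∀ i j : Fin 7, ∑ a, V a s * (lam s * Le a i.succ j.succ -
      (L + η • b2dT N + θ • b2dE) a i.succ j.succ) = 0}.Finite := fun s => Set.Subsingleton.finite fun θ h θ' h' => by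
    by_contra hne
    refine b2d_ne hV hl.injective (hM' θ) s (fun i => ?_) h
    have := (h i i).trans (h' i i).symm
    rw [← sub_eq_zero, ← Finset.sum_sub_distrib, Finset.sum_eq_single i.succ (fun a _ ha => by simp [b2dE, ha])
      (by simp)] at this
    have e : V i.succ s * (θ' - θ) = 0 := by
      rw [← this]
      simp only [Pi.add_apply, Pi.smul_apply, b2dE, smul_eq_mul, ne_eq, Fin.succ_ne_zero, not_false_eq_true, and_self,
        if_true]
      ring
    exact (mul_eq_zero.1 e).resolve_right (sub_ne_zero.2 (Ne.symm hne))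
  obtain ⟨θ, hθ, hθ'⟩ := ((Set.Ioo_infinite hδ).sdiff (Set.finite_iUnion hf)).nonempty
  refine ⟨L + η • b2dT N + θ • b2dE, fun a b c => ?_, ?_, ⟨⟨V, lam, hV, hl, hM' θ, fun s => ?_⟩⟩⟩
  · simp only [Pi.add_apply, Pi.smul_apply]
    rw [← (hL a b c).1, ← (hL a b c).2, ← (b2d_symT hNs a b c).1, ← (b2d_symT hNs a b c).2, ← (b2d_symE a b c).1,
      ← (b2d_symE a b c).2]
    exact ⟨rfl, rfl⟩
  · rw [add_assoc, add_sub_cancel_left]
    refine (norm_add_le _ _).trans_lt ?_
    rw [norm_smul, norm_smul, Real.norm_of_nonneg hη.le, Real.norm_of_nonneg hθ.1.le]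
    nlinarith [mul_le_mul_of_nonneg_left hθ.2.le (norm_nonneg b2dE)]
  · by_contra hn
    push Not at hn
    exact hθ' (Set.mem_iUnion.2 ⟨s, hn⟩)

theorem Dat.hyp_poly (d : Dat) : Hyperbolic.IsHyperbolic d.poly d.e := by
  refine hyp_of_dense d.poly_hom d.eval_e_pos _ (Metric.dense_iff.2 fun x ε hε => ?_) fun x hx => hx
  obtain ⟨L, hL, hε', ⟨S⟩⟩ := dense_spec (L := Lof x) (sym3_sy _) ε hε
  obtain ⟨Z, hZ⟩ := d.count hL S
  obtain ⟨z, hz, hz'⟩ := ((Set.Ioo_infinite (lt_add_of_pos_right (zof x) hε)).sdiff Z.finite_toSet).nonempty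
  obtain ⟨T, hT, hT'⟩ := hZ z hz'
  have hs : Sym3 (L - Lof x) := fun a b c => by
    have := sym3_sy (fun a b c => x (ix a b c)) a b c
    simp only [Pi.sub_apply, Lof]
    rw [← (hL a b c).1, ← (hL a b c).2, ← this.1, ← this.2]
    exact ⟨rfl, rfl⟩
  refine ⟨x + mkP (fun a b c => (L - Lof x) a b c / 6) (z - zof x), ?_, T, hT, fun t ht => ?_⟩
  · rw [mem_ball_iff_norm, add_sub_cancel_left, pi_norm_lt_iff hε]
    intro i
    unfold mkP
    split_ifs
    · have : ∀ a b c, ‖(L - Lof x) a b c / 6‖ < ε := fun a b c => by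
        have := (norm_le_pi_norm ((L - Lof x) a b) c).trans
          ((norm_le_pi_norm ((L - Lof x) a) b).trans (norm_le_pi_norm (L - Lof x) a))
        rw [norm_div, Real.norm_ofNat]
        linarith
      exact this _ _ _
    · rw [Real.norm_of_nonneg (sub_nonneg.2 hz.1.le)]
      linarith [hz.2]
  · have e1 : ∀ u v w : Fin 513 → ℝ, Lof (t • u - (v + w)) = t • Lof u - (Lof v + Lof w) := fun u v w => by
      ext a b c
      simp only [Lof, sy, Pi.sub_apply, Pi.add_apply, Pi.smul_apply, smul_eq_mul]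
      ring
    have e2 : ∀ u v w : Fin 513 → ℝ, zof (t • u - (v + w)) = t * zof u - (zof v + zof w) := fun u v w => rfl
    rw [d.eval_poly, e1, e2, Dat.e, Lof_mkP, Lof_mkP, zof_mkP, zof_mkP, sy_div _ sym3_Le, sy_div _ hs, add_sub_cancel,
      add_sub_cancel]
    exact hT' t ht

end Crest.Agent.R237
end
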