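import Crest.Agent.R237.B0b
import Crest.Agent.R237.B1

set_option autoImplicit false
open scoped BigOperators Matrix Topology
open Crest.GeometryTopology

noncomputable section
namespace Crest.Agent.R237

/-! # B3: invariance under translations and dilations; point evaluations lie in the cone.

* `Mm (act U D 0) = U * Mm (D 0) * Uᵀ` for `U = Um a ε` (row `0` of `U` is `e₀`), `det U = ε^7`.
  `pr (act U D) q q' = pr D (Uᵀ q U) (Uᵀ q' U)`; `Uᵀ (Aq (act U D) i j) U` and `ε² • Aq D i j` differ by some `lin ℓ` (up to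
  symmetrisation) and both are `D`-orthogonal to all `lin ℓ'`, so `ℓ = 0`; `dDel_self`.  (Or compute with block matrices.)
* `dirac_mem`: `De = asm Le (c • bb E₀₀)` with `c = ze / ψ ⬝ bb E₀₀` has `pt ψ De = e`.  For `s > 0`, `D_s = dirac e₀ + s • De` has
  `Mm = E₀₀ + s I`, `Gam = (s²/(1+s)) • bb idm`, `h = s ψ(II) (2 - s/(1+s))`, so `p (pt D_s) > 0` by `d.pole`, `PP_smul`;
  hence `pt (dirac e₀) ∈ K`, `pt D_s ∈ K` (`mem_cone_iff`), the path `θ ↦ pt (act (Um (θ • a) 1) D_s)` stays in `p ≠ 0`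
  (`eval_act`), `cone_path`, and `s → 0` by closedness. -/

theorem b3_row0 (a : Fin 7 → ℝ) (ε : ℝ) (f : Fin 8 → ℝ) : ∑ x, Um a ε 0 x * f x = f 0 := by
  rw [Fin.sum_univ_succ]
  simp [Um, (Fin.succ_ne_zero _).symm]

theorem b3_rowS (a : Fin 7 → ℝ) (ε : ℝ) (f : Fin 8 → ℝ) (i : Fin 7) :
    ∑ x, Um a ε i.succ x * f x = a i * f 0 + ε * f i.succ := by
  rw [Fin.sum_univ_succ]
  simp [Um]

theorem b3_act (U : Matrix (Fin 8) (Fin 8) ℝ) (D : Q4 ℝ) (a b c d : Fin 8) :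
    act U D a b c d = ∑ a', U a a' * ∑ b', U b b' * ∑ c', U c c' * ∑ d', U d d' * D a' b' c' d' := by
  simp only [act, Finset.mul_sum, mul_assoc]

theorem b3_Mm (a : Fin 7 → ℝ) (ε : ℝ) (D : Q4 ℝ) :
    Mm (act (Um a ε) D 0) = Um a ε * Mm (D 0) * (Um a ε)ᵀ := by
  ext b c
  rw [Mm, Matrix.of_apply, b3_act, b3_row0, b3_row0, Matrix.mul_assoc, Matrix.mul_apply]
  refine Finset.sum_congr rfl fun x _ => ?_
  rw [Matrix.mul_apply]
  congr 1
  exact Finset.sum_congr rfl fun y _ => mul_comm _ _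

theorem b3_det (a : Fin 7 → ℝ) (ε : ℝ) : (Um a ε).det = ε ^ 7 := by
  rw [Matrix.det_of_lowerTriangular]
  · rw [Fin.prod_univ_succ]
    simp [Um]
  · intro i j hij
    have h : i < j := hij
    simp [Um, h.ne, (lt_of_le_of_lt (Fin.zero_le i) h).ne']

theorem det_act (a : Fin 7 → ℝ) (ε : ℝ) (D : Q4 ℝ) :
    (Mm (act (Um a ε) D 0)).det = ε ^ 14 * (Mm (D 0)).det := by
  rw [b3_Mm, Matrix.det_mul, Matrix.det_mul, Matrix.det_transpose, b3_det]
  ring
theorem b3_Gam (L : C3 ℝ) (i j k l : Fin 7) : Gam L (i, j, k, l) =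
    (fun x => L x i.succ j.succ) ⬝ᵥ (Mm L)⁻¹ *ᵥ fun x => L x k.succ l.succ := by
  simp only [Gam, dotProduct, Matrix.mulVec, Finset.mul_sum, mul_assoc]

theorem Del_act (a : Fin 7 → ℝ) {ε : ℝ} (hε : ε ≠ 0) {D : Q4 ℝ} (hD : Sym4 D) (h : (Mm (D 0)).det ≠ 0) :
    Del (act (Um a ε) D) = ε ^ 4 • Del D := by
  have hU : IsUnit (Um a ε).det := by rw [b3_det]; exact (pow_ne_zero _ hε).isUnit
  have hU' : IsUnit (Um a ε)ᵀ.det := by rwa [Matrix.det_transpose]
  obtain ⟨v, hv⟩ : ∃ v : Fin 8 → Fin 8 → Fin 8 → ℝ, ∀ b c, v b c = fun x => D 0 x b c := ⟨_, fun _ _ => rfl⟩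
  obtain ⟨N, hN⟩ : ∃ N, N = (Mm (D 0))⁻¹ := ⟨_, rfl⟩
  have hβ : ∀ i j : Fin 7, (fun x => act (Um a ε) D 0 x i.succ j.succ) = Um a ε *ᵥ
      ((a i * a j) • v 0 0 + (a i * ε) • v 0 j.succ + (ε * a j) • v i.succ 0 + (ε * ε) • v i.succ j.succ) := by
    intro i j
    funext x
    rw [b3_act, b3_row0, Matrix.mulVec, dotProduct]
    refine Finset.sum_congr rfl fun y _ => ?_
    simp only [b3_rowS, hv, Pi.add_apply, Pi.smul_apply, smul_eq_mul]
    ring
  have hP : ∀ u w : Fin 8 → ℝ, (Um a ε *ᵥ u) ⬝ᵥ (Mm (act (Um a ε) D 0))⁻¹ *ᵥ (Um a ε *ᵥ w) = u ⬝ᵥ N *ᵥ w := by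
    intro u w
    rw [b3_Mm, Matrix.mul_inv_rev, Matrix.mul_inv_rev, Matrix.mulVec_mulVec, Matrix.mul_assoc, Matrix.mul_assoc,
      Matrix.nonsing_inv_mul _ hU, Matrix.mul_one, ← Matrix.vecMul_transpose, ← Matrix.dotProduct_mulVec,
      Matrix.mulVec_mulVec, ← Matrix.mul_assoc, Matrix.mul_nonsing_inv _ hU', Matrix.one_mul, hN]
  have h2 : ∀ b, v b 0 = v 0 b := fun b => by
    rw [hv, hv]
    exact funext fun x => (hD _ _ _ _).2.2
  have h3 : ∀ u b, u ⬝ᵥ N *ᵥ v 0 b = u b := fun u b => by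
    have : v 0 b = Mm (D 0) *ᵥ Pi.single b 1 := by
      rw [Matrix.mulVec_single_one, hv]
      exact funext fun x => (hD _ _ _ _).2.1
    rw [this, Matrix.mulVec_mulVec, hN, Matrix.nonsing_inv_mul _ h.isUnit, Matrix.one_mulVec]
    simp
  have h1 : ∀ w b, v 0 b ⬝ᵥ N *ᵥ w = w b := fun w b => by
    have hs : Nᵀ = N := by rw [hN, Matrix.transpose_nonsing_inv, hD.zero.isSymm.eq]
    rw [Matrix.dotProduct_mulVec, ← Matrix.mulVec_transpose, hs, dotProduct_comm, h3]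
  have s1 : ∀ (i : Fin 7) c d, D i.succ 0 c d = D 0 i.succ c d := fun i c d => (hD _ _ _ _).1
  have s2 : ∀ (i j : Fin 7) d, D i.succ j.succ 0 d = D 0 d i.succ j.succ := fun i j d => by
    rw [(hD _ _ 0 _).2.1, (hD _ 0 _ _).1, (hD 0 _ _ d).2.2, (hD 0 _ d _).2.1]
  have s3 : ∀ i j k : Fin 7, D i.succ j.succ k.succ 0 = D 0 k.succ i.succ j.succ := fun i j k => by
    rw [(hD _ _ _ 0).2.2, s2]
  have s4 : ∀ (b : Fin 8) (k : Fin 7), D 0 b k.succ 0 = D 0 b 0 k.succ := fun b k => (hD _ _ _ _).2.2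
  funext ⟨i, j, k, l⟩
  have e : Gam (D 0) (i, j, k, l) = v i.succ j.succ ⬝ᵥ N *ᵥ v k.succ l.succ := by rw [b3_Gam, hv, hv, hN]
  simp only [Del, Pi.sub_apply, Pi.smul_apply, smul_eq_mul, top]
  rw [e, b3_Gam, hβ, hβ, hP, h2 i.succ, h2 k.succ, b3_act]
  simp only [b3_rowS, add_dotProduct, smul_dotProduct, h1]
  simp only [Matrix.mulVec_add, Matrix.mulVec_smul, dotProduct_add, dotProduct_smul, h3, smul_eq_mul, Pi.add_apply,
    Pi.smul_apply]
  generalize v i.succ j.succ ⬝ᵥ N *ᵥ v k.succ l.succ = g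
  simp only [hv, s1, s2, s3, s4]
  ring
theorem Dat.eval_act (d : Dat) (a : Fin 7 → ℝ) {ε : ℝ} (hε : ε ≠ 0) {D : Q4 ℝ} (hD : Sym4 D)
    (h : (Mm (D 0)).det ≠ 0) :
    MvPolynomial.eval (pt d.ψ (act (Um a ε) D)) d.poly = ε ^ (36 * d.r) * MvPolynomial.eval (pt d.ψ D) d.poly := by
  rw [d.eval_pt (hD.act _) (by rw [det_act]; exact mul_ne_zero (pow_ne_zero _ hε) h), d.eval_pt hD h, det_act,
    Del_act a hε hD h, dotProduct_smul, rel_smul, smul_eq_mul, Dat.P, PP_smul _ d.hF, Dat.P]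
  ring
/-- a quartic functional over the direction `e` -/
theorem b3_De (d : Dat) : ∃ De : Q4 ℝ, Sym4 De ∧ De 0 = Le ∧ d.ψ ⬝ᵥ top De = d.ze := by
  obtain ⟨E, hE⟩ : ∃ E : Fin 7 → Fin 7 → ℝ, ∀ i j, E i j = (if i = 0 then 1 else 0) * if j = 0 then 1 else 0 :=
    ⟨_, fun _ _ => rfl⟩
  have h1 := d.psi_pos E (fun i j => by rw [hE, hE, mul_comm]) fun e => by
    have := hE 0 0
    rw [e] at this
    simp at this
  refine ⟨asm Le ((d.ze / (d.ψ ⬝ᵥ bb E)) • bb E), sym4_asm sym3_Le fun i j k l => ?_, asm_zero _ _, ?_⟩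
  · simp only [Pi.smul_apply, bb, hE, smul_eq_mul]
    exact ⟨by ring, by ring, by ring⟩
  · rw [top_asm, dotProduct_smul, smul_eq_mul, div_mul_cancel₀ _ h1.ne']

theorem b3_pos (d : Dat) {De : Q4 ℝ} (h1 : Sym4 De) (h2 : De 0 = Le) (h3 : d.ψ ⬝ᵥ top De = d.ze) {s : ℝ}
    (hs : 0 < s) : (Mm ((dirac (Fin.cons 1 0) + s • De) 0)).det ≠ 0 ∧
      0 < MvPolynomial.eval (pt d.ψ (dirac (Fin.cons 1 0) + s • De)) d.poly := by
  have hD : Sym4 (dirac (Fin.cons 1 0) + s • De) := (sym4_dirac _).add (h1.smul s)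
  obtain ⟨m, hm⟩ : ∃ m : Fin 8 → ℝ, m = Fin.cons (1 + s) fun _ => s := ⟨_, rfl⟩
  have hm0 : ∀ x, 0 < m x := fun x => by
    rw [hm]
    refine Fin.cases ?_ (fun _ => hs) x
    change 0 < 1 + s
    linarith
  have hM : Mm ((dirac (Fin.cons 1 0) + s • De) 0) = Matrix.diagonal m := by
    ext x y
    simp only [Mm, Matrix.of_apply, Pi.add_apply, Pi.smul_apply, h2, dirac, smul_eq_mul, Le, hm, if_true]
    refine Fin.cases ?_ (fun i => ?_) x <;> refine Fin.cases ?_ (fun j => ?_) y <;>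
      simp [Matrix.diagonal_apply, (Fin.succ_ne_zero _).symm]
  have hdet : 0 < (Mm ((dirac (Fin.cons 1 0) + s • De) 0)).det := by
    rw [hM, Matrix.det_diagonal]
    exact Finset.prod_pos fun x _ => hm0 x
  have hinv : (Matrix.diagonal m)⁻¹ = Matrix.diagonal fun x => (m x)⁻¹ := by
    refine Matrix.inv_eq_right_inv ?_
    rw [Matrix.diagonal_mul_diagonal, ← Matrix.diagonal_one]
    congr 1
    exact funext fun x => mul_inv_cancel₀ (hm0 x).ne'
  have hG : Gam ((dirac (Fin.cons 1 0) + s • De) 0) = (s ^ 2 / (1 + s)) • bb idm := by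
    funext ⟨i, j, k, l⟩
    have e : ∀ i j : Fin 7, (fun x => (dirac (Fin.cons 1 0) + s • De) 0 x i.succ j.succ) =
        Pi.single 0 (s * idm i j) := fun i j => by
      funext x
      simp only [Pi.add_apply, Pi.smul_apply, h2, dirac, smul_eq_mul, Le, idm]
      refine Fin.cases ?_ (fun n => ?_) x <;> simp
    rw [b3_Gam, e, e, hM, hinv, single_dotProduct, Matrix.mulVec_diagonal, hm]
    simp only [Fin.cons_zero, Pi.single_eq_same, Pi.smul_apply, bb, smul_eq_mul]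
    ring
  have hz : d.ψ ⬝ᵥ top (dirac (Fin.cons 1 0) + s • De) = s * d.ze := by
    have : top (dirac (Fin.cons 1 0) + s • De) = s • top De := by
      funext x
      simp [top, dirac]
    rw [this, dotProduct_smul, h3, smul_eq_mul]
  refine ⟨hdet.ne', ?_⟩
  have hi : idm ≠ 0 := fun e => by simpa [idm] using congrFun (congrFun e 0) 0
  have hsy : ∀ i j, idm i j = idm j i := fun i j => by simp [idm, eq_comm]
  have hψ := d.psi_pos idm hsy hi
  rw [d.eval_poly, Lof_pt _ hD, zof_pt, d.pf_eq hdet.ne', hz, hG, dotProduct_smul, rel_smul, smul_eq_mul, Dat.ze,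
    show s * (2 * (d.ψ ⬝ᵥ bb idm)) - s ^ 2 / (1 + s) * (d.ψ ⬝ᵥ bb idm) =
      s ^ 2 / (1 + s) * ((1 + 2 / s) * (d.ψ ⬝ᵥ bb idm)) by field_simp; ring, Dat.P, PP_smul _ d.hF]
  have := (d.pole idm hsy hi).2 ((1 + 2 / s) * (d.ψ ⬝ᵥ bb idm))
    (le_mul_of_one_le_left hψ.le (le_add_of_nonneg_right (by positivity)))
  positivity

theorem b3_cont (a : Fin 7 → ℝ) (D : Q4 ℝ) : Continuous fun θ : ℝ => act (Um (θ • a) 1) D := by
  have h : ∀ x y, Continuous fun θ : ℝ => Um (θ • a) 1 x y := fun x y => by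
    simp only [Um, Matrix.of_apply]
    split_ifs
    · refine Fin.cases ?_ (fun i => ?_) x
      · exact continuous_const
      · simp only [Fin.cons_succ, Pi.smul_apply, smul_eq_mul]
        fun_prop
    · exact continuous_const
    · exact continuous_const
  refine continuous_pi fun x => continuous_pi fun y => continuous_pi fun z => continuous_pi fun w => ?_
  unfold act
  refine continuous_finsetSum _ fun _ _ => continuous_finsetSum _ fun _ _ => continuous_finsetSum _ fun _ _ =>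
    continuous_finsetSum _ fun _ _ => ?_
  exact ((((h _ _).mul (h _ _)).mul (h _ _)).mul (h _ _)).mul continuous_const

theorem Dat.dirac_mem (d : Dat) (hp : Hyperbolic.IsHyperbolic d.poly d.e) (a : Fin 7 → ℝ) :
    pt d.ψ (dirac (Fin.cons 1 a)) ∈ Hyperbolic.closedCone d.poly d.e := by
  obtain ⟨De, h1, h2, h3⟩ := b3_De d
  have he : pt d.ψ De = d.e := by
    change mkP (fun a b c => De 0 a b c / 6) (d.ψ ⬝ᵥ top De) = _
    rw [h2, h3, Dat.e]
  have hU : Um a 1 *ᵥ (Fin.cons 1 0 : Fin 8 → ℝ) = Fin.cons 1 a := by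
    funext x
    refine Fin.cases ?_ (fun i => ?_) x
    · exact b3_row0 a 1 _
    · exact (b3_rowS a 1 _ i).trans (by simp)
  have key : ∀ s : ℝ, 0 < s → pt d.ψ (dirac (Fin.cons 1 a)) + s • pt d.ψ (act (Um a 1) De) ∈
      Hyperbolic.closedCone d.poly d.e := by
    intro s hs
    have hD : Sym4 (dirac (Fin.cons 1 0) + s • De) := (sym4_dirac _).add (h1.smul s)
    obtain ⟨p1, p2⟩ := b3_pos d h1 h2 h3 hs
    have hK : pt d.ψ (dirac (Fin.cons 1 0) + s • De) ∈ Hyperbolic.closedCone d.poly d.e := by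
      refine (mem_cone_iff d.poly_hom _).2 fun s' hs' => ?_
      rw [← he, ← map_smul, ← map_add, add_assoc, ← add_smul]
      exact (b3_pos d h1 h2 h3 (add_pos hs hs')).2.ne'
    have := cone_path hp (isPreconnected_range ((pt d.ψ).continuous_of_finiteDimensional.comp
      (b3_cont a (dirac (Fin.cons 1 0) + s • De)))) (by
        rintro _ ⟨θ, rfl⟩
        rw [Function.comp_apply, d.eval_act _ one_ne_zero hD p1, one_pow, one_mul]
        exact p2.ne') ⟨0, by rw [Function.comp_apply, zero_smul, Um_zero_one, act_one]⟩ hK ⟨1, rfl⟩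
    rwa [Function.comp_apply, one_smul, act_add, act_smul, act_dirac, hU, map_add, map_smul] at this
  refine (isClosed_closedCone hp).mem_of_tendsto (b := 𝓝[>] (0 : ℝ)) ?_ (eventually_nhdsWithin_of_forall key)
  have hc : Continuous fun s : ℝ => pt d.ψ (dirac (Fin.cons 1 a)) + s • pt d.ψ (act (Um a 1) De) := by fun_prop
  simpa using (hc.tendsto 0).mono_left nhdsWithin_le_nhds

end Crest.Agent.R237
end
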