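import Mathlib
import Crest.Agent.R237.Der

set_option autoImplicit false
open scoped BigOperators Matrix Topology


noncomputable section
namespace Crest.Agent.R237

/-! # B4a: generic points, Taylor lifts, derivations.

* `exists_generic`: the zero set of a nonzero real polynomial is closed with empty interior (`MvPolynomial.funext`-type
  argument on a box), there are countably many polynomials over `k`; Baire (`dense_iInter_of_isOpen`).
* `exists_taylor`: `k = ` the subfield generated by `S` (countable), `a` from `exists_generic`; as in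
  `GEN.exists_derivation` / `R22.exists_lift`: `ℝ` is formally smooth over `MvPolynomial (Fin 7) k` (acting by `X i ↦ a i`;
  localisation + `formallySmooth_of_charZero`); make `MvPowerSeries (Fin 7) ℝ` an algebra by `X i ↦ C (a i) + X i`, and lift
  `x ↦ mk (C x)` with `Algebra.FormallySmooth.exists_mkₐ_comp_eq_of_isAdicComplete` (`I = span (range X)`).
* `exists_der`: choose a maximal algebraically independent subfamily of `ρ`
  (`exists_isTranscendenceBasis…` on `Algebra.adjoin`, or a maximal independent `Finset`), `GEN.exists_derivation`;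
  for another index `x` take a relation `P(ρ_B, ρ_x) = 0` of minimal degree in `ρ_x`; its `x`-derivative does not vanish
  at `ρ`; compare `δ` of the relation with the hypothesis.  Alternative: the hypothesis gives a ring map
  `ℚ[ρ] → ℝ[ε]`, `ρ x ↦ ρ x + ε v x`; extend to the fraction field and lift to `ℝ` by formal smoothness
  (`exists_der_of_sec`). -/

theorem b4a_dense {ι : Type} [Fintype ι] (p : MvPolynomial ι ℝ) (hp : p ≠ 0) :
    Dense {x : ι → ℝ | MvPolynomial.eval x p ≠ 0} := by
  refine dense_iff_inter_open.2 fun U hU ⟨x, hx⟩ => ?_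
  by_contra hc
  obtain ⟨ε, hε, hb⟩ := Metric.isOpen_iff.1 hU x hx
  refine hp (MvPolynomial.funext_set (fun i => Metric.ball (x i) ε) (fun i => ?_) fun y hy => ?_)
  · rw [Real.ball_eq_Ioo]
    exact Set.Ioo_infinite (by linarith)
  · rw [map_zero]
    by_contra h
    exact hc ⟨y, hb (by rw [ball_pi _ hε]; exact hy), h⟩

theorem b4a_smooth (R L : Type) [CommRing R] [IsDomain R] [Field L] [CharZero L] [Algebra R L] [FaithfulSMul R L] :
    Algebra.FormallySmooth R L := by
  let _ : Algebra (FractionRing R) L := FractionRing.liftAlgebra _ _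
  have : IsScalarTower R (FractionRing R) L := FractionRing.isScalarTower_liftAlgebra _ _
  have : CharZero (FractionRing R) := RingHom.charZero (algebraMap (FractionRing R) L)
  have : Algebra.FormallySmooth R (FractionRing R) := .of_isLocalization (nonZeroDivisors _)
  have : Algebra.FormallySmooth (FractionRing R) L := GEN.formallySmooth_of_charZero _ _
  exact .comp _ (FractionRing R) _

theorem b4a_lift {R L T : Type} [CommRing R] [IsDomain R] [Field L] [CharZero L] [CommRing T]
    (ι : R →+* L) (hι : Function.Injective ι) (φ₀ : R →+* T) (I : Ideal T)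
    [IsAdicComplete I T] (f : L →+* T ⧸ I) (hf : f.comp ι = (Ideal.Quotient.mk I).comp φ₀) :
    ∃ g : L →+* T, g.comp ι = φ₀ := by
  let _ := ι.toAlgebra
  let _ := φ₀.toAlgebra
  have : FaithfulSMul R L := (faithfulSMul_iff_algebraMap_injective R L).2 hι
  have := b4a_smooth R L
  let f' : L →ₐ[R] T ⧸ I := { f with commutes' := fun r => by exact DFunLike.congr_fun hf r }
  obtain ⟨g, -⟩ := Algebra.FormallySmooth.exists_mkₐ_comp_eq_of_isAdicComplete f'
  refine ⟨g.toRingHom, ?_⟩
  ext r
  exact g.commutes r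

theorem b4a_sec {R K : Type} [CommRing R] [IsDomain R] [Field K] [CharZero K] (φ : R →+* K)
    (hφ : Function.Injective φ) (ψ : R →+* GEN.DualN K) (hcomp : (GEN.fstN K).comp ψ = φ) :
    ∃ s : K →+* GEN.DualN K, (∀ x, GEN.fstN K (s x) = x) ∧ ∀ p, s (φ p) = ψ p := by
  let _ := φ.toAlgebra
  let _ := ψ.toAlgebra
  have : FaithfulSMul R K := (faithfulSMul_iff_algebraMap_injective R K).2 hφ
  have := b4a_smooth R K
  let g : GEN.DualN K →ₐ[R] K := { GEN.fstN K with commutes' := fun p => RingHom.congr_fun hcomp p }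
  have hg : Function.Surjective g := fun x => ⟨GEN.inlN K x, rfl⟩
  have hg' : IsNilpotent (RingHom.ker (g : GEN.DualN K →+* K)) := ⟨2, TrivSqZeroExt.kerIdeal_sq K K⟩
  let s := Algebra.FormallySmooth.liftOfSurjective (AlgHom.id R K) g hg hg'
  exact ⟨s, fun x => Algebra.FormallySmooth.liftOfSurjective_apply (AlgHom.id R K) g hg hg' x, fun p => s.commutes p⟩

theorem exists_generic (k : Type) [Field k] [Countable k] [Algebra k ℝ] {ι : Type} [Fintype ι] (O : Set (ι → ℝ))
    (hO : IsOpen O) (hne : O.Nonempty) : ∃ t ∈ O, AlgebraicIndependent k t := by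
  classical
  have : Countable (MvPolynomial ι k) := Cardinal.mk_le_aleph0_iff.1
    ((MvPolynomial.cardinalMk_le_max (σ := ι) (R := k)).trans
      (max_le (max_le Cardinal.mk_le_aleph0 Cardinal.mk_le_aleph0) le_rfl))
  let f : {p : MvPolynomial ι k // p ≠ 0} → Set (ι → ℝ) := fun p =>
    {x | MvPolynomial.eval x (MvPolynomial.map (algebraMap k ℝ) p.1) ≠ 0}
  have hd : Dense (⋂ p, f p) := by
    refine dense_iInter_of_isOpen (fun p => ?_) fun p => b4a_dense _ ?_
    · exact isOpen_ne_fun (MvPolynomial.continuous_eval _) continuous_const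
    · intro h
      exact p.2 (MvPolynomial.map_injective _ (algebraMap k ℝ).injective (h.trans (map_zero _).symm))
  obtain ⟨t, ht, htO⟩ := hd.exists_mem_open hO hne
  refine ⟨t, htO, algebraicIndependent_iff.2 fun p hp => ?_⟩
  by_contra h0
  refine Set.mem_iInter.1 ht ⟨p, h0⟩ ?_
  rw [MvPolynomial.eval_map, ← MvPolynomial.aeval_def]
  exact hp

theorem exists_taylor (S : Set ℝ) (hS : S.Finite) : ∃ (a : Fin 7 → ℝ) (σ : ℝ →+* MvPowerSeries (Fin 7) ℝ),
    (∀ c ∈ S, σ c = MvPowerSeries.C c) ∧ ∀ i, σ (a i) = MvPowerSeries.C (a i) + MvPowerSeries.X i := by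
  let k : Subfield ℝ := Subfield.closure S
  have : Countable k := by
    have h1 : Cardinal.mk k ≤ Cardinal.aleph0 :=
      (Subfield.cardinalMk_closure_le_max S).trans (max_le hS.lt_aleph0.le le_rfl)
    exact Cardinal.mk_le_aleph0_iff.1 h1
  obtain ⟨a, -, ha⟩ := exists_generic k (ι := Fin 7) Set.univ isOpen_univ Set.univ_nonempty
  let I : Ideal (MvPowerSeries (Fin 7) ℝ) := Ideal.span (Set.range MvPowerSeries.X)
  let φ₀ : MvPolynomial (Fin 7) k →+* MvPowerSeries (Fin 7) ℝ :=
    MvPolynomial.eval₂Hom ((MvPowerSeries.C : ℝ →+* MvPowerSeries (Fin 7) ℝ).comp (algebraMap k ℝ))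
      fun j => MvPowerSeries.C (a j) + MvPowerSeries.X j
  obtain ⟨g, hg⟩ := b4a_lift (MvPolynomial.eval₂Hom (algebraMap k ℝ) a) ha φ₀ I
    ((Ideal.Quotient.mk I).comp (MvPowerSeries.C : ℝ →+* MvPowerSeries (Fin 7) ℝ)) (by
      refine MvPolynomial.ringHom_ext (fun r => ?_) (fun j => ?_)
      · simp only [φ₀, RingHom.comp_apply, MvPolynomial.eval₂Hom_C]
      · have : Ideal.Quotient.mk I (MvPowerSeries.X j) = 0 :=
          Ideal.Quotient.eq_zero_iff_mem.2 (Ideal.subset_span ⟨j, rfl⟩)
        simp only [φ₀, RingHom.comp_apply, MvPolynomial.eval₂Hom_X', map_add, this, add_zero])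
  refine ⟨a, g, fun c hc => ?_, fun j => ?_⟩
  · have := DFunLike.congr_fun hg (MvPolynomial.C ⟨c, Subfield.subset_closure hc⟩)
    simp only [φ₀, RingHom.comp_apply, MvPolynomial.eval₂Hom_C] at this
    exact this
  · have := DFunLike.congr_fun hg (MvPolynomial.X j)
    simpa only [φ₀, RingHom.comp_apply, MvPolynomial.eval₂Hom_X'] using this

theorem exists_der {σ : Type} [Fintype σ] [DecidableEq σ] (ρ v : σ → ℝ)
    (h : ∀ P : MvPolynomial σ ℚ, MvPolynomial.aeval ρ P = 0 →
      ∑ x, MvPolynomial.aeval ρ (MvPolynomial.pderiv x P) * v x = 0) :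
    ∃ δ : Derivation ℚ ℝ ℝ, ∀ x, δ (ρ x) = v x := by
  let φ : MvPolynomial σ ℚ →+* ℝ := (MvPolynomial.aeval ρ : MvPolynomial σ ℚ →ₐ[ℚ] ℝ).toRingHom
  let z' : σ → GEN.DualN ℝ := fun i => (TrivSqZeroExt.inl (ρ i) + TrivSqZeroExt.inr (v i) : TrivSqZeroExt ℝ ℝ)
  let ψ : MvPolynomial σ ℚ →+* GEN.DualN ℝ :=
    MvPolynomial.eval₂Hom ((GEN.inlN ℝ).comp (algebraMap ℚ ℝ)) z'
  have hz1 : ∀ i, TrivSqZeroExt.fst (z' i) = ρ i := fun i => by
    change TrivSqZeroExt.fst (TrivSqZeroExt.inl (ρ i) + TrivSqZeroExt.inr (v i) : TrivSqZeroExt ℝ ℝ) = ρ i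
    simp
  have hz2 : ∀ i, TrivSqZeroExt.snd (z' i) = v i := fun i => by
    change TrivSqZeroExt.snd (TrivSqZeroExt.inl (ρ i) + TrivSqZeroExt.inr (v i) : TrivSqZeroExt ℝ ℝ) = v i
    simp
  have hcomp : (GEN.fstN ℝ).comp ψ = φ := by
    refine MvPolynomial.ringHom_ext (fun c => ?_) fun i => ?_
    · simp only [ψ, RingHom.comp_apply, MvPolynomial.eval₂Hom_C]
      exact (MvPolynomial.aeval_C ρ c).symm
    · simp only [ψ, RingHom.comp_apply, MvPolynomial.eval₂Hom_X']
      exact (hz1 i).trans (MvPolynomial.aeval_X ρ i).symm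
  have h1 : ∀ P, TrivSqZeroExt.fst (ψ P) = MvPolynomial.aeval ρ P := fun P => RingHom.congr_fun hcomp P
  have h2 : ∀ P, TrivSqZeroExt.snd (ψ P) = ∑ x, MvPolynomial.aeval ρ (MvPolynomial.pderiv x P) * v x := by
    intro P
    induction P using MvPolynomial.induction_on with
    | C c =>
      simp only [ψ, MvPolynomial.eval₂Hom_C, MvPolynomial.pderiv_C, map_zero, zero_mul, Finset.sum_const_zero]
      rfl
    | add p q hp hq =>
      simp only [map_add, add_mul, Finset.sum_add_distrib, ← hp, ← hq]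
      rfl
    | mul_X p i hp =>
      have e : ψ (MvPolynomial.X i) = z' i := MvPolynomial.eval₂Hom_X' _ _ _
      rw [map_mul, e]
      refine (TrivSqZeroExt.snd_mul (ψ p) (z' i)).trans ?_
      rw [h1, hp, hz1, hz2, op_smul_eq_smul]
      simp only [Derivation.leibniz, MvPolynomial.pderiv_X, smul_eq_mul, map_add, map_mul, MvPolynomial.aeval_X,
        add_mul, Finset.sum_add_distrib, Finset.mul_sum, mul_assoc]
      congr 1
      rw [Finset.sum_eq_single i]
      · simp
      · intro j _ hj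
        simp [hj.symm]
      · simp
  have hk : ∀ P ∈ RingHom.ker φ, ψ P = 0 := fun P hP =>
    TrivSqZeroExt.ext ((h1 P).trans hP) ((h2 P).trans (h P hP))
  have : (RingHom.ker φ).IsPrime := RingHom.ker_isPrime φ
  obtain ⟨s, hs, hs'⟩ := b4a_sec (RingHom.kerLift φ) (RingHom.kerLift_injective φ) (Ideal.Quotient.lift _ ψ hk) (by
    refine Ideal.Quotient.ringHom_ext ?_
    rw [RingHom.comp_assoc, Ideal.Quotient.lift_comp_mk, hcomp]
    ext1 <;> rfl)
  have hp : ∀ p, s (MvPolynomial.aeval ρ p) = ψ p := fun p => hs' (Ideal.Quotient.mk _ p)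
  obtain ⟨δ, hδ⟩ := GEN.exists_der_of_sec (C := ℚ) s hs fun c => by
    have := hp (MvPolynomial.C c)
    rw [MvPolynomial.aeval_C] at this
    exact this.trans (MvPolynomial.eval₂Hom_C _ _ _)
  refine ⟨δ, fun x => ?_⟩
  have := hp (MvPolynomial.X x)
  rw [MvPolynomial.aeval_X] at this
  rw [hδ, this]
  exact (congrArg TrivSqZeroExt.snd (MvPolynomial.eval₂Hom_X' _ _ _)).trans (hz2 x)

end Crest.Agent.R237
end
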