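import Crest.Agent.R237.B0a

set_option autoImplicit false
open scoped BigOperators Matrix Topology
open Crest.GeometryTopology

noncomputable section
namespace Crest.Agent.R237

/-! # B4b: positive definite extension of a pseudo-moment functional.

Base `N = 2`: define `Λ` on monomials (`MvPolynomial.basisMonomials.constr` or `Finsupp.linearCombination`): a monomial of
degree `≤ 4` is `Y a * Y b * Y c * Y d`, and the multiset `{a,b,c,d}` is determined by it; a symmetric `D` depends only on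
the multiset; `0` in higher degree.  A polynomial of degree `≤ 2` is `Σ q a b Y a Y b` with `q` symmetric.
Step `N → N + 1` (`N ≥ 2`): `Λ' f = Λ f + c Σ_{x ∈ grid} eval x (homogeneousComponent (2N+2) f)` with the grid
`{0,…,N+1}^7` (`MvPolynomial.eq_zero_of_eval_zero_at_prod_finset`); for `f` of degree `≤ N+1` the added term is
`c Σ (eval x g)²` with `g` the top component; `finsler`: compactness of the unit sphere of the finite-dimensional space
`restrictTotalDegree`. -/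

/-- homogeneous coordinates as polynomials -/
def Yv : Fin 8 → MvPolynomial (Fin 7) ℝ := Fin.cons 1 MvPolynomial.X

theorem finsler {V : Type} [AddCommGroup V] [Module ℝ V] [FiniteDimensional ℝ V] (B₁ B₂ : V →ₗ[ℝ] V →ₗ[ℝ] ℝ)
    (h₂ : ∀ v, 0 ≤ B₂ v v) (h₁ : ∀ v, v ≠ 0 → B₂ v v = 0 → 0 < B₁ v v) :
    ∃ c : ℝ, ∀ v, v ≠ 0 → 0 < B₁ v v + c * B₂ v v := by
  let e := (Module.finBasis ℝ V).equivFun
  have hc : ∀ B : V →ₗ[ℝ] V →ₗ[ℝ] ℝ, Continuous fun x => B (e.symm x) (e.symm x) := fun B => by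
    have := (LinearMap.toContinuousLinearMap.toLinearMap ∘ₗ
      B.compl₁₂ e.symm.toLinearMap e.symm.toLinearMap).continuous_of_finiteDimensional
    exact this.clm_apply continuous_id
  have hK := isCompact_sphere (0 : Fin (Module.finrank ℝ V) → ℝ) 1
  obtain ⟨n, hn⟩ := hK.elim_directed_cover
    (fun n : ℕ => {x | 0 < B₁ (e.symm x) (e.symm x) + n * B₂ (e.symm x) (e.symm x)})
    (fun n => isOpen_lt continuous_const ((hc B₁).add (continuous_const.mul (hc B₂)))) (fun x hx => by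
      have h0 : e.symm x ≠ 0 := fun h => by
        rw [e.symm.map_eq_zero_iff] at h
        simp [h] at hx
      rcases (h₂ (e.symm x)).eq_or_lt with h | h
      · exact Set.mem_iUnion.2 ⟨0, by simpa using h₁ _ h0 h.symm⟩
      · obtain ⟨n, hn⟩ := exists_nat_gt (-B₁ (e.symm x) (e.symm x) / B₂ (e.symm x) (e.symm x))
        rw [div_lt_iff₀ h] at hn
        exact Set.mem_iUnion.2 ⟨n, by simp only [Set.mem_ofPred_eq]; linarith⟩)
    (Monotone.directed_le fun n m hnm x hx => by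
      have : (n : ℝ) * B₂ (e.symm x) (e.symm x) ≤ m * B₂ (e.symm x) (e.symm x) :=
        mul_le_mul_of_nonneg_right (Nat.cast_le.2 hnm) (h₂ _)
      simp only [Set.mem_ofPred_eq] at hx ⊢
      linarith)
  refine ⟨n, fun v hv => ?_⟩
  have h0 : ‖e v‖ ≠ 0 := norm_ne_zero_iff.2 (e.map_ne_zero_iff.2 hv)
  have h1 := hn (a := ‖e v‖⁻¹ • e v) (by simp [norm_smul, h0])
  simp only [Set.mem_ofPred_eq, map_smul, LinearEquiv.symm_apply_apply, LinearMap.smul_apply, smul_eq_mul] at h1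
  have h3 : 0 < ‖e v‖⁻¹ * ‖e v‖⁻¹ := mul_self_pos.2 (inv_ne_zero h0)
  refine pos_of_mul_pos_left (b := ‖e v‖⁻¹ * ‖e v‖⁻¹) ?_ h3.le
  linarith

theorem b4b_perm {α : Type} {l l' : List α} (h : l.Perm l') :
    ∀ F : List α → ℝ, (∀ p a b s, F (p ++ a :: b :: s) = F (p ++ b :: a :: s)) → F l = F l' := by
  induction h with
  | nil => intro _ _; rfl
  | cons x _ ih => intro F hF; exact ih (fun l => F (x :: l)) fun p a b s => hF (x :: p) a b s
  | swap x y l => intro F hF; exact hF [] y x l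
  | trans _ _ ih ih' => intro F hF; exact (ih F hF).trans (ih' F hF)

/-- exponent vectors of the homogeneous coordinates -/
def b4b_ym : Fin 8 → (Fin 7 →₀ ℕ) := Fin.cons 0 fun i => Finsupp.single i 1

theorem b4b_Yv (a : Fin 8) : Yv a = MvPolynomial.monomial (b4b_ym a) 1 := by
  refine Fin.cases ?_ (fun i => ?_) a
  · simp [Yv, b4b_ym]
  · simp only [Yv, b4b_ym, Fin.cons_succ]; rfl

theorem b4b_count (l : List (Fin 8)) (i : Fin 7) : (l.map b4b_ym).sum i = l.count i.succ := by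
  induction l with
  | nil => simp
  | cons a l ih =>
    rw [List.map_cons, List.sum_cons, Finsupp.add_apply, ih, List.count_cons, add_comm]
    congr 1
    refine Fin.cases ?_ (fun j => ?_) a
    · simp [b4b_ym, (Fin.succ_ne_zero i).symm]
    · simp [b4b_ym, Finsupp.single_apply]

theorem b4b_len (l : List (Fin 8)) : ∑ x, l.count x = l.length := by
  induction l with
  | nil => simp
  | cons a l ih => simp [List.count_cons, Finset.sum_add_distrib, ih]

theorem b4b_perm_of {l l' : List (Fin 8)} (h1 : l.length = l'.length)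
    (h2 : (l.map b4b_ym).sum = (l'.map b4b_ym).sum) : l.Perm l' := by
  have h3 : ∀ i : Fin 7, l.count i.succ = l'.count i.succ := fun i => by rw [← b4b_count, ← b4b_count, h2]
  refine List.perm_iff_count.2 fun x => Fin.cases ?_ h3 x
  have e1 := b4b_len l
  have e2 := b4b_len l'
  rw [Fin.sum_univ_succ] at e1 e2
  simp only [h3] at e1
  omega

theorem b4b_well {D : Q4 ℝ} (hD : Sym4 D) {a b c d a' b' c' d' : Fin 8}
    (h : b4b_ym a + b4b_ym b + b4b_ym c + b4b_ym d = b4b_ym a' + b4b_ym b' + b4b_ym c' + b4b_ym d') :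
    D a b c d = D a' b' c' d' := by
  have hp : [a, b, c, d].Perm [a', b', c', d'] := b4b_perm_of rfl (by simpa [add_assoc] using h)
  refine b4b_perm hp (fun l => match l with | [a, b, c, d] => D a b c d | _ => 0) fun p x y s => ?_
  rcases p with _ | ⟨p1, _ | ⟨p2, _ | ⟨p3, _ | ⟨p4, p⟩⟩⟩⟩ <;> rcases s with _ | ⟨s1, _ | ⟨s2, _ | ⟨s3, s⟩⟩⟩ <;>
    first
      | rfl
      | exact (hD _ _ _ _).1
      | exact (hD _ _ _ _).2.1
      | exact (hD _ _ _ _).2.2
      | (rcases p with _ | ⟨p5, p⟩ <;> rfl)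

theorem b4b_peel {m : Fin 7 →₀ ℕ} {n : ℕ} (h : m.degree ≤ n + 1) : ∃ a m', m = b4b_ym a + m' ∧ m'.degree ≤ n := by
  by_cases h0 : m = 0
  · exact ⟨0, 0, by simp [h0, b4b_ym], by simp⟩
  obtain ⟨i, hi⟩ := Finsupp.ne_iff.1 h0
  have hle : Finsupp.single i 1 ≤ m := Finsupp.single_le_iff.2 (Nat.one_le_iff_ne_zero.2 hi)
  refine ⟨i.succ, m - Finsupp.single i 1, by simp [b4b_ym, add_tsub_cancel_of_le hle], ?_⟩
  have : m.degree = 1 + (m - Finsupp.single i 1).degree := by
    conv_lhs => rw [← add_tsub_cancel_of_le hle, map_add, Finsupp.degree_single]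
  omega

theorem b4b_quad {f : MvPolynomial (Fin 7) ℝ} (hf : f.totalDegree ≤ 2) :
    ∃ q : Q2, (∀ a b, q a b = q b a) ∧ f = ∑ a, ∑ b, q a b • (Yv a * Yv b) := by
  let T : Q2 →ₗ[ℝ] MvPolynomial (Fin 7) ℝ :=
    { toFun := fun q => ∑ a, ∑ b, q a b • (Yv a * Yv b)
      map_add' := fun q q' => by simp [add_smul, Finset.sum_add_distrib]
      map_smul' := fun c q => by simp [Finset.smul_sum, mul_smul] }
  have hm : f ∈ LinearMap.range T := by
    rw [f.as_sum]
    refine Submodule.sum_mem _ fun m hm => ?_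
    obtain ⟨a, m₁, e1, h1⟩ := b4b_peel (m := m) (n := 1) ((MvPolynomial.le_totalDegree hm).trans hf)
    obtain ⟨b, m₂, e2, h2⟩ := b4b_peel (m := m₁) (n := 0) h1
    have e3 : m₂ = 0 := (Finsupp.degree_eq_zero_iff _).1 (Nat.le_zero.1 h2)
    refine ⟨Pi.single a (Pi.single b (f.coeff m)), ?_⟩
    change ∑ a' : Fin 8, ∑ b' : Fin 8, (Pi.single a (Pi.single b (f.coeff m)) : Q2) a' b' • (Yv a' * Yv b') = _
    rw [Finset.sum_eq_single a (fun a' _ h => by simp [Pi.single_eq_of_ne h]) (by simp),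
      Finset.sum_eq_single b (fun b' _ h => by simp [Pi.single_eq_of_ne h]) (by simp)]
    simp only [Pi.single_eq_same, b4b_Yv, MvPolynomial.monomial_mul, mul_one, MvPolynomial.smul_monomial, smul_eq_mul]
    rw [e1, e2, e3, add_zero]
  obtain ⟨q, hq⟩ := hm
  refine ⟨fun a b => (q a b + q b a) / 2, fun a b => by ring, ?_⟩
  have e : ∑ a, ∑ b, q b a • (Yv a * Yv b) = f := by
    rw [Finset.sum_comm, ← hq]
    simp only [mul_comm]
    rfl
  have e' : ∑ a, ∑ b, q a b • (Yv a * Yv b) = f := hq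
  simp only [div_eq_inv_mul, mul_smul, add_smul, ← Finset.smul_sum, smul_add, Finset.sum_add_distrib, e, e']
  rw [← add_smul]
  norm_num

theorem b4b_base {D : Q4 ℝ} (hD : Sym4 D) (hpd : PD4 D) :
    ∃ Λ : MvPolynomial (Fin 7) ℝ →ₗ[ℝ] ℝ, (∀ a b c d, Λ (Yv a * Yv b * Yv c * Yv d) = D a b c d) ∧
      ∀ f : MvPolynomial (Fin 7) ℝ, f ≠ 0 → f.totalDegree ≤ 2 → 0 < Λ (f * f) := by
  classical
  let val : (Fin 7 →₀ ℕ) → ℝ := fun m =>
    if h : ∃ t : Fin 8 × Fin 8 × Fin 8 × Fin 8, b4b_ym t.1 + b4b_ym t.2.1 + b4b_ym t.2.2.1 + b4b_ym t.2.2.2 = m then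
      D h.choose.1 h.choose.2.1 h.choose.2.2.1 h.choose.2.2.2 else 0
  have h1 : ∀ a b c d, (MvPolynomial.basisMonomials (Fin 7) ℝ).constr ℝ val (Yv a * Yv b * Yv c * Yv d) = D a b c d := by
    intro a b c d
    have e : Yv a * Yv b * Yv c * Yv d =
        MvPolynomial.basisMonomials (Fin 7) ℝ (b4b_ym a + b4b_ym b + b4b_ym c + b4b_ym d) := by
      simp [b4b_Yv, MvPolynomial.monomial_mul]
    have h : ∃ t : Fin 8 × Fin 8 × Fin 8 × Fin 8, b4b_ym t.1 + b4b_ym t.2.1 + b4b_ym t.2.2.1 + b4b_ym t.2.2.2 =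
      b4b_ym a + b4b_ym b + b4b_ym c + b4b_ym d := ⟨(a, b, c, d), rfl⟩
    rw [e, Module.Basis.constr_basis]
    simp only [val, dif_pos h]
    exact b4b_well hD h.choose_spec
  refine ⟨_, h1, fun f hf hd => ?_⟩
  obtain ⟨q, hq, rfl⟩ := b4b_quad hd
  have h0 : q ≠ 0 := fun e => hf (by simp [e])
  refine (hpd q hq h0).trans_eq ?_
  rw [Finset.sum_mul, map_sum]
  refine Finset.sum_congr rfl fun a _ => ?_
  rw [Finset.sum_mul, map_sum]
  refine Finset.sum_congr rfl fun b _ => ?_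
  simp only [Finset.mul_sum, map_sum, smul_mul_smul_comm, map_smul, ← mul_assoc, h1, smul_eq_mul]

theorem b4b_top {f : MvPolynomial (Fin 7) ℝ} {N : ℕ} (hf : f.totalDegree ≤ N + 1) :
    (f - MvPolynomial.homogeneousComponent (N + 1) f).totalDegree ≤ N ∧
    MvPolynomial.homogeneousComponent (2 * N + 2) (f * f) =
      MvPolynomial.homogeneousComponent (N + 1) f * MvPolynomial.homogeneousComponent (N + 1) f := by
  set g := MvPolynomial.homogeneousComponent (N + 1) f with hg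
  have hgh : g.IsHomogeneous (N + 1) := MvPolynomial.homogeneousComponent_isHomogeneous _ _
  have h1 : (f - g).totalDegree ≤ N := by
    refine Finset.sup_le fun d hd => ?_
    rw [MvPolynomial.mem_support_iff, MvPolynomial.coeff_sub, hg, MvPolynomial.coeff_homogeneousComponent] at hd
    have h2 : d.degree ≠ N + 1 := fun e => hd (by rw [if_pos e, sub_self])
    rw [if_neg h2, sub_zero] at hd
    have h3 : d.degree ≤ N + 1 := (MvPolynomial.le_totalDegree (MvPolynomial.mem_support_iff.2 hd)).trans hf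
    exact Nat.lt_succ_iff.1 (lt_of_le_of_ne h3 h2)
  refine ⟨h1, ?_⟩
  have e : f * f = g * g + (f - g) * (f + g) := by ring
  have h2 : (f + g).totalDegree ≤ N + 1 := (MvPolynomial.totalDegree_add _ _).trans (max_le hf hgh.totalDegree_le)
  have h3 := MvPolynomial.totalDegree_mul (f - g) (f + g)
  rw [e, map_add, MvPolynomial.homogeneousComponent_eq_zero _ ((f - g) * (f + g)) (by omega), add_zero,
    MvPolynomial.homogeneousComponent_eq_self]
  have := hgh.mul hgh
  rwa [show N + 1 + (N + 1) = 2 * N + 2 by ring] at this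

theorem b4b_deg (a : Fin 8) : (Yv a).totalDegree ≤ 1 := by
  refine Fin.cases ?_ (fun i => ?_) a <;> simp [Yv]

theorem b4b_step {D : Q4 ℝ} {N : ℕ} (hN : 2 ≤ N) {Λ : MvPolynomial (Fin 7) ℝ →ₗ[ℝ] ℝ}
    (h1 : ∀ a b c d, Λ (Yv a * Yv b * Yv c * Yv d) = D a b c d)
    (h2 : ∀ f : MvPolynomial (Fin 7) ℝ, f ≠ 0 → f.totalDegree ≤ N → 0 < Λ (f * f)) :
    ∃ Λ : MvPolynomial (Fin 7) ℝ →ₗ[ℝ] ℝ, (∀ a b c d, Λ (Yv a * Yv b * Yv c * Yv d) = D a b c d) ∧
      ∀ f : MvPolynomial (Fin 7) ℝ, f ≠ 0 → f.totalDegree ≤ N + 1 → 0 < Λ (f * f) := by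
  classical
  let S : Finset ℝ := (Finset.range (N + 2)).image Nat.cast
  have hS : S.card = N + 2 := by rw [Finset.card_image_of_injective _ Nat.cast_injective, Finset.card_range]
  let M : MvPolynomial (Fin 7) ℝ →ₗ[ℝ] ℝ :=
    (∑ x ∈ Fintype.piFinset fun _ : Fin 7 => S, (MvPolynomial.aeval x).toLinearMap) ∘ₗ
      MvPolynomial.homogeneousComponent (2 * N + 2)
  have hM : ∀ f : MvPolynomial (Fin 7) ℝ, f.totalDegree ≤ N + 1 → M (f * f) =
      ∑ x ∈ Fintype.piFinset fun _ : Fin 7 => S,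
        MvPolynomial.eval x (MvPolynomial.homogeneousComponent (N + 1) f) ^ 2 := fun f hf => by
    simp only [M, LinearMap.comp_apply, (b4b_top hf).2, LinearMap.sum_apply, AlgHom.toLinearMap_apply, map_mul, sq,
      MvPolynomial.aeval_eq_eval]
  let W := MvPolynomial.restrictTotalDegree (Fin 7) ℝ (N + 1)
  have hW : ∀ v : W, v.1.totalDegree ≤ N + 1 := fun v => (MvPolynomial.mem_restrictTotalDegree _ _ _).1 v.2
  let B : (MvPolynomial (Fin 7) ℝ →ₗ[ℝ] ℝ) → W →ₗ[ℝ] W →ₗ[ℝ] ℝ := fun L =>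
    ((LinearMap.mul ℝ (MvPolynomial (Fin 7) ℝ)).compr₂ L).compl₁₂ W.subtype W.subtype
  obtain ⟨c, hc⟩ := finsler (B Λ) (B M) (fun v => by
    change 0 ≤ M (v.1 * v.1)
    rw [hM _ (hW v)]
    exact Finset.sum_nonneg fun _ _ => sq_nonneg _) (fun v hv h0 => by
    change M (v.1 * v.1) = 0 at h0
    rw [hM _ (hW v), Finset.sum_eq_zero_iff_of_nonneg fun _ _ => sq_nonneg _] at h0
    have hg : MvPolynomial.homogeneousComponent (N + 1) v.1 = 0 := by
      refine MvPolynomial.eq_zero_of_eval_zero_at_prod_finset _ (fun _ => S) (fun i => ?_) fun x hx => ?_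
      · rw [hS]
        exact Nat.lt_succ_of_le ((MvPolynomial.degreeOf_le_totalDegree _ i).trans
          (MvPolynomial.homogeneousComponent_isHomogeneous _ _).totalDegree_le)
      · exact pow_eq_zero_iff two_ne_zero |>.1 (h0 x (Fintype.mem_piFinset.2 hx))
    have h3 := (b4b_top (hW v)).1
    rw [hg, sub_zero] at h3
    exact h2 v.1 (fun e => hv (Subtype.ext e)) h3)
  refine ⟨Λ + c • M, fun a b c' d => ?_, fun f hf hd => ?_⟩
  · have h4 : (Yv a * Yv b * Yv c' * Yv d).totalDegree < 2 * N + 2 := by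
      have e1 := MvPolynomial.totalDegree_mul (Yv a * Yv b * Yv c') (Yv d)
      have e2 := MvPolynomial.totalDegree_mul (Yv a * Yv b) (Yv c')
      have e3 := MvPolynomial.totalDegree_mul (Yv a) (Yv b)
      have := b4b_deg a; have := b4b_deg b; have := b4b_deg c'; have := b4b_deg d
      omega
    simp only [LinearMap.add_apply, LinearMap.smul_apply, h1, M, LinearMap.comp_apply,
      MvPolynomial.homogeneousComponent_eq_zero _ _ h4, map_zero, smul_zero, add_zero]
  · exact hc ⟨f, (MvPolynomial.mem_restrictTotalDegree _ _ _).2 hd⟩ fun e => hf (congrArg Subtype.val e)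

theorem exists_Lambda {D : Q4 ℝ} (hD : Sym4 D) (hpd : PD4 D) (N : ℕ) :
    ∃ Λ : MvPolynomial (Fin 7) ℝ →ₗ[ℝ] ℝ, (∀ a b c d, Λ (Yv a * Yv b * Yv c * Yv d) = D a b c d) ∧
      ∀ f : MvPolynomial (Fin 7) ℝ, f ≠ 0 → f.totalDegree ≤ N → 0 < Λ (f * f) := by
  have key : ∀ n, 2 ≤ n → ∃ Λ : MvPolynomial (Fin 7) ℝ →ₗ[ℝ] ℝ,
      (∀ a b c d, Λ (Yv a * Yv b * Yv c * Yv d) = D a b c d) ∧
      ∀ f : MvPolynomial (Fin 7) ℝ, f ≠ 0 → f.totalDegree ≤ n → 0 < Λ (f * f) := fun n hn => by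
    induction n, hn using Nat.le_induction with
    | base => exact b4b_base hD hpd
    | succ n hn ih =>
      obtain ⟨Λ, h1, h2⟩ := ih
      exact b4b_step hn h1 h2
  obtain ⟨Λ, h1, h2⟩ := key (max N 2) (le_max_right _ _)
  exact ⟨Λ, h1, fun f hf hd => h2 f hf (hd.trans (le_max_left _ _))⟩

end Crest.Agent.R237
end
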