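import Mathlib

set_option autoImplicit false
open scoped BigOperators Matrix Topology


noncomputable section
namespace Crest.Agent.R237

/-! # B4c: a rescaled pseudo-expectation is nonnegative on squares from a finite-dimensional space of power series.

`hc j f : MvPolynomial` the homogeneous component of degree `j` of a power series (finite sum of monomials; linear;
`hc j (f g) = Σ_{i+i'=j} hc i f * hc i' g`).  `V_j = {f ∈ V | hc i f = 0 for i < j}` decreases with intersection `0`, so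
`V_{N+1} = 0` for some `N ≥ 2`.  `E f = Σ_{j ≤ 2N} ε^j Λ (hc j f)`.  Choose complements `W_j` of `V_{j+1}` in `V_j`;
`V = ⊕ W_j`.  For `f = Σ ε^{-j} f_j`, `E (f f)` is a polynomial in `ε` with constant term `Λ ((Σ_j hc j f_j)²)`, a positive
definite form in `(f_j) ∈ Π W_j`; positive definiteness is open.  (Equivalent: take a basis `f_1..f_m` of `V` with orders
`d_i` whose initial forms are linearly independent, by induction on `dim V` or on `N`.) -/

open MvPowerSeries Filter

theorem b4c_inj (V : Submodule ℝ (MvPowerSeries (Fin 7) ℝ)) [FiniteDimensional ℝ V] :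
    ∃ N : ℕ, 2 ≤ N ∧ ∀ f : V, (∀ d : Fin 7 →₀ ℕ, d.degree ≤ N → coeff d f.1 = 0) → f = 0 := by
  let U : ℕ → Submodule ℝ V := fun n => LinearMap.ker (truncTotal n ∘ₗ V.subtype)
  have hU : ∀ n (f : V), f ∈ U n ↔ ∀ d : Fin 7 →₀ ℕ, d.degree < n → coeff d f.1 = 0 := fun n f => by
    simp only [U, LinearMap.mem_ker, LinearMap.comp_apply, Submodule.subtype_apply, MvPolynomial.ext_iff,
      coeff_truncTotal_eq_ite, MvPolynomial.coeff_zero, ite_eq_right_iff]
  obtain ⟨n, hn⟩ := IsArtinian.monotone_stabilizes (R := ℝ) (M := V)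
    ⟨fun n => OrderDual.toDual (U n), fun i j hij f hf => (hU i f).2 fun d hd => (hU j f).1 hf d (hd.trans_le hij)⟩
  refine ⟨n + 2, by omega, fun f hf => Subtype.ext (MvPowerSeries.ext fun d => ?_)⟩
  have h1 : f ∈ U n := (hU n f).2 fun d hd => hf d (by omega)
  have h2 : U n = U (n + d.degree + 1) := hn _ (by omega)
  exact (hU _ f).1 (h2 ▸ h1) d (by omega)

theorem b4c_open {I : Type} [Fintype I] (q : ℝ → (I → ℝ) → ℝ) (hc : Continuous fun z : ℝ × (I → ℝ) => q z.1 z.2)
    (hs : ∀ ε t v, q ε (t • v) = t ^ 2 * q ε v) (h0 : ∀ v, v ≠ 0 → 0 < q 0 v) : ∃ ε, 0 < ε ∧ ∀ v, 0 ≤ q ε v := by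
  have h1 := (isCompact_sphere (0 : I → ℝ) 1).eventually_forall_of_forall_eventually (x₀ := (0 : ℝ))
    (P := fun ε v => 0 < q ε v) fun v hv =>
      hc.continuousAt.eventually (lt_mem_nhds (h0 v (by rintro rfl; simp at hv)))
  obtain ⟨ε, h2, h3⟩ := ((h1.filter_mono nhdsWithin_le_nhds).and (self_mem_nhdsWithin (s := Set.Ioi (0 : ℝ)))).exists
  refine ⟨ε, h3, fun v => ?_⟩
  by_cases hv : v = 0
  · rw [hv, ← zero_smul ℝ (0 : I → ℝ), hs]
    simp
  · have hn : 0 < ‖v‖ := norm_pos_iff.2 hv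
    have h4 := h2 (‖v‖⁻¹ • v) (by simp [norm_smul, hn.ne'])
    rw [hs] at h4
    exact ((mul_pos_iff_of_pos_left (by positivity)).1 h4).le

theorem exists_E (V : Submodule ℝ (MvPowerSeries (Fin 7) ℝ)) [FiniteDimensional ℝ V] :
    ∃ N : ℕ, ∀ Λ : MvPolynomial (Fin 7) ℝ →ₗ[ℝ] ℝ,
      (∀ f : MvPolynomial (Fin 7) ℝ, f ≠ 0 → f.totalDegree ≤ N → 0 < Λ (f * f)) →
      ∃ ε : ℝ, 0 < ε ∧ ∃ E : MvPowerSeries (Fin 7) ℝ →ₗ[ℝ] ℝ, (∀ f ∈ V, 0 ≤ E (f * f)) ∧
        ∀ (j : ℕ) (g : MvPolynomial (Fin 7) ℝ), j ≤ 4 → g.IsHomogeneous j →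
          E (g : MvPowerSeries (Fin 7) ℝ) = ε ^ j * Λ g := by
  classical
  obtain ⟨N, hN2, hN⟩ := b4c_inj V
  refine ⟨N, fun Λ hΛ => ?_⟩
  let I : Finset (Fin 7 →₀ ℕ) := (Finsupp.finite_of_degree_le (σ := Fin 7) N).toFinset
  let J : Finset (Fin 7 →₀ ℕ) := (Finsupp.finite_of_degree_lt (σ := Fin 7) (2 * N + 1)).toFinset
  have hI : ∀ d, d ∈ I ↔ d.degree ≤ N := fun d => by simp [I]
  have hJ : ∀ d, d ∈ J ↔ d.degree < 2 * N + 1 := fun d => by simp [J]
  let r : V →ₗ[ℝ] I → ℝ := LinearMap.pi fun d => coeff d.1 ∘ₗ V.subtype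
  obtain ⟨s, hs⟩ := r.exists_leftInverse_of_injective (LinearMap.ker_eq_bot'.2 fun f hf =>
    hN f fun d hd => congrFun hf ⟨d, (hI d).2 hd⟩)
  let c : (Fin 7 →₀ ℕ) → I → ℝ := fun e d =>
    if e.degree ≤ N then (if d.1 = e then 1 else 0) else coeff e (s (Pi.single d 1)).1
  have hc : ∀ (f : V) e, coeff e f.1 = ∑ d, c e d * coeff d.1 f.1 := fun f e => by
    by_cases he : e.degree ≤ N
    · rw [Finset.sum_eq_single (⟨e, (hI e).2 he⟩ : I)]
      · simp [c, he]
      · intro d _ hd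
        simp [c, he, show d.1 ≠ e from fun h => hd (Subtype.ext h)]
      · simp
    · conv_lhs => rw [show f = s (r f) from (LinearMap.congr_fun hs f).symm, pi_eq_sum_univ' (r f)]
      simp only [c, he, if_false, map_sum, map_smul, Submodule.coe_sum, Submodule.coe_smul, smul_eq_mul]
      exact Finset.sum_congr rfl fun d _ => mul_comm _ _
  have hc0 : ∀ e (d : I), e.degree < d.1.degree → c e d = 0 := fun e d h => by
    have := (hI _).1 d.2
    simp [c, show e.degree ≤ N by omega, show d.1 ≠ e from fun h' => by rw [h'] at h; omega]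
  let a : ℝ → (I → ℝ) → MvPolynomial (Fin 7) ℝ := fun ε v =>
    ∑ e ∈ J, (∑ d, c e d * ε ^ (e.degree - d.1.degree) * v d) • MvPolynomial.monomial e 1
  have ha : ∀ ε v e, (a ε v).coeff e =
      if e.degree < 2 * N + 1 then ∑ d, c e d * ε ^ (e.degree - d.1.degree) * v d else 0 := fun ε v e => by
    simp only [a, MvPolynomial.coeff_sum, MvPolynomial.coeff_smul, MvPolynomial.coeff_monomial, smul_eq_mul, mul_ite,
      mul_one, mul_zero, Finset.sum_ite_eq', hJ]
  let Φ : MvPolynomial (Fin 7) ℝ →ₗ[ℝ] ℝ :=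
    Λ ∘ₗ truncTotal (2 * N + 1) ∘ₗ (MvPolynomial.coeToMvPowerSeries.algHom ℝ).toLinearMap
  have hΦ : ∀ g, Φ g = Λ (truncTotal (2 * N + 1) (g : MvPowerSeries (Fin 7) ℝ)) := fun g => by simp [Φ]
  have hΦ' : ∀ g : MvPolynomial (Fin 7) ℝ, g.totalDegree ≤ 2 * N →
      truncTotal (2 * N + 1) (g : MvPowerSeries (Fin 7) ℝ) = g := fun g hg =>
    (truncTotal_coe_eq_self_iff g (by omega)).2 (by omega)
  obtain ⟨ε, hε, hq⟩ := b4c_open (fun ε v => Φ (a ε v * a ε v)) (by
      simp only [a, Finset.sum_mul_sum, smul_mul_smul_comm, map_sum, map_smul, smul_eq_mul]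
      fun_prop)
    (fun ε t v => by
      have : a ε (t • v) = t • a ε v := by
        simp only [a, Finset.smul_sum, smul_smul, Finset.mul_sum, Pi.smul_apply, smul_eq_mul, mul_left_comm]
      simp only [this, smul_mul_smul_comm, map_smul, smul_eq_mul, sq])
    (fun v hv => by
      have h1 : ∀ e, N < e.degree → (a 0 v).coeff e = 0 := fun e he => by
        rw [ha, ite_eq_right_iff]
        refine fun _ => Finset.sum_eq_zero fun d _ => ?_
        have := (hI _).1 d.2
        rw [zero_pow (by omega), mul_zero, zero_mul]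
      have h2 : ∀ e : I, (a 0 v).coeff e.1 = v e := fun e => by
        have he := (hI _).1 e.2
        rw [ha, if_pos (by omega), Finset.sum_eq_single e]
        · simp [c, he]
        · intro d _ hd
          simp [c, he, show d.1 ≠ e.1 from fun h => hd (Subtype.ext h)]
        · simp
      have h3 : (a 0 v).totalDegree ≤ N := Finset.sup_le fun e he => not_lt.1 fun h =>
        MvPolynomial.mem_support_iff.1 he (h1 e h)
      rw [hΦ, hΦ' _ ((MvPolynomial.totalDegree_mul _ _).trans (by omega))]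
      refine hΛ _ (fun h => hv (funext fun e => ?_)) h3
      rw [← h2, h, MvPolynomial.coeff_zero, Pi.zero_apply])
  have hre : ∀ (f : MvPowerSeries (Fin 7) ℝ) e, coeff e (rescale (Function.const _ ε) f) = ε ^ e.degree * coeff e f :=
    fun f e => by
      simp only [coeff_rescale, Finsupp.prod, Function.const_apply, Finset.prod_pow_eq_pow_sum, Finsupp.degree_apply]
  refine ⟨ε, hε, Λ ∘ₗ truncTotal (2 * N + 1) ∘ₗ (rescaleAlgHom (Function.const _ ε)).toLinearMap, fun f hf => ?_,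
    fun j g hj hg => ?_⟩
  · have h1 : truncTotal (2 * N + 1) (rescale (Function.const _ ε) f) = a ε fun d => ε ^ d.1.degree * coeff d.1 f := by
      ext e
      rw [ha, coeff_truncTotal_eq_ite, hre, hc ⟨f, hf⟩, Finset.mul_sum]
      congr 1
      refine Finset.sum_congr rfl fun d _ => ?_
      rcases lt_or_ge e.degree d.1.degree with h | h
      · simp [hc0 e d h]
      · rw [mul_assoc, ← mul_assoc (ε ^ (_ - _)), ← pow_add, Nat.sub_add_cancel h, mul_left_comm]
    refine (hq fun d => ε ^ d.1.degree * coeff d.1 f).trans_eq ?_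
    rw [hΦ, ← h1]
    simp only [LinearMap.comp_apply, AlgHom.toLinearMap_apply, rescaleAlgHom_apply, map_mul]
    congr 1
    ext e
    rw [coeff_truncTotal_eq_ite, coeff_truncTotal_eq_ite]
    split_ifs with h
    · rw [MvPolynomial.coeff_coe, coeff_truncTotal_mul_truncTotal_eq_coeff_mul _ _ h]
    · rfl
  · simp only [LinearMap.comp_apply, AlgHom.toLinearMap_apply, rescaleAlgHom_apply]
    rw [rescale_homogeneous_eq_smul (n := j) (f := (g : MvPowerSeries (Fin 7) ℝ))
      fun d hd => not_not.1 fun h => hd (hg.coeff_eq_zero h), map_smul, map_smul,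
      hΦ' g (hg.totalDegree_le.trans (by omega)), smul_eq_mul]

end Crest.Agent.R237
end
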