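import Crest.Agent.R237.B4a
import Crest.Agent.R237.B4b
import Crest.Agent.R237.B4c

set_option autoImplicit false
open scoped BigOperators Matrix Topology
open Crest.GeometryTopology

noncomputable section
namespace Crest.Agent.R237

/-! # B4d: the shadow criterion.

`S` = all entries of `A₀, A i, B j` and the coefficients `T (basis tensor) i`.  Take `a, σ` from `exists_taylor`, `u` with
`M = A₀ + Σ x_i A_i + Σ u_j B_j ≥ 0` at `x = T (dirac (cons 1 a))`, factor `M = βᵀ β`.  Apply `σ` entrywise; `V` = span of the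
`σ (β l i)`; `N, Λ, ε, E` from `exists_E`, `exists_Lambda`.  Apply `E`: `E 1 = D 0 0 0 0 = 1`,
`E (σ x_i) = T (act (Um a ε) D) i` (expand `σ (cons 1 a b) = Σ_{b'} Um a 1 b b' • Yv b'`; `Yv a' * Yv b' * Yv c' * Yv d'` is
homogeneous of degree the number of nonzero indices), new lifting variables `E (σ u_j)`, and
`Σ_{ik} c_i c_k E (σ M i k) = Σ_l E ((Σ_i c_i σ β l i)²) ≥ 0`. -/

/-- degrees of the homogeneous coordinates -/
def b4d_w : Fin 8 → ℕ := Fin.cons 0 fun _ => 1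

theorem b4d_w_le (b : Fin 8) : b4d_w b ≤ 1 := Fin.cases (by simp [b4d_w]) (fun i => by simp [b4d_w]) b

theorem b4d_hom (b : Fin 8) : (Yv b).IsHomogeneous (b4d_w b) :=
  Fin.cases (MvPolynomial.isHomogeneous_one _ _) (fun i => MvPolynomial.isHomogeneous_X _ i) b

theorem b4d_Um (a : Fin 7 → ℝ) (ε : ℝ) (i j : Fin 8) : Um a ε i j = Um a 1 i j * ε ^ b4d_w j := by
  refine Fin.cases ?_ (fun j => ?_) j
  · simp [Um, b4d_w]
  · simp [Um, b4d_w]

theorem b4d_sig {a : Fin 7 → ℝ} {σ : ℝ →+* MvPowerSeries (Fin 7) ℝ}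
    (ha : ∀ i, σ (a i) = MvPowerSeries.C (a i) + MvPowerSeries.X i) (b : Fin 8) :
    σ ((Fin.cons 1 a : Fin 8 → ℝ) b) = ∑ b', Um a 1 b b' • (Yv b' : MvPowerSeries (Fin 7) ℝ) := by
  rw [Fin.sum_univ_succ]
  refine Fin.cases ?_ (fun i => ?_) b
  · simp [Um, Yv, fun i : Fin 7 => (Fin.succ_ne_zero i).symm]
  · simp [Um, Yv, ha, MvPowerSeries.smul_eq_C_mul]

theorem b4d_T {m : ℕ} (T : Q4 ℝ →ₗ[ℝ] (Fin m → ℝ)) : ∃ t : Fin m → Fin 8 × Fin 8 × Fin 8 × Fin 8 → ℝ,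
    ∀ Q i, T Q i = ∑ x, t i x * Q x.1 x.2.1 x.2.2.1 x.2.2.2 := by
  let e : Fin 8 × Fin 8 × Fin 8 × Fin 8 → Q4 ℝ := fun x a b c d => if x = (a, b, c, d) then 1 else 0
  refine ⟨fun i x => T (e x) i, fun Q i => ?_⟩
  have : Q = ∑ x : Fin 8 × Fin 8 × Fin 8 × Fin 8, Q x.1 x.2.1 x.2.2.1 x.2.2.2 • e x := by
    ext a b c d
    simp [Finset.sum_apply, e]
  conv_lhs => rw [this]
  simp only [map_sum, map_smul, Finset.sum_apply, Pi.smul_apply, smul_eq_mul, mul_comm]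

theorem b4d_sum {R ι : Type} [CommRing R] [Fintype ι] (f g h k : ι → R) :
    (∑ a, f a) * (∑ a, g a) * (∑ a, h a) * (∑ a, k a) = ∑ a, ∑ b, ∑ c, ∑ d, f a * g b * h c * k d := by
  simp only [mul_assoc]
  simp only [Finset.sum_mul_sum]
  simp only [Finset.mul_sum]

theorem shadow_criterion {m : ℕ} (K : Set (Fin m → ℝ)) (hK : Hyperbolic.IsSpectrahedralShadow K)
    (T : Q4 ℝ →ₗ[ℝ] (Fin m → ℝ)) (hT : ∀ a : Fin 7 → ℝ, T (dirac (Fin.cons 1 a)) ∈ K)
    {D : Q4 ℝ} (hD : Sym4 D) (h1 : D 0 0 0 0 = 1) (hpd : PD4 D) :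
    ∃ (a : Fin 7 → ℝ) (ε : ℝ), 0 < ε ∧ T (act (Um a ε) D) ∈ K := by
  obtain ⟨k, n, A₀, A, B, -, -, -, rfl⟩ := hK
  obtain ⟨t, ht⟩ := b4d_T T
  obtain ⟨a, σ, hS, ha⟩ := exists_taylor
    (Set.range (fun x : Fin k × Fin k => A₀ x.1 x.2) ∪ Set.range (fun x : Fin m × Fin k × Fin k => A x.1 x.2.1 x.2.2) ∪
      Set.range (fun x : Fin n × Fin k × Fin k => B x.1 x.2.1 x.2.2) ∪
      Set.range (fun x : Fin m × (Fin 8 × Fin 8 × Fin 8 × Fin 8) => t x.1 x.2))
    ((((Set.finite_range _).union (Set.finite_range _)).union (Set.finite_range _)).union (Set.finite_range _))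
  obtain ⟨u, hu⟩ := hT a
  obtain ⟨r, β, hβ⟩ := Matrix.posSemidef_iff_eq_sum_vecMulVec.1 hu
  let V := Submodule.span ℝ (Set.range fun x : Fin r × Fin k => σ (β x.1 x.2))
  have : FiniteDimensional ℝ V := FiniteDimensional.span_of_finite ℝ (Set.finite_range _)
  obtain ⟨N, hN⟩ := exists_E V
  obtain ⟨Λ, hΛ, hΛ'⟩ := exists_Lambda hD hpd N
  obtain ⟨ε, hε, E, hE, hE'⟩ := hN Λ hΛ'
  have h2 : ∀ c y, σ c = MvPowerSeries.C c → E (σ (c * y)) = c * E (σ y) := fun c y hc => by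
    rw [map_mul, hc, ← MvPowerSeries.smul_eq_C_mul, map_smul, smul_eq_mul]
  have h3 : ∀ b c d e, E ((Yv b : MvPowerSeries (Fin 7) ℝ) * Yv c * Yv d * Yv e) =
      ε ^ b4d_w b * ε ^ b4d_w c * ε ^ b4d_w d * ε ^ b4d_w e * D b c d e := fun b c d e => by
    have := b4d_w_le b
    have := b4d_w_le c
    have := b4d_w_le d
    have := b4d_w_le e
    rw [← hΛ, ← pow_add, ← pow_add, ← pow_add, ← hE' _ _ (by omega)
      ((((b4d_hom b).mul (b4d_hom c)).mul (b4d_hom d)).mul (b4d_hom e))]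
    simp only [MvPolynomial.coe_mul]
  have h4 : E (σ 1) = 1 := by simpa [Yv, b4d_w, h1] using h3 0 0 0 0
  have h5 : ∀ i, E (σ (T (dirac (Fin.cons 1 a)) i)) = T (act (Um a ε) D) i := fun i => by
    rw [ht, ht, map_sum, map_sum]
    refine Finset.sum_congr rfl fun x _ => ?_
    rw [h2 _ _ (hS _ (.inr ⟨(i, x), rfl⟩))]
    congr 1
    simp only [dirac, act, map_mul, b4d_sig ha, b4d_Um a ε, b4d_sum, map_sum, smul_mul_smul_comm, map_smul, h3,
      smul_eq_mul]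
    refine Finset.sum_congr rfl fun _ _ => Finset.sum_congr rfl fun _ _ => Finset.sum_congr rfl fun _ _ =>
      Finset.sum_congr rfl fun _ _ => ?_
    ring
  have h6 : ∀ i j, (A₀ + ∑ i, T (act (Um a ε) D) i • A i + ∑ j, E (σ (u j)) • B j) i j =
      E (σ ((A₀ + ∑ i, T (dirac (Fin.cons 1 a)) i • A i + ∑ j, u j • B j) i j)) := fun i j => by
    simp only [Matrix.add_apply, Matrix.sum_apply, Matrix.smul_apply, smul_eq_mul, map_add, map_sum]
    congr 1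
    congr 1
    · rw [← mul_one (A₀ i j), h2 _ _ (hS _ (.inl (.inl (.inl ⟨(i, j), rfl⟩)))), h4, mul_one]
    · refine Finset.sum_congr rfl fun l _ => ?_
      rw [← h5, mul_comm, ← h2 _ _ (hS _ (.inl (.inl (.inr ⟨(l, i, j), rfl⟩)))), mul_comm]
    · refine Finset.sum_congr rfl fun l _ => ?_
      rw [mul_comm, ← h2 _ _ (hS _ (.inl (.inr ⟨(l, i, j), rfl⟩))), mul_comm]
  refine ⟨a, ε, hε, fun j => E (σ (u j)), .of_dotProduct_mulVec_nonneg ?_ fun c => ?_⟩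
  · ext i j
    rw [Matrix.conjTranspose_apply, star_trivial, h6, h6, ← hu.1.apply i j, star_trivial]
  · have h7 := Finset.sum_nonneg fun (l : Fin r) (_ : l ∈ Finset.univ) => hE (∑ i, c i • σ (β l i))
      (Submodule.sum_mem _ fun i _ => Submodule.smul_mem _ _ (Submodule.subset_span ⟨(l, i), rfl⟩))
    refine h7.trans_eq ?_
    simp only [dotProduct, Matrix.mulVec, h6, hβ, Matrix.sum_apply, Matrix.vecMulVec_apply, star_trivial, map_sum,
      map_mul, Finset.sum_mul_sum, smul_mul_smul_comm, map_smul, smul_eq_mul]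
    rw [Finset.sum_comm]
    refine Finset.sum_congr rfl fun i _ => ?_
    rw [Finset.sum_comm, Finset.mul_sum]
    refine Finset.sum_congr rfl fun j _ => ?_
    rw [← Finset.mul_sum]
    ring

end Crest.Agent.R237
end
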