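import Crest.Agent.R237.B0b

set_option autoImplicit false
open scoped BigOperators Matrix Topology
open Crest.GeometryTopology

noncomputable section
namespace Crest.Agent.R237

/-! # B5a: choice of `Π` and of the multiple of `F` (compactness).

Let `ι S = rel (emb b S)`, `π : (X4 → ℝ) →ₗ (Fin d → Fin d → ℝ)` with symmetric values and `π (ι S) = S` for symmetric `S`
(`I.inj`, `LinearMap.exists_leftInverse_of_injective`/`exists_extend` on the submodule of symmetric `S`).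
`Π_M R = (tr π R)² + β Σ (π R k l)² + M Σ_x (R - ι π R) x ²`; a quadratic form `B R R` is `qf Pc R` with
`Pc x y = B (single x 1) (single y 1)`.  `PP ((i+1/2) √Π) R = Π^r ∏_{j<r} ((i+1/2)² - (j+1)²) - η F R` and the product has sign
`(-1)^(r-i)` and absolute value `≥ η₀ := min_i |∏ …| > 0`.  Take `η₁ = η₀ d^(2r)`.  It suffices that `η |F R| < η₀ Π_M(R)^r` on
`Img \ 0` for some `M`.  Otherwise normalise `‖R_n‖ = 1` (`Img_smul`), `M = n`; a limit `R ∈ closure Img` satisfies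
`R = ι π R ≠ 0` and `η |F R| ≥ η₀ ((tr S)² + β |S|²)^r > 0` with `S = π R`; by `I.van`, `S = c • idd`, `F R = c^(2r)` (`I.one`),
contradiction with `η < η₀ d^(2r)`. -/

/-- quadratic forms -/
def IsQ (q : (X4 → ℝ) → ℝ) : Prop := ∃ P, ∀ R, qf P R = q R

theorem IsQ.sq (φ : (X4 → ℝ) →ₗ[ℝ] ℝ) : IsQ fun R => φ R ^ 2 := by
  refine ⟨fun x y => φ (fun j => if x = j then 1 else 0) * φ fun j => if y = j then 1 else 0, fun R => ?_⟩
  show _ = φ R ^ 2
  rw [LinearMap.pi_apply_eq_sum_univ φ R, pow_two, Finset.sum_mul_sum]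
  refine Finset.sum_congr rfl fun x _ => Finset.sum_congr rfl fun y _ => ?_
  simp only [Algebra.algebraMap_self, RingHom.id_apply, smul_eq_mul]
  ring

theorem IsQ.add {q q' : (X4 → ℝ) → ℝ} (h : IsQ q) (h' : IsQ q') : IsQ fun R => q R + q' R := by
  obtain ⟨P, h⟩ := h
  obtain ⟨P', h'⟩ := h'
  refine ⟨P + P', fun R => ?_⟩
  simp only [← h, ← h', qf, Pi.add_apply, map_add, add_mul, Finset.sum_add_distrib]

theorem IsQ.mul (c : ℝ) {q : (X4 → ℝ) → ℝ} (h : IsQ q) : IsQ fun R => c * q R := by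
  obtain ⟨P, h⟩ := h
  refine ⟨c • P, fun R => ?_⟩
  simp only [← h, qf, Pi.smul_apply, smul_eq_mul, Algebra.algebraMap_self, RingHom.id_apply, Finset.mul_sum, mul_assoc]

theorem IsQ.sum {ι : Type} [Fintype ι] {q : ι → (X4 → ℝ) → ℝ} (h : ∀ i, IsQ (q i)) : IsQ fun R => ∑ i, q i R := by
  choose P h using h
  refine ⟨∑ i, P i, fun R => ?_⟩
  simp only [← h, qf, Finset.sum_apply, map_sum, Finset.sum_mul]
  exact (Finset.sum_congr rfl fun x _ => Finset.sum_comm).trans Finset.sum_comm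

theorem IsQ.cont {q : (X4 → ℝ) → ℝ} (h : IsQ q) : Continuous q := by
  obtain ⟨P, h⟩ := h
  exact (continuous_qf P).congr h

theorem IsQ.smul {q : (X4 → ℝ) → ℝ} (h : IsQ q) (c : ℝ) (R : X4 → ℝ) : q (c • R) = c ^ 2 * q R := by
  obtain ⟨P, h⟩ := h
  rw [← h, ← h, qf_smul]

theorem b5a_hom {σ : Type} [Fintype σ] {F : MvPolynomial σ ℝ} {n : ℕ} (hF : F.IsHomogeneous n) (c : ℝ) (R : σ → ℝ) :
    MvPolynomial.eval (c • R) F = c ^ n * MvPolynomial.eval R F := by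
  rw [MvPolynomial.eval_eq', MvPolynomial.eval_eq', Finset.mul_sum]
  refine Finset.sum_congr rfl fun m hm => ?_
  have := hF (MvPolynomial.mem_support_iff.1 hm)
  rw [Finsupp.weight_apply, Finsupp.sum_fintype _ _ (by simp)] at this
  simp only [Pi.one_apply, smul_eq_mul, mul_one] at this
  simp only [Pi.smul_apply, smul_eq_mul, mul_pow, Finset.prod_mul_distrib, Finset.prod_pow_eq_pow_sum, this]
  ring

theorem b5a_cpt {E : Type} [NormedAddCommGroup E] [NormedSpace ℝ E] [ProperSpace E] {K : Set E} (hK : IsClosed K)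
    (hKs : ∀ R ∈ K, ∀ c : ℝ, c ≠ 0 → c • R ∈ K) {A B f : E → ℝ} (cA : Continuous A) (cB : Continuous B)
    (cf : Continuous f) (A0 : ∀ R, 0 ≤ A R) (B0 : ∀ R, 0 ≤ B R) (hA : ∀ (c : ℝ) R, A (c • R) = c ^ 2 * A R)
    (hB : ∀ (c : ℝ) R, B (c • R) = c ^ 2 * B R) {r : ℕ} (hr : 1 ≤ r) (hf : ∀ (c : ℝ) R, f (c • R) = c ^ (2 * r) * f R)
    (h : ∀ R ∈ K, R ≠ 0 → B R = 0 → |f R| < A R ^ r) :
    ∃ M : ℝ, 0 < M ∧ ∀ R ∈ K, R ≠ 0 → |f R| < (A R + M * B R) ^ r := by
  obtain ⟨n, hn⟩ := ((isCompact_sphere (0 : E) 1).inter_left hK).elim_directed_cover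
    (fun n : ℕ => {R | |f R| < (A R + (n + 1) * B R) ^ r}) (fun n => isOpen_lt (by fun_prop) (by fun_prop))
    (fun R hR => by
      rw [Set.mem_iUnion]
      rcases (B0 R).eq_or_lt with h0 | h0
      · refine ⟨0, ?_⟩
        have := h R hR.1 (by rintro rfl; simpa using hR.2) h0.symm
        simpa [← h0] using this
      · obtain ⟨n, hn⟩ := exists_nat_gt ((|f R| + 1) / B R)
        rw [div_lt_iff₀ h0] at hn
        have h1 := abs_nonneg (f R)
        have h2 := A0 R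
        exact ⟨n, lt_of_lt_of_le (b := A R + (n + 1) * B R) (by nlinarith) (le_self_pow₀ (by nlinarith) (by omega))⟩)
    (Monotone.directed_le fun m n hmn R hR => lt_of_lt_of_le hR (by
      have := A0 R
      have := B0 R
      show (A R + (m + 1) * B R) ^ r ≤ (A R + (n + 1) * B R) ^ r
      gcongr))
  refine ⟨n + 1, by positivity, fun R hR h0 => ?_⟩
  have h1 : 0 < ‖R‖⁻¹ := inv_pos.2 (norm_pos_iff.2 h0)
  have h2 : |f (‖R‖⁻¹ • R)| < (A (‖R‖⁻¹ • R) + (n + 1) * B (‖R‖⁻¹ • R)) ^ r :=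
    hn ⟨hKs R hR _ h1.ne', by simp [norm_smul, h0]⟩
  rw [hf, hA, hB, mul_left_comm, ← mul_add, mul_pow, ← pow_mul, abs_mul, abs_of_pos (pow_pos h1 _)] at h2
  exact lt_of_mul_lt_mul_left h2 (pow_pos h1 _).le

theorem b5a_sgn (i m : ℕ) :
    0 < (-1 : ℝ) ^ m * ∏ j ∈ Finset.range (i + m), (((i : ℝ) + 1 / 2) ^ 2 - ((j : ℝ) + 1) ^ 2) := by
  induction m with
  | zero =>
    rw [pow_zero, one_mul]
    refine Finset.prod_pos fun j hj => ?_
    have : (j : ℝ) + 1 ≤ i := by exact_mod_cast Finset.mem_range.1 hj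
    have : (0 : ℝ) ≤ j := Nat.cast_nonneg j
    nlinarith
  | succ m ih =>
    rw [← add_assoc, Finset.prod_range_succ, pow_succ, mul_mul_mul_comm]
    refine mul_pos ih ?_
    have : (0 : ℝ) ≤ m := Nat.cast_nonneg m
    have : (0 : ℝ) ≤ i := Nat.cast_nonneg i
    push_cast
    nlinarith

/-- `S ↦ rel (emb b S)` -/
def b5a_i {d : ℕ} (b : Fin d → Fin 7 → Fin 7 → ℝ) : (Fin d → Fin d → ℝ) →ₗ[ℝ] (X4 → ℝ) where
  toFun S := rel (emb b S)
  map_add' S T := by
    rw [← rel_add]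
    congr 1
    funext x
    simp only [emb, Pi.add_apply, add_mul, Finset.sum_add_distrib]
  map_smul' c S := by
    rw [RingHom.id_apply, ← rel_smul]
    congr 1
    funext x
    simp only [emb, Pi.smul_apply, smul_eq_mul, Finset.mul_sum, mul_assoc]

theorem b5a_pi {Δ : X4 → ℝ} (I : Isol Δ) : ∃ π : (X4 → ℝ) →ₗ[ℝ] (Fin I.d → Fin I.d → ℝ),
    (∀ R k l, π R k l = π R l k) ∧ ∀ S, (∀ k l, S k l = S l k) → π (b5a_i I.b S) = S := by
  let Sy : Submodule ℝ (Fin I.d → Fin I.d → ℝ) :=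
    { carrier := {S | ∀ k l, S k l = S l k}
      add_mem' := fun h h' k l => by simp only [Pi.add_apply, h k l, h' k l]
      zero_mem' := fun k l => rfl
      smul_mem' := fun c _ h k l => by simp only [Pi.smul_apply, h k l] }
  obtain ⟨g, hg⟩ := LinearMap.exists_leftInverse_of_injective ((b5a_i I.b).comp Sy.subtype)
    (LinearMap.ker_eq_bot'.2 fun S hS => Subtype.ext (I.inj S.1 S.2 hS))
  exact ⟨Sy.subtype.comp g, fun R => (g R).2, fun S hS => congrArg Subtype.val (LinearMap.congr_fun hg ⟨S, hS⟩)⟩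

theorem Isol.exists_Pc {Δ : X4 → ℝ} (I : Isol Δ) : ∃ η₁ : ℝ, 0 < η₁ ∧ ∀ η β : ℝ, 0 < η → η < η₁ → 0 < β →
    ∃ Pc : X4 → X4 → ℝ, (∀ R : X4 → ℝ, R ≠ 0 → 0 < qf Pc R) ∧
      (∀ S : Fin I.d → Fin I.d → ℝ, (∀ k l, S k l = S l k) →
        qf Pc (rel (emb I.b S)) = (∑ k, S k k) ^ 2 + β * ∑ k, ∑ l, S k l ^ 2) ∧
      ∀ R ∈ Img, R ≠ 0 → ∀ i < I.r,
        0 < (-1) ^ (I.r - i) * PP I.r Pc (MvPolynomial.C η * I.F) (((i : ℝ) + 1 / 2) * √(qf Pc R)) R := by
  obtain ⟨i₀, hi₀, hmin⟩ := Finset.exists_min_image (Finset.range I.r) (fun i => (-1 : ℝ) ^ (I.r - i) *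
    ∏ j ∈ Finset.range I.r, (((i : ℝ) + 1 / 2) ^ 2 - ((j : ℝ) + 1) ^ 2)) ⟨0, Finset.mem_range.2 I.hr⟩
  have h0 := b5a_sgn i₀ (I.r - i₀)
  rw [Nat.add_sub_cancel' (Finset.mem_range.1 hi₀).le] at h0
  generalize (-1 : ℝ) ^ (I.r - i₀) * _ = η₀ at h0 hmin
  refine ⟨η₀, h0, fun η β hη hη' hβ => ?_⟩
  obtain ⟨π, hs, hπ⟩ := b5a_pi I
  have hA : IsQ fun R => (∑ k, π R k k) ^ 2 + β * ∑ k, ∑ l, π R k l ^ 2 := by
    refine IsQ.add ?_ (IsQ.mul β (IsQ.sum fun k => IsQ.sum fun l =>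
      IsQ.sq ((LinearMap.proj l).comp ((LinearMap.proj k).comp π))))
    simpa using IsQ.sq (∑ k, (LinearMap.proj k).comp ((LinearMap.proj k).comp π))
  have hB : IsQ fun R => ∑ x, (R x - b5a_i I.b (π R) x) ^ 2 :=
    IsQ.sum fun x => IsQ.sq ((LinearMap.proj x).comp (LinearMap.id - (b5a_i I.b).comp π))
  have B0 : ∀ R : X4 → ℝ, ∑ x, (R x - b5a_i I.b (π R) x) ^ 2 = 0 → R = b5a_i I.b (π R) := fun R h => funext fun x =>
    sub_eq_zero.1 (pow_eq_zero_iff two_ne_zero |>.1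
      ((Finset.sum_eq_zero_iff_of_nonneg fun _ _ => sq_nonneg _).1 h x (Finset.mem_univ x)))
  have A1 : ∀ R : X4 → ℝ, R ≠ 0 → R = b5a_i I.b (π R) → 0 < (∑ k, π R k k) ^ 2 + β * ∑ k, ∑ l, π R k l ^ 2 := by
    intro R h0 h
    have h1 : π R ≠ 0 := fun e => h0 (by rw [h, e, map_zero])
    obtain ⟨k, hk⟩ := Function.ne_iff.1 h1
    obtain ⟨l, hl⟩ := Function.ne_iff.1 hk
    exact add_pos_of_nonneg_of_pos (sq_nonneg _) (mul_pos hβ (Finset.sum_pos' (fun _ _ => by positivity)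
      ⟨k, Finset.mem_univ k, Finset.sum_pos' (fun _ _ => sq_nonneg _) ⟨l, Finset.mem_univ l, sq_pos_of_ne_zero hl⟩⟩))
  obtain ⟨M, hM, hK⟩ := b5a_cpt (K := closure Img) (f := fun R => η / η₀ * MvPolynomial.eval R I.F) isClosed_closure
    (fun R hR => closure_Img_smul hR) hA.cont hB.cont (continuous_const.mul (MvPolynomial.continuous_eval I.F))
    (fun R => by positivity) (fun R => by positivity) hA.smul hB.smul I.hr
    (fun c R => by rw [b5a_hom I.hF]; ring) (fun R hR h0' hb => by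
      have h1 := B0 R hb
      have h2 := A1 R h0' h1
      by_cases hc : ∀ c : ℝ, π R ≠ c • idd I.d
      · have h3 : MvPolynomial.eval R I.F = 0 := by
          rw [h1] at hR ⊢
          exact I.van _ (hs R) hR hc
        rw [h3, mul_zero, abs_zero]
        exact pow_pos h2 _
      · push Not at hc
        obtain ⟨c, hc⟩ := hc
        have h3 : R = c • rel Δ := by
          rw [h1, hc, map_smul]
          exact congrArg (fun x => c • rel x) I.hΔ.symm
        have h4 : c ≠ 0 := by rintro rfl; exact h0' (by rw [h3, zero_smul])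
        have h5 : MvPolynomial.eval R I.F = (c ^ 2) ^ I.r := by rw [h3, b5a_hom I.hF, I.one, mul_one, pow_mul]
        have h6 : ∑ k, π R k k = I.d * c := by simp [hc, idd]
        have h7 : (2 : ℝ) ≤ I.d := by exact_mod_cast I.hd
        have h8 : 0 < (c ^ 2) ^ I.r := by positivity
        have h9 : 0 ≤ β * ∑ k, ∑ l, π R k l ^ 2 := by positivity
        rw [h5, abs_of_pos (by positivity), h6]
        refine lt_of_lt_of_le (mul_lt_of_lt_one_left h8 ((div_lt_one h0).2 hη')) (pow_le_pow_left₀ (sq_nonneg c) ?_ _)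
        nlinarith [mul_nonneg (sq_nonneg c) (show (0 : ℝ) ≤ I.d ^ 2 - 1 by nlinarith)])
  obtain ⟨Pc, hP⟩ := hA.add (hB.mul M)
  have hpos : ∀ R : X4 → ℝ, R ≠ 0 → 0 < qf Pc R := fun R h => by
    rw [hP]
    rcases (Finset.sum_nonneg fun x _ => sq_nonneg (R x - b5a_i I.b (π R) x)).eq_or_lt with h1 | h1
    · exact add_pos_of_pos_of_nonneg (A1 R h (B0 R h1.symm)) (by positivity)
    · exact add_pos_of_nonneg_of_pos (by positivity) (mul_pos hM h1)
  refine ⟨Pc, hpos, fun S hS => ?_, fun R hR h0' i hi => ?_⟩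
  · have := hP (b5a_i I.b S)
    show qf Pc (b5a_i I.b S) = _
    simpa only [hπ S hS, sub_self, ne_eq, OfNat.ofNat_ne_zero, not_false_eq_true, zero_pow, Finset.sum_const_zero,
      mul_zero, add_zero] using this
  · have h1 : |η / η₀ * MvPolynomial.eval R I.F| < qf Pc R ^ I.r := by
      rw [hP]; exact hK R (subset_closure hR) h0'
    have h2 := hmin i (Finset.mem_range.2 hi)
    have h3 := pow_pos (hpos R h0') I.r
    have h4 : ∏ j ∈ Finset.range I.r, ((((i : ℝ) + 1 / 2) * √(qf Pc R)) ^ 2 - ((j : ℝ) + 1) ^ 2 * qf Pc R) =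
        (∏ j ∈ Finset.range I.r, (((i : ℝ) + 1 / 2) ^ 2 - ((j : ℝ) + 1) ^ 2)) * qf Pc R ^ I.r := by
      rw [← Finset.card_range I.r, ← Finset.prod_const, Finset.card_range, ← Finset.prod_mul_distrib]
      exact Finset.prod_congr rfl fun j _ => by rw [mul_pow, Real.sq_sqrt (hpos R h0').le, sub_mul]
    rw [div_mul_eq_mul_div, abs_div, abs_of_pos h0, div_lt_iff₀ h0] at h1
    have h5 : (-1 : ℝ) ^ (I.r - i) * (η * MvPolynomial.eval R I.F) ≤ |η * MvPolynomial.eval R I.F| :=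
      (le_abs_self _).trans (by rw [abs_mul, abs_neg_one_pow, one_mul])
    rw [PP, h4, MvPolynomial.aeval_eq_eval, map_mul, MvPolynomial.eval_C, mul_sub, ← mul_assoc]
    nlinarith [mul_le_mul_of_nonneg_right h2 h3.le]

end Crest.Agent.R237
end
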