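import Crest.Agent.R237.B5a

set_option autoImplicit false
open scoped BigOperators Matrix Topology
open Crest.GeometryTopology

noncomputable section
namespace Crest.Agent.R237

/-! # B5b: choice of `ψ`, and the data.

* `exists_psi`: `w : (Fin 7 → Fin 7 → ℝ) →ₗ (Fin d → ℝ)` a left inverse of `w ↦ Σ w k • b k`;
  `ψ_M ⬝ bb c = γ |w c|² + M |c - Σ w c k • b k|²` (coefficients `ψ (i,j,k,l) = B (E i j) (E k l)` of the bilinear form).
  `ψ_M ⬝ emb b (idd d) = γ d`.  If `pole` failed for all `M = n`, normalise `‖c_n‖ = 1`; `PP h R ≤ 0` with `R` bounded forces `h`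
  bounded, so `c_n → c = Σ w k • b k ≠ 0`, `bb c = emb b (w wᵀ)`, `F (rel (bb c)) = 0` (`rel_bb_mem`, `I.van`, `w wᵀ ≠ s • idd` as `d ≥ 2`),
  `Π (rel (bb c)) = (1 + β) |w|⁴`, and the limit `h ≥ γ |w|² > r √Π` has `PP h > 0`; contradiction.
* `exists_dat`: fix `η = η₁/2`.  `g(β, h) = ∏_{i<r} (h² - (i+1)² (d² + β d)) - η` is continuous with `g(0, r d) = -η < 0`:
  choose `h' > r d`, then `β > 0` with `g(β, h') < 0` and `r √(1+β) d < h'`, and `γ` between `r √(1+β)` and `h'/d`. -/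

section b5b
open Filter

/-- `c ⊗ c'` -/
def b5b_t (c c' : Fin 7 → Fin 7 → ℝ) : X4 → ℝ := fun x => c x.1 x.2.1 * c' x.2.2.1 x.2.2.2

theorem b5b_coef (ℓ : (Fin 7 → Fin 7 → ℝ) →ₗ[ℝ] ℝ) :
    ∃ ψ : X4 → ℝ, ∀ c, ψ ⬝ᵥ bb c = ℓ c ^ 2 := by
  have h : ∀ c, ℓ c = ∑ i, ∑ j, ℓ (Pi.single i (Pi.single j 1)) * c i j := fun c => by
    have : c = ∑ i, ∑ j, c i j • (Pi.single i (Pi.single j 1) : Fin 7 → Fin 7 → ℝ) := by
      ext a b
      simp only [Finset.sum_apply, Pi.smul_apply, smul_eq_mul]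
      rw [Finset.sum_eq_single a (fun i _ hi => by simp [Pi.single_eq_of_ne hi.symm]) (by simp)]
      simp [Pi.single_apply]
    conv_lhs => rw [this]
    simp only [map_sum, map_smul, smul_eq_mul, mul_comm]
  refine ⟨bb fun i j => ℓ (Pi.single i (Pi.single j 1)), fun c => ?_⟩
  rw [sq, h c]
  simp only [dotProduct, Fintype.sum_prod_type, bb]
  rw [Finset.sum_mul]
  refine Finset.sum_congr rfl fun i _ => ?_
  rw [Finset.sum_mul]
  refine Finset.sum_congr rfl fun j _ => ?_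
  rw [Finset.mul_sum]
  refine Finset.sum_congr rfl fun k _ => ?_
  rw [Finset.mul_sum]
  refine Finset.sum_congr rfl fun l _ => ?_
  ring

theorem b5b_form {ι : Type} [Fintype ι] (g : (Fin 7 → Fin 7 → ℝ) →ₗ[ℝ] (ι → ℝ)) :
    ∃ ψ : X4 → ℝ, ∀ c, ψ ⬝ᵥ bb c = g c ⬝ᵥ g c := by
  choose ψ hψ using fun k => b5b_coef (LinearMap.proj k ∘ₗ g)
  refine ⟨∑ k, ψ k, fun c => ?_⟩
  rw [sum_dotProduct]
  exact Finset.sum_congr rfl fun k _ => by rw [hψ, sq]; rfl

theorem b5b_bb_smul (s : ℝ) (c : Fin 7 → Fin 7 → ℝ) : bb (s • c) = s ^ 2 • bb c := by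
  ext x; simp only [bb, Pi.smul_apply, smul_eq_mul]; ring

theorem b5b_cont : Continuous fun c : Fin 7 → Fin 7 → ℝ => rel (bb c) := by
  refine continuous_pi fun x => ?_
  simp only [rel, bb]
  fun_prop

theorem b5b_emb {d : ℕ} (b : Fin d → Fin 7 → Fin 7 → ℝ) : emb b (idd d) = ∑ k, bb (b k) := by
  ext x
  simp [emb, idd, bb, Finset.sum_apply]

theorem b5b_bb_sum {d : ℕ} (b : Fin d → Fin 7 → Fin 7 → ℝ) (w : Fin d → ℝ) :
    bb (∑ k, w k • b k) = emb b fun k l => w k * w l := by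
  ext x
  simp only [bb, emb, Finset.sum_apply, Pi.smul_apply, smul_eq_mul, Finset.sum_mul_sum]
  exact Finset.sum_congr rfl fun k _ => Finset.sum_congr rfl fun l _ => by ring

theorem b5b_prod {r : ℕ} {q h m : ℝ} (hq : 0 ≤ q) (hh : m + r ^ 2 * q ≤ h ^ 2) {i : ℕ}
    (hi : i ∈ Finset.range r) : m ≤ h ^ 2 - ((i : ℝ) + 1) ^ 2 * q := by
  have h1 : (i : ℝ) + 1 ≤ r := by exact_mod_cast Finset.mem_range.1 hi
  have h2 : ((i : ℝ) + 1) ^ 2 ≤ r ^ 2 := pow_le_pow_left₀ (by positivity) h1 2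
  nlinarith

theorem b5b_large {r : ℕ} (hr : 1 ≤ r) (Pc : X4 → X4 → ℝ) (hP : ∀ R : X4 → ℝ, 0 ≤ qf Pc R)
    (F : MvPolynomial X4 ℝ) {K : Set (Fin 7 → Fin 7 → ℝ)} (hK : IsCompact K) :
    ∃ H : ℝ, 0 < H ∧ ∀ c ∈ K, (r : ℝ) * √(qf Pc (rel (bb c))) < H ∧
      ∀ h, H ≤ h → 0 < PP r Pc F h (rel (bb c)) := by
  obtain ⟨A, hA⟩ := hK.exists_bound_of_continuousOn
    ((continuous_qf Pc).comp b5b_cont).continuousOn
  obtain ⟨B, hB⟩ := hK.exists_bound_of_continuousOn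
    (f := fun c => MvPolynomial.eval (rel (bb c)) F)
    ((MvPolynomial.continuous_eval F).comp b5b_cont).continuousOn
  have h0 : 0 < 1 + |B| + r ^ 2 * |A| := by positivity
  refine ⟨√(1 + |B| + r ^ 2 * |A|), Real.sqrt_pos.2 h0, fun c hc => ?_⟩
  have h1 : qf Pc (rel (bb c)) ≤ |A| := ((le_abs_self _).trans (hA c hc)).trans (le_abs_self _)
  have h2 : MvPolynomial.eval (rel (bb c)) F ≤ |B| := ((le_abs_self _).trans (hB c hc)).trans (le_abs_self _)
  have h3 := mul_le_mul_of_nonneg_left h1 (sq_nonneg (r : ℝ))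
  refine ⟨Real.lt_sqrt_of_sq_lt ?_, fun h hh => ?_⟩
  · rw [mul_pow, Real.sq_sqrt (hP _)]
    linarith [abs_nonneg B]
  · have h4 : 1 + |B| + r ^ 2 * |A| ≤ h ^ 2 := by
      rw [← Real.sq_sqrt h0.le]
      exact pow_le_pow_left₀ (Real.sqrt_nonneg _) hh 2
    have h5 : ∏ i ∈ Finset.range r, (1 + |B|) ≤
        ∏ i ∈ Finset.range r, (h ^ 2 - ((i : ℝ) + 1) ^ 2 * qf Pc (rel (bb c))) :=
      Finset.prod_le_prod (fun _ _ => by positivity) fun i hi => b5b_prod (hP _) (by linarith) hi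
    rw [Finset.prod_const, Finset.card_range] at h5
    have h6 : 1 + |B| ≤ (1 + |B|) ^ r := le_self_pow₀ (by linarith [abs_nonneg B]) (by omega)
    rw [PP, MvPolynomial.aeval_eq_eval]
    linarith

end b5b

open Filter in
theorem Isol.exists_psi {Δ : X4 → ℝ} (I : Isol Δ) (η β γ : ℝ) (hβ : 0 < β) (hγ : (I.r : ℝ) * √(1 + β) < γ)
    (Pc : X4 → X4 → ℝ) (hP : ∀ R : X4 → ℝ, R ≠ 0 → 0 < qf Pc R)
    (hPc : ∀ S : Fin I.d → Fin I.d → ℝ, (∀ k l, S k l = S l k) →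
      qf Pc (rel (emb I.b S)) = (∑ k, S k k) ^ 2 + β * ∑ k, ∑ l, S k l ^ 2) :
    ∃ ψ : X4 → ℝ, ψ ⬝ᵥ Δ = γ * I.d ∧ ∀ b : Fin 7 → Fin 7 → ℝ, (∀ i j, b i j = b j i) → b ≠ 0 →
      ((I.r : ℝ) - 1 / 2) * √(qf Pc (rel (bb b))) < ψ ⬝ᵥ bb b ∧
        ∀ h, ψ ⬝ᵥ bb b ≤ h → 0 < PP I.r Pc (MvPolynomial.C η * I.F) h (rel (bb b)) := by
  have hP0 : ∀ R : X4 → ℝ, 0 ≤ qf Pc R := fun R => by
    by_cases h : R = 0
    · simp [h, qf]
    · exact (hP R h).le
  have hγ0 : 0 < γ := lt_of_le_of_lt (by positivity) hγ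
  obtain ⟨g, hg⟩ := (Fintype.linearCombination ℝ I.b).exists_leftInverse_of_injective
    (LinearMap.ker_eq_bot.2 I.li.fintypeLinearCombination_injective)
  have hg' : ∀ w, g (∑ k, w k • I.b k) = w := fun w => by
    have := LinearMap.congr_fun hg w
    rwa [LinearMap.comp_apply, Fintype.linearCombination_apply] at this
  have hgb : ∀ k, g (I.b k) = Pi.single k 1 := fun k => by
    rw [← hg' (Pi.single k 1)]
    simp [Pi.single_apply]
  let N : (Fin 7 → Fin 7 → ℝ) →ₗ[ℝ] (Fin 7 × Fin 7 → ℝ) := LinearMap.pi fun p =>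
    LinearMap.proj p.2 ∘ₗ LinearMap.proj p.1 ∘ₗ (LinearMap.id - Fintype.linearCombination ℝ I.b ∘ₗ g)
  have hN : ∀ c p, N c p = (c - ∑ k, g c k • I.b k) p.1 p.2 := fun c p => by
    rw [← Fintype.linearCombination_apply]; rfl
  obtain ⟨ψ₁, h₁⟩ := b5b_form g
  obtain ⟨ψ₂, h₂⟩ := b5b_form N
  set F := MvPolynomial.C η * I.F with hF
  set K := Metric.sphere (0 : Fin 7 → Fin 7 → ℝ) 1 ∩ {c | ∀ i j, c i j = c j i} with hKd
  have hK : IsCompact K := (isCompact_sphere _ _).inter_right (by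
    simp only [Set.ofPred_forall]
    exact isClosed_iInter fun i => isClosed_iInter fun j => isClosed_eq (by fun_prop) (by fun_prop))
  obtain ⟨H, hH0, hH⟩ := b5b_large I.hr Pc hP0 F hK
  have cg : Continuous fun c => g c ⬝ᵥ g c := by
    have := g.continuous_of_finiteDimensional
    fun_prop
  have cN : Continuous fun c => N c ⬝ᵥ N c := by
    have := N.continuous_of_finiteDimensional
    fun_prop
  have nn : ∀ {ι : Type} [Fintype ι] (v : ι → ℝ), 0 ≤ v ⬝ᵥ v := fun v =>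
    Finset.sum_nonneg fun i _ => mul_self_nonneg _
  have key : {z : (Fin 7 → Fin 7 → ℝ) × ℝ | z.1 ∈ K →
      (I.r : ℝ) * √(qf Pc (rel (bb z.1))) < γ * (g z.1 ⬝ᵥ g z.1) + z.2 * (N z.1 ⬝ᵥ N z.1) ∧
      ∀ h, γ * (g z.1 ⬝ᵥ g z.1) + z.2 * (N z.1 ⬝ᵥ N z.1) ≤ h → 0 < PP I.r Pc F h (rel (bb z.1))} ∈
      𝓝ˢ K ×ˢ atTop := by
    refine hK.mem_nhdsSet_prod_of_forall fun c hc => ?_
    rcases (nn (N c)).eq_or_lt with h0 | h0
    · have e1 : c = ∑ k, g c k • I.b k := by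
        ext i j
        have := congrFun (dotProduct_self_eq_zero.1 h0.symm) (i, j)
        rw [hN] at this
        exact sub_eq_zero.1 this
      have hw : g c ≠ 0 := fun h => by
        have := hc.1
        rw [e1, h] at this
        simp at this
      have hw' : 0 < g c ⬝ᵥ g c := (nn _).lt_of_ne fun h => hw (dotProduct_self_eq_zero.1 h.symm)
      have e2 : bb c = emb I.b fun k l => g c k * g c l := by
        rw [← b5b_bb_sum, ← e1]
      have e3 : qf Pc (rel (bb c)) = (1 + β) * (g c ⬝ᵥ g c) ^ 2 := by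
        rw [e2, hPc _ fun k l => mul_comm _ _, add_mul, one_mul, sq (g c ⬝ᵥ g c), dotProduct,
          Finset.sum_mul_sum, sq, Finset.sum_mul_sum]
        congr 2
        exact Finset.sum_congr rfl fun k _ => Finset.sum_congr rfl fun l _ => by ring
      have e4 : MvPolynomial.eval (rel (bb c)) I.F = 0 := by
        have h1 := rel_bb_mem c hc.2
        rw [e2] at h1 ⊢
        refine I.van _ (fun k l => mul_comm _ _) h1 fun s hs => hw ?_
        have hd := I.hd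
        have h2 := fun k l => congrFun (congrFun hs k) l
        simp only [Pi.smul_apply, smul_eq_mul, idd] at h2
        have h3 := h2 ⟨0, by omega⟩ ⟨1, by omega⟩
        have h4 := h2 ⟨0, by omega⟩ ⟨0, by omega⟩
        have h5 := h2 ⟨1, by omega⟩ ⟨1, by omega⟩
        simp only [Fin.mk.injEq, zero_ne_one, if_false, if_true, mul_zero, mul_one] at h3 h4 h5
        have h6 : s = 0 := by
          rcases mul_eq_zero.1 h3 with h | h
          · rw [← h4, h, mul_zero]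
          · rw [← h5, h, mul_zero]
        ext k
        have := h2 k k
        rw [h6, zero_mul] at this
        exact mul_self_eq_zero.1 this
      have h1 : (I.r : ℝ) * √(qf Pc (rel (bb c))) < γ * (g c ⬝ᵥ g c) := by
        rw [e3, Real.sqrt_mul (by positivity), Real.sqrt_sq hw'.le, ← mul_assoc]
        exact mul_lt_mul_of_pos_right hγ hw'
      obtain ⟨a, ha1, ha2⟩ := exists_between h1
      have h2 : ∀ᶠ c' in 𝓝 c, ∀ h ∈ Set.Icc a H, 0 < PP I.r Pc F h (rel (bb c')) := by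
        refine isCompact_Icc.eventually_forall_of_forall_eventually fun h hh => ?_
        have hc' : Continuous fun z : (Fin 7 → Fin 7 → ℝ) × ℝ => PP I.r Pc F z.2 (rel (bb z.1)) :=
          (continuous_PP I.r Pc F).comp (continuous_snd.prodMk (b5b_cont.comp continuous_fst))
        refine continuousAt_const.eventually_lt hc'.continuousAt ?_
        rw [PP, MvPolynomial.aeval_eq_eval, hF, map_mul, e4, mul_zero, sub_zero]
        have h3 : ((I.r : ℝ) * √(qf Pc (rel (bb c)))) ^ 2 < h ^ 2 :=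
          pow_lt_pow_left₀ (ha1.trans_le hh.1) (by positivity) two_ne_zero
        rw [mul_pow, Real.sq_sqrt (hP0 _)] at h3
        exact Finset.prod_pos fun i hi => (sub_pos.2 h3).trans_le (b5b_prod (hP0 _) (by linarith) hi)
      have h3 : ∀ᶠ c' in 𝓝 c, (I.r : ℝ) * √(qf Pc (rel (bb c'))) < a :=
        (((continuous_qf Pc).comp b5b_cont).sqrt.const_mul _).continuousAt.eventually_lt
          continuousAt_const ha1
      have h4 : ∀ᶠ c' in 𝓝 c, a < γ * (g c' ⬝ᵥ g c') :=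
        continuousAt_const.eventually_lt (cg.const_mul _).continuousAt ha2
      filter_upwards [((h2.and h3).and h4).prod_mk (eventually_ge_atTop (0 : ℝ))] with z hz hzK
      have h5 := mul_nonneg hz.2 (nn (N z.1))
      refine ⟨by linarith [hz.1.1.2, hz.1.2], fun h hh => ?_⟩
      rcases le_total h H with h6 | h6
      · exact hz.1.1.1 h ⟨by linarith [hz.1.2], h6⟩
      · exact (hH _ hzK).2 h h6
    · have h1 : ∀ᶠ c' in 𝓝 c, N c ⬝ᵥ N c / 2 < N c' ⬝ᵥ N c' :=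
        continuousAt_const.eventually_lt cN.continuousAt (half_lt_self h0)
      filter_upwards [h1.prod_mk (eventually_ge_atTop (H / (N c ⬝ᵥ N c / 2)))] with z hz hzK
      have h2 : H ≤ z.2 * (N z.1 ⬝ᵥ N z.1) := by
        have h3 := (div_le_iff₀ (half_pos h0)).1 hz.2
        have h4 : 0 ≤ z.2 := le_trans (by positivity) hz.2
        exact h3.trans (mul_le_mul_of_nonneg_left hz.1.le h4)
      have h3 := mul_nonneg hγ0.le (nn (g z.1))
      exact ⟨by linarith [(hH _ hzK).1], fun h hh => (hH _ hzK).2 h (by linarith)⟩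
  obtain ⟨U, hU, W, hW, hUW⟩ := mem_prod_iff.1 key
  obtain ⟨M, hM⟩ := nonempty_of_mem hW
  have hψ : ∀ c, (γ • ψ₁ + M • ψ₂) ⬝ᵥ bb c = γ * (g c ⬝ᵥ g c) + M * (N c ⬝ᵥ N c) := fun c => by
    rw [add_dotProduct, smul_dotProduct, smul_dotProduct, h₁, h₂, smul_eq_mul, smul_eq_mul]
  refine ⟨γ • ψ₁ + M • ψ₂, ?_, fun b hb h0 => ?_⟩
  · have hNb : ∀ k, N (I.b k) = 0 := fun k => by
      ext p
      rw [hN, hgb]
      simp [Pi.single_apply]
    have := I.hΔ
    rw [b5b_emb] at this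
    calc _ = (γ • ψ₁ + M • ψ₂) ⬝ᵥ ∑ k, bb (I.b k) := congrArg _ this
      _ = _ := by
        rw [dotProduct_sum]
        simp [hψ, hgb, hNb, mul_comm]
  · have hn : 0 < ‖b‖ := norm_pos_iff.2 h0
    have hc : ‖b‖⁻¹ • b ∈ K := ⟨by simp [norm_smul, hn.ne'], fun i j => by simp [hb i j]⟩
    have h1 := hUW (Set.mk_mem_prod (subset_of_mem_nhdsSet hU hc) hM) hc
    simp only [← hψ] at h1
    have e1 : bb b = ‖b‖ ^ 2 • bb (‖b‖⁻¹ • b) := by
      rw [← b5b_bb_smul, smul_smul, mul_inv_cancel₀ hn.ne', one_smul]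
    have hs : 0 < ‖b‖ ^ 2 := by positivity
    generalize ‖b‖⁻¹ • b = c at *
    generalize ‖b‖ ^ 2 = s at *
    rw [e1, rel_smul, qf_smul, dotProduct_smul, smul_eq_mul, Real.sqrt_mul (sq_nonneg _),
      Real.sqrt_sq hs.le]
    refine ⟨?_, fun h hh => ?_⟩
    · have := mul_lt_mul_of_pos_left h1.1 hs
      nlinarith [mul_nonneg hs.le (Real.sqrt_nonneg (qf Pc (rel (bb c))))]
    · have h2 := h1.2 (h / s) ((le_div_iff₀' hs).2 hh)
      rw [← mul_div_cancel₀ h hs.ne', PP_smul Pc (I.hF.C_mul η)]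
      positivity

open Filter in
theorem Isol.exists_dat {Δ : X4 → ℝ} (I : Isol Δ) :
    ∃ (d : Dat) (h' : ℝ), d.ψ ⬝ᵥ Δ < h' ∧ d.P h' (rel Δ) < 0 := by
  obtain ⟨η₁, hη₁, H⟩ := I.exists_Pc
  have hd : (0 : ℝ) < I.d := by have := I.hd; positivity
  let G : ℝ → ℝ → ℝ := fun β h =>
    ∏ i ∈ Finset.range I.r, (h ^ 2 - ((i : ℝ) + 1) ^ 2 * ((I.d : ℝ) ^ 2 + β * I.d)) - η₁ / 2
  have h0 : G 0 (I.r * I.d) < 0 := by
    have hr := I.hr
    simp only [G]
    rw [Finset.prod_eq_zero (i := I.r - 1) (Finset.mem_range.2 (by omega))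
      (by rw [Nat.cast_sub hr]; push_cast; ring)]
    linarith
  have h1 : ∀ᶠ h in 𝓝 ((I.r : ℝ) * I.d), G 0 h < 0 :=
    (by simp only [G]; fun_prop : Continuous (G 0)).continuousAt.eventually_lt continuousAt_const h0
  obtain ⟨h', h2, h3⟩ := ((h1.filter_mono nhdsWithin_le_nhds).and
    (self_mem_nhdsWithin (s := Set.Ioi ((I.r : ℝ) * I.d)))).exists
  have h4 : ∀ᶠ β in 𝓝 (0 : ℝ), G β h' < 0 :=
    (by simp only [G]; fun_prop : Continuous fun β => G β h').continuousAt.eventually_lt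
      continuousAt_const h2
  have h5 : ∀ᶠ β in 𝓝 (0 : ℝ), (I.r : ℝ) * √(1 + β) < h' / I.d :=
    (by fun_prop : Continuous fun β : ℝ => (I.r : ℝ) * √(1 + β)).continuousAt.eventually_lt
      continuousAt_const (by simpa using (lt_div_iff₀ hd).2 h3)
  obtain ⟨β, ⟨h6, h7⟩, hβ⟩ := (((h4.and h5).filter_mono nhdsWithin_le_nhds).and
    (self_mem_nhdsWithin (s := Set.Ioi (0 : ℝ)))).exists
  obtain ⟨γ, hγ, hγ'⟩ := exists_between h7
  obtain ⟨Pc, hP, hPc, hs⟩ := H (η₁ / 2) β (half_pos hη₁) (half_lt_self hη₁) hβ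
  obtain ⟨ψ, hψ, hp⟩ := I.exists_psi (η₁ / 2) β γ hβ hγ Pc hP hPc
  refine ⟨⟨I.r, ψ, Pc, _, I.hr, I.hF.C_mul (η₁ / 2), hP, hs, hp⟩, h', ?_, ?_⟩
  · change ψ ⬝ᵥ Δ < h'
    rw [hψ]
    exact (lt_div_iff₀ hd).1 hγ'
  · have e : qf Pc (rel Δ) = (I.d : ℝ) ^ 2 + β * I.d := by
      have := hPc (idd I.d) fun k l => by simp only [idd, eq_comm]
      rw [← I.hΔ] at this
      rw [this]
      simp [idd]
    change PP I.r Pc _ h' (rel Δ) < 0
    rw [PP, MvPolynomial.aeval_eq_eval, map_mul, I.one, e, MvPolynomial.eval_C, mul_one]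
    exact h6

end Crest.Agent.R237
end
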