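import Crest.Agent.R237.B0b

set_option autoImplicit false
open scoped BigOperators Matrix Topology
open Crest.GeometryTopology

noncomputable section
namespace Crest.Agent.R237

/-! # B6a: generic vanishing, chain rule, factorisation.

* `generic_vanish`: with `N = totalDegree P` put
  `G = Σ_{j ≤ N} det(Mm (sy X))^(N-j) * aeval (rel (aG (sy X))) (homogeneousComponent j P) : MvPolynomial (Fin 8 × Fin 8 × Fin 8) ℚ`.
  At any real `t'` with `det ≠ 0`, `aeval t' G = det^N * aeval (rel (Gam (sy t'))) P` (`aG_eq`).  So `G = 0` by independence;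
  evaluate at `L/6` (`sy_div`); closure by continuity.
* `der_Gam`: `δ (M⁻¹) = - M⁻¹ (δ M) M⁻¹` entrywise from `M * M⁻¹ = 1`, Leibniz; compare with the expansion of
  `pr δ' (Aq i j) (Aq k l)` for `δ'` with top part `0`.
* `factor`: spectral theorem for the symmetric PSD `49 × 49` matrix `Δ ((i,j),(k,l))`, `b_k = √λ_k v_k` for `λ_k ≠ 0`. -/

theorem b6a_map {R : Type} [CommRing R] (f : R →+* ℝ) (t : C3 R) :
    f (Mm (sy t)).det = (Mm (sy fun a b c => f (t a b c))).det ∧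
      ∀ x, f (rel (aG (sy t)) x) = rel (aG (sy fun a b c => f (t a b c))) x := by
  have h0 : ∀ a b c, f (sy t a b c) = sy (fun a b c => f (t a b c)) a b c := fun a b c => by simp only [sy, map_add]
  have hM : f.mapMatrix (Mm (sy t)) = Mm (sy fun a b c => f (t a b c)) := by
    ext a b
    exact h0 0 a b
  have h1 : ∀ a b, f ((Mm (sy t)).adjugate a b) = (Mm (sy fun a b c => f (t a b c))).adjugate a b := fun a b => by
    rw [← hM, ← f.map_adjugate]
    rfl
  exact ⟨by rw [f.map_det, hM], fun x => by simp only [rel, aG, map_sub, map_sum, map_mul, h0, h1]⟩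

theorem generic_vanish (t : C3 ℝ)
    (ht : AlgebraicIndependent ℚ fun x : Fin 8 × Fin 8 × Fin 8 => t x.1 x.2.1 x.2.2)
    (hdet : (Mm (sy t)).det ≠ 0) (P : MvPolynomial X4 ℚ) (hP : MvPolynomial.aeval (rel (Gam (sy t))) P = 0) :
    ∀ R ∈ closure Img, MvPolynomial.aeval R P = 0 := by
  let X : C3 (MvPolynomial (Fin 8 × Fin 8 × Fin 8) ℚ) := fun a b c => MvPolynomial.X (a, b, c)
  obtain ⟨n, a, ha⟩ := IsLocalization.Away.surj (S := Localization.Away (Mm (sy X)).det) (Mm (sy X)).det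
    (MvPolynomial.aeval (fun x => algebraMap _ _ (rel (aG (sy X)) x) * IsLocalization.Away.invSelf (Mm (sy X)).det) P)
  have key : ∀ t' : C3 ℝ, (Mm (sy t')).det ≠ 0 → MvPolynomial.aeval (rel (Gam (sy t'))) P * (Mm (sy t')).det ^ n =
      MvPolynomial.aeval (fun x : Fin 8 × Fin 8 × Fin 8 => t' x.1 x.2.1 x.2.2) a := fun t' h => by
    let f : MvPolynomial (Fin 8 × Fin 8 × Fin 8) ℚ →+* ℝ :=
      (MvPolynomial.aeval fun x : Fin 8 × Fin 8 × Fin 8 => t' x.1 x.2.1 x.2.2).toRingHom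
    obtain ⟨h1, h2⟩ := b6a_map f X
    have h3 : (fun a b c => f (X a b c)) = t' := by
      funext a b c
      exact MvPolynomial.aeval_X _ _
    rw [h3] at h1 h2
    have hu : IsUnit (f (Mm (sy X)).det) := h1 ▸ h.isUnit
    let φ := IsLocalization.Away.lift (S := Localization.Away (Mm (sy X)).det) _ hu
    have h4 : ∀ y, φ (algebraMap _ _ y) = f y := IsLocalization.Away.lift_eq _ hu
    have h5 : φ (IsLocalization.Away.invSelf (Mm (sy X)).det) = (Mm (sy t')).det⁻¹ := by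
      refine eq_inv_of_mul_eq_one_right ?_
      rw [← h1, ← h4, ← map_mul, IsLocalization.Away.mul_invSelf, map_one]
    have h6 := congrArg φ ha
    rw [map_mul, map_pow, h4, h4, h1, ← φ.toRatAlgHom_apply, MvPolynomial.comp_aeval_apply] at h6
    refine Eq.trans ?_ h6
    congr 3
    funext x
    rw [RingHom.toRatAlgHom_apply, map_mul, h4, h5, h2, aG_eq h, rel_smul, Pi.smul_apply, smul_eq_mul,
      mul_div_cancel_left₀ _ h |>.symm.trans (div_eq_mul_inv _ _) |>.symm]
  have h0 : a = 0 := ht (by rw [← key t hdet, hP, zero_mul, map_zero])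
  refine closure_minimal (t := {R | MvPolynomial.aeval R P = 0}) ?_ (isClosed_eq ?_ continuous_const)
  · rintro _ ⟨L, hL, h, rfl⟩
    have := key (fun a b c => L a b c / 6) (by rwa [sy_div L hL])
    rw [sy_div L hL, h0, map_zero] at this
    exact (mul_eq_zero.1 this).resolve_right (pow_ne_zero _ h)
  · simp only [MvPolynomial.aeval_def, MvPolynomial.eval₂_eq_eval_map]
    exact MvPolynomial.continuous_eval _

theorem der_Gam (δ : Derivation ℚ ℝ ℝ) {D : Q4 ℝ} (hD : Sym4 D) (h : (Mm (D 0)).det ≠ 0) (x : X4) :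
    δ (Gam (D 0) x) = -dDel D (asm (fun a b c => δ (D 0 a b c)) 0) x := by
  obtain ⟨i, j, k, l⟩ := x
  have hs := hD.zero
  have hc : ∀ (k l : Fin 7) a, ∑ b, D 0 0 a b * lc D b k l = D 0 a k.succ l.succ := fun k l a => by
    have := congrFun (Matrix.mulVec_mulVec (fun b => D 0 b k.succ l.succ) (Mm (D 0)) (Mm (D 0))⁻¹) a
    rwa [Matrix.mul_nonsing_inv _ h.isUnit, Matrix.one_mulVec] at this
  have hG : Gam (D 0) (i, j, k, l) = ∑ a, D 0 a i.succ j.succ * lc D a k l := by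
    simp only [Gam, lc, Finset.mul_sum, mul_assoc]
  have h1 : ∀ a, ∑ b, D 0 0 a b * δ (lc D b k l) = δ (D 0 a k.succ l.succ) - ∑ b, lc D b k l * δ (D 0 0 a b) := fun a => by
    rw [← hc k l a, map_sum, eq_sub_iff_add_eq, ← Finset.sum_add_distrib]
    simp only [Derivation.leibniz, smul_eq_mul]
  have h2 : ∑ b, D 0 b i.succ j.succ * δ (lc D b k l) = ∑ a, lc D a i j * ∑ b, D 0 0 a b * δ (lc D b k l) := by
    simp only [← hc i j, Finset.sum_mul, Finset.mul_sum]
    rw [Finset.sum_comm]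
    exact Finset.sum_congr rfl fun a _ => Finset.sum_congr rfl fun b _ => by rw [(hs 0 a b).2]; ring
  have h3 : ∀ a, D 0 i.succ j.succ a = D 0 a i.succ j.succ := fun a => by rw [(hs _ _ _).2, (hs _ _ _).1]
  have h4 : ∀ a b, D 0 a 0 b = D 0 0 a b := fun a b => (hs _ _ _).1
  rw [hG, map_sum]
  simp only [Derivation.leibniz, smul_eq_mul, Finset.sum_add_distrib, h2, h1]
  simp only [dDel, pr, Aq, sub_mul, mul_sub, Finset.sum_sub_distrib, ite_and, ite_mul, mul_ite, zero_mul, mul_zero, one_mul,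
    mul_one, Finset.sum_ite_irrel, Finset.sum_const_zero, Finset.sum_ite_eq', Finset.mem_univ, if_true, asm,
    Fin.cases_succ, Fin.cases_zero, Pi.zero_apply, h3, h4, Finset.mul_sum, mul_assoc]
  ring

theorem b6a_psd {n : Type} [Fintype n] [DecidableEq n] {A : Matrix n n ℝ} (hA : A.PosSemidef) :
    ∃ (d : ℕ) (v : Fin d → n → ℝ), LinearIndependent ℝ v ∧ (∀ p q, A p q = ∑ k, v k p * v k q) ∧
      ∀ k, ∃ w, v k = A *ᵥ w := by
  let e := (Fintype.equivFin {k // hA.1.eigenvalues k ≠ 0}).symm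
  have hs : ∀ k : {k // hA.1.eigenvalues k ≠ 0}, √(hA.1.eigenvalues k) ≠ 0 := fun k =>
    (Real.sqrt_ne_zero (hA.eigenvalues_nonneg _)).2 k.2
  have hq : ∀ k, √(hA.1.eigenvalues k) * √(hA.1.eigenvalues k) = hA.1.eigenvalues k := fun k =>
    Real.mul_self_sqrt (hA.eigenvalues_nonneg _)
  refine ⟨_, fun k => √(hA.1.eigenvalues (e k)) • (hA.1.eigenvectorBasis (e k)).ofLp, ?_, fun p q => ?_, fun k => ?_⟩
  · have := ((hA.1.eigenvectorBasis.orthonormal.linearIndependent.map' (WithLp.linearEquiv 2 ℝ (n → ℝ)).toLinearMap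
      (LinearEquiv.ker _)).comp _ (Subtype.val_injective.comp e.injective)).units_smul fun k => Units.mk0 _ (hs (e k))
    exact this
  · rw [e.sum_comp fun k => (√(hA.1.eigenvalues k) • (hA.1.eigenvectorBasis k).ofLp) p *
      (√(hA.1.eigenvalues k) • (hA.1.eigenvectorBasis k).ofLp) q,
      ← Finset.sum_subtype (Finset.univ.filter fun k => hA.1.eigenvalues k ≠ 0) (by simp)
        fun k => (√(hA.1.eigenvalues k) • (hA.1.eigenvectorBasis k).ofLp) p *
          (√(hA.1.eigenvalues k) • (hA.1.eigenvectorBasis k).ofLp) q,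
      Finset.sum_filter_of_ne (p := fun k => hA.1.eigenvalues k ≠ 0) fun k _ h h' => h (by simp [h'])]
    conv_lhs => rw [hA.1.spectral_theorem, Unitary.conjStarAlgAut_apply, Matrix.mul_apply]
    refine Finset.sum_congr rfl fun k _ => ?_
    rw [Matrix.mul_diagonal, Pi.smul_apply, Pi.smul_apply, smul_eq_mul, smul_eq_mul, mul_mul_mul_comm, hq]
    simp [Matrix.star_apply, mul_comm, mul_left_comm, mul_assoc]
  · refine ⟨(√(hA.1.eigenvalues (e k)))⁻¹ • (hA.1.eigenvectorBasis (e k)).ofLp, ?_⟩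
    rw [Matrix.mulVec_smul, hA.1.mulVec_eigenvectorBasis, smul_smul, ← (eq_inv_mul_iff_mul_eq₀ (hs _)).2 (hq _)]

theorem factor (Δ : X4 → ℝ) (h1 : ∀ i j k l, Δ (i, j, k, l) = Δ (j, i, k, l))
    (h2 : ∀ i j k l, Δ (i, j, k, l) = Δ (k, l, i, j))
    (hp : ∀ q : Fin 7 → Fin 7 → ℝ, 0 ≤ ∑ i, ∑ j, ∑ k, ∑ l, q i j * q k l * Δ (i, j, k, l)) :
    ∃ (d : ℕ) (b : Fin d → Fin 7 → Fin 7 → ℝ), (∀ k i j, b k i j = b k j i) ∧ LinearIndependent ℝ b ∧
      Δ = emb b (idd d) := by
  obtain ⟨d, v, hv, h3, h4⟩ := b6a_psd (A := Matrix.of fun p q : Fin 7 × Fin 7 => Δ (p.1, p.2, q.1, q.2))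
    (.of_dotProduct_mulVec_nonneg (by ext p q; exact h2 _ _ _ _) fun x => (hp fun i j => x (i, j)).trans_eq (by
      simp only [dotProduct, Matrix.mulVec, Fintype.sum_prod_type, Matrix.of_apply, Finset.mul_sum, star_trivial,
        mul_assoc, mul_comm (Δ _)]))
  refine ⟨d, fun k i j => v k (i, j), fun k i j => ?_,
    hv.map' (LinearEquiv.curry ℝ ℝ (Fin 7) (Fin 7)).toLinearMap (LinearEquiv.ker _), funext fun x => ?_⟩
  · obtain ⟨w, hw⟩ := h4 k
    simp only [hw, Matrix.mulVec, dotProduct, Matrix.of_apply, h1 i j]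
  · simp only [emb, idd, ite_mul, one_mul, zero_mul, Finset.sum_ite_eq, Finset.mem_univ, if_true]
    exact h3 (x.1, x.2.1) x.2.2

end Crest.Agent.R237
end
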