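import Mathlib

set_option autoImplicit false
open scoped BigOperators Matrix Topology


noncomputable section
namespace Crest.Agent.R237

/-! # B6b: separating a reduced isolated point from the rest of a cone (Hadamard's lemma).

Pick `x₀` with `s₀ x₀ ≠ 0`, `λ = C (s₀ x₀)⁻¹ * X x₀`.  The gradients at `s₀` of `𝓟 ∪ {λ - 1}` have common kernel `0`, so they
span: for each `i` there is `g i` in the span of `𝓟 ∪ {λ - 1}` with gradient `e_i` at `s₀` (and `g i (s₀) = 0`).  Hadamard: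
every polynomial `g` is `C (g s₀) + Σ_j H j * (X j - C (s₀ j))` with `H j (s₀) = ∂_j g (s₀)` (`MvPolynomial.induction_on`).
`F₁ = det H` has value `1` at `s₀` and vanishes at every other common zero of the `g i`.  Homogenise with `λ`:
`F₂ = Σ_{j ≤ N} λ^(N-j) * homogeneousComponent j F₁`, `F = (λ F₂)²`, `r = N + 1`.  For `s` with `λ(s) ≠ 0` use `c = λ(s)⁻¹`. -/

open MvPolynomial in
theorem b6b_had {σ : Type} [Fintype σ] [DecidableEq σ] (s₀ : σ → ℝ) (g : MvPolynomial σ ℝ) :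
    ∃ H : σ → MvPolynomial σ ℝ, (∀ s, eval s g = eval s₀ g + ∑ j, eval s (H j) * (s j - s₀ j)) ∧
      ∀ j, eval s₀ (H j) = eval s₀ (pderiv j g) := by
  induction g using MvPolynomial.induction_on with
  | C a => exact ⟨0, by simp, by simp⟩
  | add p q hp hq =>
    obtain ⟨H, h1, h2⟩ := hp
    obtain ⟨H', h3, h4⟩ := hq
    refine ⟨H + H', fun s => ?_, fun j => by simp [h2, h4]⟩
    simp only [map_add, Pi.add_apply, add_mul, Finset.sum_add_distrib]
    rw [h1 s, h3 s]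
    ring
  | mul_X p i hp =>
    obtain ⟨H, h1, h2⟩ := hp
    refine ⟨fun j => H j * X i + if j = i then C (eval s₀ p) else 0, fun s => ?_, fun j => ?_⟩
    · simp only [map_add, map_mul, eval_X, add_mul, Finset.sum_add_distrib, apply_ite (eval s), eval_C, map_zero,
        ite_mul, zero_mul, Finset.sum_ite_eq', Finset.mem_univ, if_true]
      rw [h1 s, add_mul, Finset.sum_mul, Finset.sum_congr rfl fun j _ => mul_right_comm _ (s j - s₀ j) (s i)]
      ring
    · by_cases h : j = i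
      · subst h
        simp [h2, add_comm, mul_comm]
      · simp [h2, h, Ne.symm h, mul_comm]

open MvPolynomial in
theorem b6b_hom {σ : Type} {ℓ : MvPolynomial σ ℝ} (hℓ : ℓ.IsHomogeneous 1) (g : MvPolynomial σ ℝ) :
    ∃ (N : ℕ) (g' : MvPolynomial σ ℝ), g'.IsHomogeneous N ∧
      ∀ (s : σ → ℝ) (c : ℝ), c * eval s ℓ = 1 → eval s g' = eval s ℓ ^ N * eval (c • s) g := by
  induction g using MvPolynomial.induction_on with
  | C a => exact ⟨0, C a, isHomogeneous_C _ _, by simp⟩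
  | add p q hp hq =>
    obtain ⟨N, p', h1, h2⟩ := hp
    obtain ⟨M, q', h3, h4⟩ := hq
    refine ⟨N + M, p' * ℓ ^ M + ℓ ^ N * q', ?_, fun s c hc => ?_⟩
    · exact (h1.mul (by simpa using hℓ.pow M)).add (IsHomogeneous.mul (by simpa using hℓ.pow N) h3)
    · simp only [map_add, map_mul, map_pow, h2 s c hc, h4 s c hc]
      ring
  | mul_X p i hp =>
    obtain ⟨N, p', h1, h2⟩ := hp
    refine ⟨N + 1, p' * X i, h1.mul (isHomogeneous_X _ _), fun s c hc => ?_⟩
    simp only [map_mul, eval_X, h2 s c hc, Pi.smul_apply, smul_eq_mul]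
    linear_combination (-eval s ℓ ^ N * eval (c • s) p * s i) * hc

open MvPolynomial in
theorem b6b_span {σ : Type} [Fintype σ] [DecidableEq σ] (s₀ : σ → ℝ) (𝓠 : Set (MvPolynomial σ ℝ))
    (hk : ∀ v : σ → ℝ, (∀ P ∈ 𝓠, ∑ x, eval s₀ (pderiv x P) * v x = 0) → v = 0) (i : σ) :
    ∃ g : MvPolynomial σ ℝ, (∀ s, (∀ P ∈ 𝓠, eval s P = 0) → eval s g = 0) ∧
      ∀ j, eval s₀ (pderiv j g) = if i = j then 1 else 0 := by
  let gr : MvPolynomial σ ℝ →ₗ[ℝ] σ → ℝ :=
    LinearMap.pi fun x => (aeval s₀ : MvPolynomial σ ℝ →ₐ[ℝ] ℝ).toLinearMap ∘ₗ (pderiv x).toLinearMap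
  have hgr : ∀ g x, gr g x = eval s₀ (pderiv x g) := fun g x => rfl
  have htop : (Submodule.span ℝ 𝓠).map gr = ⊤ := by
    by_contra hne
    obtain ⟨f, hf, hle⟩ := Submodule.exists_le_ker_of_lt_top _ (lt_top_iff_ne_top.2 hne)
    have hv := hk (fun x => f fun j => if x = j then 1 else 0) fun P hP => by
      have : f (gr P) = 0 := hle (Submodule.mem_map_of_mem (Submodule.subset_span hP))
      rwa [f.pi_apply_eq_sum_univ] at this
    refine hf (LinearMap.ext fun w => ?_)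
    rw [f.pi_apply_eq_sum_univ]
    exact Finset.sum_eq_zero fun x _ => by rw [show (f fun j => if x = j then 1 else 0) = 0 from congrFun hv x, smul_zero]
  obtain ⟨g, hg, e⟩ : (fun j => if i = j then 1 else 0) ∈ (Submodule.span ℝ 𝓠).map gr := htop ▸ Submodule.mem_top
  refine ⟨g, fun s hs => ?_, fun j => congrFun e j⟩
  exact (Submodule.span_le (p := LinearMap.ker (aeval s : MvPolynomial σ ℝ →ₐ[ℝ] ℝ).toLinearMap)).2 hs hg

theorem hadamard {σ : Type} [Fintype σ] [DecidableEq σ] (s₀ : σ → ℝ) (h0 : s₀ ≠ 0) (𝓟 : Set (MvPolynomial σ ℝ))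
    (hz : ∀ P ∈ 𝓟, MvPolynomial.eval s₀ P = 0)
    (hk : ∀ v : σ → ℝ, (∀ P ∈ 𝓟, ∑ x, MvPolynomial.eval s₀ (MvPolynomial.pderiv x P) * v x = 0) → ∃ c : ℝ, v = c • s₀) :
    ∃ r : ℕ, 1 ≤ r ∧ ∃ F : MvPolynomial σ ℝ, F.IsHomogeneous (2 * r) ∧ MvPolynomial.eval s₀ F = 1 ∧
      ∀ s : σ → ℝ, (∀ c : ℝ, c ≠ 0 → ∀ P ∈ 𝓟, MvPolynomial.eval (c • s) P = 0) → (∀ c : ℝ, s ≠ c • s₀) →
        MvPolynomial.eval s F = 0 := by
  obtain ⟨x₀, hx⟩ : ∃ x, s₀ x ≠ 0 := Function.ne_iff.1 h0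
  choose g hg1 hg2 using b6b_span s₀ (insert (MvPolynomial.X x₀ - MvPolynomial.C (s₀ x₀)) 𝓟) fun v hv => by
    obtain ⟨c, rfl⟩ := hk v fun P hP => hv P (Set.mem_insert_of_mem _ hP)
    have := hv _ (Set.mem_insert _ _)
    simp [MvPolynomial.pderiv_X, Pi.single_apply, apply_ite (MvPolynomial.eval s₀), hx] at this
    rw [this, zero_smul]
  choose H h1 h2 using fun i => b6b_had s₀ (g i)
  have hdet : ∀ s, MvPolynomial.eval s (Matrix.of H).det = (Matrix.of fun i j => MvPolynomial.eval s (H i j)).det :=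
    fun s => RingHom.map_det _ _
  have hℓ : (MvPolynomial.C (s₀ x₀)⁻¹ * MvPolynomial.X x₀ : MvPolynomial σ ℝ).IsHomogeneous 1 :=
    (MvPolynomial.isHomogeneous_X _ _).C_mul _
  obtain ⟨N, F, h3, h4⟩ := b6b_hom hℓ (Matrix.of H).det
  refine ⟨1 + N, by omega, (MvPolynomial.C (s₀ x₀)⁻¹ * MvPolynomial.X x₀ * F) ^ 2,
    mul_comm 2 (1 + N) ▸ (hℓ.mul h3).pow 2, ?_, fun s hs hne => ?_⟩
  · have e : (Matrix.of fun i j => MvPolynomial.eval s₀ (H i j)) = 1 := by
      ext i j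
      rw [Matrix.of_apply, h2, hg2, Matrix.one_apply]
    rw [map_pow, map_mul, h4 s₀ 1 (by simp [hx]), one_smul, hdet, e]
    simp [hx]
  by_cases hs0 : s x₀ = 0
  · simp [hs0]
  have hc : s₀ x₀ / s x₀ ≠ 0 := div_ne_zero hx hs0
  rw [map_pow, map_mul, h4 s (s₀ x₀ / s x₀) (by simp only [map_mul, MvPolynomial.eval_C, MvPolynomial.eval_X]; field_simp),
    hdet, Matrix.exists_mulVec_eq_zero_iff.1
    ⟨(s₀ x₀ / s x₀) • s - s₀, fun e => hne (s₀ x₀ / s x₀)⁻¹ ((eq_inv_smul_iff₀ hc).2 (sub_eq_zero.1 e)), ?_⟩]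
  · simp
  · funext i
    have e1 := hg1 i ((s₀ x₀ / s x₀) • s) fun P hP => by
      rcases hP with rfl | hP
      · simp [hs0]
      · exact hs _ hc P hP
    have e2 := hg1 i s₀ fun P hP => by
      rcases hP with rfl | hP
      · simp
      · exact hz P hP
    have e3 := h1 i ((s₀ x₀ / s x₀) • s)
    rw [e1, e2, zero_add] at e3
    exact e3.symm

end Crest.Agent.R237
end
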