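import Crest.Agent.R237.B4a
import Crest.Agent.R237.B6a
import Crest.Agent.R237.B6b

set_option autoImplicit false
open scoped BigOperators Matrix Topology
open Crest.GeometryTopology

noncomputable section
namespace Crest.Agent.R237

/-! # B6c: the isolated point.

Take `t ∈ O` algebraically independent over `ℚ` (`exists_generic`, transported along currying), `D` good with `D 0 = sy t`,
`Δ = Del D = emb b (idd d)` (`factor`, `Del_psd`, `Del_swap`), `d ≥ 2` by `Good.rk`, `R₀ = rel (Gam (D 0)) = - rel Δ`.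
`R₀ ≠ 0`: otherwise `generic_vanish` for `P = X x` gives `rel (bb idm) = 0` (`rel_bb_mem`, `rel_bb_idm_ne`).
`key`: if `dDel D δ = emb b S` for a symmetric `δ` then `S = c • idd d` (`Tr`: a `q` killing `Δ` is orthogonal to every `b k` by
independence, so kills `emb b S`; `emb b` is injective).  `inj`: `δ = asm 0 (emb b S)` (`symT_of_rel`, `dDel_top`), then
`c • rel Δ = 0`.  `𝓟` = images of the rational `P` with `P(R₀) = 0`, together with the linear polynomials vanishing on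
`Λ = {rel (emb b S) | S symmetric}`.  A vector `v` in the common kernel lies in `Λ`, `v = rel (emb b S)`; `exists_der` gives
`δ` with `δ (R₀ x) = v x`; `Γ' = δ ∘ Gam (D 0)` has `rel Γ' = v`, and `der_Gam` shows
`dDel D (asm (-δ L) (emb b S - Γ')) = emb b S`.  Apply `hadamard` at `s₀ = R₀`; `F` has even degree. -/

section Aux
variable {d : ℕ} {b : Fin d → Fin 7 → Fin 7 → ℝ}

theorem b6c_add (S S' : Fin d → Fin d → ℝ) : emb b (S + S') = emb b S + emb b S' := by
  funext x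
  simp only [emb, Pi.add_apply, add_mul, Finset.sum_add_distrib]

theorem b6c_smul (c : ℝ) (S : Fin d → Fin d → ℝ) : emb b (c • S) = c • emb b S := by
  funext x
  simp only [emb, Pi.smul_apply, smul_eq_mul, Finset.mul_sum, mul_assoc]

theorem b6c_li (li : LinearIndependent ℝ b) {g : Fin d → ℝ} (h : ∀ i j, ∑ k, g k * b k i j = 0) (k : Fin d) :
    g k = 0 :=
  Fintype.linearIndependent_iff.1 li g (by
    funext i j
    simpa [Finset.sum_apply] using h i j) k

theorem b6c_inj (li : LinearIndependent ℝ b) {S : Fin d → Fin d → ℝ} (h : emb b S = 0) : S = 0 := by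
  funext k l
  refine b6c_li li (g := fun l => S k l) (fun i' j' => ?_) l
  refine b6c_li li (g := fun k => ∑ l, S k l * b l i' j') (fun i j => ?_) k
  have := congrFun h (i, j, i', j')
  simp only [emb, Pi.zero_apply] at this
  rw [← this]
  refine Finset.sum_congr rfl fun k _ => ?_
  rw [Finset.sum_mul]
  exact Finset.sum_congr rfl fun l _ => by ring

theorem b6c_swap (hb : ∀ k i j, b k i j = b k j i) {S : Fin d → Fin d → ℝ} (hS : ∀ k l, S k l = S l k)
    (i j k l : Fin 7) : emb b S (i, j, k, l) = emb b S (j, i, k, l) ∧ emb b S (i, j, k, l) = emb b S (k, l, i, j) := by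
  simp only [emb]
  refine ⟨by simp only [hb _ i j], ?_⟩
  rw [Finset.sum_comm]
  exact Finset.sum_congr rfl fun m _ => Finset.sum_congr rfl fun n _ => by rw [hS n m]; ring

theorem b6c_contr (S : Fin d → Fin d → ℝ) (q : Fin 7 → Fin 7 → ℝ) (k l : Fin 7) :
    ∑ i, ∑ j, q i j * emb b S (i, j, k, l) = ∑ m, (∑ i, ∑ j, q i j * b m i j) * ∑ n, S m n * b n k l := by
  simp only [emb, Finset.mul_sum, Finset.sum_mul]
  calc ∑ i, ∑ j, ∑ m, ∑ n, q i j * (S m n * b m i j * b n k l)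
      = ∑ i, ∑ m, ∑ n, ∑ j, q i j * (S m n * b m i j * b n k l) :=
        Finset.sum_congr rfl fun i _ => Finset.sum_comm.trans (Finset.sum_congr rfl fun m _ => Finset.sum_comm)
    _ = ∑ m, ∑ n, ∑ i, ∑ j, q i j * (S m n * b m i j * b n k l) :=
        Finset.sum_comm.trans (Finset.sum_congr rfl fun m _ => Finset.sum_comm)
    _ = _ := Finset.sum_congr rfl fun m _ => Finset.sum_congr rfl fun n _ => Finset.sum_congr rfl fun i _ =>
        Finset.sum_congr rfl fun j _ => by ring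

theorem b6c_key {D : Q4 ℝ} (hD : Good D) (li : LinearIndependent ℝ b) (hΔ : Del D = emb b (idd d)) {δ : Q4 ℝ}
    (hδ : Sym4 δ) {S : Fin d → Fin d → ℝ} (h : dDel D δ = emb b S) : ∃ c : ℝ, S = c • idd d := by
  obtain ⟨c, hc⟩ := hD.tr δ hδ fun q hq k l => by
    have h1 : ∀ m, ∑ i, ∑ j, q i j * b m i j = 0 := b6c_li li fun k l => by
      have := hq k l
      rw [hΔ, b6c_contr] at this
      simpa [idd] using this
    rw [h, b6c_contr]
    simp only [h1, zero_mul, Finset.sum_const_zero]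
  refine ⟨c, sub_eq_zero.1 (b6c_inj li ?_)⟩
  rw [sub_eq_add_neg, ← neg_smul, b6c_add, b6c_smul, ← h, hc, hΔ, neg_smul, add_neg_cancel]

theorem b6c_two {Δ : X4 → ℝ} (h : ¬ ∃ b, Δ = bb b) (hΔ : Δ = emb b (idd d)) : 2 ≤ d := by
  by_contra hd
  refine h ?_
  obtain rfl | rfl : d = 0 ∨ d = 1 := by omega
  · exact ⟨0, by rw [hΔ]; funext x; simp [emb, bb]⟩
  · exact ⟨b 0, by rw [hΔ]; funext x; simp [emb, bb, idd]⟩

theorem b6c_idd (k l : Fin d) : idd d k l = idd d l k := by simp only [idd, eq_comm]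

/-- the subspace `Λ` -/
def b6c_La (b : Fin d → Fin 7 → Fin 7 → ℝ) : Submodule ℝ (X4 → ℝ) where
  carrier := {v | ∃ S : Fin d → Fin d → ℝ, (∀ k l, S k l = S l k) ∧ v = rel (emb b S)}
  zero_mem' := ⟨0, fun _ _ => rfl, by funext x; simp [rel, emb]⟩
  add_mem' := by
    rintro _ _ ⟨S, h, rfl⟩ ⟨S', h', rfl⟩
    exact ⟨S + S', fun k l => by simp only [Pi.add_apply, h k l, h' k l], by rw [b6c_add, rel_add]⟩
  smul_mem' := by
    rintro c _ ⟨S, h, rfl⟩
    exact ⟨c • S, fun k l => by simp only [Pi.smul_apply, h k l], by rw [b6c_smul, rel_smul]⟩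

end Aux

/-- the polynomial of a linear form -/
def b6c_lp {σ : Type} [Fintype σ] [DecidableEq σ] (f : (σ → ℝ) →ₗ[ℝ] ℝ) : MvPolynomial σ ℝ :=
  ∑ x, MvPolynomial.C (f (Pi.single x 1)) * MvPolynomial.X x

theorem b6c_lin {σ : Type} [Fintype σ] [DecidableEq σ] (f : (σ → ℝ) →ₗ[ℝ] ℝ) (s : σ → ℝ) :
    ∑ x, f (Pi.single x 1) * s x = f s := by
  conv_rhs => rw [pi_eq_sum_univ' s, map_sum]
  exact Finset.sum_congr rfl fun x _ => by rw [map_smul, smul_eq_mul, mul_comm]

theorem b6c_lp_eval {σ : Type} [Fintype σ] [DecidableEq σ] (f : (σ → ℝ) →ₗ[ℝ] ℝ) (s : σ → ℝ) :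
    MvPolynomial.eval s (b6c_lp f) = f s := by
  simp only [b6c_lp, map_sum, map_mul, MvPolynomial.eval_C, MvPolynomial.eval_X, b6c_lin]

theorem b6c_lp_der {σ : Type} [Fintype σ] [DecidableEq σ] (f : (σ → ℝ) →ₗ[ℝ] ℝ) (x : σ) :
    MvPolynomial.pderiv x (b6c_lp f) = MvPolynomial.C (f (Pi.single x 1)) := by
  simp only [b6c_lp, map_sum, MvPolynomial.pderiv_C_mul, MvPolynomial.pderiv_X]
  rw [Finset.sum_eq_single x (fun y _ hy => by rw [Pi.single_eq_of_ne hy, mul_zero]) (by simp), Pi.single_eq_same,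
    mul_one]

theorem b6c_neg {σ : Type} {F : MvPolynomial σ ℝ} {r : ℕ} (hF : F.IsHomogeneous (2 * r)) (s : σ → ℝ) :
    MvPolynomial.eval (-s) F = MvPolynomial.eval s F := by
  rw [MvPolynomial.eval_eq, MvPolynomial.eval_eq]
  refine Finset.sum_congr rfl fun m hm => ?_
  have h : ∑ i ∈ m.support, m i = 2 * r := by
    rw [← hF (MvPolynomial.mem_support_iff.1 hm)]
    simp [Finsupp.weight_apply, Finsupp.sum]
  simp only [Pi.neg_apply, neg_pow (s _), Finset.prod_mul_distrib, Finset.prod_pow_eq_pow_sum, h, pow_mul]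
  simp

theorem b6c_map (P : MvPolynomial X4 ℚ) (s : X4 → ℝ) :
    MvPolynomial.eval s (MvPolynomial.map (algebraMap ℚ ℝ) P) = MvPolynomial.aeval s P := by
  rw [MvPolynomial.eval_map, MvPolynomial.aeval_def]

theorem exists_isol (O : Set (C3 ℝ)) (hO : IsOpen O) (hne : O.Nonempty)
    (h : ∀ t ∈ O, ∃ D : Q4 ℝ, Good D ∧ D 0 = sy t) : ∃ D : Q4 ℝ, Good D ∧ Nonempty (Isol (Del D)) := by
  obtain ⟨t', ht', hg⟩ := exists_generic ℚ (ι := Fin 8 × Fin 8 × Fin 8)
    ((fun (u : Fin 8 × Fin 8 × Fin 8 → ℝ) a b c => u (a, b, c)) ⁻¹' O) (hO.preimage (by fun_prop))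
    (hne.elim fun t ht => ⟨fun x => t x.1 x.2.1 x.2.2, ht⟩)
  obtain ⟨D, hD, hD0⟩ := h _ ht'
  have hdet : (Mm (D 0)).det ≠ 0 := hD.pdM.det_pos.ne'
  have hvan : ∀ P : MvPolynomial X4 ℚ, MvPolynomial.aeval (rel (Gam (D 0))) P = 0 →
      ∀ R ∈ closure Img, MvPolynomial.aeval R P = 0 := by
    rw [hD0] at hdet ⊢
    exact generic_vanish _ hg hdet
  obtain ⟨d, b, hb, li, hΔ⟩ := factor (Del D) (fun i j k l => (Del_swap hD.sym i j k l).1)
    (fun i j k l => (Del_swap hD.sym i j k l).2) (Del_psd hD.sym hdet hD.psd)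
  set R₀ := rel (Gam (D 0)) with hR₀
  have hR : rel (Del D) = -R₀ := rel_Del hD.sym
  have hR0 : R₀ ≠ 0 := fun h0 => rel_bb_idm_ne (funext fun x => by
    have := hvan (MvPolynomial.X x) (by rw [h0]; simp) _ (rel_bb_mem idm fun i j => by simp only [idm, eq_comm])
    simpa using this)
  have hrel : ∀ c : ℝ, rel (emb b (c • idd d)) = (-c) • R₀ := fun c => by
    rw [b6c_smul, rel_smul, ← hΔ, hR, smul_neg, neg_smul]
  have hinj : ∀ S : Fin d → Fin d → ℝ, (∀ k l, S k l = S l k) → rel (emb b S) = 0 → S = 0 := fun S hS h0 => by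
    obtain ⟨c, rfl⟩ := b6c_key hD li hΔ (sym4_asm (L := 0) (fun _ _ _ => ⟨rfl, rfl⟩) (symT_of_rel
      (fun i j k l => (b6c_swap hb hS i j k l).1) (fun i j k l => (b6c_swap hb hS i j k l).2) h0)) (dDel_top D _)
    rw [hrel, smul_eq_zero, neg_eq_zero] at h0
    rw [h0.resolve_right hR0, zero_smul]
  have hmem : R₀ ∈ b6c_La b :=
    ⟨(-1 : ℝ) • idd d, fun k l => by simp only [Pi.smul_apply, b6c_idd k l], by rw [hrel, neg_neg, one_smul]⟩
  obtain ⟨r, hr, F, hF, hF1, hFv⟩ := hadamard R₀ hR0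
    ({P | ∃ Q : MvPolynomial X4 ℚ, MvPolynomial.aeval R₀ Q = 0 ∧ P = MvPolynomial.map (algebraMap ℚ ℝ) Q} ∪
      {P | ∃ f : (X4 → ℝ) →ₗ[ℝ] ℝ, b6c_La b ≤ LinearMap.ker f ∧ P = b6c_lp f}) (by
      rintro _ (⟨Q, hQ, rfl⟩ | ⟨f, hf, rfl⟩)
      · rw [b6c_map, hQ]
      · rw [b6c_lp_eval]
        exact hf hmem) (by
      intro v hv
      have h1 : v ∈ b6c_La b := by
        by_contra h1
        obtain ⟨f, h2, h3⟩ := Submodule.exists_le_ker_of_notMem h1
        have := hv _ (Or.inr ⟨f, h3, rfl⟩)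
        simp only [b6c_lp_der, MvPolynomial.eval_C, b6c_lin] at this
        exact h2 this
      obtain ⟨S, hS, rfl⟩ := h1
      obtain ⟨δ, hδ⟩ := exists_der R₀ (rel (emb b S)) fun Q hQ => by
        have := hv _ (Or.inl ⟨Q, hQ, rfl⟩)
        simpa only [MvPolynomial.pderiv_map, b6c_map] using this
      set Γ' : X4 → ℝ := fun x => δ (Gam (D 0) x) with hΓ'
      set L' : C3 ℝ := fun a b c => δ (D 0 a b c) with hL'
      have h2 : rel Γ' = rel (emb b S) := funext fun x => by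
        rw [← hδ x, hR₀, rel, rel, map_sub]
      have h3 : SymT (emb b S - Γ') := symT_of_rel
        (fun i j k l => by simp only [Pi.sub_apply, hΓ', (b6c_swap hb hS i j k l).1, (Gam_swap hD.sym.zero i j k l).1])
        (fun i j k l => by simp only [Pi.sub_apply, hΓ', (b6c_swap hb hS i j k l).2, (Gam_swap hD.sym.zero i j k l).2])
        (by rw [rel_sub, h2, sub_self])
      have h4 : Sym3 ((-1 : ℝ) • L') := fun a b c => by
        simp only [Pi.smul_apply, hL']
        exact ⟨by rw [(hD.sym.zero a b c).1], by rw [(hD.sym.zero a b c).2]⟩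
      have h5 : asm ((-1 : ℝ) • L') (emb b S - Γ') = (-1 : ℝ) • asm L' 0 + asm 0 (emb b S - Γ') := by
        rw [← asm_smul, ← asm_add, add_zero, smul_zero, zero_add]
      obtain ⟨c, rfl⟩ := b6c_key hD li hΔ (S := S) (sym4_asm h4 h3) (by
        rw [h5, dDel_add, dDel_smul, dDel_top]
        funext x
        have := der_Gam δ hD.sym hdet x
        simp only [Pi.add_apply, Pi.smul_apply, Pi.sub_apply, smul_eq_mul, hΓ', this]
        ring)
      exact ⟨-c, hrel c⟩)
  refine ⟨D, hD, ⟨⟨d, b6c_two hD.rk hΔ, b, hb, li, hΔ, hinj, r, hr, F, hF, by rw [hR, b6c_neg hF, hF1],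
    fun S hS h1 h2 => hFv _ ?_ fun c hc => h2 (-c) ?_⟩⟩⟩
  · rintro c hc _ (⟨Q, hQ, rfl⟩ | ⟨f, hf, rfl⟩)
    · rw [b6c_map]
      exact hvan Q hQ _ (closure_Img_smul h1 c hc)
    · rw [b6c_lp_eval]
      exact hf ((b6c_La b).smul_mem c ⟨S, hS, rfl⟩)
  · have := hinj (S + c • idd d) (fun k l => by simp only [Pi.add_apply, Pi.smul_apply, hS k l, b6c_idd k l])
      (by rw [b6c_add, rel_add, hrel, hc, neg_smul, add_neg_cancel])
    rw [neg_smul]
    exact eq_neg_of_add_eq_zero_left this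

end Crest.Agent.R237
end
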