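import Crest.Agent.R237.B0b

set_option autoImplicit false
open scoped BigOperators Matrix Topology
open Crest.GeometryTopology

noncomputable section
namespace Crest.Agent.R237

/-! # B7a: algebra of the rank condition.

* `jD_orth`: `pr D (c i) (jD a) = B - A A⁻¹ B = 0`, `pr D (j b) (jD a) = Phi b a = 0`; every `q` is, up to symmetrisation,
  `Σ_i ev q (p i) • c i + Σ β k • j k` (`spanj`, `hc`), use `pr_congr`.
* `psd_of`: rewrite `q` as `Σ α i • c i + Σ β k • jD k`; `pr D q q = α ⬝ A α`.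
* `rk_of`: if `Del D = bb b`, choose `α ≠ 0` in `ℝ^18` satisfying the 9 linear conditions `pr D (lin e_v) q = 0`,
  `Σ q i' j' b i j = 0` for `q = Σ α i • c i`; with `exists_lin`, `ℓ = 0` and `pr D q q = (Σ q b)² = 0`, against `A > 0`.
* `triv`: `pr (dv D v) q q' = pr D (x₀ ∂_v q) q' + pr D q (x₀ ∂_v q')` with `x₀ ∂_v q = lin (fun b => q v b + q b v)`.
* `tr_of`: for `J a ∈ ker`, `exists_lin` gives `J a ≡ lin ℓ + Σ q A`, `ℓ = 0` (orthogonality, `M` invertible), and `q` kills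
  `Del D`; so the hypothesis of `Tr` gives `pr δ (J a) (Aq k l) = 0`; `dDel D (dv D v) = 0`, `dDel D D = Del D`. -/

theorem b7_pr0 (C : Conf) (q q' : Q2) : pr C.D0 q q' = ∑ r, ev q (C.p r) * ev q' (C.p r) := by
  simp only [Conf.D0, pr_sum_left, pr_dirac]

theorem b7_ev_sub (q q' : Q2) (x : Fin 8 → ℝ) : ev (q - q') x = ev q x - ev q' x := by
  simp only [ev, Pi.sub_apply, sub_mul, Finset.sum_sub_distrib]

theorem b7_ev_sum {ι : Type} (s : Finset ι) (α : ι → ℝ) (q : ι → Q2) (x : Fin 8 → ℝ) :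
    ev (∑ i ∈ s, α i • q i) x = ∑ i ∈ s, α i * ev (q i) x := by
  simp only [ev, Finset.sum_apply, Pi.smul_apply, smul_eq_mul, Finset.sum_mul, Finset.mul_sum, mul_assoc]
  rw [Finset.sum_congr rfl fun a _ => Finset.sum_comm, Finset.sum_comm]

theorem b7_dec (C : Conf) (q : Q2) : ∃ α β : Fin 18 → ℝ, ∀ D : Q4 ℝ, Sym4 D → ∀ q',
    pr D q q' = ∑ i, α i * pr D (C.c i) q' + ∑ k, β k * pr D (C.j k) q' := by
  obtain ⟨β, hβ⟩ := C.spanj (q - ∑ i, ev q (C.p i) • C.c i) fun r => by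
    simp [b7_ev_sub, b7_ev_sum, C.hc]
  refine ⟨fun i => ev q (C.p i), β, fun D hD q' => ?_⟩
  have h := pr_congr hD (q₁ := q - ∑ i, ev q (C.p i) • C.c i) (q₂ := ∑ k, β k • C.j k) (fun a b => by
    rw [hβ]
    simp only [Finset.sum_apply, Pi.smul_apply, smul_eq_mul, mul_add, Finset.sum_add_distrib]) q'
  simp only [pr_sub_mid, pr_sum_mid, pr_smul_mid] at h
  linarith

theorem b7_cc (C : Conf) (D : Q4 ℝ) (α : Fin 18 → ℝ) :
    pr D (∑ i, α i • C.c i) (∑ i, α i • C.c i) = star α ⬝ᵥ C.Am D *ᵥ α := by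
  rw [pr_sum_mid]
  refine Finset.sum_congr rfl fun i _ => ?_
  rw [pr_smul_mid]
  simp only [pr_sum_right, pr_smul_right, star_trivial, dotProduct, Matrix.mulVec, Conf.Am, Matrix.of_apply, mul_comm]

theorem b7_lin (ℓ : Fin 8 → ℝ) : lin ℓ = ∑ v, ℓ v • lin (Pi.single v 1) := by
  funext a b
  by_cases h : a = 0 <;> simp [lin, h, Finset.sum_apply, Pi.single_apply]

theorem b7_lin_zero : lin 0 = 0 := by
  funext a b
  simp [lin]

theorem b7_QA (D δ : Q4 ℝ) (q : Fin 7 → Fin 7 → ℝ) (k l : Fin 7) :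
    pr δ (∑ i, ∑ j, q i j • Aq D i j) (Aq D k l) = ∑ i, ∑ j, q i j * dDel D δ (i, j, k, l) := by
  simp only [pr_sum_mid, pr_smul_mid, dDel]

theorem b7_linQ {D : Q4 ℝ} (hD : Sym4 D) (hM : (Mm (D 0)).det ≠ 0) (ℓ : Fin 8 → ℝ) (q : Fin 7 → Fin 7 → ℝ) :
    pr D (lin ℓ) (∑ i, ∑ j, q i j • Aq D i j) = 0 := by
  simp only [pr_sum_right, pr_smul_right, pr_lin_Aq hD hM, mul_zero, Finset.sum_const_zero]

theorem b7_lin_left (D : Q4 ℝ) (f : Fin 8 → ℝ) (q' : Q2) :
    pr D (lin f) q' = ∑ b, ∑ c, ∑ d, f b * q' c d * D 0 b c d := by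
  rw [pr, Finset.sum_eq_single 0]
  · simp only [lin, if_true]
  · intro a _ ha
    simp only [lin, if_neg ha, zero_mul, Finset.sum_const_zero]
  · simp

theorem b7_dv1 (D : Q4 ℝ) (v : Fin 8) (q q' : Q2) :
    pr (fun a b c d => if a = v then D 0 b c d else 0) q q' = pr D (lin fun b => q v b) q' := by
  rw [b7_lin_left, pr, Finset.sum_eq_single v]
  · simp only [if_true]
  · intro a _ ha
    simp only [if_neg ha, mul_zero, Finset.sum_const_zero]
  · simp

theorem b7_swap1 (D : Q4 ℝ) (q q' : Q2) : pr D q q' = pr (fun a b c d => D b a c d) (fun a b => q b a) q' := by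
  rw [pr, pr, Finset.sum_comm]

theorem b7_swap2 (D : Q4 ℝ) (q q' : Q2) : pr D q q' = pr (fun a b c d => D c d a b) q' q := by
  have h := Finset.sum_comm (s := Finset.univ) (t := Finset.univ)
    (f := fun p r : Fin 8 × Fin 8 => q p.1 p.2 * q' r.1 r.2 * D p.1 p.2 r.1 r.2)
  simp only [Fintype.sum_prod_type] at h
  rw [pr, h, pr]
  simp only [mul_comm (q _ _)]

theorem b7_lin_add (f g : Fin 8 → ℝ) : (lin fun b => f b + g b) = lin f + lin g := by
  funext a b
  by_cases h : a = 0 <;> simp [lin, h]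

theorem Conf.sym0 (C : Conf) : Sym4 C.D0 := by
  exact Sym4.sum _ _ fun r _ => sym4_dirac _
theorem Conf.Am0 (C : Conf) : C.Am C.D0 = 1 := by
  ext i i'
  simp [Conf.Am, b7_pr0, C.hc, Matrix.one_apply]
theorem Conf.Bm0 (C : Conf) : C.Bm C.D0 = 0 := by
  ext i i'
  simp [Conf.Bm, b7_pr0, C.hj]
theorem Conf.Em0 (C : Conf) : C.Em C.D0 = 0 := by
  ext i i'
  simp [Conf.Em, b7_pr0, C.hj]
theorem Conf.Mm0 (C : Conf) : (Mm (C.D0 0)).PosDef := by
  refine Matrix.PosDef.of_dotProduct_mulVec_pos (Matrix.isHermitian_iff_isSymm.2 C.sym0.zero.isSymm) fun x hx => ?_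
  have h : star x ⬝ᵥ Mm (C.D0 0) *ᵥ x = ∑ r, (C.p r ⬝ᵥ x) ^ 2 := by
    simp only [star_trivial, dotProduct, Matrix.mulVec, Mm, Matrix.of_apply, Conf.D0, Finset.sum_apply, dirac, C.p0,
      one_mul, sq, Finset.sum_mul, Finset.mul_sum]
    rw [Finset.sum_congr rfl fun a _ => Finset.sum_comm, Finset.sum_comm]
    refine Finset.sum_congr rfl fun r _ => Finset.sum_congr rfl fun a _ => Finset.sum_congr rfl fun b _ => by ring
  rw [h]
  obtain ⟨r, hr⟩ := not_forall.1 (mt (C.spanp x) hx)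
  exact Finset.sum_pos' (fun r _ => sq_nonneg _) ⟨r, Finset.mem_univ _, by positivity⟩
theorem Conf.jD_orth (C : Conf) {D : Q4 ℝ} (hD : Sym4 D) (hA : (C.Am D).det ≠ 0) (hΦ : C.Phi D = 0) (a : Fin 18)
    (q : Q2) : pr D (C.jD D a) q = 0 := by
  obtain ⟨α, β, h⟩ := b7_dec C q
  have h1 : ∀ i, pr D (C.c i) (C.jD D a) = 0 := by
    intro i
    have h2 : C.Am D * ((C.Am D)⁻¹ * C.Bm D) = C.Bm D := Matrix.mul_nonsing_inv_cancel_left _ _ hA.isUnit
    have h3 := congrFun (congrFun h2 i) a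
    rw [Matrix.mul_apply] at h3
    simp only [Conf.jD, pr_sub_right, pr_sum_right, pr_smul_right, mul_comm _ (pr D _ _)]
    exact sub_eq_zero.2 h3.symm
  have h2 : ∀ b, pr D (C.j b) (C.jD D a) = 0 := by
    intro b
    have h3 := congrFun (congrFun hΦ b) a
    rw [Conf.Phi, Matrix.mul_assoc, Matrix.sub_apply, Matrix.mul_apply] at h3
    simp only [Conf.jD, pr_sub_right, pr_sum_right, pr_smul_right, mul_comm _ (pr D _ _), pr_comm hD _ (C.c _)]
    exact h3
  simp only [pr_comm hD _ q, h D hD, h1, h2, mul_zero, Finset.sum_const_zero, add_zero]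
theorem Conf.psd_of (C : Conf) {D : Q4 ℝ} (hD : Sym4 D) (hA : (C.Am D).PosDef) (hΦ : C.Phi D = 0) (q : Q2) :
    0 ≤ pr D q q := by
  obtain ⟨α, β, h⟩ := b7_dec C q
  have h1 : ∀ q', pr D q q' = pr D (∑ i, (α i + ∑ k, β k * ((C.Am D)⁻¹ * C.Bm D) i k) • C.c i) q' := by
    intro q'
    have h2 : ∀ k, pr D (C.j k) q' = ∑ i, ((C.Am D)⁻¹ * C.Bm D) i k * pr D (C.c i) q' := by
      intro k
      have h3 := C.jD_orth hD hA.det_pos.ne' hΦ k q'
      simp only [Conf.jD, pr_sub_mid, pr_sum_mid, pr_smul_mid] at h3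
      exact sub_eq_zero.1 h3
    simp only [h D hD, h2, pr_sum_mid, pr_smul_mid, add_mul, Finset.sum_add_distrib, Finset.sum_mul, Finset.mul_sum,
      mul_assoc]
    rw [Finset.sum_comm]
  rw [h1, pr_comm hD, h1, b7_cc]
  exact hA.posSemidef.dotProduct_mulVec_nonneg _
theorem Conf.rk_of (C : Conf) {D : Q4 ℝ} (hD : Sym4 D) (hA : (C.Am D).PosDef) (hM : (Mm (D 0)).det ≠ 0) :
    ¬ ∃ b, Del D = bb b := by
  rintro ⟨b, hb⟩
  let N : Matrix (Option (Fin 8)) (Fin 18) ℝ := Matrix.of fun o i =>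
    o.elim (∑ k, ∑ l, C.c i (Fin.succ k) (Fin.succ l) * b k l) fun v => pr D (lin (Pi.single v 1)) (C.c i)
  obtain ⟨α, hα, h0⟩ := Submodule.exists_mem_ne_zero_of_ne_bot
    (LinearMap.ker_ne_bot_of_finrank_lt (f := N.mulVecLin) (by simp))
  have h1 : ∀ o, ∑ i, N o i * α i = 0 := fun o => congrFun (LinearMap.mem_ker.1 hα) o
  have h2 := hA.dotProduct_mulVec_pos h0
  rw [← b7_cc] at h2
  have h3 : ∀ ℓ, pr D (lin ℓ) (∑ i, α i • C.c i) = 0 := by
    intro ℓ
    rw [b7_lin, pr_sum_mid]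
    refine Finset.sum_eq_zero fun v _ => ?_
    rw [pr_smul_mid, ← mul_zero (ℓ v), ← h1 (some v)]
    simp only [pr_sum_right, pr_smul_right, N, Matrix.of_apply, Option.elim, mul_comm]
  have h4 : ∑ k, ∑ l, (∑ i, α i • C.c i) (Fin.succ k) (Fin.succ l) * b k l = 0 := by
    rw [← h1 none]
    simp only [N, Matrix.of_apply, Option.elim, Finset.sum_apply, Pi.smul_apply, smul_eq_mul, Finset.sum_mul]
    rw [Finset.sum_congr rfl fun a _ => Finset.sum_comm, Finset.sum_comm]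
    refine Finset.sum_congr rfl fun r _ => Finset.sum_congr rfl fun a _ => Finset.sum_congr rfl fun b _ => by ring
  generalize ∑ i, α i • C.c i = q at h2 h3 h4
  obtain ⟨ℓ, hℓ⟩ := exists_lin D q
  rw [pr_congr hD hℓ, pr_add_mid, h3, zero_add, pr_comm hD, pr_congr hD hℓ, pr_add_mid, b7_linQ hD hM, zero_add] at h2
  have h5 : ∀ k l, ∑ i, ∑ j, q (Fin.succ i) (Fin.succ j) * (b i j * b k l) = 0 := by
    intro k l
    simp only [← mul_assoc, ← Finset.sum_mul, h4, zero_mul]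
  simp only [pr_sum_right, pr_smul_right, b7_QA, dDel_self hD hM, hb, bb, h5, mul_zero, Finset.sum_const_zero] at h2
  exact lt_irrefl _ h2
theorem pr_dv {D : Q4 ℝ} (hD : Sym4 D) (v : Fin 8) (q q' : Q2) :
    pr (dv D v) q q' = pr D (lin fun b => q v b + q b v) q' + pr D q (lin fun b => q' v b + q' b v) := by
  have e : dv D v = (fun a b c d => if a = v then D 0 b c d else 0) + (fun a b c d => if b = v then D 0 a c d else 0) +
      (fun a b c d => if c = v then D 0 d a b else 0) + fun a b c d => if d = v then D 0 c a b else 0 := by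
    funext a b c d
    have e1 : ∀ x y, D a b x y = D x y a b := fun x y => by
      rw [(hD a b x y).2.1, (hD a x b y).1, (hD x a b y).2.2, (hD x a y b).2.1]
    simp only [dv, Pi.add_apply, e1, (hD a 0 c d).1, (hD c 0 a b).1]
  rw [e, pr_add_left, pr_add_left, pr_add_left, b7_lin_add, b7_lin_add, pr_add_mid, pr_add_right, b7_dv1,
    b7_swap1 (fun a b c d => if b = v then D 0 a c d else 0), b7_dv1,
    b7_swap2 (fun a b c d => if c = v then D 0 d a b else 0), b7_dv1,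
    b7_swap2 (fun a b c d => if d = v then D 0 c a b else 0), b7_swap1 (fun a b c d => if b = v then D 0 a c d else 0),
    b7_dv1, pr_comm hD q, pr_comm hD q, add_assoc]
theorem triv_dv {D : Q4 ℝ} (hD : Sym4 D) (hM : (Mm (D 0)).det ≠ 0) {J : Q2} (hJ : ∀ q, pr D J q = 0) (v : Fin 8)
    (k l : Fin 7) : pr (dv D v) J (Aq D k l) = 0 := by
  rw [pr_dv hD, pr_lin_Aq hD hM, hJ, add_zero]
theorem tr_of {D : Q4 ℝ} (hD : Sym4 D) (hM : (Mm (D 0)).det ≠ 0) (J : Fin 18 → Q2) (hJ : ∀ a q, pr D (J a) q = 0)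
    (hK : KerTriv J D) : Tr D := by
  intro δ hδ H
  obtain ⟨c, u, rfl⟩ := hK δ hδ fun a k l => by
    obtain ⟨ℓ, hℓ⟩ := exists_lin D (J a)
    have h0 : ℓ = 0 := by
      refine Matrix.eq_zero_of_vecMul_eq_zero hM (dotProduct_eq_zero _ fun w => ?_)
      have h1 := hJ a (lin w)
      rwa [pr_congr hD hℓ, pr_add_mid, pr_comm hD _ (lin w), pr_comm hD _ (lin w), b7_linQ hD hM, add_zero, pr_comm hD,
        pr_lin_lin D hD, Matrix.dotProduct_mulVec] at h1
    rw [h0, b7_lin_zero, zero_add] at hℓ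
    rw [pr_congr hδ hℓ, b7_QA]
    refine H _ (fun k l => ?_) k l
    rw [← dDel_self hD hM, ← b7_QA, ← pr_congr hD hℓ, hJ]
  refine ⟨c, ?_⟩
  rw [dDel_add, dDel_smul, dDel_self hD hM, add_eq_left]
  funext x
  simp only [dDel, pr_sum_left, pr_smul_left, pr_dv hD, pr_comm hD (Aq D _ _) (lin _), pr_lin_Aq hD hM, add_zero,
    mul_zero, Finset.sum_const_zero, Pi.zero_apply]

end Crest.Agent.R237
end
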