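import Crest.Agent.R237.B7a

set_option autoImplicit false
open scoped BigOperators Matrix Topology
open Crest.GeometryTopology

noncomputable section
namespace Crest.Agent.R237

/-! # B7b: the rank locus is a submanifold that projects openly to the lower moments.

Parametrise symmetric tensors by `E = C3 ℝ × (X4 → ℝ)`, `s (t, τ) = asm (sy t) (sum of the 24 permutations of τ)`, a linear map
onto the symmetric tensors.  `f = (entries a ≤ b of Phi) ∘ s : E → ({x : Fin 18 × Fin 18 // x.1 ≤ x.2} → ℝ)` is `ContDiffAt ℝ 1`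
wherever `det (Am) ≠ 0` (matrix inverse = `det⁻¹ • adjugate`, entries polynomial), `Phi D` is symmetric for symmetric `D`, and its
derivative at `D0` is `δ ↦ Em δ` (`Bm D0 = 0`, the second term is quadratically small).
* `exists_curve`: `f'` is onto (`C.surj`); `HasStrictFDerivAt.implicitFunction`, `map_implicitFunction_eq`,
  `to_implicitFunction`; `γ s' = s (φ 0 (s' • k₁))` with `s k₁ = D1` (`C.tan`).
* `open_proj`: `Ψ (t, τ) = (t, f (t, τ))` has surjective derivative at a preimage of `D0` (`C.surj`, top-only directions), hence at all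
  nearby points; the derivative at `y` depends only on `s y` (or use a linear section of `s`: `D ↦ (D 0 / 6, top D / 24)`);
  `HasStrictFDerivAt.map_nhds_eq_of_surj`. -/

section Gen
variable {E n : Type} [NormedAddCommGroup E] [NormedSpace ℝ E] [Fintype n] [DecidableEq n]

theorem b7b_det {A : E → Matrix n n ℝ} (h : ∀ i j, ContDiff ℝ 1 fun x => A x i j) : ContDiff ℝ 1 fun x => (A x).det := by
  simp only [Matrix.det_apply']
  exact ContDiff.sum fun σ _ => contDiff_const.mul (contDiff_prod fun i _ => h _ _)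

theorem b7b_inv {A : E → Matrix n n ℝ} (h : ∀ i j, ContDiff ℝ 1 fun x => A x i j) {x : E} (hx : (A x).det ≠ 0) (i j : n) :
    ContDiffAt ℝ 1 (fun y => (A y)⁻¹ i j) x := by
  simp only [Matrix.inv_def, Ring.inverse_eq_inv', Matrix.smul_apply, smul_eq_mul, Matrix.adjugate_apply]
  refine ((b7b_det h).contDiffAt.inv hx).mul (b7b_det fun a b => ?_).contDiffAt
  simp only [Matrix.updateRow_apply]
  split_ifs
  exacts [contDiff_const, h a b]

theorem b7b_sq {u v : E → ℝ} {x : E} (hu : ContDiffAt ℝ 1 u x) (hv : ContDiffAt ℝ 1 v x) (h1 : u x = 0) (h2 : v x = 0) :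
    HasStrictFDerivAt (fun y => u y * v y) (0 : E →L[ℝ] ℝ) x := by
  have := (hu.hasStrictFDerivAt one_ne_zero).fun_mul (hv.hasStrictFDerivAt one_ne_zero)
  rwa [h1, h2, zero_smul, zero_smul, add_zero] at this

theorem b7b_quad {A B : E → Matrix n n ℝ} (hA : ∀ i j, ContDiff ℝ 1 fun x => A x i j)
    (hB : ∀ i j, ContDiff ℝ 1 fun x => B x i j) {x : E} (hx : (A x).det ≠ 0) (h0 : B x = 0) (a b : n) :
    HasStrictFDerivAt (fun y => ((B y)ᵀ * (A y)⁻¹ * B y) a b) (0 : E →L[ℝ] ℝ) x := by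
  have := HasStrictFDerivAt.fun_sum (u := Finset.univ) fun i _ => b7b_sq (u := fun y => ((B y)ᵀ * (A y)⁻¹) a i)
    (v := fun y => B y i b) (x := x) (ContDiffAt.sum fun l _ => (hB l a).contDiffAt.mul (b7b_inv hA hx l i))
    (hB i b).contDiffAt (by simp [h0]) (by simp [h0])
  rwa [Finset.sum_const_zero] at this

theorem b7b_curve {F : Type} [NormedAddCommGroup F] [NormedSpace ℝ F] [FiniteDimensional ℝ F] [CompleteSpace E] {f : E → F}
    {f' : E →L[ℝ] F} {a : E} (hf : HasStrictFDerivAt f f' a) (hr : f'.range = ⊤) {v : E} (hv : f' v = 0) :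
    ∃ γ : ℝ → E, γ 0 = a ∧ HasDerivAt γ v 0 ∧ ∀ᶠ t in 𝓝 (0 : ℝ), f (γ t) = f a := by
  let k : f'.ker := ⟨v, hv⟩
  have hk : HasDerivAt (fun t : ℝ => t • k) k 0 := by simpa using (hasDerivAt_id (0 : ℝ)).smul_const k
  refine ⟨fun t => hf.implicitFunction _ _ hr (f a) (t • k), ?_,
    (hf.to_implicitFunction hr).hasFDerivAt.comp_hasDerivAt_of_eq 0 hk (zero_smul _ _).symm, ?_⟩
  · simp only [zero_smul, hf.implicitFunction_apply_image hr]
  · have h2 : Filter.Tendsto (fun t : ℝ => (f a, t • k)) (𝓝 0) (𝓝 (f a, 0)) := by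
      refine tendsto_const_nhds.prodMk_nhds ?_
      simpa using hk.continuousAt.tendsto
    exact h2.eventually (hf.map_implicitFunction_eq hr)

end Gen

/-- symmetric quartic tensors -/
def b7bS : Submodule ℝ (Q4 ℝ) where
  carrier := {D | Sym4 D}
  zero_mem' := fun _ _ _ _ => ⟨rfl, rfl, rfl⟩
  add_mem' := Sym4.add
  smul_mem' := fun c _ h => Sym4.smul h c

/-- symmetric cubic tensors -/
def b7bT : Submodule ℝ (C3 ℝ) where
  carrier := {L | Sym3 L}
  zero_mem' := fun _ _ _ => ⟨rfl, rfl⟩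
  add_mem' := fun h h' a b c => ⟨congrArg₂ (· + ·) (h a b c).1 (h' a b c).1, congrArg₂ (· + ·) (h a b c).2 (h' a b c).2⟩
  smul_mem' := fun r _ h a b c => ⟨congrArg (r * ·) (h a b c).1, congrArg (r * ·) (h a b c).2⟩

abbrev b7bF : Type := {x : Fin 18 × Fin 18 // x.1 ≤ x.2} → ℝ

def b7bπ : b7bS →L[ℝ] b7bT := LinearMap.toContinuousLinearMap
  { toFun := fun D => ⟨D.1 0, Sym4.zero D.2⟩
    map_add' := fun _ _ => rfl
    map_smul' := fun _ _ => rfl }

def b7bpr (q q' : Q2) : b7bS →L[ℝ] ℝ := LinearMap.toContinuousLinearMap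
  { toFun := fun D => pr D.1 q q'
    map_add' := fun _ _ => pr_add_left _ _ _ _
    map_smul' := fun _ _ => pr_smul_left _ _ _ _ }

def Conf.b7b0 (C : Conf) : b7bS := ⟨C.D0, C.sym0⟩
def Conf.b7bf (C : Conf) (D : b7bS) : b7bF := fun x => C.Phi D.1 x.1.1 x.1.2
def Conf.b7bL (C : Conf) : b7bS →L[ℝ] b7bF := ContinuousLinearMap.pi fun x => b7bpr (C.j x.1.1) (C.j x.1.2)

theorem Conf.b7b_strict (C : Conf) : HasStrictFDerivAt C.b7bf C.b7bL C.b7b0 := by
  refine hasStrictFDerivAt_pi.2 fun x => ?_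
  have := (b7bpr (C.j x.1.1) (C.j x.1.2)).hasStrictFDerivAt.fun_sub (b7b_quad (A := fun D : b7bS => C.Am D.1)
    (B := fun D : b7bS => C.Bm D.1) (fun i j => (b7bpr _ _).contDiff) (fun i j => (b7bpr _ _).contDiff) (x := C.b7b0)
    (by rw [show C.Am C.b7b0.1 = 1 from C.Am0, Matrix.det_one]; exact one_ne_zero) C.Bm0 x.1.1 x.1.2)
  rwa [sub_zero] at this

theorem Conf.b7b_f0 (C : Conf) : C.b7bf C.b7b0 = 0 := by
  have : C.Phi C.D0 = 0 := by rw [Conf.Phi, C.Em0, C.Bm0, Matrix.mul_zero, sub_zero]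
  exact funext fun x => congrFun₂ this _ _

theorem Conf.b7b_zero (C : Conf) (D : b7bS) (h : C.b7bf D = 0) : C.Phi D.1 = 0 := by
  have hA : (C.Am D.1)ᵀ = C.Am D.1 := Matrix.ext fun i j => pr_comm D.2 _ _
  have hE : (C.Em D.1)ᵀ = C.Em D.1 := Matrix.ext fun i j => pr_comm D.2 _ _
  have hP : (C.Phi D.1)ᵀ = C.Phi D.1 := by
    rw [Conf.Phi, Matrix.transpose_sub, Matrix.transpose_mul, Matrix.transpose_mul, Matrix.transpose_transpose,
      Matrix.transpose_nonsing_inv, hA, hE, Matrix.mul_assoc]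
  ext a b
  rcases le_total a b with hab | hab
  · exact congrFun h ⟨(a, b), hab⟩
  · exact (congrFun₂ hP a b).symm.trans (congrFun h ⟨(b, a), hab⟩)

theorem Conf.b7b_surj (C : Conf) (y : b7bF) : ∃ δ : b7bS, δ.1 0 = 0 ∧ C.b7bL δ = y := by
  obtain ⟨δ, h1, h2, h3⟩ := C.surj (fun a b => y ⟨(min a b, max a b), min_le_max⟩) fun a b => by
    simp only [min_comm a b, max_comm a b]
  refine ⟨⟨δ, h1⟩, h2, funext fun x => (h3 _ _).trans ?_⟩
  simp only [min_eq_left x.2, max_eq_right x.2]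

theorem Conf.exists_curve (C : Conf) : ∃ γ : ℝ → Q4 ℝ, γ 0 = C.D0 ∧ HasDerivAt γ C.D1 0 ∧
    ∀ᶠ t in 𝓝 (0 : ℝ), Sym4 (γ t) ∧ C.Phi (γ t) = 0 := by
  obtain ⟨γ, h0, h1, h2⟩ := b7b_curve C.b7b_strict (LinearMap.range_eq_top.2 fun y => (C.b7b_surj y).imp fun _ h => h.2)
    (v := ⟨C.D1, C.sym1⟩) (funext fun x => C.tan _ _)
  refine ⟨fun t => (γ t).1, congrArg Subtype.val h0, b7bS.subtypeL.hasFDerivAt.comp_hasDerivAt 0 h1, ?_⟩
  filter_upwards [h2] with t ht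
  exact ⟨(γ t).2, C.b7b_zero _ (ht.trans C.b7b_f0)⟩

theorem Conf.open_proj (C : Conf) : ∀ᶠ D in 𝓝 C.D0, Sym4 D → C.Phi D = 0 → ∀ U ∈ 𝓝 D,
    ∃ O : Set (C3 ℝ), IsOpen O ∧ O.Nonempty ∧ ∀ t ∈ O, ∃ D' ∈ U, Sym4 D' ∧ C.Phi D' = 0 ∧ D' 0 = sy t := by
  have hf := b7bπ.hasStrictFDerivAt.prodMk C.b7b_strict
  have hr : (b7bπ.prod C.b7bL).range = ⊤ := LinearMap.range_eq_top.2 fun y => by
    let D₁ : b7bS := ⟨asm y.1.1 0, sym4_asm y.1.2 fun _ _ _ _ => ⟨rfl, rfl, rfl⟩⟩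
    obtain ⟨δ, h1, h2⟩ := C.b7b_surj (y.2 - C.b7bL D₁)
    refine ⟨D₁ + δ, Prod.ext (Subtype.ext ?_) ?_⟩
    · show asm y.1.1 0 0 + δ.1 0 = y.1.1
      rw [h1, add_zero, asm_zero]
    · show C.b7bL (D₁ + δ) = y.2
      rw [map_add, h2, add_sub_cancel]
  let e := hf.implicitToOpenPartialHomeomorph _ _ hr
  have h1 : ∀ᶠ y in 𝓝 C.b7b0, y ∈ e.source := e.open_source.mem_nhds (hf.mem_implicitToOpenPartialHomeomorph_source hr)
  rw [nhds_subtype_eq_comap, Filter.eventually_comap] at h1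
  filter_upwards [h1] with D hD hs hΦ U hU
  have h2 : Filter.map (fun y : b7bS => (b7bπ y, C.b7bf y)) (𝓝 ⟨D, hs⟩) = 𝓝 (b7bπ ⟨D, hs⟩, C.b7bf ⟨D, hs⟩) := by
    have := congrArg (Filter.map Prod.fst) (e.map_nhds_eq (hD ⟨D, hs⟩ rfl))
    rwa [Filter.map_map, map_fst_nhds] at this
  have h3 : (fun y : b7bS => (b7bπ y, C.b7bf y)) '' (Subtype.val ⁻¹' U) ∈ 𝓝 (b7bπ ⟨D, hs⟩, C.b7bf ⟨D, hs⟩) :=
    h2 ▸ Filter.image_mem_map (continuous_subtype_val.continuousAt.preimage_mem_nhds hU)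
  let g : C3 ℝ → b7bT × b7bF := fun t => (⟨sy t, sym3_sy t⟩, 0)
  have hg : Continuous g := by
    refine Continuous.prodMk (Continuous.subtype_mk ?_ _) continuous_const
    unfold sy
    fun_prop
  have h4 : g (fun a b c => D 0 a b c / 6) = (b7bπ ⟨D, hs⟩, C.b7bf ⟨D, hs⟩) :=
    Prod.ext (Subtype.ext (sy_div _ hs.zero)) (funext fun x => (congrFun₂ hΦ x.1.1 x.1.2).symm)
  rw [← h4] at h3
  refine ⟨_, isOpen_interior, ⟨_, mem_interior_iff_mem_nhds.2 (hg.continuousAt.preimage_mem_nhds h3)⟩, fun t ht => ?_⟩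
  obtain ⟨y, hy, h5⟩ := interior_subset ht
  exact ⟨y.1, hy, y.2, C.b7b_zero y (congrArg Prod.snd h5), congrArg (fun z => z.1.1) h5⟩

end Crest.Agent.R237
end
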