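import Crest.Agent.R237.B7a

set_option autoImplicit false
open scoped BigOperators Matrix Topology
open Crest.GeometryTopology

noncomputable section
namespace Crest.Agent.R237

/-! # B7c: the first-order rank test.

* `first_order`: `(e, n) ↦ g t e + t⁻¹ • h t n` tends to the injective map `(e, n) ↦ g 0 e + h₁ n`;
  `ContinuousLinearMap.isOpen_injective`.
* `ker_small`: `𝒮` = submodule of symmetric tensors, `G D δ = (a, k, l) ↦ pr δ (jD D a) (Aq D k l)`, continuous in `D` where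
  `det Am, det Mm ≠ 0`.  `𝓔` a complement of `ker (G D0)` in `𝒮`, `𝒩 = {w : Fin 18 → ℝ | w 0 = 0}`, `n w = Σ w r • dirac (p r)`.
  `h t w = G (γ t) (n w) = Σ_r w r * ev (jD (γ t) a) (p r) * ev (Aq (γ t) k l) (p r)` vanishes at `t = 0` and has derivative
  `- Σ_r w r * pr D1 (c r) (j a) * ev (Aq D0 k l) (p r)` (`ev (jD D a) (p r) = - (A⁻¹ B) r a`, `A(0) = 1`, `B(0) = 0`).
  `C.ker1` gives injectivity of the limit, so `(e, w) ↦ G (γ t) (e + n w)` is injective for small `t ≠ 0`, and then for `D` near `γ t`.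
  `(e, w, c, u) ↦ e + n w + c • D + Σ u v • dv D v` is onto `𝒮` at `D0` (`C.ker0`), hence for symmetric `D` near `D0`
  (compose with a linear projection onto `𝒮` or a right inverse).  `jD_orth`, `triv_dv` kill the trivial part. -/

open Filter in
theorem b7c_ev_inj {ι E Y : Type} [NormedAddCommGroup E] [NormedSpace ℝ E] [FiniteDimensional ℝ E]
    [NormedAddCommGroup Y] [NormedSpace ℝ Y] {l : Filter ι} (T : ι → E →ₗ[ℝ] Y) (T0 : E →ₗ[ℝ] Y)
    (hT : ∀ e, Tendsto (fun i => T i e) l (𝓝 (T0 e))) (h0 : Function.Injective T0) :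
    ∀ᶠ i in l, Function.Injective (T i) := by
  let e : (E →L[ℝ] Y) ≃L[ℝ] Fin (Module.finrank ℝ E) → Y :=
    ((ContinuousLinearEquiv.ofFinrankEq (Module.finrank_fin_fun ℝ).symm).arrowCongr
      (1 : Y ≃L[ℝ] Y)).trans (ContinuousLinearEquiv.piRing _)
  have h1 : Tendsto (fun i => LinearMap.toContinuousLinearMap (T i)) l (𝓝 (LinearMap.toContinuousLinearMap T0)) := by
    rw [e.toHomeomorph.isInducing.tendsto_nhds_iff]
    exact tendsto_pi_nhds.mpr fun i => hT _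
  exact h1.eventually (ContinuousLinearMap.isOpen_injective.mem_nhds h0)

open Filter in
theorem b7c_first {E N Y : Type} [NormedAddCommGroup E] [NormedSpace ℝ E] [FiniteDimensional ℝ E]
    [NormedAddCommGroup N] [NormedSpace ℝ N] [FiniteDimensional ℝ N] [NormedAddCommGroup Y] [NormedSpace ℝ Y]
    (g : ℝ → E →ₗ[ℝ] Y) (h : ℝ → N →ₗ[ℝ] Y) (h₁ : N →ₗ[ℝ] Y) (hg : ∀ e, ContinuousAt (fun t => g t e) 0)
    (hd : ∀ n, Tendsto (fun t : ℝ => t⁻¹ • h t n) (𝓝[≠] 0) (𝓝 (h₁ n)))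
    (hinj : ∀ e n, g 0 e + h₁ n = 0 → e = 0 ∧ n = 0) :
    ∀ᶠ t in 𝓝[≠] (0 : ℝ), ∀ e n, g t e + h t n = 0 → e = 0 ∧ n = 0 := by
  have h1 := b7c_ev_inj (l := 𝓝[≠] (0 : ℝ)) (fun t => (g t).coprod (t⁻¹ • h t)) ((g 0).coprod h₁)
    (fun x => by
      simp only [LinearMap.coprod_apply, LinearMap.smul_apply]
      exact ((hg x.1).tendsto.mono_left nhdsWithin_le_nhds).add (hd x.2))
    (by
      rw [injective_iff_map_eq_zero]
      intro x hx
      obtain ⟨h1, h2⟩ := hinj x.1 x.2 (by simpa using hx)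
      exact Prod.ext h1 h2)
  filter_upwards [h1, self_mem_nhdsWithin] with t ht ht0 e n hen
  have ht0' : t ≠ 0 := ht0
  rw [injective_iff_map_eq_zero] at ht
  have h2 := ht (e, t • n) (by
    simp only [LinearMap.coprod_apply, LinearMap.smul_apply, map_smul, smul_smul]
    rw [mul_inv_cancel₀ ht0', one_smul]; exact hen)
  have h3 : e = 0 := congrArg Prod.fst h2
  have h4 : t • n = 0 := congrArg Prod.snd h2
  exact ⟨h3, (smul_eq_zero.mp h4).resolve_left ht0'⟩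

theorem first_order {E N Y : Type} [NormedAddCommGroup E] [NormedSpace ℝ E] [FiniteDimensional ℝ E]
    [NormedAddCommGroup N] [NormedSpace ℝ N] [FiniteDimensional ℝ N] [NormedAddCommGroup Y] [NormedSpace ℝ Y]
    (g : ℝ → E →L[ℝ] Y) (h : ℝ → N →L[ℝ] Y) (h₁ : N →L[ℝ] Y) (hg : ContinuousAt g 0) (h0 : h 0 = 0)
    (hd : HasDerivAt h h₁ 0) (hinj : ∀ e n, g 0 e + h₁ n = 0 → e = 0 ∧ n = 0) :
    ∀ᶠ t in 𝓝[≠] (0 : ℝ), ∀ e n, g t e + h t n = 0 → e = 0 ∧ n = 0 := by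
  refine b7c_first (fun t => (g t : E →ₗ[ℝ] Y)) (fun t => (h t : N →ₗ[ℝ] Y)) (h₁ : N →ₗ[ℝ] Y)
    (fun e => continuousAt_clm_apply.mp hg e) (fun n => ?_) hinj
  have h1 := hasDerivAt_iff_tendsto_slope_zero.mp hd
  simp only [zero_add, h0, sub_zero] at h1
  exact ((ContinuousLinearMap.apply ℝ Y n).continuous.tendsto h₁).comp h1

theorem b7c_cont_pr : Continuous fun x : Q4 ℝ × Q2 × Q2 => pr x.1 x.2.1 x.2.2 := by
  unfold pr
  fun_prop

theorem b7c_cont_ev (x : Fin 8 → ℝ) : Continuous fun q : Q2 => ev q x := by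
  unfold ev
  fun_prop

theorem b7c_inv {n : ℕ} {M : Matrix (Fin n) (Fin n) ℝ} (h : M.det ≠ 0) : ContinuousAt (fun N : Matrix (Fin n) (Fin n) ℝ => N⁻¹) M := by
  apply continuousAt_matrix_inv
  rw [Ring.inverse_eq_inv']
  exact continuousAt_inv₀ h

theorem b7c_cont_Mm : Continuous fun D : Q4 ℝ => Mm (D 0) := by
  refine continuous_matrix fun a b => ?_
  simp only [Mm, Matrix.of_apply]
  fun_prop

theorem b7c_cont_prD (q q' : Q2) : Continuous fun D : Q4 ℝ => pr D q q' := by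
  unfold pr
  fun_prop

theorem b7c_cont_Am (C : Conf) : Continuous fun D : Q4 ℝ => C.Am D :=
  continuous_matrix fun _ _ => b7c_cont_prD _ _

theorem b7c_cont_Bm (C : Conf) : Continuous fun D : Q4 ℝ => C.Bm D :=
  continuous_matrix fun _ _ => b7c_cont_prD _ _

theorem b7c_cont_Aq {D : Q4 ℝ} (h : (Mm (D 0)).det ≠ 0) (k l : Fin 7) : ContinuousAt (fun D' => Aq D' k l) D := by
  have h1 : ContinuousAt (fun D' : Q4 ℝ => (Mm (D' 0))⁻¹) D :=
    ContinuousAt.comp (f := fun D' : Q4 ℝ => Mm (D' 0)) (b7c_inv h) b7c_cont_Mm.continuousAt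
  refine continuousAt_pi.mpr fun a => continuousAt_pi.mpr fun b => ?_
  simp only [Aq, lc]
  refine continuousAt_const.sub ?_
  by_cases ha : a = 0
  · simp only [ha, if_true]
    refine tendsto_finsetSum _ fun c _ => ContinuousAt.mul ?_ ?_
    · exact continuousAt_pi.mp (continuousAt_pi.mp h1 b) c
    · exact (by fun_prop : Continuous fun D' : Q4 ℝ => D' 0 c k.succ l.succ).continuousAt
  · simp only [ha, if_false]
    exact continuousAt_const

theorem b7c_cont_Ainv (C : Conf) {D : Q4 ℝ} (h : (C.Am D).det ≠ 0) : ContinuousAt (fun D' => (C.Am D')⁻¹) D :=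
  ContinuousAt.comp (f := fun D' : Q4 ℝ => C.Am D') (b7c_inv h) (b7c_cont_Am C).continuousAt

theorem b7c_cont_jD (C : Conf) {D : Q4 ℝ} (h : (C.Am D).det ≠ 0) (a : Fin 18) :
    ContinuousAt (fun D' => C.jD D' a) D := by
  have h1 : ContinuousAt (fun D' => (C.Am D')⁻¹ * C.Bm D') D :=
    (b7c_cont_Ainv C h).mul (b7c_cont_Bm C).continuousAt
  simp only [Conf.jD]
  refine continuousAt_const.sub (tendsto_finsetSum _ fun i _ => ?_)
  exact (continuousAt_pi.mp (continuousAt_pi.mp h1 i) a).tendsto.smul_const (C.c i)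

/-- the pairing with `J · A` -/
def b7cG (C : Conf) (D : Q4 ℝ) : Q4 ℝ →ₗ[ℝ] (Fin 18 → Fin 7 → Fin 7 → ℝ) where
  toFun δ := fun a k l => pr δ (C.jD D a) (Aq D k l)
  map_add' δ δ' := by
    ext a k l
    simp only [pr_add_left, Pi.add_apply]
  map_smul' c δ := by
    ext a k l
    simp only [pr_smul_left, Pi.smul_apply, smul_eq_mul, RingHom.id_apply]

theorem b7cG_apply (C : Conf) (D δ : Q4 ℝ) (a : Fin 18) (k l : Fin 7) :
    b7cG C D δ a k l = pr δ (C.jD D a) (Aq D k l) := rfl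

theorem b7c_cont_G (C : Conf) {D : Q4 ℝ} (hA : (C.Am D).det ≠ 0) (hM : (Mm (D 0)).det ≠ 0) (δ : Q4 ℝ) :
    ContinuousAt (fun D' => b7cG C D' δ) D := by
  refine continuousAt_pi.mpr fun a => continuousAt_pi.mpr fun k => continuousAt_pi.mpr fun l => ?_
  simp only [b7cG_apply]
  exact ContinuousAt.comp (f := fun D' : Q4 ℝ => (δ, C.jD D' a, Aq D' k l))
    (g := fun x : Q4 ℝ × Q2 × Q2 => pr x.1 x.2.1 x.2.2) b7c_cont_pr.continuousAt
    (continuousAt_const.prodMk ((b7c_cont_jD C hA a).prodMk (b7c_cont_Aq hM k l)))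

theorem b7c_jD0 (C : Conf) (a : Fin 18) : C.jD C.D0 a = C.j a := by
  simp [Conf.jD, C.Bm0]

theorem b7c_ev_jD (C : Conf) (D : Q4 ℝ) (a r : Fin 18) :
    ev (C.jD D a) (C.p r) = -∑ i, (C.Am D)⁻¹ r i * pr D (C.c i) (C.j a) := by
  have h1 : ∀ (q q' : Q2) (x : Fin 8 → ℝ), ev (q - q') x = ev q x - ev q' x := by
    intro q q' x
    simp only [ev, Pi.sub_apply, sub_mul, Finset.sum_sub_distrib]
  have h2 : ∀ (c : Fin 18 → ℝ) (q : Fin 18 → Q2) (x : Fin 8 → ℝ), ev (∑ i, c i • q i) x = ∑ i, c i * ev (q i) x := by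
    intro c q x
    simp only [ev, Finset.sum_apply, Pi.smul_apply, smul_eq_mul, Finset.sum_mul, Finset.mul_sum]
    rw [Finset.sum_comm (s := Finset.univ (α := Fin 18))]
    refine Finset.sum_congr rfl fun a _ => ?_
    rw [Finset.sum_comm (s := Finset.univ (α := Fin 18))]
    refine Finset.sum_congr rfl fun b _ => Finset.sum_congr rfl fun i _ => by ring
  rw [Conf.jD, h1, h2, C.hj]
  simp only [C.hc, mul_ite, mul_one, mul_zero, Finset.sum_ite_eq', Finset.mem_univ, if_true, zero_sub]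
  rw [Matrix.mul_apply]
  rfl

/-- symmetric tensors -/
def b7cS : Submodule ℝ (Q4 ℝ) where
  carrier := {D | Sym4 D}
  add_mem' := fun h h' => Sym4.add h h'
  zero_mem' := fun _ _ _ _ => ⟨rfl, rfl, rfl⟩
  smul_mem' := fun c _ h => Sym4.smul h c

/-- combinations of the point evaluations -/
def b7cn (C : Conf) : (Fin 18 → ℝ) →ₗ[ℝ] Q4 ℝ := Fintype.linearCombination ℝ fun r => dirac (C.p r)

theorem b7cn_apply (C : Conf) (w : Fin 18 → ℝ) : b7cn C w = ∑ r, w r • dirac (C.p r) := by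
  simp [b7cn, Fintype.linearCombination_apply]

theorem b7cn_sym (C : Conf) (w : Fin 18 → ℝ) : Sym4 (b7cn C w) := by
  rw [b7cn_apply]
  exact Sym4.sum _ _ fun r _ => (sym4_dirac _).smul _

theorem b7cG_n (C : Conf) (D : Q4 ℝ) (w : Fin 18 → ℝ) (a : Fin 18) (k l : Fin 7) :
    b7cG C D (b7cn C w) a k l =
      ∑ r, w r * (-∑ i, (C.Am D)⁻¹ r i * pr D (C.c i) (C.j a)) * ev (Aq D k l) (C.p r) := by
  rw [b7cG_apply, b7cn_apply, pr_sum_left]
  refine Finset.sum_congr rfl fun r _ => ?_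
  rw [pr_smul_left, pr_dirac, b7c_ev_jD, mul_assoc]

/-- the first-order term -/
def b7ch (C : Conf) : (Fin 18 → ℝ) →ₗ[ℝ] (Fin 18 → Fin 7 → Fin 7 → ℝ) where
  toFun w := fun a k l => -∑ r, w r * pr C.D1 (C.c r) (C.j a) * ev (Aq C.D0 k l) (C.p r)
  map_add' w w' := by
    ext a k l
    simp only [Pi.add_apply, add_mul, Finset.sum_add_distrib, neg_add]
  map_smul' c w := by
    ext a k l
    simp only [Pi.smul_apply, smul_eq_mul, RingHom.id_apply, mul_neg, Finset.mul_sum, mul_assoc]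

theorem b7c_detA (C : Conf) : (C.Am C.D0).det ≠ 0 := by
  rw [C.Am0]; simp

theorem b7c_detM (C : Conf) : (Mm (C.D0 0)).det ≠ 0 := C.Mm0.det_pos.ne'

open Filter in
theorem b7c_slope (C : Conf) (γ : ℝ → Q4 ℝ) (h0 : γ 0 = C.D0) (hd : HasDerivAt γ C.D1 0) (w : Fin 18 → ℝ) :
    Tendsto (fun t : ℝ => t⁻¹ • b7cG C (γ t) (b7cn C w)) (𝓝[≠] 0) (𝓝 (b7ch C w)) := by
  have hγ : Tendsto γ (𝓝[≠] 0) (𝓝 C.D0) := by
    rw [← h0]; exact hd.continuousAt.tendsto.mono_left nhdsWithin_le_nhds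
  have h1 := hasDerivAt_iff_tendsto_slope_zero.mp hd
  simp only [zero_add, h0] at h1
  have hB : ∀ i a, Tendsto (fun t : ℝ => t⁻¹ * pr (γ t) (C.c i) (C.j a)) (𝓝[≠] 0) (𝓝 (pr C.D1 (C.c i) (C.j a))) := by
    intro i a
    have h2 := ((b7c_cont_prD (C.c i) (C.j a)).tendsto C.D1).comp h1
    refine h2.congr fun t => ?_
    have h3 : pr C.D0 (C.c i) (C.j a) = 0 := congrFun (congrFun C.Bm0 i) a
    have h4 : γ t - C.D0 = γ t + (-1 : ℝ) • C.D0 := by rw [neg_one_smul, sub_eq_add_neg]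
    simp only [Function.comp_apply]
    rw [pr_smul_left, h4, pr_add_left, pr_smul_left, h3, mul_zero, add_zero]
  have hA : ∀ r i, Tendsto (fun t : ℝ => (C.Am (γ t))⁻¹ r i) (𝓝[≠] 0) (𝓝 (if r = i then 1 else 0)) := by
    intro r i
    have h2 := (continuousAt_pi.mp (continuousAt_pi.mp (b7c_cont_Ainv C (b7c_detA C)) r) i).tendsto.comp hγ
    rw [C.Am0, inv_one, Matrix.one_apply] at h2
    exact h2
  refine tendsto_pi_nhds.mpr fun a => tendsto_pi_nhds.mpr fun k => tendsto_pi_nhds.mpr fun l => ?_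
  have hQ : ∀ r, Tendsto (fun t : ℝ => ev (Aq (γ t) k l) (C.p r)) (𝓝[≠] 0) (𝓝 (ev (Aq C.D0 k l) (C.p r))) :=
    fun r => ((b7c_cont_ev (C.p r)).tendsto _).comp ((b7c_cont_Aq (b7c_detM C) k l).tendsto.comp hγ)
  have h5 : Tendsto (fun t : ℝ => ∑ r, w r * (-∑ i, (C.Am (γ t))⁻¹ r i * (t⁻¹ * pr (γ t) (C.c i) (C.j a))) *
      ev (Aq (γ t) k l) (C.p r)) (𝓝[≠] 0)
      (𝓝 (∑ r, w r * (-∑ i, (if r = i then 1 else 0) * pr C.D1 (C.c i) (C.j a)) * ev (Aq C.D0 k l) (C.p r))) :=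
    tendsto_finsetSum _ fun r _ =>
      ((tendsto_finsetSum _ fun i _ => (hA r i).mul (hB i a)).neg.const_mul (w r)).mul (hQ r)
  have h6 : (∑ r, w r * (-∑ i, (if r = i then 1 else 0) * pr C.D1 (C.c i) (C.j a)) * ev (Aq C.D0 k l) (C.p r)) =
      b7ch C w a k l := by
    simp only [b7ch, LinearMap.coe_mk, AddHom.coe_mk, ite_mul, one_mul, zero_mul, Finset.sum_ite_eq,
      Finset.mem_univ, if_true, mul_neg, neg_mul, Finset.sum_neg_distrib]
  rw [h6] at h5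
  refine h5.congr fun t => ?_
  simp only [Pi.smul_apply, smul_eq_mul, b7cG_n, Finset.mul_sum]
  refine Finset.sum_congr rfl fun r _ => ?_
  have h7 : ∑ i, (C.Am (γ t))⁻¹ r i * (t⁻¹ * pr (γ t) (C.c i) (C.j a)) =
      t⁻¹ * ∑ i, (C.Am (γ t))⁻¹ r i * pr (γ t) (C.c i) (C.j a) := by
    rw [Finset.mul_sum]
    exact Finset.sum_congr rfl fun i _ => by ring
  rw [h7]
  ring

theorem b7c_cont_dv (v : Fin 8) : Continuous fun D : Q4 ℝ => dv D v := by
  refine continuous_pi fun a => continuous_pi fun b => continuous_pi fun c => continuous_pi fun d => ?_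
  simp only [dv]
  refine ((Continuous.add (Continuous.add ?_ ?_) ?_).add ?_) <;> split_ifs <;> fun_prop

open Filter in
/-- near `D0` every symmetric tensor is a sum of a trivial direction and an element of `𝓔 + n 𝒩` -/
theorem b7c_onto (C : Conf) (𝓔 : Submodule ℝ b7cS) (hE : IsCompl (LinearMap.ker (b7cG C C.D0 ∘ₗ b7cS.subtype)) 𝓔) :
    ∀ᶠ D in 𝓝 C.D0, Sym4 D → ∀ δ, Sym4 δ → ∃ (e : 𝓔) (w : Fin 18 → ℝ) (c : ℝ) (u : Fin 8 → ℝ), w 0 = 0 ∧
      δ = ((e : b7cS) : Q4 ℝ) + b7cn C w + (c • D + ∑ v, u v • dv D v) := by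
  obtain ⟨π, hπ⟩ := LinearMap.exists_leftInverse_of_injective b7cS.subtype (Submodule.ker_subtype _)
  have hπ' : ∀ x : b7cS, π x = x := fun x => LinearMap.congr_fun hπ x
  let N : Submodule ℝ (Fin 18 → ℝ) := LinearMap.ker (LinearMap.proj (R := ℝ) (φ := fun _ : Fin 18 => ℝ) 0)
  let Θ : Q4 ℝ → ((𝓔 × N) × (ℝ × (Fin 8 → ℝ))) →ₗ[ℝ] Q4 ℝ := fun D =>
    ((b7cS.subtype ∘ₗ 𝓔.subtype).coprod (b7cn C ∘ₗ N.subtype)).coprod
      ((LinearMap.toSpanSingleton ℝ _ D).coprod (Fintype.linearCombination ℝ (dv D)))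
  have hΘ : ∀ D z, Θ D z = ((z.1.1 : b7cS) : Q4 ℝ) + b7cn C z.1.2 + (z.2.1 • D + ∑ v, z.2.2 v • dv D v) := by
    intro D z
    simp [Θ, Fintype.linearCombination_apply]
  have hsym : ∀ D z, Sym4 D → Sym4 (Θ D z) := by
    intro D z hD
    rw [hΘ]
    exact (Sym4.add (z.1.1 : b7cS).2 (b7cn_sym C _)).add
      ((hD.smul _).add (Sym4.sum _ _ fun v _ => (hD.dv v).smul _))
  have hsurj : LinearMap.range (π ∘ₗ Θ C.D0) = ⊤ := by
    rw [LinearMap.range_eq_top]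
    intro δ
    have hmem : δ ∈ LinearMap.ker (b7cG C C.D0 ∘ₗ b7cS.subtype) ⊔ 𝓔 := by rw [hE.sup_eq_top]; trivial
    obtain ⟨x, hx, e, he, rfl⟩ := Submodule.mem_sup.mp hmem
    obtain ⟨w, u, hwu⟩ := C.ker0 x x.2 (fun a k l => by
      have := congrFun (congrFun (congrFun (LinearMap.mem_ker.mp hx) a) k) l
      rw [← b7c_jD0]; exact this)
    refine ⟨((⟨e, he⟩, ⟨fun r => w r - w 0, by simp [N]⟩), (w 0, u)), ?_⟩
    rw [LinearMap.comp_apply, ← hπ' (x + e)]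
    congr 1
    rw [hΘ, Submodule.coe_add, hwu, b7cn_apply]
    simp only [Conf.D0, sub_smul, Finset.sum_sub_distrib, Finset.smul_sum]
    abel
  obtain ⟨ρ, hρ⟩ := LinearMap.exists_rightInverse_of_surjective _ hsurj
  have hπc : Continuous π := LinearMap.continuous_of_finiteDimensional π
  have h1 := b7c_ev_inj (l := 𝓝 C.D0) (fun D => (π ∘ₗ Θ D) ∘ₗ ρ) ((π ∘ₗ Θ C.D0) ∘ₗ ρ)
    (fun x => by
      simp only [LinearMap.comp_apply]
      refine (hπc.tendsto _).comp (Continuous.tendsto (f := fun D => Θ D (ρ x)) ?_ _)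
      simp only [hΘ]
      have h1 : Continuous fun D : Q4 ℝ => (ρ x).2.1 • D := continuous_const_smul _
      have h2 : Continuous fun D : Q4 ℝ => ∑ v, (ρ x).2.2 v • dv D v :=
        continuous_finsetSum _ fun v _ => (continuous_const_smul ((ρ x).2.2 v)).comp (b7c_cont_dv v)
      exact continuous_const.add (h1.add h2))
    (by rw [hρ]; exact fun _ _ h => h)
  filter_upwards [h1] with D hD hs δ hδ
  obtain ⟨x, hx⟩ := LinearMap.injective_iff_surjective.mp hD ⟨δ, hδ⟩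
  have h2 : π (Θ D (ρ x)) = ⟨Θ D (ρ x), hsym D _ hs⟩ := hπ' ⟨Θ D (ρ x), hsym D _ hs⟩
  have h3 : Θ D (ρ x) = δ := congrArg Subtype.val (h2.symm.trans hx)
  exact ⟨(ρ x).1.1, (ρ x).1.2, (ρ x).2.1, (ρ x).2.2, (ρ x).1.2.2, by rw [← h3, hΘ]⟩

/-- weights with `w 0 = 0` -/
def b7cN : Submodule ℝ (Fin 18 → ℝ) := LinearMap.ker (LinearMap.proj (R := ℝ) (φ := fun _ : Fin 18 => ℝ) 0)

theorem b7c_lim (C : Conf) (𝓔 : Submodule ℝ b7cS) (hE : IsCompl (LinearMap.ker (b7cG C C.D0 ∘ₗ b7cS.subtype)) 𝓔)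
    (e : 𝓔) (n : b7cN) (hen : b7cG C C.D0 ((e : b7cS) : Q4 ℝ) + b7ch C n = 0) : e = 0 ∧ n = 0 := by
  have h1 := C.ker1 ((e : b7cS) : Q4 ℝ) (e : b7cS).2 n (fun a k l => by
    have h2 := congrFun (congrFun (congrFun hen a) k) l
    simp only [Pi.add_apply, Pi.zero_apply, b7cG_apply, b7ch, LinearMap.coe_mk, AddHom.coe_mk, b7c_jD0] at h2
    exact add_neg_eq_zero.mp h2)
  have hn0 : (n : Fin 18 → ℝ) 0 = 0 := n.2
  have hn : n = 0 := Subtype.ext (funext fun r => (h1 r).trans hn0)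
  rw [hn, Submodule.coe_zero, map_zero, add_zero] at hen
  have h4 : (e : b7cS) ∈ LinearMap.ker (b7cG C C.D0 ∘ₗ b7cS.subtype) ⊓ 𝓔 := by
    refine ⟨?_, e.2⟩
    rw [SetLike.mem_coe, LinearMap.mem_ker, LinearMap.comp_apply, Submodule.subtype_apply]
    exact hen
  rw [hE.inf_eq_bot] at h4
  exact ⟨Subtype.ext h4, hn⟩

open Filter in
theorem b7c_inj_t (C : Conf) (γ : ℝ → Q4 ℝ) (h0 : γ 0 = C.D0) (hd : HasDerivAt γ C.D1 0)
    (𝓔 : Submodule ℝ b7cS) (hE : IsCompl (LinearMap.ker (b7cG C C.D0 ∘ₗ b7cS.subtype)) 𝓔) :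
    ∀ᶠ t in 𝓝[≠] (0 : ℝ), ∀ (e : 𝓔) (n : b7cN),
      b7cG C (γ t) ((e : b7cS) : Q4 ℝ) + b7cG C (γ t) (b7cn C n) = 0 → e = 0 ∧ n = 0 := by
  have hγ : Tendsto γ (𝓝 0) (𝓝 C.D0) := by
    rw [← h0]; exact hd.continuousAt.tendsto
  have hinj := b7c_first (E := 𝓔) (N := b7cN) (fun t => b7cG C (γ t) ∘ₗ b7cS.subtype ∘ₗ 𝓔.subtype)
    (fun t => b7cG C (γ t) ∘ₗ b7cn C ∘ₗ b7cN.subtype) (b7ch C ∘ₗ b7cN.subtype)
    (fun e => by
      simp only [LinearMap.comp_apply, Submodule.subtype_apply, ContinuousAt, h0]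
      exact (b7c_cont_G C (b7c_detA C) (b7c_detM C) ((e : b7cS) : Q4 ℝ)).tendsto.comp hγ)
    (fun n => by
      simp only [LinearMap.comp_apply, Submodule.subtype_apply]
      exact b7c_slope C γ h0 hd n)
    (fun e n hen => by
      simp only [LinearMap.comp_apply, Submodule.subtype_apply, h0] at hen
      exact b7c_lim C 𝓔 hE e n hen)
  simpa only [LinearMap.comp_apply, Submodule.subtype_apply] using hinj

open Filter in
theorem b7c_inj_gen (C : Conf) {E : Type} [NormedAddCommGroup E] [NormedSpace ℝ E] [FiniteDimensional ℝ E]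
    (inc : E →ₗ[ℝ] Q4 ℝ) {D₁ : Q4 ℝ} (hA : (C.Am D₁).det ≠ 0) (hM : (Mm (D₁ 0)).det ≠ 0)
    (ht : ∀ x, b7cG C D₁ (inc x) = 0 → x = 0) : ∀ᶠ D in 𝓝 D₁, ∀ x, b7cG C D (inc x) = 0 → x = 0 := by
  have h1 := b7c_ev_inj (l := 𝓝 D₁) (fun D => b7cG C D ∘ₗ inc) (b7cG C D₁ ∘ₗ inc)
    (fun x => by
      simp only [LinearMap.comp_apply]
      exact (b7c_cont_G C hA hM (inc x)).tendsto)
    (by
      rw [injective_iff_map_eq_zero]
      intro x hx
      exact ht x hx)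
  filter_upwards [h1] with D hD x hx
  rw [injective_iff_map_eq_zero] at hD
  exact hD x hx

open Filter in
theorem b7c_inj_near (C : Conf) (𝓔 : Submodule ℝ b7cS) {D₁ : Q4 ℝ} (hA : (C.Am D₁).det ≠ 0) (hM : (Mm (D₁ 0)).det ≠ 0)
    (ht : ∀ (e : 𝓔) (n : b7cN), b7cG C D₁ ((e : b7cS) : Q4 ℝ) + b7cG C D₁ (b7cn C n) = 0 → e = 0 ∧ n = 0) :
    ∀ᶠ D in 𝓝 D₁, ∀ (e : 𝓔) (n : b7cN), b7cG C D (((e : b7cS) : Q4 ℝ) + b7cn C n) = 0 → e = 0 ∧ n = 0 := by
  obtain ⟨inc, hinc⟩ : ∃ inc : (𝓔 × b7cN) →ₗ[ℝ] Q4 ℝ, ∀ x, inc x = ((x.1 : b7cS) : Q4 ℝ) + b7cn C x.2 :=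
    ⟨(b7cS.subtype ∘ₗ 𝓔.subtype).coprod (b7cn C ∘ₗ b7cN.subtype), fun x => by
      simp only [LinearMap.comp_apply, LinearMap.coprod_apply, Submodule.subtype_apply]⟩
  have h1 := b7c_inj_gen C (E := 𝓔 × b7cN) inc hA hM (fun x hx => by
    rw [hinc, map_add] at hx
    obtain ⟨h2, h3⟩ := ht x.1 x.2 hx
    exact Prod.ext h2 h3)
  filter_upwards [h1] with D hD e n hen
  have h2 := hD (e, n) (by rw [hinc]; exact hen)
  exact ⟨congrArg Prod.fst h2, congrArg Prod.snd h2⟩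

open Filter in
theorem Conf.ker_small (C : Conf) (γ : ℝ → Q4 ℝ) (h0 : γ 0 = C.D0) (hd : HasDerivAt γ C.D1 0) :
    ∀ᶠ t in 𝓝[≠] (0 : ℝ), ∀ᶠ D in 𝓝 (γ t), Sym4 D → C.Phi D = 0 → KerTriv (C.jD D) D := by
  obtain ⟨𝓔, hE⟩ := Submodule.exists_isCompl (LinearMap.ker (b7cG C C.D0 ∘ₗ b7cS.subtype))
  have hγ : Tendsto γ (𝓝 0) (𝓝 C.D0) := by
    rw [← h0]; exact hd.continuousAt.tendsto
  have hdet : ∀ᶠ D in 𝓝 C.D0, (C.Am D).det ≠ 0 ∧ (Mm (D 0)).det ≠ 0 :=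
    ((b7c_cont_Am C).matrix_det.continuousAt.eventually_ne (b7c_detA C)).and
      (b7c_cont_Mm.matrix_det.continuousAt.eventually_ne (b7c_detM C))
  have hall := hγ.eventually (eventually_eventually_nhds.mpr (hdet.and (b7c_onto C 𝓔 hE)))
  filter_upwards [b7c_inj_t C γ h0 hd 𝓔 hE, hall.filter_mono nhdsWithin_le_nhds] with t ht hn
  obtain ⟨⟨hA, hM⟩, -⟩ := hn.self_of_nhds
  filter_upwards [b7c_inj_near C 𝓔 hA hM ht, hn] with D hD hD' hs hΦ δ hδ hker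
  obtain ⟨⟨hA', hM'⟩, hon⟩ := hD'
  obtain ⟨e, w, c, u, hw, hδ'⟩ := hon hs δ hδ
  have hJ := C.jD_orth hs hA' hΦ
  obtain ⟨h3, h4⟩ := hD e ⟨w, hw⟩ (by
    funext a k l
    have h3 := hker a k l
    rw [hδ', pr_add_left, pr_add_left (c • D), pr_smul_left, pr_sum_left, hJ a] at h3
    simp only [pr_smul_left, triv_dv hs hM' (hJ a), mul_zero, Finset.sum_const_zero, add_zero] at h3
    rw [b7cG_apply]
    exact h3)
  have h5 : w = 0 := congrArg Subtype.val h4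
  refine ⟨c, u, ?_⟩
  rw [hδ', h3, h5, map_zero, Submodule.coe_zero, Submodule.coe_zero, add_zero, zero_add]

end Crest.Agent.R237
end
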