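import Crest.Agent.R237.B7b
import Crest.Agent.R237.B7c

set_option autoImplicit false
open scoped BigOperators Matrix Topology
open Crest.GeometryTopology

noncomputable section
namespace Crest.Agent.R237

/-! # B7d: an open set of lower moments with good extensions.

`pd_near`: positive definiteness of symmetric matrices is open (`x ⬝ M x ≥ κ |x|²`, perturb).  Then pick `t ≠ 0` small
with `γ t` in the interior of all the "eventually" sets (`eventually_eventually_nhds`), and apply `open_proj`. -/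

theorem pd_open {X n : Type} [TopologicalSpace X] [Fintype n] {M : X → Matrix n n ℝ} (hM : Continuous M) {x₀ : X}
    (h : (M x₀).PosDef) : ∀ᶠ x in 𝓝 x₀, (M x).IsSymm → (M x).PosDef := by
  have hc : Continuous fun z : X × (n → ℝ) => z.2 ⬝ᵥ M z.1 *ᵥ z.2 :=
    continuous_snd.dotProduct ((hM.comp continuous_fst).matrix_mulVec continuous_snd)
  filter_upwards [(isCompact_sphere (0 : n → ℝ) 1).eventually_forall_of_forall_eventually (x₀ := x₀)
    (P := fun x v => 0 < v ⬝ᵥ M x *ᵥ v) fun v hv => (isOpen_lt continuous_const hc).mem_nhds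
      (h.dotProduct_mulVec_pos (Metric.ne_of_mem_sphere hv one_ne_zero))] with x hx hs
  refine Matrix.PosDef.of_dotProduct_mulVec_pos hs fun v hv => ?_
  have h1 := hx (‖v‖⁻¹ • v) (by simp [norm_smul, hv])
  rw [Matrix.mulVec_smul, smul_dotProduct, dotProduct_smul] at h1
  have h2 : 0 < ‖v‖⁻¹ := inv_pos.2 (norm_pos_iff.2 hv)
  exact pos_of_mul_pos_right (pos_of_mul_pos_right h1 h2.le) h2.le

theorem Conf.pd_near (C : Conf) : ∀ᶠ D in 𝓝 C.D0, Sym4 D → (C.Am D).PosDef ∧ (Mm (D 0)).PosDef := by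
  have h1 : Continuous C.Am := continuous_matrix fun i j => by
    simp only [Conf.Am, Matrix.of_apply, pr]
    fun_prop
  have h2 : Continuous fun D : Q4 ℝ => Mm (D 0) := continuous_matrix fun i j => by
    simp only [Mm, Matrix.of_apply]
    fun_prop
  filter_upwards [pd_open h1 (x₀ := C.D0) (C.Am0 ▸ Matrix.PosDef.one), pd_open h2 C.Mm0] with D a b hD
  exact ⟨a (Matrix.ext fun i j => pr_comm hD _ _), b hD.zero.isSymm⟩

theorem Conf.good_open (C : Conf) :
    ∃ O : Set (C3 ℝ), IsOpen O ∧ O.Nonempty ∧ ∀ t ∈ O, ∃ D : Q4 ℝ, Good D ∧ D 0 = sy t := by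
  obtain ⟨γ, h0, hd, hγ⟩ := C.exists_curve
  have hc : Filter.Tendsto γ (𝓝[≠] 0) (𝓝 C.D0) := (h0 ▸ hd.continuousAt.tendsto).mono_left nhdsWithin_le_nhds
  obtain ⟨t, h1, h2, h3, h4⟩ := ((hγ.filter_mono nhdsWithin_le_nhds).and ((hc.eventually C.open_proj).and
    ((hc.eventually C.pd_near.eventually_nhds).and (C.ker_small γ h0 hd)))).exists
  obtain ⟨O, hO, hne, h⟩ := h2 h1.1 h1.2 _ (h3.and h4)
  refine ⟨O, hO, hne, fun t ht => ?_⟩
  obtain ⟨D, ⟨a, b⟩, hs, hΦ, e⟩ := h t ht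
  obtain ⟨hA, hM⟩ := a hs
  exact ⟨D, ⟨hs, hM, C.psd_of hs hA hΦ, C.rk_of hs hA hM.det_pos.ne',
    tr_of hs hM.det_pos.ne' _ (C.jD_orth hs hA.det_pos.ne' hΦ) (b hs hΦ)⟩, e⟩

end Crest.Agent.R237
end
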