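import Crest.Agent.R237.B8KS
import Crest.Agent.R237.B8KT
import Crest.Agent.R237.B8KG

/-! # B8K: the integer configuration exists (kernel certificates) -/

set_option autoImplicit false

namespace Crest.Agent.R237

theorem exists_iconf : Nonempty IConf :=
  ⟨{ P := K.P, J := K.J, C := K.Cq, dn := 4, dm := 152037, lh := K.lh, mon := K.mon, rep := K.rep, D1 := K.D1, tp := K.tp,
     pa := fun t => K.paN t, nm := K.nm, dn0 := by norm_num, dm0 := by norm_num, p0 := K.p0, rep_mon := K.rep_mon,
     mon_rep := K.mon_rep, hJ := K.hJ, hC := K.hC, hl := K.hl, tan := K.tan, tp0 := K.tp0,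
     pa_surj := fun a b => ⟨K.ps a b, K.pa_ps a b⟩, injP := K.injP, injQ := K.injQ, injT := K.injT, injN := K.injN,
     injG := K.injG }⟩

end Crest.Agent.R237
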