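import Crest.Agent.R237.B8M
import Crest.Agent.R237.B8K

set_option autoImplicit false
open scoped BigOperators Matrix Topology
open Crest.GeometryTopology

noncomputable section
namespace Crest.Agent.R237

/-! # B8: the configuration (certificates) -/

theorem exists_conf : Nonempty Conf := by
  obtain ⟨I⟩ := exists_iconf
  exact ⟨I.toConf⟩

end Crest.Agent.R237
end
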