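import Crest.Agent.R237.BDefs

/-!
# B8: integer form of the configuration (frozen)

Quartic monomials are numbered by `Fin 330`: `mon a b c d` is the number of `x_a x_b x_c x_d`, `rep μ` a listing of `μ`.
-/

set_option autoImplicit false
open scoped BigOperators Matrix

namespace Crest.Agent.R237

abbrev Z2 : Type := Fin 8 → Fin 8 → ℤ

def evz (q : Z2) (x : Fin 8 → ℤ) : ℤ := ∑ a, ∑ b, q a b * x a * x b
/-- coefficient of the monomial `μ` in `q q'` -/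
def coz (mon : Fin 8 → Fin 8 → Fin 8 → Fin 8 → Fin 330) (q q' : Z2) (μ : Fin 330) : ℤ :=
  ∑ a, ∑ b, ∑ c, ∑ d, if mon a b c d = μ then q a b * q' c d else 0
/-- `dm • Aq D0 k l` -/
def Az (dm : ℤ) (lh : Fin 8 → Fin 7 → Fin 7 → ℤ) (k l : Fin 7) : Z2 := fun a b =>
  (if a = k.succ ∧ b = l.succ then dm else 0) - (if a = 0 then lh b k l else 0)
/-- sort four indices -/
def srt (a b c d : Fin 8) : Fin 8 × Fin 8 × Fin 8 × Fin 8 :=
  (min (min a b) (min c d), min (max (min a b) (min c d)) (min (max a b) (max c d)),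
    max (max (min a b) (min c d)) (min (max a b) (max c d)), max (max a b) (max c d))
/-- the value of `dirac x` on a monomial -/
def dirz (x : Fin 8 → ℤ) (y : Fin 8 × Fin 8 × Fin 8 × Fin 8) : ℤ := x y.1 * x y.2.1 * x y.2.2.1 * x y.2.2.2
/-- the value of `dv (dirac x) v` on a monomial, for `x 0 = 1` -/
def dvz (x : Fin 8 → ℤ) (v : Fin 8) (y : Fin 8 × Fin 8 × Fin 8 × Fin 8) : ℤ :=
  (if y.1 = v then x y.2.1 * x y.2.2.1 * x y.2.2.2 else 0) + (if y.2.1 = v then x y.1 * x y.2.2.1 * x y.2.2.2 else 0) +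
    (if y.2.2.1 = v then x y.1 * x y.2.1 * x y.2.2.2 else 0) + (if y.2.2.2 = v then x y.1 * x y.2.1 * x y.2.2.1 else 0)

structure IConf where
  P : Fin 18 → Fin 8 → ℤ
  J : Fin 18 → Z2
  C : Fin 18 → Z2
  dn : ℤ
  dm : ℤ
  lh : Fin 8 → Fin 7 → Fin 7 → ℤ
  mon : Fin 8 → Fin 8 → Fin 8 → Fin 8 → Fin 330
  rep : Fin 330 → Fin 8 × Fin 8 × Fin 8 × Fin 8
  D1 : Fin 330 → ℤ
  /-- 171 monomials without `x₀` -/
  tp : Fin 171 → Fin 330
  /-- the pairs `a ≤ b` -/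
  pa : Fin 171 → Fin 18 × Fin 18
  /-- 26 normalising monomials -/
  nm : Fin 26 → Fin 330
  dn0 : dn ≠ 0
  dm0 : dm ≠ 0
  p0 : ∀ r, P r 0 = 1
  rep_mon : ∀ a b c d, rep (mon a b c d) = srt a b c d
  mon_rep : ∀ μ, mon (rep μ).1 (rep μ).2.1 (rep μ).2.2.1 (rep μ).2.2.2 = μ
  hJ : ∀ a r, evz (J a) (P r) = 0
  hC : ∀ i r, evz (C i) (P r) = if i = r then dn else 0
  hl : ∀ a k l, ∑ r, P r a * ∑ b, P r b * lh b k l = dm * ∑ r, P r a * P r k.succ * P r l.succ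
  tan : ∀ a b, ∑ μ, coz mon (J a) (J b) μ * D1 μ = 0
  tp0 : ∀ t, (rep (tp t)).1 ≠ 0
  pa_surj : ∀ a b, ∃ s, pa s = (a, b) ∨ pa s = (b, a)
  /-- the points span -/
  injP : ∀ x : Fin 8 → ℝ, (∀ r, ∑ a, (P r a : ℝ) * x a = 0) → x = 0
  /-- the 36 quadrics `C i`, `J a` are independent modulo antisymmetric arrays (36 unknowns) -/
  injQ : ∀ α β : Fin 18 → ℝ,
    (∀ a b, ∑ i, ((C i a b + C i b a : ℤ) : ℝ) * α i + ∑ k, ((J k a b + J k b a : ℤ) : ℝ) * β k = 0) → α = 0 ∧ β = 0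
  /-- 171 × 171 -/
  injT : ∀ y : Fin 171 → ℝ, (∀ s, ∑ t, (coz mon (J (pa s).1) (J (pa s).2) (tp t) : ℝ) * y t = 0) → y = 0
  /-- 26 × 26 -/
  injN : ∀ (w : Fin 18 → ℝ) (u : Fin 8 → ℝ),
    (∀ s, ∑ r, (dirz (P r) (rep (nm s)) : ℝ) * w r + ∑ v, ((∑ r, dvz (P r) v (rep (nm s)) : ℤ) : ℝ) * u v = 0) →
      w = 0 ∧ u = 0
  /-- 348 unknowns, 27 of them normalised to zero; 504 equations of rank 321 -/
  injG : ∀ (δ : Fin 330 → ℝ) (w : Fin 18 → ℝ), (∀ s, δ (nm s) = 0) → w 0 = 0 →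
    (∀ a k l, ∑ μ, (coz mon (J a) (Az dm lh k l) μ : ℝ) * δ μ =
      ∑ r, (((∑ μ, coz mon (C r) (J a) μ * D1 μ) * evz (Az dm lh k l) (P r) : ℤ) : ℝ) * w r) → δ = 0 ∧ w = 0

end Crest.Agent.R237
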