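import Crest.Agent.R237.B8Defs
import Crest.Agent.R237.B7a

/-! # B8M: from the integer configuration to `Conf` -/

set_option autoImplicit false
open scoped BigOperators Matrix

noncomputable section
namespace Crest.Agent.R237

theorem Sym4.srt_eq {D : Q4 ℝ} (hD : Sym4 D) (a b c d : Fin 8) :
    D (srt a b c d).1 (srt a b c d).2.1 (srt a b c d).2.2.1 (srt a b c d).2.2.2 = D a b c d := by
  have s1 : ∀ a b c d, D (min a b) (max a b) c d = D a b c d := fun a b c d => by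
    rcases le_total a b with h | h
    · rw [min_eq_left h, max_eq_right h]
    · rw [min_eq_right h, max_eq_left h, (hD a b c d).1]
  have s2 : ∀ a b c d, D a (min b c) (max b c) d = D a b c d := fun a b c d => by
    rcases le_total b c with h | h
    · rw [min_eq_left h, max_eq_right h]
    · rw [min_eq_right h, max_eq_left h, (hD a b c d).2.1]
  have s3 : ∀ a b c d, D a b (min c d) (max c d) = D a b c d := fun a b c d => by
    rcases le_total c d with h | h
    · rw [min_eq_left h, max_eq_right h]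
    · rw [min_eq_right h, max_eq_left h, (hD a b c d).2.2]
  simp only [srt]
  rw [s2, s1, s3, ← (hD _ _ _ _).2.1, s1, s3]

theorem srt_sym : ∀ a b c d : Fin 8, srt a b c d = srt b a c d ∧ srt a b c d = srt a c b d ∧ srt a b c d = srt a b d c := by
  decide +kernel

theorem srt_zero : ∀ b c d : Fin 8, (srt 0 b c d).1 = 0 := by
  decide +kernel

namespace IConf
variable (I : IConf)

def p (r : Fin 18) : Fin 8 → ℝ := fun a => I.P r a
def cq (q : Z2) : Q2 := fun a b => q a b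
/-- tensor of a coordinate vector -/
def ten (δ : Fin 330 → ℝ) : Q4 ℝ := fun a b c d => δ (I.mon a b c d)
/-- coordinates of a tensor -/
def crd (D : Q4 ℝ) : Fin 330 → ℝ := fun μ => D (I.rep μ).1 (I.rep μ).2.1 (I.rep μ).2.2.1 (I.rep μ).2.2.2
def D0 : Q4 ℝ := ∑ r, dirac (I.p r)

theorem mon_srt (a b c d : Fin 8) :
    I.mon a b c d = I.mon (srt a b c d).1 (srt a b c d).2.1 (srt a b c d).2.2.1 (srt a b c d).2.2.2 := by
  rw [← I.rep_mon, I.mon_rep]

theorem sym_ten (δ : Fin 330 → ℝ) : Sym4 (I.ten δ) := fun a b c d => by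
  obtain ⟨h1, h2, h3⟩ := srt_sym a b c d
  simp only [ten]
  refine ⟨?_, ?_, ?_⟩
  · rw [I.mon_srt a b c d, I.mon_srt b a c d, h1]
  · rw [I.mon_srt a b c d, I.mon_srt a c b d, h2]
  · rw [I.mon_srt a b c d, I.mon_srt a b d c, h3]

theorem ten_crd {D : Q4 ℝ} (hD : Sym4 D) : I.ten (I.crd D) = D := by
  funext a b c d
  simp only [ten, crd, I.rep_mon]
  exact hD.srt_eq a b c d

theorem pr_ten (δ : Fin 330 → ℝ) (q q' : Z2) : pr (I.ten δ) (cq q) (cq q') = ∑ μ, (coz I.mon q q' μ : ℝ) * δ μ := by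
  simp only [pr, coz, ten, cq, Int.cast_sum, Finset.sum_mul]
  symm
  rw [Finset.sum_comm]
  refine Finset.sum_congr rfl fun a _ => ?_
  rw [Finset.sum_comm]
  refine Finset.sum_congr rfl fun b _ => ?_
  rw [Finset.sum_comm]
  refine Finset.sum_congr rfl fun c _ => ?_
  rw [Finset.sum_comm]
  refine Finset.sum_congr rfl fun d _ => ?_
  simp [ite_mul]

theorem ev_cq (q : Z2) (r : Fin 18) : ev (cq q) (I.p r) = (evz q (I.P r) : ℝ) := by
  simp [ev, evz, cq, p]

theorem sym0 : Sym4 I.D0 := Sym4.sum _ _ fun _ _ => sym4_dirac _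

theorem Mm0 (a b : Fin 8) : Mm (I.D0 0) a b = ∑ r, I.p r a * I.p r b := by
  simp [Mm, D0, dirac, Finset.sum_apply, p, I.p0]

theorem det0 : (Mm (I.D0 0)).det ≠ 0 := by
  intro h
  obtain ⟨x, hx, h0⟩ := Matrix.exists_mulVec_eq_zero_iff.mpr h
  refine hx (I.injP x fun r => ?_)
  have h1 : ∑ r, (∑ a, I.p r a * x a) ^ 2 = x ⬝ᵥ Mm (I.D0 0) *ᵥ x := by
    simp only [dotProduct, Matrix.mulVec, I.Mm0, sq, Finset.sum_mul, Finset.mul_sum]
    rw [Finset.sum_comm]
    refine Finset.sum_congr rfl fun a _ => ?_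
    rw [Finset.sum_comm]
    refine Finset.sum_congr rfl fun b _ => Finset.sum_congr rfl fun r _ => by ring
  rw [h0, dotProduct_zero] at h1
  have := (Finset.sum_eq_zero_iff_of_nonneg fun r _ => sq_nonneg _).mp h1 r (Finset.mem_univ r)
  exact pow_eq_zero_iff (two_ne_zero) |>.mp this

theorem lc_eq (a : Fin 8) (k l : Fin 7) : lc I.D0 a k l = (I.lh a k l : ℝ) / I.dm := by
  have hdm : (I.dm : ℝ) ≠ 0 := Int.cast_ne_zero.mpr I.dm0
  have h1 : Mm (I.D0 0) *ᵥ (fun b => (I.lh b k l : ℝ) / I.dm) = fun b => I.D0 0 b k.succ l.succ := by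
    funext b
    have h := congrArg (Int.cast : ℤ → ℝ) (I.hl b k l)
    push_cast at h
    have h2 : I.D0 0 b k.succ l.succ = ∑ r, (I.P r b : ℝ) * I.P r k.succ * I.P r l.succ := by
      simp [D0, dirac, Finset.sum_apply, p, I.p0]
    rw [h2, ← mul_right_inj' hdm, ← h]
    simp only [Matrix.mulVec, dotProduct, I.Mm0, p, Finset.mul_sum, Finset.sum_mul]
    rw [Finset.sum_comm]
    refine Finset.sum_congr rfl fun r _ => Finset.sum_congr rfl fun c _ => by field_simp
  have h3 : lc I.D0 a k l = ((Mm (I.D0 0))⁻¹ *ᵥ fun b => I.D0 0 b k.succ l.succ) a := rfl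
  rw [h3, ← h1, Matrix.mulVec_mulVec, Matrix.nonsing_inv_mul _ (Ne.isUnit I.det0), Matrix.one_mulVec]

theorem Aq_eq (k l : Fin 7) : Aq I.D0 k l = (I.dm : ℝ)⁻¹ • cq (Az I.dm I.lh k l) := by
  have hdm : (I.dm : ℝ) ≠ 0 := Int.cast_ne_zero.mpr I.dm0
  funext a b
  simp only [Aq, Az, cq, I.lc_eq, Pi.smul_apply, smul_eq_mul]
  split_ifs <;> push_cast <;> field_simp <;> simp

theorem spanQ (q : Q2) : ∃ α β : Fin 18 → ℝ, ∀ a b, q a b + q b a =
    ∑ i, ((I.C i a b + I.C i b a : ℤ) : ℝ) * α i + ∑ k, ((I.J k a b + I.J k b a : ℤ) : ℝ) * β k := by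
  let f : ((Fin 18 → ℝ) × (Fin 18 → ℝ)) →ₗ[ℝ] ({x : Fin 8 × Fin 8 // x.1 ≤ x.2} → ℝ) :=
    { toFun := fun y x => ∑ i, ((I.C i x.1.1 x.1.2 + I.C i x.1.2 x.1.1 : ℤ) : ℝ) * y.1 i +
        ∑ k, ((I.J k x.1.1 x.1.2 + I.J k x.1.2 x.1.1 : ℤ) : ℝ) * y.2 k
      map_add' := fun y y' => by
        funext x
        simp only [Prod.fst_add, Prod.snd_add, Pi.add_apply, mul_add, Finset.sum_add_distrib]; ring
      map_smul' := fun c y => by
        funext x
        simp only [Prod.smul_fst, Prod.smul_snd, Pi.smul_apply, smul_eq_mul, RingHom.id_apply, mul_add, Finset.mul_sum,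
          mul_left_comm] }
  have hinj : Function.Injective f := by
    rw [injective_iff_map_eq_zero]
    intro y hy
    have := I.injQ y.1 y.2 fun a b => by
      rcases le_total a b with h | h
      · exact congrFun hy ⟨(a, b), h⟩
      · have := congrFun hy ⟨(b, a), h⟩
        simp only [f, LinearMap.coe_mk, AddHom.coe_mk, Pi.zero_apply] at this
        simpa only [add_comm] using this
    exact Prod.ext this.1 this.2
  have hsurj : Function.Surjective f := by
    refine (LinearMap.injective_iff_surjective_of_finrank_eq_finrank ?_).mp hinj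
    have : Fintype.card {x : Fin 8 × Fin 8 // x.1 ≤ x.2} = 36 := by decide +kernel
    simp [Module.finrank_prod, this]
  obtain ⟨y, hy⟩ := hsurj fun x => q x.1.1 x.1.2 + q x.1.2 x.1.1
  refine ⟨y.1, y.2, fun a b => ?_⟩
  rcases le_total a b with h | h
  · exact (congrFun hy ⟨(a, b), h⟩).symm
  · have := (congrFun hy ⟨(b, a), h⟩).symm
    simp only [f, LinearMap.coe_mk, AddHom.coe_mk] at this
    simpa only [add_comm] using this

theorem ev_sym (q : Q2) (x : Fin 8 → ℝ) : ∑ a, ∑ b, (q a b + q b a) * x a * x b = 2 * ev q x := by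
  simp only [add_mul, Finset.sum_add_distrib, ev, two_mul]
  congr 1
  rw [Finset.sum_comm]
  exact Finset.sum_congr rfl fun a _ => Finset.sum_congr rfl fun b _ => by ring

theorem ev_add' (q q' : Q2) (x : Fin 8 → ℝ) : ev (q + q') x = ev q x + ev q' x := by
  simp only [ev, Pi.add_apply, add_mul, Finset.sum_add_distrib]

theorem ev_smul' (c : ℝ) (q : Q2) (x : Fin 8 → ℝ) : ev (c • q) x = c * ev q x := by
  simp only [ev, Pi.smul_apply, smul_eq_mul, Finset.mul_sum, mul_assoc]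

theorem ev_sum' {ι : Type} (s : Finset ι) (q : ι → Q2) (x : Fin 8 → ℝ) : ev (∑ i ∈ s, q i) x = ∑ i ∈ s, ev (q i) x := by
  classical
  induction s using Finset.induction_on with
  | empty => simp [ev]
  | insert i s hi ih => rw [Finset.sum_insert hi, Finset.sum_insert hi, ev_add', ih]

/-- expansion of a quadric in the basis -/
theorem spanQ' (q : Q2) : ∃ β : Fin 18 → ℝ, ∀ a b, q a b + q b a =
    (∑ i, (ev q (I.p i) / I.dn) • cq (I.C i) + ∑ k, β k • cq (I.J k)) a b +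
      (∑ i, (ev q (I.p i) / I.dn) • cq (I.C i) + ∑ k, β k • cq (I.J k)) b a := by
  have hdn : (I.dn : ℝ) ≠ 0 := Int.cast_ne_zero.mpr I.dn0
  obtain ⟨α, β, h⟩ := I.spanQ q
  have h' : ∀ a b, q a b + q b a = (∑ i, α i • cq (I.C i) + ∑ k, β k • cq (I.J k)) a b +
      (∑ i, α i • cq (I.C i) + ∑ k, β k • cq (I.J k)) b a := fun a b => by
    rw [h]
    simp only [Pi.add_apply, Finset.sum_apply, Pi.smul_apply, smul_eq_mul, cq, Int.cast_add, add_mul,
      Finset.sum_add_distrib, mul_comm (α _), mul_comm (β _)]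
    ring
  have hα : ∀ r, ev q (I.p r) / I.dn = α r := fun r => by
    have h1 := ev_sym q (I.p r)
    simp only [h'] at h1
    rw [ev_sym, ev_add', ev_sum', ev_sum'] at h1
    simp only [ev_smul', I.ev_cq, I.hC, I.hJ, Int.cast_zero, mul_zero, Finset.sum_const_zero, add_zero, Int.cast_ite,
      mul_ite, Finset.sum_ite_eq', Finset.mem_univ, if_true] at h1
    field_simp
    linarith
  exact ⟨β, fun a b => by simp only [hα]; exact h' a b⟩

theorem tan' (a b : Fin 18) : pr (I.ten fun μ => I.D1 μ) (cq (I.J a)) (cq (I.J b)) = 0 := by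
  rw [I.pr_ten]
  exact_mod_cast I.tan a b

theorem surj' (Y : Fin 18 → Fin 18 → ℝ) (hY : ∀ a b, Y a b = Y b a) :
    ∃ δ : Q4 ℝ, Sym4 δ ∧ δ 0 = 0 ∧ ∀ a b, pr δ (cq (I.J a)) (cq (I.J b)) = Y a b := by
  let N : Matrix (Fin 171) (Fin 171) ℝ := Matrix.of fun s t => (coz I.mon (I.J (I.pa s).1) (I.J (I.pa s).2) (I.tp t) : ℝ)
  have hinj : Function.Injective N.mulVecLin := by
    rw [injective_iff_map_eq_zero]
    intro y hy
    exact I.injT y fun s => congrFun hy s
  obtain ⟨y, hy⟩ := (LinearMap.injective_iff_surjective.mp hinj) fun s => Y (I.pa s).1 (I.pa s).2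
  let δ : Fin 330 → ℝ := fun μ => ∑ t, if μ = I.tp t then y t else 0
  have hs : ∀ s, pr (I.ten δ) (cq (I.J (I.pa s).1)) (cq (I.J (I.pa s).2)) = Y (I.pa s).1 (I.pa s).2 := fun s => by
    rw [I.pr_ten, ← congrFun hy s]
    simp only [δ, Finset.mul_sum, mul_ite, mul_zero]
    rw [Finset.sum_comm]
    simp [N, Matrix.mulVec, dotProduct]
  refine ⟨I.ten δ, I.sym_ten δ, ?_, fun a b => ?_⟩
  · funext b c d
    refine Finset.sum_eq_zero fun t _ => if_neg fun h => I.tp0 t ?_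
    rw [← h, I.rep_mon, srt_zero]
  · obtain ⟨s, h | h⟩ := I.pa_surj a b
    · have := hs s
      rwa [h] at this
    · have := hs s
      rw [h] at this
      rw [pr_comm (I.sym_ten δ), this, hY]

/-- the trivial kernel vectors -/
def kv (w : Fin 18 → ℝ) (u : Fin 8 → ℝ) : Q4 ℝ := ∑ r, w r • dirac (I.p r) + ∑ v, u v • dv I.D0 v

theorem sym_kv (w : Fin 18 → ℝ) (u : Fin 8 → ℝ) : Sym4 (I.kv w u) :=
  (Sym4.sum _ _ fun _ _ => (sym4_dirac _).smul _).add (Sym4.sum _ _ fun _ _ => (I.sym0.dv _).smul _)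

theorem pr_kv (w : Fin 18 → ℝ) (u : Fin 8 → ℝ) (a : Fin 18) (k l : Fin 7) :
    pr (I.kv w u) (cq (I.J a)) (Aq I.D0 k l) = 0 := by
  have hJ : ∀ q, pr I.D0 (cq (I.J a)) q = 0 := fun q => by
    simp [D0, pr_sum_left, pr_dirac, I.ev_cq, I.hJ]
  simp [kv, pr_add_left, pr_sum_left, pr_smul_left, pr_dirac, I.ev_cq, I.hJ, triv_dv I.sym0 I.det0 hJ]

theorem crd_kv (w : Fin 18 → ℝ) (u : Fin 8 → ℝ) (μ : Fin 330) : I.crd (I.kv w u) μ =
    ∑ r, (dirz (I.P r) (I.rep μ) : ℝ) * w r + ∑ v, ((∑ r, dvz (I.P r) v (I.rep μ) : ℤ) : ℝ) * u v := by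
  simp only [crd, kv, Pi.add_apply, Finset.sum_apply, Pi.smul_apply, smul_eq_mul]
  congr 1
  · exact Finset.sum_congr rfl fun r _ => by simp [dirz, dirac, p, mul_comm]
  · refine Finset.sum_congr rfl fun v _ => ?_
    rw [mul_comm]
    congr 1
    simp only [dv, dvz, D0, Finset.sum_apply, dirac, p, I.p0, Int.cast_sum, Int.cast_add, Int.cast_ite, Int.cast_mul,
      Int.cast_zero, Int.cast_one, one_mul, mul_one, Finset.sum_add_distrib]
    congr 1
    · congr 1
      · congr 1 <;> split_ifs <;> simp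
      · split_ifs <;> simp
    · split_ifs <;> simp

theorem normalise (δ : Q4 ℝ) : ∃ w u, ∀ s, I.crd (δ - I.kv w u) (I.nm s) = 0 := by
  let f : ((Fin 18 → ℝ) × (Fin 8 → ℝ)) →ₗ[ℝ] (Fin 26 → ℝ) :=
    { toFun := fun y s => ∑ r, (dirz (I.P r) (I.rep (I.nm s)) : ℝ) * y.1 r +
        ∑ v, ((∑ r, dvz (I.P r) v (I.rep (I.nm s)) : ℤ) : ℝ) * y.2 v
      map_add' := fun y y' => by
        funext x
        simp only [Prod.fst_add, Prod.snd_add, Pi.add_apply, mul_add, Finset.sum_add_distrib]; ring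
      map_smul' := fun c y => by
        funext x
        simp only [Prod.smul_fst, Prod.smul_snd, Pi.smul_apply, smul_eq_mul, RingHom.id_apply, mul_add, Finset.mul_sum,
          mul_left_comm] }
  have hinj : Function.Injective f := by
    rw [injective_iff_map_eq_zero]
    intro y hy
    have := I.injN y.1 y.2 fun s => congrFun hy s
    exact Prod.ext this.1 this.2
  have hsurj : Function.Surjective f :=
    (LinearMap.injective_iff_surjective_of_finrank_eq_finrank (by simp [Module.finrank_prod])).mp hinj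
  obtain ⟨y, hy⟩ := hsurj fun s => I.crd δ (I.nm s)
  refine ⟨y.1, y.2, fun s => ?_⟩
  have h1 : I.crd (δ - I.kv y.1 y.2) (I.nm s) = I.crd δ (I.nm s) - I.crd (I.kv y.1 y.2) (I.nm s) := rfl
  rw [h1, I.crd_kv, ← congrFun hy s]
  exact sub_self _

theorem Sym4.sub' {D D' : Q4 ℝ} (hD : Sym4 D) (hD' : Sym4 D') : Sym4 (D - D') := by
  rw [sub_eq_add_neg, ← neg_one_smul ℝ D']
  exact hD.add (hD'.smul _)

theorem pr_sub_left' (D D' : Q4 ℝ) (q q' : Q2) : pr (D - D') q q' = pr D q q' - pr D' q q' := by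
  rw [sub_eq_add_neg, ← neg_one_smul ℝ D', pr_add_left, pr_smul_left]; ring

/-- the combined first-order test -/
theorem test (δ : Q4 ℝ) (hδ : Sym4 δ) (w : Fin 18 → ℝ) (hw : w 0 = 0)
    (h : ∀ a k l, pr δ (cq (I.J a)) (Aq I.D0 k l) = ∑ r, w r *
      pr (I.ten fun μ => I.D1 μ) ((I.dn : ℝ)⁻¹ • cq (I.C r)) (cq (I.J a)) * ev (Aq I.D0 k l) (I.p r)) :
    w = 0 ∧ ∃ w' u, δ = I.kv w' u := by
  have hdn : (I.dn : ℝ) ≠ 0 := Int.cast_ne_zero.mpr I.dn0
  have hdm : (I.dm : ℝ) ≠ 0 := Int.cast_ne_zero.mpr I.dm0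
  obtain ⟨w', u, hn⟩ := I.normalise δ
  have hs : Sym4 (δ - I.kv w' u) := Sym4.sub' hδ (I.sym_kv w' u)
  obtain ⟨h1, h2⟩ := I.injG (I.crd (δ - I.kv w' u)) (fun r => w r / I.dn) hn (by simp [hw]) fun a k l => by
    have h3 := h a k l
    rw [← sub_zero (pr δ _ _), ← I.pr_kv w' u a k l, ← pr_sub_left', ← I.ten_crd hs, I.Aq_eq, pr_smul_right,
      I.pr_ten] at h3
    simp only [pr_smul_mid, ev_smul', I.ev_cq, I.pr_ten] at h3
    rw [← mul_right_inj' (inv_ne_zero hdm), h3, Finset.mul_sum]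
    refine Finset.sum_congr rfl fun r _ => ?_
    push_cast
    field_simp
  refine ⟨funext fun r => ?_, w', u, ?_⟩
  · have := congrFun h2 r
    simpa [hdn] using this
  · have := I.ten_crd hs
    rw [h1] at this
    exact (sub_eq_zero.mp this.symm)

theorem pr_D1 (a : Fin 18) (k l : Fin 7) : pr (I.ten fun μ => I.D1 μ) (cq (I.J a)) (Aq I.D0 k l) =
    ∑ r, pr (I.ten fun μ => I.D1 μ) ((I.dn : ℝ)⁻¹ • cq (I.C r)) (cq (I.J a)) * ev (Aq I.D0 k l) (I.p r) := by
  obtain ⟨β, hβ⟩ := I.spanQ' (Aq I.D0 k l)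
  rw [pr_comm (I.sym_ten _), pr_congr (I.sym_ten _) hβ, pr_add_mid, pr_sum_mid, pr_sum_mid]
  simp only [pr_smul_mid, I.tan', mul_zero, Finset.sum_const_zero, add_zero]
  exact Finset.sum_congr rfl fun r _ => by ring

def toConf : Conf where
  p := I.p
  j := fun a => cq (I.J a)
  c := fun i => (I.dn : ℝ)⁻¹ • cq (I.C i)
  D1 := I.ten fun μ => I.D1 μ
  sym1 := I.sym_ten _
  p0 := fun r => by simp [p, I.p0]
  hj := fun a r => by simp [I.ev_cq, I.hJ]
  hc := fun i r => by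
    have hdn : (I.dn : ℝ) ≠ 0 := Int.cast_ne_zero.mpr I.dn0
    rw [ev_smul', I.ev_cq, I.hC]
    split_ifs <;> simp [hdn]
  spanp := fun x hx => I.injP x hx
  spanj := fun q hq => by
    obtain ⟨β, hβ⟩ := I.spanQ' q
    refine ⟨β, fun a b => ?_⟩
    rw [hβ]
    simp [hq, Finset.sum_apply, mul_add, Finset.sum_add_distrib]
  tan := I.tan'
  surj := I.surj'
  ker0 := fun δ hδ h => by
    obtain ⟨-, w, u, h1⟩ := I.test δ hδ 0 rfl fun a k l => by simpa [D0] using h a k l
    exact ⟨w, u, h1⟩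
  ker1 := fun δ hδ w h r => by
    obtain ⟨h1, -⟩ := I.test (δ - w 0 • I.ten fun μ => I.D1 μ) (Sym4.sub' hδ ((I.sym_ten _).smul _))
      (fun r => w r - w 0) (sub_self _) fun a k l => by
        rw [pr_sub_left', pr_smul_left, I.pr_D1]
        refine (congrArg (· - _) (h a k l)).trans ?_
        rw [Finset.mul_sum, ← Finset.sum_sub_distrib]
        exact Finset.sum_congr rfl fun r _ => by simp only [D0]; ring
    exact sub_eq_zero.mp (congrFun h1 r)

end IConf
end Crest.Agent.R237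
end
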