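import Crest.Agent.R237.B2d
import Crest.Agent.R237.B3
import Crest.Agent.R237.B4d
import Crest.Agent.R237.B5b
import Crest.Agent.R237.B6c
import Crest.Agent.R237.B7d
import Crest.Agent.R237.B8

set_option autoImplicit false
open scoped BigOperators Matrix Topology
open Crest.GeometryTopology

noncomputable section
namespace Crest.Agent.R237

/-! # B9: a positive definite functional with negative value of `p`; conclusion.

`exists_neg`: `D₁ = D + asm 0 (c • bb E₀₀)` with `c = (h' - ψ ⬝ Del D) / ψ ⬝ bb E₀₀ > 0` (`psi_pos`) has the same `D 0`,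
`Del D₁ = Del D + c • bb E₀₀`, the same `rel`, so `p (pt D₁) < 0` (`eval_pt`), and `pr D₁ q q ≥ 0`.
`G a b c d = δ_ab δ_cd + δ_ac δ_bd + δ_ad δ_bc` is symmetric and `PD4`; `D₁ + η G` is `PD4` with `p < 0` for small `η > 0`
(continuity), its `Mm` is positive definite (`Mm D + η Mm G`), and `D 0 0 0 0 > 0`; rescale (`poly_hom`). -/

theorem b9_eval_smul {σ : Type} {p : MvPolynomial σ ℝ} {n : ℕ} (hp : p.IsHomogeneous n) (s : ℝ) (x : σ → ℝ) :
    MvPolynomial.eval (s • x) p = s ^ n * MvPolynomial.eval x p := by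
  rw [MvPolynomial.eval_eq, MvPolynomial.eval_eq, Finset.mul_sum]
  refine Finset.sum_congr rfl fun m hm => ?_
  rw [← hp (MvPolynomial.mem_support_iff.1 hm)]
  simp only [Pi.smul_apply, smul_eq_mul, mul_pow, Finset.prod_mul_distrib, Finset.prod_pow_eq_pow_sum,
    Finsupp.weight_apply, Finsupp.sum, Pi.one_apply, mul_one]
  ring

/-- the fourth Gaussian moments -/
def b9G : Q4 ℝ := fun a b c d => (if a = b then 1 else 0) * (if c = d then 1 else 0) +
  (if a = c then 1 else 0) * (if b = d then 1 else 0) + (if a = d then 1 else 0) * (if b = c then 1 else 0)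

theorem b9G_sym : Sym4 b9G := fun a b c d => by
  simp only [b9G, eq_comm (a := b) (b := a), eq_comm (a := c) (b := b), eq_comm (a := d) (b := c)]
  refine ⟨?_, ?_, ?_⟩ <;> ring

theorem b9G_pd : PD4 b9G := fun q hq h0 => by
  have e : pr b9G q q = (∑ a, q a a) * (∑ a, q a a) + (∑ a, ∑ b, q a b * q a b) + ∑ a, ∑ b, q a b * q b a := by
    simp [pr, b9G, mul_add, Finset.sum_add_distrib, Finset.sum_mul_sum]
  obtain ⟨a, ha⟩ := Function.ne_iff.1 h0
  obtain ⟨b, hb⟩ := Function.ne_iff.1 ha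
  have h : 0 < ∑ a, ∑ b, q a b * q a b :=
    Finset.sum_pos' (fun _ _ => Finset.sum_nonneg fun _ _ => mul_self_nonneg _) ⟨a, Finset.mem_univ _,
      Finset.sum_pos' (fun _ _ => mul_self_nonneg _) ⟨b, Finset.mem_univ _, mul_self_pos.2 hb⟩⟩
  have h' : ∑ a, ∑ b, q a b * q b a = ∑ a, ∑ b, q a b * q a b := by simp only [← hq]
  rw [e]
  nlinarith [mul_self_nonneg (∑ a, q a a)]

theorem Dat.exists_neg (d : Dat) {D : Q4 ℝ} (hD : Good D) {h' : ℝ} (h1 : d.ψ ⬝ᵥ Del D < h')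
    (h2 : d.P h' (rel (Del D)) < 0) : ∃ D' : Q4 ℝ, Sym4 D' ∧ D' 0 0 0 0 = 1 ∧ PD4 D' ∧ (Mm (D' 0)).det ≠ 0 ∧
      MvPolynomial.eval (pt d.ψ D') d.poly < 0 := by
  have hψ : 0 < d.ψ ⬝ᵥ bb 1 := d.psi_pos 1 (fun _ _ => rfl) one_ne_zero
  have hdet := hD.pdM.det_pos
  let c : ℝ := (h' - d.ψ ⬝ᵥ Del D) / d.ψ ⬝ᵥ bb 1
  have hc : 0 < c := div_pos (sub_pos.2 h1) hψ
  obtain ⟨D₁, hD₁⟩ : ∃ D₁, D₁ = D + c • dirac (Fin.cons 0 1) := ⟨_, rfl⟩
  have s1 : Sym4 D₁ := hD₁ ▸ hD.sym.add ((sym4_dirac _).smul c)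
  have e0 : D₁ 0 = D 0 := by ext a b e; simp [hD₁, dirac]
  have e1 : Del D₁ = Del D + c • bb 1 := by
    ext x
    simp only [Del, e0]
    simp [hD₁, top, dirac, bb]
    ring
  have e2 : d.ψ ⬝ᵥ Del D₁ = h' := by
    rw [e1, dotProduct_add, dotProduct_smul, smul_eq_mul, div_mul_cancel₀ _ hψ.ne', add_sub_cancel]
  have e3 : rel (Del D₁) = rel (Del D) := by rw [rel_Del s1, rel_Del hD.sym, e0]
  have n1 : MvPolynomial.eval (pt d.ψ D₁) d.poly < 0 := by
    rw [d.eval_pt s1 (e0 ▸ hdet.ne'), e0, e2, e3]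
    exact mul_neg_of_pos_of_neg (pow_pos hdet _) h2
  have p1 : ∀ q, 0 ≤ pr D₁ q q := fun q => by
    rw [hD₁, pr_add_left, pr_smul_left, pr_dirac]
    exact add_nonneg (hD.psd q) (mul_nonneg hc.le (mul_self_nonneg _))
  have t : Filter.Tendsto (fun η : ℝ => D₁ + η • b9G) (𝓝[>] 0) (𝓝 D₁) :=
    (Continuous.tendsto' (by fun_prop) _ _ (by simp)).mono_left nhdsWithin_le_nhds
  have c1 : Continuous fun D : Q4 ℝ => MvPolynomial.eval (pt d.ψ D) d.poly :=
    (MvPolynomial.continuous_eval _).comp (pt d.ψ).continuous_of_finiteDimensional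
  have c2 : Continuous fun D : Q4 ℝ => (Mm (D 0)).det := Continuous.matrix_det <| continuous_matrix fun i j => by
    simp only [Mm, Matrix.of_apply]
    fun_prop
  have c3 : Continuous fun D : Q4 ℝ => D 0 0 0 0 := by fun_prop
  obtain ⟨η, a1, a2, a3, a4⟩ := ((t.eventually ((isOpen_lt c1 continuous_const).mem_nhds n1)).and
    ((t.eventually ((isOpen_lt continuous_const c2).mem_nhds (show 0 < (Mm (D₁ 0)).det from e0 ▸ hdet))).and
    ((t.eventually ((isOpen_lt continuous_const c3).mem_nhds (show 0 < D₁ 0 0 0 0 from e0 ▸ hD.pdM.diag_pos))).and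
      self_mem_nhdsWithin))).exists
  have a5 : PD4 (D₁ + η • b9G) := fun q hq h0 => by
    rw [pr_add_left, pr_smul_left]
    exact add_pos_of_nonneg_of_pos (p1 q) (mul_pos a4 (b9G_pd q hq h0))
  have a6 := s1.add (b9G_sym.smul η)
  generalize D₁ + η • b9G = D₂ at a1 a2 a3 a5 a6
  have a7 := inv_pos.2 a3
  refine ⟨(D₂ 0 0 0 0)⁻¹ • D₂, a6.smul _, inv_mul_cancel₀ a3.ne', fun q hq h0 => ?_, ?_, ?_⟩
  · rw [pr_smul_left]
    exact mul_pos a7 (a5 q hq h0)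
  · rw [show Mm (((D₂ 0 0 0 0)⁻¹ • D₂) 0) = (D₂ 0 0 0 0)⁻¹ • Mm (D₂ 0) from rfl, Matrix.det_smul]
    exact (mul_pos (pow_pos a7 _) a2).ne'
  · rw [map_smul, b9_eval_smul d.poly_hom]
    exact mul_neg_of_pos_of_neg (pow_pos a7 _) a1

theorem main_B : ∃ d : Dat, Hyperbolic.IsHyperbolic d.poly d.e ∧
    ¬ Hyperbolic.IsSpectrahedralShadow (Hyperbolic.closedCone d.poly d.e) := by
  obtain ⟨C⟩ := exists_conf
  obtain ⟨O, hO, hne, h⟩ := C.good_open
  obtain ⟨D, hD, ⟨I⟩⟩ := exists_isol O hO hne h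
  obtain ⟨d, h', h1, h2⟩ := I.exists_dat
  refine ⟨d, d.hyp_poly, fun hK => ?_⟩
  obtain ⟨D', hs, h0, hpd, hdet, hneg⟩ := d.exists_neg hD h1 h2
  obtain ⟨a, ε, hε, hmem⟩ := shadow_criterion _ hK (pt d.ψ) (d.dirac_mem d.hyp_poly) hs h0 hpd
  have h3 := eval_nonneg_of_mem d.hyp_poly hmem
  rw [d.eval_act a hε.ne' hs hdet] at h3
  have h4 : 0 < ε ^ (36 * d.r) := pow_pos hε _
  nlinarith

end Crest.Agent.R237
end
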