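import Crest.Agent.R237.BCertK

/-! # Row 237, part B: rank certificates at the base point -/

set_option autoImplicit false

namespace Crest.Agent.R237.B

/-- `J·A` has codimension 9: rank 321 (checked mod 101).  The system splits by the characters of
`{g : Fin 8 | bit0 = bit1}`: index `i : Fin 8` has character `(bit0 xor bit1, bit2)`; 4 blocks of about 80 unknowns. -/
theorem certC (δ : ℕ → ℝ) (h0 : ∀ i : Fin 8, δ (w i) = 0) (h2 : δ 2 = 0)
    (h : ∀ r s : Fin 36, 20 ≤ r.1 → 8 ≤ s.1 → lin (sp (bs r) (bs s)) δ = 0) (i j k l : Fin 8) :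
    δ (w i + w j + w k + w l) = 0 := by
  exact K.certC δ h0 h2 h i j k l

/-- The top-degree parts of the 136 products of kernel elements are independent (checked mod 101). -/
theorem certB (z : Fin 36 → Fin 36 → ℝ) : ∃ δ : ℕ → ℝ, (∀ i j k : Fin 8, δ (w i + w j + w k) = 0) ∧
    ∀ r s : Fin 36, 20 ≤ r.1 → r ≤ s → lin (sp (bs r) (bs s)) δ = z r s := by
  exact K.certB z

end Crest.Agent.R237.B
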