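import Mathlib
import Crest.Prelude.Def_Hyperbolic

/-!
# Row 237, part B (S0367): definitions (frozen)

Homogeneous coordinates `x₀, …, x₇`.  A symmetric `D : Q4 ℝ` is a linear functional on quartics
(`D a b c d = D(x_a x_b x_c x_d)`), `L = D 0` its moments of degree `≤ 3`, `Mm L` the moment matrix of the affine functions,
`Gam L = βᵀ M⁻¹ β`, `Del D = top D - Gam (D 0)` the Schur complement of the catalecticant matrix,
`rel Γ` the obstruction to full symmetry.  The polynomial is `det(M)^(2r) 𝔭(z - ψ(Γ), rel Γ)`.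
-/

set_option autoImplicit false
open scoped BigOperators Matrix

noncomputable section
namespace Crest.Agent.R237

abbrev X4 : Type := Fin 7 × Fin 7 × Fin 7 × Fin 7
abbrev Q2 : Type := Fin 8 → Fin 8 → ℝ
abbrev C3 (R : Type) : Type := Fin 8 → Fin 8 → Fin 8 → R
abbrev Q4 (R : Type) : Type := Fin 8 → Fin 8 → Fin 8 → Fin 8 → R

section Ring
variable {R : Type} [CommRing R]

def Sym3 (L : C3 R) : Prop := ∀ a b c, L a b c = L b a c ∧ L a b c = L a c b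
def Sym4 (D : Q4 R) : Prop := ∀ a b c d, D a b c d = D b a c d ∧ D a b c d = D a c b d ∧ D a b c d = D a b d c
/-- symmetrisation -/
def sy (t : C3 R) : C3 R := fun a b c => t a b c + t a c b + t b a c + t b c a + t c a b + t c b a
def Mm (L : C3 R) : Matrix (Fin 8) (Fin 8) R := Matrix.of fun a b => L 0 a b
/-- `det M • Γ` -/
def aG (L : C3 R) : X4 → R := fun x =>
  ∑ a, ∑ b, L a x.1.succ x.2.1.succ * (Mm L).adjugate a b * L b x.2.2.1.succ x.2.2.2.succ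
def rel (Γ : X4 → R) : X4 → R := fun x => Γ x - Γ (x.1, x.2.2.1, x.2.1, x.2.2.2)
def top (D : Q4 R) : X4 → R := fun x => D x.1.succ x.2.1.succ x.2.2.1.succ x.2.2.2.succ
def ix (a b c : Fin 8) : Fin 513 := ⟨64 * a.1 + 8 * b.1 + c.1, by omega⟩
def Lof (x : Fin 513 → R) : C3 R := sy fun a b c => x (ix a b c)
def zof (x : Fin 513 → R) : R := x (Fin.last 512)
def mkP (t : C3 R) (z : R) : Fin 513 → R := fun i =>
  if h : i.1 < 512 then t ⟨i.1 / 64, by omega⟩ ⟨i.1 / 8 % 8, by omega⟩ ⟨i.1 % 8, by omega⟩ else z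
end Ring

section Alg
variable {A : Type} [CommRing A] [Algebra ℝ A]
/-- the quadratic form `Π` -/
def qf (Pc : X4 → X4 → ℝ) (R : X4 → A) : A := ∑ x, ∑ y, algebraMap ℝ A (Pc x y) * R x * R y
/-- `𝔭(h, R) = ∏_{i<r} (h² - (i+1)² Π(R)) - F(R)` -/
def PP (r : ℕ) (Pc : X4 → X4 → ℝ) (F : MvPolynomial X4 ℝ) (h : A) (R : X4 → A) : A :=
  ∏ i ∈ Finset.range r, (h ^ 2 - ((i : A) + 1) ^ 2 * qf Pc R) - MvPolynomial.aeval R F
end Alg

def Gam (L : C3 ℝ) : X4 → ℝ := fun x =>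
  ∑ a, ∑ b, L a x.1.succ x.2.1.succ * (Mm L)⁻¹ a b * L b x.2.2.1.succ x.2.2.2.succ
def Del (D : Q4 ℝ) : X4 → ℝ := top D - Gam (D 0)
/-- `b ⊗ b` -/
def bb (b : Fin 7 → Fin 7 → ℝ) : X4 → ℝ := fun x => b x.1 x.2.1 * b x.2.2.1 x.2.2.2
/-- the identity matrix -/
def idm : Fin 7 → Fin 7 → ℝ := fun i j => if i = j then 1 else 0
/-- the image of `rel ∘ Gam` -/
def Img : Set (X4 → ℝ) := {R | ∃ L : C3 ℝ, Sym3 L ∧ (Mm L).det ≠ 0 ∧ R = rel (Gam L)}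

/-- the data of the hyperbolic polynomial -/
structure Dat where
  r : ℕ
  ψ : X4 → ℝ
  Pc : X4 → X4 → ℝ
  F : MvPolynomial X4 ℝ
  hr : 1 ≤ r
  hF : F.IsHomogeneous (2 * r)
  hP : ∀ R : X4 → ℝ, R ≠ 0 → 0 < qf Pc R
  sgn : ∀ R ∈ Img, R ≠ 0 → ∀ i < r, 0 < (-1) ^ (r - i) * PP r Pc F (((i : ℝ) + 1 / 2) * √(qf Pc R)) R
  pole : ∀ b : Fin 7 → Fin 7 → ℝ, (∀ i j, b i j = b j i) → b ≠ 0 →
    ((r : ℝ) - 1 / 2) * √(qf Pc (rel (bb b))) < ψ ⬝ᵥ bb b ∧ ∀ h, ψ ⬝ᵥ bb b ≤ h → 0 < PP r Pc F h (rel (bb b))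

def Dat.P (d : Dat) {A : Type} [CommRing A] [Algebra ℝ A] (h : A) (R : X4 → A) : A := PP d.r d.Pc d.F h R
def Dat.pf (d : Dat) {A : Type} [CommRing A] [Algebra ℝ A] (L : C3 A) (z : A) : A :=
  d.P (z * (Mm L).det - ∑ x, algebraMap ℝ A (d.ψ x) * aG L x) (rel (aG L))
/-- the polynomial, homogeneous of degree `18 r` -/
def Dat.poly (d : Dat) : MvPolynomial (Fin 513) ℝ := d.pf (Lof MvPolynomial.X) (zof MvPolynomial.X)
/-- Gaussian moments of degree `≤ 3` -/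
def Le : C3 ℝ := fun a b c =>
  if a = 0 then (if b = c then 1 else 0) else if b = 0 then (if a = c then 1 else 0)
  else if c = 0 then (if a = b then 1 else 0) else 0
def Dat.ze (d : Dat) : ℝ := 2 * (d.ψ ⬝ᵥ bb idm)
/-- the direction -/
def Dat.e (d : Dat) : Fin 513 → ℝ := mkP (fun a b c => Le a b c / 6) d.ze

/-- the point of a quartic functional -/
def pt (ψ : X4 → ℝ) : Q4 ℝ →ₗ[ℝ] (Fin 513 → ℝ) where
  toFun D := mkP (fun a b c => D 0 a b c / 6) (ψ ⬝ᵥ top D)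
  map_add' D D' := by
    ext i
    by_cases h : i.1 < 512
    · simp only [mkP, h, dif_pos, Pi.add_apply]; ring
    · simp only [mkP, h, dif_neg, not_false_eq_true, Pi.add_apply]
      rw [← dotProduct_add]; rfl
  map_smul' s D := by
    ext i
    by_cases h : i.1 < 512
    · simp only [mkP, h, dif_pos, Pi.smul_apply, smul_eq_mul, RingHom.id_apply]; ring
    · simp only [mkP, h, dif_neg, not_false_eq_true, Pi.smul_apply, RingHom.id_apply]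
      rw [← dotProduct_smul]; rfl

/-- evaluation at a point -/
def dirac (x : Fin 8 → ℝ) : Q4 ℝ := fun a b c d => x a * x b * x c * x d
def act (U : Matrix (Fin 8) (Fin 8) ℝ) (D : Q4 ℝ) : Q4 ℝ := fun a b c d =>
  ∑ a', ∑ b', ∑ c', ∑ d', U a a' * U b b' * U c c' * U d d' * D a' b' c' d'
/-- `x₀ ↦ x₀`, `x_i ↦ a_i x₀ + ε x_i` -/
def Um (a : Fin 7 → ℝ) (ε : ℝ) : Matrix (Fin 8) (Fin 8) ℝ := Matrix.of fun i j =>
  if j = 0 then (Fin.cons 1 a : Fin 8 → ℝ) i else if i = j then ε else 0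
/-- `D(q q')` for quadrics given by coefficient arrays -/
def pr (D : Q4 ℝ) (q q' : Q2) : ℝ := ∑ a, ∑ b, ∑ c, ∑ d, q a b * q' c d * D a b c d
def ev (q : Q2) (x : Fin 8 → ℝ) : ℝ := ∑ a, ∑ b, q a b * x a * x b
def PD4 (D : Q4 ℝ) : Prop := ∀ q : Q2, (∀ a b, q a b = q b a) → q ≠ 0 → 0 < pr D q q
def lc (D : Q4 ℝ) (a : Fin 8) (i j : Fin 7) : ℝ := ∑ b, (Mm (D 0))⁻¹ a b * D 0 b i.succ j.succ
/-- `x_i x_j` minus its `D`-orthogonal projection to `x₀ · (linear forms)` -/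
def Aq (D : Q4 ℝ) (i j : Fin 7) : Q2 := fun a b =>
  (if a = i.succ ∧ b = j.succ then 1 else 0) - (if a = 0 then lc D b i j else 0)
/-- the derivative of `Del` at `D` in the direction `δ` -/
def dDel (D δ : Q4 ℝ) : X4 → ℝ := fun x => pr δ (Aq D x.1 x.2.1) (Aq D x.2.2.1 x.2.2.2)
/-- transversality -/
def Tr (D : Q4 ℝ) : Prop := ∀ δ : Q4 ℝ, Sym4 δ →
  (∀ q : Fin 7 → Fin 7 → ℝ, (∀ k l, ∑ i, ∑ j, q i j * Del D (i, j, k, l) = 0) →
    ∀ k l, ∑ i, ∑ j, q i j * dDel D δ (i, j, k, l) = 0) → ∃ c : ℝ, dDel D δ = c • Del D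
structure Good (D : Q4 ℝ) : Prop where
  sym : Sym4 D
  pdM : (Mm (D 0)).PosDef
  psd : ∀ q : Q2, 0 ≤ pr D q q
  rk : ¬ ∃ b, Del D = bb b
  tr : Tr D
/-- `Σ S_{kl} b_k ⊗ b_l` -/
def emb {d : ℕ} (b : Fin d → Fin 7 → Fin 7 → ℝ) (S : Fin d → Fin d → ℝ) : X4 → ℝ := fun x =>
  ∑ k, ∑ l, S k l * b k x.1 x.2.1 * b l x.2.2.1 x.2.2.2
/-- the identity matrix -/
def idd (d : ℕ) : Fin d → Fin d → ℝ := fun k l => if k = l then 1 else 0
/-- `f ↦ D(x₀ ∂_v f)` -/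
def dv (D : Q4 ℝ) (v : Fin 8) : Q4 ℝ := fun a b c d =>
  (if a = v then D 0 b c d else 0) + (if b = v then D a 0 c d else 0) +
    (if c = v then D a b 0 d else 0) + (if d = v then D a b c 0 else 0)
/-- the symmetric tensor with lower part `L` and top part `τ` -/
def asm (L : C3 ℝ) (τ : X4 → ℝ) : Q4 ℝ := fun a b c d =>
  Fin.cases (L b c d) (fun i => Fin.cases (L a c d) (fun j => Fin.cases (L a b d)
    (fun k => Fin.cases (L a b c) (fun l => τ (i, j, k, l)) d) c) b) a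
/-- fully symmetric top parts -/
def SymT (τ : X4 → ℝ) : Prop :=
  ∀ i j k l, τ (i, j, k, l) = τ (j, i, k, l) ∧ τ (i, j, k, l) = τ (i, k, j, l) ∧ τ (i, j, k, l) = τ (i, j, l, k)

/-- output of block B6, input of block B5 -/
structure Isol (Δ : X4 → ℝ) where
  d : ℕ
  hd : 2 ≤ d
  b : Fin d → Fin 7 → Fin 7 → ℝ
  hb : ∀ k i j, b k i j = b k j i
  li : LinearIndependent ℝ b
  hΔ : Δ = emb b (idd d)
  inj : ∀ S : Fin d → Fin d → ℝ, (∀ k l, S k l = S l k) → rel (emb b S) = 0 → S = 0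
  r : ℕ
  hr : 1 ≤ r
  F : MvPolynomial X4 ℝ
  hF : F.IsHomogeneous (2 * r)
  one : MvPolynomial.eval (rel Δ) F = 1
  van : ∀ S : Fin d → Fin d → ℝ, (∀ k l, S k l = S l k) → rel (emb b S) ∈ closure Img →
    (∀ c : ℝ, S ≠ c • idd d) → MvPolynomial.eval (rel (emb b S)) F = 0

/-- 18 points in `ℙ⁷`, the quadrics `j a` through them, Lagrange quadrics `c i`, a first-order deformation `D1` -/
structure Conf where
  p : Fin 18 → Fin 8 → ℝ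
  j : Fin 18 → Q2
  c : Fin 18 → Q2
  D1 : Q4 ℝ
  sym1 : Sym4 D1
  p0 : ∀ r, p r 0 = 1
  hj : ∀ a r, ev (j a) (p r) = 0
  hc : ∀ i r, ev (c i) (p r) = if i = r then 1 else 0
  spanp : ∀ x : Fin 8 → ℝ, (∀ r, p r ⬝ᵥ x = 0) → x = 0
  spanj : ∀ q : Q2, (∀ r, ev q (p r) = 0) → ∃ β : Fin 18 → ℝ, ∀ a b, q a b + q b a = ∑ k, β k * (j k a b + j k b a)
  tan : ∀ a b, pr D1 (j a) (j b) = 0
  surj : ∀ Y : Fin 18 → Fin 18 → ℝ, (∀ a b, Y a b = Y b a) →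
    ∃ δ : Q4 ℝ, Sym4 δ ∧ δ 0 = 0 ∧ ∀ a b, pr δ (j a) (j b) = Y a b
  ker0 : ∀ δ : Q4 ℝ, Sym4 δ → (∀ a k l, pr δ (j a) (Aq (∑ r, dirac (p r)) k l) = 0) →
    ∃ (w : Fin 18 → ℝ) (u : Fin 8 → ℝ), δ = ∑ r, w r • dirac (p r) + ∑ v, u v • dv (∑ r, dirac (p r)) v
  ker1 : ∀ δ : Q4 ℝ, Sym4 δ → ∀ w : Fin 18 → ℝ,
    (∀ a k l, pr δ (j a) (Aq (∑ r, dirac (p r)) k l) =
      ∑ r, w r * pr D1 (c r) (j a) * ev (Aq (∑ r, dirac (p r)) k l) (p r)) → ∀ r, w r = w 0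

def Conf.D0 (C : Conf) : Q4 ℝ := ∑ r, dirac (C.p r)
def Conf.Am (C : Conf) (D : Q4 ℝ) : Matrix (Fin 18) (Fin 18) ℝ := Matrix.of fun i i' => pr D (C.c i) (C.c i')
def Conf.Bm (C : Conf) (D : Q4 ℝ) : Matrix (Fin 18) (Fin 18) ℝ := Matrix.of fun i a => pr D (C.c i) (C.j a)
def Conf.Em (C : Conf) (D : Q4 ℝ) : Matrix (Fin 18) (Fin 18) ℝ := Matrix.of fun a b => pr D (C.j a) (C.j b)
/-- the deformed kernel quadrics -/
def Conf.jD (C : Conf) (D : Q4 ℝ) (a : Fin 18) : Q2 := C.j a - ∑ i, ((C.Am D)⁻¹ * C.Bm D) i a • C.c i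
/-- the rank condition -/
def Conf.Phi (C : Conf) (D : Q4 ℝ) : Matrix (Fin 18) (Fin 18) ℝ := C.Em D - (C.Bm D)ᵀ * (C.Am D)⁻¹ * C.Bm D
/-- only the trivial functionals kill `J · A` -/
def KerTriv (J : Fin 18 → Q2) (D : Q4 ℝ) : Prop := ∀ δ : Q4 ℝ, Sym4 δ → (∀ a k l, pr δ (J a) (Aq D k l) = 0) →
  ∃ (c : ℝ) (u : Fin 8 → ℝ), δ = c • D + ∑ v, u v • dv D v

end Crest.Agent.R237
end
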