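import Mathlib

/-!
# Row 237: kernel-checked rank certificates

An integer matrix with a left inverse modulo a prime is injective over every field of characteristic zero.  The rows of the
matrix are packed into big natural numbers (base `B`), the rows of the inverse too (base `b`).
-/

set_option autoImplicit false

namespace Crest.Agent.R237.Cert

def force {α : Type} (n : ℕ) (k : ℕ → α) : α := Nat.rec (motive := fun _ => α) (k 0) (fun m _ => k (Nat.succ m)) n

theorem force_eq {α : Type} (n : ℕ) (k : ℕ → α) : force n k = k n := by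
  cases n <;> rfl

def and' (a b : Bool) : Bool := Bool.rec (motive := fun _ => Bool) false b a

theorem and'_eq (a b : Bool) : and' a b = true ↔ a = true ∧ b = true := by
  cases a <;> simp [and']

/-- `∑ u < n, f u * B ^ u` -/
def pk (B : ℕ) (n : ℕ) : (ℕ → ℕ) → ℕ :=
  Nat.rec (motive := fun _ => (ℕ → ℕ) → ℕ) (fun _ => 0) (fun u ih f => Nat.add (Nat.mul (f u) (Nat.pow B u)) (ih f)) n

theorem pk_eq (B n : ℕ) (f : ℕ → ℕ) : pk B n f = ∑ u ∈ Finset.range n, f u * B ^ u := by
  induction n with
  | zero => rfl
  | succ n ih =>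
    rw [Finset.sum_range_succ, ← ih]
    exact add_comm _ _

theorem digit_sum {B : ℕ} (hB : 0 < B) (n : ℕ) : ∀ (f : ℕ → ℕ), (∀ u < n, f u < B) → ∀ u < n,
    (∑ v ∈ Finset.range n, f v * B ^ v) / B ^ u % B = f u := by
  induction n with
  | zero => intro f _ u hu; omega
  | succ n ih =>
    intro f hf u hu
    have e : ∑ v ∈ Finset.range (n + 1), f v * B ^ v = f 0 + B * ∑ v ∈ Finset.range n, f (v + 1) * B ^ v := by
      rw [Finset.sum_range_succ', Finset.mul_sum, add_comm, pow_zero, mul_one]
      exact congrArg _ (Finset.sum_congr rfl fun v _ => by ring)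
    rw [e]
    cases u with
    | zero => rw [pow_zero, Nat.div_one, Nat.add_mul_mod_self_left, Nat.mod_eq_of_lt (hf 0 hu)]
    | succ u =>
      rw [pow_succ', ← Nat.div_div_eq_div_mul, Nat.add_mul_div_left _ _ hB, Nat.div_eq_of_lt (hf 0 (by omega)), zero_add]
      exact ih (fun v => f (v + 1)) (fun v hv => hf _ (by omega)) u (by omega)

/-- the digits of `c` in base `b` against a list -/
def lin (b : ℕ) (rows : List ℕ) : ℕ → ℕ :=
  List.rec (motive := fun _ => ℕ → ℕ) (fun _ => 0)
    (fun r _ ih c => Nat.add (Nat.mul (Nat.mod c b) r) (force (Nat.div c b) ih)) rows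

theorem lin_eq (b : ℕ) (m : ℕ) : ∀ (r : ℕ → ℕ) (c : ℕ),
    lin b ((List.range m).map r) c = ∑ t ∈ Finset.range m, c / b ^ t % b * r t := by
  induction m with
  | zero => intro r c; rfl
  | succ m ih =>
    intro r c
    rw [List.range_succ_eq_map, List.map_cons, List.map_map, Finset.sum_range_succ']
    show c % b * r 0 + force (c / b) (lin b ((List.range m).map (r ∘ Nat.succ))) = _
    rw [force_eq, ih, add_comm, pow_zero, Nat.div_one]
    congr 1
    exact Finset.sum_congr rfl fun t _ => by rw [pow_succ', ← Nat.div_div_eq_div_mul]; rfl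

/-- the first `n` digits of `x` are those of the `s`-th unit vector modulo `p`; `k` counts the digits already read -/
def unit (B p s n : ℕ) : ℕ → ℕ → Bool :=
  Nat.rec (motive := fun _ => ℕ → ℕ → Bool) (fun _ _ => true)
    (fun _ ih k x => and' (Nat.beq (Nat.mod (Nat.mod x B) p) (cond (Nat.beq k s) 1 0))
      (force (Nat.div x B) fun y => force (Nat.succ k) fun k' => ih k' y)) n

theorem unit_spec (B p s n : ℕ) : ∀ k x, unit B p s n k x = true → ∀ u < n,
    x / B ^ u % B % p = if k + u = s then 1 else 0 := by
  induction n with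
  | zero => intro k x _ u hu; omega
  | succ n ih =>
    intro k x h u hu
    have h' : and' (Nat.beq (x % B % p) (cond (Nat.beq k s) 1 0))
      (force (x / B) fun y => force (k + 1) fun k' => unit B p s n k' y) = true := h
    rw [and'_eq, force_eq, force_eq] at h'
    cases u with
    | zero =>
      rw [pow_zero, Nat.div_one, Nat.eq_of_beq_eq_true h'.1, add_zero]
      by_cases e : k = s
      · simp [e]
      · have : Nat.beq k s = false := by
          rw [Bool.eq_false_iff]
          exact fun h => e (Nat.eq_of_beq_eq_true h)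
        simp [e, this]
    | succ u =>
      rw [pow_succ', ← Nat.div_div_eq_div_mul, ih _ _ h'.2 u (by omega), show k + 1 + u = k + (u + 1) by ring]

/-- rows `s, s + 1, …` of the certificate -/
def chk (B b p n : ℕ) (rows cert : List ℕ) : ℕ → Bool :=
  List.rec (motive := fun _ => ℕ → Bool) (fun _ => true)
    (fun c _ ih s => and' (force (lin b rows c) fun x => unit B p s n 0 x) (force (Nat.succ s) ih)) cert

theorem chk_spec (B b p n : ℕ) (rows cert : List ℕ) : ∀ s, chk B b p n rows cert s = true → ∀ j < cert.length,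
    unit B p (s + j) n 0 (lin b rows (cert.getD j 0)) = true := by
  induction cert with
  | nil => intro s _ j hj; simp at hj
  | cons c cs ih =>
    intro s h j hj
    have h' : and' (force (lin b rows c) fun x => unit B p s n 0 x) (force (s + 1) (chk B b p n rows cs)) = true := h
    rw [and'_eq, force_eq, force_eq] at h'
    cases j with
    | zero => exact h'.1
    | succ j =>
      have := ih _ h'.2 j (by simpa using hj)
      rwa [show s + 1 + j = s + (j + 1) by ring] at this

/-- force every entry of a list -/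
def forceL {α : Type} (l : List ℕ) : (List ℕ → α) → α :=
  List.rec (motive := fun _ => (List ℕ → α) → α) (fun k => k []) (fun a _ ih k => force a fun a' => ih fun l' => k (a' :: l')) l

theorem forceL_eq {α : Type} (l : List ℕ) : ∀ k : List ℕ → α, forceL l k = k l := by
  induction l with
  | nil => intro k; rfl
  | cons a l ih =>
    intro k
    show force a (fun a' => forceL l fun l' => k (a' :: l')) = _
    rw [force_eq, ih]

theorem inj_of_modp {K : Type*} [Field K] [CharZero K] {ι κ : Type} [Fintype ι] [Fintype κ] [DecidableEq κ] {p : ℕ}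
    (hp : p.Prime) (A : ι → κ → ℤ) (C : κ → ι → ℤ)
    (h : ∀ s u, ((∑ t, C s t * A t u : ℤ) : ZMod p) = if u = s then 1 else 0) (x : κ → K)
    (hx : ∀ t, ∑ u, (A t u : K) * x u = 0) : x = 0 := by
  have := Fact.mk hp
  let M : Matrix κ κ ℤ := Matrix.of fun s u => ∑ t, C s t * A t u
  have h1 : (Int.castRingHom (ZMod p)).mapMatrix M = 1 := by
    ext s u
    rw [Matrix.one_apply]
    exact (h s u).trans (by simp only [eq_comm])
  have h2 : M.det ≠ 0 := fun h0 => by
    have := (Int.castRingHom (ZMod p)).map_det M
    rw [h0, h1, Matrix.det_one, map_zero] at this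
    exact zero_ne_one this
  have h3 : ((Int.castRingHom K).mapMatrix M).det ≠ 0 := by
    rw [← RingHom.map_det]
    simpa using h2
  refine Matrix.eq_zero_of_mulVec_eq_zero h3 (funext fun s => ?_)
  simp only [M, Matrix.mulVec, dotProduct, RingHom.mapMatrix_apply, Matrix.map_apply, Matrix.of_apply, eq_intCast,
    Int.cast_sum, Int.cast_mul, Finset.sum_mul, Pi.zero_apply]
  rw [Finset.sum_comm]
  exact Finset.sum_eq_zero fun t _ => by simp only [mul_assoc, ← Finset.mul_sum, hx t, mul_zero]

/-- `a t u` is a bounded natural number congruent to the entry `A t u`; the packed rows pass the check -/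
theorem inj_of_chk {K : Type*} [Field K] [CharZero K] {m n p B b q : ℕ} (hp : p.Prime) (A : Fin m → Fin n → ℤ)
    (a : ℕ → ℕ → ℕ) (ha : ∀ (t : Fin m) (u : Fin n), (a t u : ZMod p) = A t u) (hq : ∀ t < m, ∀ u < n, a t u ≤ q)
    (hb : 0 < b) (hB : m * (b * q) < B) (cert : List ℕ) (hc : cert.length = n)
    (h : chk B b p n ((List.range m).map fun t => ∑ u ∈ Finset.range n, a t u * B ^ u) cert 0 = true) (x : Fin n → K)
    (hx : ∀ t, ∑ u, (A t u : K) * x u = 0) : x = 0 := by
  refine inj_of_modp hp A (fun s t => ((cert.getD s 0 / b ^ (t : ℕ) % b : ℕ) : ℤ)) (fun s u => ?_) x hx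
  have h1 := unit_spec _ _ _ _ _ _ (chk_spec _ _ _ _ _ _ _ h s (hc ▸ s.2)) u u.2
  rw [lin_eq] at h1
  simp only [Finset.mul_sum, ← mul_assoc] at h1
  rw [Finset.sum_comm] at h1
  simp only [← Finset.sum_mul] at h1
  rw [digit_sum (by omega) n _ (fun v hv => lt_of_le_of_lt ?_ hB) u u.2] at h1
  · have h2 := congrArg (Nat.cast : ℕ → ZMod p) h1
    rw [ZMod.natCast_mod, Finset.sum_range] at h2
    simp only [zero_add, Fin.val_inj, Nat.cast_sum, Nat.cast_mul, ha, Nat.cast_ite, Nat.cast_one, Nat.cast_zero] at h2
    simpa only [Int.cast_sum, Int.cast_mul, Int.cast_natCast] using h2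
  · refine (Finset.sum_le_card_nsmul _ _ (b * q) fun t ht => ?_).trans (by simp)
    exact Nat.mul_le_mul (Nat.mod_lt _ hb).le (hq t (Finset.mem_range.1 ht) v hv)

end Crest.Agent.R237.Cert
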