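import Crest.Agent.R237.Cert

/-!
# Row 237: rank certificates, rows given as values of polynomials over `ℕ` at `2 ^ w`
-/

set_option autoImplicit false

namespace Crest.Agent.R237.Cert
open Polynomial

theorem coeff_le_eval_one (G : ℕ[X]) (u : ℕ) : G.coeff u ≤ G.eval 1 := by
  rw [eval_eq_sum_range' (n := G.natDegree + u + 1) (by omega)]
  simp only [one_pow, mul_one]
  exact Finset.single_le_sum (f := fun i => G.coeff i) (fun _ _ => Nat.zero_le _) (Finset.mem_range.2 (by omega))

theorem digit_eval {B : ℕ} (G : ℕ[X]) (h : G.eval 1 < B) (u : ℕ) : G.eval B / B ^ u % B = G.coeff u := by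
  rw [eval_eq_sum_range' (n := G.natDegree + u + 1) (by omega)]
  exact digit_sum (by omega) _ _ (fun v _ => (coeff_le_eval_one G v).trans_lt h) u (by omega)

/-- digit number `c` in base `2 ^ w` -/
def dg (w x c : ℕ) : ℕ := Nat.mod (Nat.shiftRight x (Nat.mul w c)) (Nat.pow 2 w)

theorem dg_eq (w x c : ℕ) : dg w x c = x / (2 ^ w) ^ c % 2 ^ w := by
  rw [← pow_mul, ← Nat.shiftRight_eq_div_pow]
  rfl

theorem dg_eval {w : ℕ} (G : ℕ[X]) (h : G.eval 1 < 2 ^ w) (u : ℕ) : dg w (G.eval (2 ^ w)) u = G.coeff u := by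
  rw [dg_eq, digit_eval G h]

/-- the digits of `x` at the listed positions are those of the `s`-th unit vector modulo `p` -/
def unitL (w p s x : ℕ) (poss : List ℕ) : ℕ → Bool :=
  List.rec (motive := fun _ => ℕ → Bool) (fun _ => true)
    (fun c _ ih k => and' (Nat.beq (Nat.mod (dg w x c) p) (cond (Nat.beq k s) 1 0)) (force (Nat.succ k) ih)) poss

theorem unitL_spec (w p s x : ℕ) (poss : List ℕ) : ∀ k, unitL w p s x poss k = true → ∀ u < poss.length,
    dg w x (poss.getD u 0) % p = if k + u = s then 1 else 0 := by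
  induction poss with
  | nil => intro k _ u hu; simp at hu
  | cons c cs ih =>
    intro k h u hu
    have h' : and' (Nat.beq (dg w x c % p) (cond (Nat.beq k s) 1 0)) (force (k + 1) (unitL w p s x cs)) = true := h
    rw [and'_eq, force_eq] at h'
    cases u with
    | zero =>
      rw [List.getD_cons_zero, Nat.eq_of_beq_eq_true h'.1, add_zero]
      by_cases e : k = s
      · simp [e]
      · have : Nat.beq k s = false := by
          rw [Bool.eq_false_iff]
          exact fun h => e (Nat.eq_of_beq_eq_true h)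
        simp [e, this]
    | succ u =>
      rw [List.getD_cons_succ, ih _ h'.2 u (by simpa using hu), show k + 1 + u = k + (u + 1) by ring]

def chkL (w b p : ℕ) (rows poss cert : List ℕ) : ℕ → Bool :=
  List.rec (motive := fun _ => ℕ → Bool) (fun _ => true)
    (fun c _ ih s => and' (force (lin b rows c) fun x => unitL w p s x poss 0) (force (Nat.succ s) ih)) cert

theorem chkL_spec (w b p : ℕ) (rows poss cert : List ℕ) : ∀ s, chkL w b p rows poss cert s = true → ∀ j < cert.length,
    unitL w p (s + j) (lin b rows (cert.getD j 0)) poss 0 = true := by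
  induction cert with
  | nil => intro s _ j hj; simp at hj
  | cons c cs ih =>
    intro s h j hj
    have h' : and' (force (lin b rows c) fun x => unitL w p s x poss 0) (force (s + 1) (chkL w b p rows poss cs)) = true := h
    rw [and'_eq, force_eq, force_eq] at h'
    cases j with
    | zero => exact h'.1
    | succ j =>
      have := ih _ h'.2 j (by simpa using hj)
      rwa [show s + 1 + j = s + (j + 1) by ring] at this

/-- the whole check -/
def chkF (w b p m n : ℕ) (r pos : ℕ → ℕ) (cert : List ℕ) : Bool :=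
  forceL ((List.range m).map r) fun rows => forceL ((List.range n).map pos) fun poss =>
    and' (Nat.beq cert.length n) (chkL w b p rows poss cert 0)

theorem inj_of_chkF {K : Type*} [Field K] [CharZero K] {m n p w b q : ℕ} (hp : p.Prime) (A : Fin m → Fin n → ℤ)
    (F : Fin m → ℕ[X]) (r pos : ℕ → ℕ) (hr : ∀ t : Fin m, r t = (F t).eval (2 ^ w)) (hq : ∀ t, (F t).eval 1 ≤ q)
    (ha : ∀ t (u : Fin n), (((F t).coeff (pos u) : ℕ) : ZMod p) = A t u) (hb : 0 < b) (hB : m * (b * q) < 2 ^ w)
    (cert : List ℕ) (h : chkF w b p m n r pos cert = true) (x : Fin n → K) (hx : ∀ t, ∑ u, (A t u : K) * x u = 0) :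
    x = 0 := by
  rw [chkF, forceL_eq, forceL_eq, and'_eq] at h
  have hc : cert.length = n := Nat.eq_of_beq_eq_true h.1
  refine inj_of_modp hp A (fun s t => ((cert.getD s 0 / b ^ (t : ℕ) % b : ℕ) : ℤ)) (fun s u => ?_) x hx
  have h1 := unitL_spec _ _ _ _ _ _ (chkL_spec _ _ _ _ _ _ _ h.2 s (hc ▸ s.2)) u (by simp)
  have e : lin b ((List.range m).map r) (cert.getD s 0) =
      (∑ t : Fin m, C (cert.getD s 0 / b ^ (t : ℕ) % b) * F t).eval (2 ^ w) := by
    rw [lin_eq, Finset.sum_range, eval_finsetSum]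
    exact Finset.sum_congr rfl fun t _ => by rw [eval_mul, eval_C, hr]
  have e2 : ((List.range n).map pos).getD u 0 = pos u := by
    rw [List.getD_eq_getElem _ _ (by simp)]
    simp
  rw [e, e2, dg_eval _ (lt_of_le_of_lt ?_ hB)] at h1
  · have h2 := congrArg (Nat.cast : ℕ → ZMod p) h1
    rw [ZMod.natCast_mod, finsetSum_coeff] at h2
    simp only [coeff_C_mul, zero_add, Fin.val_inj, Nat.cast_sum, Nat.cast_mul, ha, Nat.cast_ite, Nat.cast_one,
      Nat.cast_zero] at h2
    simpa only [Int.cast_sum, Int.cast_mul, Int.cast_natCast] using h2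
  · rw [eval_finsetSum]
    refine (Finset.sum_le_card_nsmul _ _ (b * q) fun t _ => ?_).trans (by simp)
    rw [eval_mul, eval_C]
    exact Nat.mul_le_mul (Nat.mod_lt _ hb).le (hq t)

/-- residue modulo `p` -/
def red (p : ℕ) (z : ℤ) : ℕ := (z % (p : ℤ)).toNat

theorem red_cast {p : ℕ} (hp : 0 < p) (z : ℤ) : ((red p z : ℕ) : ZMod p) = z := by
  have h : ((red p z : ℕ) : ℤ) = z % p := Int.toNat_of_nonneg (Int.emod_nonneg _ (by omega))
  rw [← Int.cast_natCast, h, ZMod.intCast_mod]

theorem red_lt {p : ℕ} (hp : 0 < p) (z : ℤ) : red p z < p := by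
  have := Int.emod_lt_of_pos z (show (0 : ℤ) < p by omega)
  unfold red
  omega

/-- packed row of an explicit matrix -/
def row {m n : ℕ} (w p : ℕ) (A : Fin m → Fin n → ℤ) (t : ℕ) : ℕ :=
  if h : t < m then ∑ u : Fin n, red p (A ⟨t, h⟩ u) * (2 ^ w) ^ (u : ℕ) else 0

theorem inj_small {K : Type*} [Field K] [CharZero K] {m n p w b : ℕ} (hp : p.Prime) (A : Fin m → Fin n → ℤ) (hb : 0 < b)
    (hB : m * (b * (n * p)) < 2 ^ w) (cert : List ℕ) (h : chkF w b p m n (row w p A) id cert = true) (x : Fin n → K)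
    (hx : ∀ t, ∑ u, (A t u : K) * x u = 0) : x = 0 := by
  refine inj_of_chkF hp A (fun t => ∑ u : Fin n, monomial u (red p (A t u))) _ id (fun t => ?_) (fun t => ?_)
    (fun t u => ?_) hb hB cert h x hx
  · simp only [row, t.2, dif_pos, eval_finsetSum, eval_monomial]
  · simp only [eval_finsetSum, eval_monomial, one_pow, mul_one]
    exact (Finset.sum_le_card_nsmul _ _ p fun u _ => (red_lt hp.pos _).le).trans (by simp)
  · simp only [finsetSum_coeff, coeff_monomial, id, Fin.val_inj, Finset.sum_ite_eq', Finset.mem_univ, if_true]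
    exact red_cast hp.pos _

/-- two matrices side by side -/
def jn {m n₁ n₂ : ℕ} (A₁ : Fin m → Fin n₁ → ℤ) (A₂ : Fin m → Fin n₂ → ℤ) (t : Fin m) (u : Fin (n₁ + n₂)) : ℤ :=
  if h : u.1 < n₁ then A₁ t ⟨u, h⟩ else A₂ t ⟨u - n₁, by omega⟩

theorem jn_left {m n₁ n₂ : ℕ} (A₁ : Fin m → Fin n₁ → ℤ) (A₂ : Fin m → Fin n₂ → ℤ) (t : Fin m) (u : Fin n₁) :
    jn A₁ A₂ t (Fin.castAdd n₂ u) = A₁ t u := by
  simp [jn]

theorem jn_right {m n₁ n₂ : ℕ} (A₁ : Fin m → Fin n₁ → ℤ) (A₂ : Fin m → Fin n₂ → ℤ) (t : Fin m) (u : Fin n₂) :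
    jn A₁ A₂ t (Fin.natAdd n₁ u) = A₂ t u := by
  simp [jn]

theorem inj_jn {K : Type*} [Field K] {m n₁ n₂ : ℕ} {A₁ : Fin m → Fin n₁ → ℤ} {A₂ : Fin m → Fin n₂ → ℤ}
    (h : ∀ z : Fin (n₁ + n₂) → K, (∀ t, ∑ u, (jn A₁ A₂ t u : K) * z u = 0) → z = 0) (x : Fin n₁ → K) (y : Fin n₂ → K)
    (hx : ∀ t, ∑ u, (A₁ t u : K) * x u + ∑ u, (A₂ t u : K) * y u = 0) : x = 0 ∧ y = 0 := by
  have := h (Fin.append x y) fun t => by
    rw [Fin.sum_univ_add]
    simp only [jn_left, jn_right, Fin.append_left, Fin.append_right]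
    exact hx t
  exact ⟨funext fun u => by simpa using congrFun this (Fin.castAdd n₂ u),
    funext fun u => by simpa using congrFun this (Fin.natAdd n₁ u)⟩

/-- multiplication that does not evaluate the second factor after a zero -/
def mz (u v : ℤ) : ℤ := if u = 0 then 0 else u * v

theorem mz_eq (u v : ℤ) : mz u v = u * v := by
  unfold mz
  split_ifs with h
  · simp [h]
  · rfl

/-- table of integers -/
def tb (T w off i : ℕ) : ℤ := Int.subNatNat (dg w T i) off

end Crest.Agent.R237.Cert
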